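import Vale.Agent.P065U.Defs

/-! P065U: elementary facts on sweeps. -/

namespace Vale.Agent.P065U

open Classical Finset

theorem slope_comm (p q : Pt) : slope p q = slope q p := by
  unfold slope
  rw [← neg_sub p.2, ← neg_sub p.1, neg_div_neg_eq]

theorem val_sub {p q : Pt} (h : p.1 ≠ q.1) (t : ℝ) :
    val t q - val t p = (slope p q - t) * (q.1 - p.1) := by
  have : q.1 - p.1 ≠ 0 := sub_ne_zero.2 (Ne.symm h)
  unfold val slope
  field_simp
  ring

/-- a leaving point is left of an entering point and their slope lies between the two times -/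
theorem Cfg.swap {P τ S V} (h : Cfg P τ S V) {l l' : ℕ} (hl : l ≤ l') (hV : l' ≤ V) {p q : Pt}
    (hp : p ∈ S l \ S l') (hq : q ∈ S l' \ S l) :
    p.1 < q.1 ∧ τ l < slope p q ∧ slope p q < τ l' := by
  rw [mem_sdiff] at hp hq
  have hP := h.sub l (hl.trans hV) hp.1
  have hQ := h.sub l' hV hq.1
  have h1 := h.low l (hl.trans hV) p hp.1 q hQ hq.2
  have h2 := h.low l' hV q hq.1 p hP hp.2
  have ht := h.mono l l' hl hV
  have hne : p.1 ≠ q.1 := fun e => hq.2 (h.good.xinj hP hQ e ▸ hp.1)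
  have e1 := val_sub hne (τ l)
  have e2 := val_sub hne (τ l')
  have hx : p.1 < q.1 := by
    by_contra hc
    have : q.1 - p.1 ≤ 0 := by linarith [not_lt.1 hc]
    nlinarith
  refine ⟨hx, ?_, ?_⟩ <;> nlinarith

theorem Cfg.card_sdiff {P τ S V} (h : Cfg P τ S V) {l l' : ℕ} (hl : l ≤ V) (hl' : l' ≤ V) :
    (S l \ S l').card = (S l' \ S l).card :=
  card_sdiff_comm ((h.card l hl).trans (h.card l' hl').symm)

/-- a pair swaps at one step only -/
theorem Cfg.step_eq {P τ S V} (h : Cfg P τ S V) {l l' : ℕ} (hl : l < V) (hl' : l' < V) {p q : Pt}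
    (hp : p ∈ S l \ S (l + 1)) (hq : q ∈ S (l + 1) \ S l)
    (hp' : p ∈ S l' \ S (l' + 1)) (hq' : q ∈ S (l' + 1) \ S l') : l = l' := by
  obtain ⟨-, a1, a2⟩ := h.swap (Nat.le_succ l) hl hp hq
  obtain ⟨-, b1, b2⟩ := h.swap (Nat.le_succ l') hl' hp' hq'
  by_contra hne
  rcases Nat.lt_or_gt_of_ne hne with c | c
  · linarith [h.mono (l + 1) l' c hl'.le]
  · linarith [h.mono (l' + 1) l c hl.le]

theorem Cfg.sum_sq {P τ S V} (h : Cfg P τ S V) :
    ∑ l ∈ range V, (S l \ S (l + 1)).card ^ 2 ≤ P.card ^ 2 := by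
  have e : ∀ l ∈ range V, (S l \ S (l + 1)).card ^ 2 =
      ((S l \ S (l + 1)) ×ˢ (S (l + 1) \ S l)).card := fun l hl => by
    have := mem_range.1 hl
    rw [card_product, ← h.card_sdiff this.le this, sq]
  rw [sum_congr rfl e, ← card_biUnion, sq, ← card_product]
  · refine card_le_card fun x hx => ?_
    obtain ⟨l, hl, hx⟩ := mem_biUnion.1 hx
    have := mem_range.1 hl
    rw [mem_product] at hx ⊢
    exact ⟨h.sub l this.le (mem_sdiff.1 hx.1).1, h.sub (l + 1) this (mem_sdiff.1 hx.2).1⟩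
  · intro l hl l' hl' hne
    refine disjoint_left.2 fun x hx hx' => hne ?_
    rw [mem_product] at hx hx'
    exact h.step_eq (mem_range.1 hl) (mem_range.1 hl') hx.1 hx.2 hx'.1 hx'.2

theorem Bic.edge {P τ S V I L E a} (h : Cfg P τ S V) (hb : Bic S V I L E a) {e}
    (he : e ∈ edges I L E) : e.1 < V ∧ e.2.1 ∈ S e.1 \ S (e.1 + 1) ∧
      e.2.2 ∈ S (e.1 + 1) \ S e.1 ∧ e.2.1 ∈ P ∧ e.2.2 ∈ P ∧ e.2.1.1 < e.2.2.1 ∧
      τ e.1 < slope e.2.1 e.2.2 ∧ slope e.2.1 e.2.2 < τ (e.1 + 1) := by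
  obtain ⟨h1, h2, h3⟩ := mem_edges.1 he
  have := hb.lt _ h1
  have a1 := hb.subL _ h1 h2
  have a2 := hb.subE _ h1 h3
  exact ⟨this, a1, a2, h.sub _ this.le (mem_sdiff.1 a1).1, h.sub _ this (mem_sdiff.1 a2).1,
    h.swap (Nat.le_succ _) this a1 a2⟩

theorem Bic.edge_inj {P τ S V I L E a} (h : Cfg P τ S V) (hb : Bic S V I L E a) {e e'}
    (he : e ∈ edges I L E) (he' : e' ∈ edges I L E) (h2 : e.2 = e'.2) : e = e' := by
  obtain ⟨a1, a2, a3, -⟩ := hb.edge h he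
  obtain ⟨b1, b2, b3, -⟩ := hb.edge h he'
  rw [← h2] at b2 b3
  exact Prod.ext (h.step_eq a1 b1 a2 a3 b2 b3) h2

theorem Bic.card_edges {S V I L E a} (hb : Bic S V I L E a) :
    (edges I L E).card = I.card * a ^ 2 := by
  unfold edges
  rw [card_biUnion, sum_congr rfl (g := fun _ => a ^ 2), sum_const, smul_eq_mul]
  · intro l hl
    rw [card_image_of_injective _ (Prod.mk_right_injective l), card_product, hb.cardL l hl,
      hb.cardE l hl, sq]
  · intro l _ l' _ hne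
    refine disjoint_left.2 fun x hx hx' => hne ?_
    obtain ⟨_, -, rfl⟩ := mem_image.1 hx
    obtain ⟨_, -, h⟩ := mem_image.1 hx'
    exact (congrArg Prod.fst h).symm

theorem Cfg.le {P τ S V V'} (h : Cfg P τ S V) (hV : V' ≤ V) : Cfg P τ S V' :=
  ⟨h.good, fun l l' a b => h.mono l l' a (b.trans hV), fun l a => h.sub l (a.trans hV),
    fun l a => h.card l (a.trans hV), fun l a => h.low l (a.trans hV),
    fun l a => h.gen l (a.trans hV)⟩

theorem mem_inv {S : ℕ → Finset Pt} {i j : ℕ} {p : Pt} : p ∈ inv S i j ↔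
    (∃ l, i ≤ l ∧ l ≤ j ∧ p ∈ S l) ∧ ∃ l, i ≤ l ∧ l ≤ j ∧ p ∉ S l := by
  simp only [inv, mem_filter, mem_biUnion, mem_Icc, and_assoc]

end Vale.Agent.P065U
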