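import Vale.Agent.P065U.Basic

/-! P065U: greedy decomposition of a sweep into blocks. -/

namespace Vale.Agent.P065U

open Classical Finset

theorem blocks_greedy (Q : ℕ → ℕ → Prop) (hQ : ∀ i, ¬ Q i i) (V : ℕ) :
    ∀ d st : ℕ, st ≤ V → V - st = d → ∃ (g : ℕ) (s : ℕ → ℕ), s 0 = st ∧ s g ≤ V ∧
      (∀ i < g, s i < s (i + 1) ∧ Q (s i) (s (i + 1)) ∧
        ∀ l, s i ≤ l → l < s (i + 1) → ¬ Q (s i) l) ∧
      ∀ l, s g ≤ l → l ≤ V → ¬ Q (s g) l := by
  intro d
  induction d using Nat.strong_induction_on with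
  | _ d ih =>
    intro st hst hd
    by_cases hex : ∃ l, st ≤ l ∧ l ≤ V ∧ Q st l
    · obtain ⟨h1, h2, h3⟩ := Nat.find_spec hex
      have h4 : ∀ l, l < Nat.find hex → ¬ (st ≤ l ∧ l ≤ V ∧ Q st l) :=
        fun l hl => Nat.find_min hex hl
      obtain ⟨t, ht⟩ : ∃ t, t = Nat.find hex := ⟨_, rfl⟩
      rw [← ht] at h1 h2 h3 h4
      have h5 : st < t := lt_of_le_of_ne h1 (by rintro rfl; exact hQ _ h3)
      obtain ⟨g, s, a1, a2, a3, a4⟩ := ih (V - t) (by omega) t h2 rfl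
      refine ⟨g + 1, fun i => Nat.casesOn i st s, rfl, a2, ?_, a4⟩
      intro i hi
      cases i with
      | zero =>
        show st < s 0 ∧ Q st (s 0) ∧ ∀ l, st ≤ l → l < s 0 → ¬ Q st l
        rw [a1]
        exact ⟨h5, h3, fun l b1 b2 b3 => h4 l b2 ⟨b1, by omega, b3⟩⟩
      | succ i => exact a3 i (by omega)
    · exact ⟨0, fun _ => st, rfl, hst, fun i hi => absurd hi (Nat.not_lt_zero i),
        fun l b1 b2 b3 => hex ⟨l, b1, b2, b3⟩⟩

theorem blocks_mono {s : ℕ → ℕ} {g : ℕ} (h : ∀ i < g, s i < s (i + 1)) {i j : ℕ} (hij : i ≤ j)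
    (hj : j ≤ g) : s i ≤ s j := by
  induction j, hij using Nat.le_induction with
  | base => exact le_rfl
  | succ j _ ih => exact (ih (by omega)).trans (h j (by omega)).le

theorem blocks_loc {s : ℕ → ℕ} (g : ℕ) (h0 : s 0 = 0) (l : ℕ) :
    ∃ i ≤ g, s i ≤ l ∧ (i < g → l < s (i + 1)) := by
  have hex : ∃ i, g ≤ i ∨ l < s (i + 1) := ⟨g, Or.inl le_rfl⟩
  have h1 := Nat.find_spec hex
  have h2 : Nat.find hex ≤ g := Nat.find_min' hex (Or.inl le_rfl)
  have h3 : ∀ i, i < Nat.find hex → ¬ (g ≤ i ∨ l < s (i + 1)) := fun i hi => Nat.find_min hex hi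
  obtain ⟨t, ht⟩ : ∃ t, t = Nat.find hex := ⟨_, rfl⟩
  rw [← ht] at h1 h2 h3
  refine ⟨t, h2, ?_, fun h => h1.resolve_left (by omega)⟩
  cases t with
  | zero => omega
  | succ t =>
    have h4 := h3 t (Nat.lt_succ_self t)
    omega

theorem blocks_sub (h : StmReuse) {P τ S V lo hi} {n a b i0 i1 : ℕ} (hC : Cfg P τ S V)
    (hW : Win lo hi n V) (hV : i1 ≤ V) (hb : ∀ l, i0 ≤ l → l ≤ i1 → (S i0 \ S l).card < b)
    (ha : ∀ i < n, a ≤ (inv S (lo i) (hi i)).card) :
    ((range n).filter fun k => i0 ≤ lo k ∧ hi k ≤ i1).card * a ≤ (inv S i0 i1).card +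
      10 * b * ((range n).filter fun k => i0 ≤ lo k ∧ hi k ≤ i1).card := by
  obtain ⟨A, hA⟩ : ∃ A, A = (range n).filter fun k => i0 ≤ lo k ∧ hi k ≤ i1 := ⟨_, rfl⟩
  rw [← hA]
  have hmem : ∀ k ∈ A, k < n ∧ i0 ≤ lo k ∧ hi k ≤ i1 := by
    intro k hk
    rw [hA, mem_filter, mem_range] at hk
    exact hk
  obtain ⟨e, he1, he2⟩ : ∃ e : ℕ → ℕ, (∀ j < A.card, e j ∈ A) ∧
      ∀ i j, i < j → j < A.card → e i < e j := by
    refine ⟨fun j => if hj : j < A.card then A.orderEmbOfFin rfl ⟨j, hj⟩ else 0,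
      fun j hj => ?_, fun i j hij hj => ?_⟩
    · simp only [dif_pos hj]
      exact A.orderEmbOfFin_mem rfl _
    · simp only [dif_pos hj, dif_pos (hij.trans hj)]
      exact (A.orderEmbOfFin rfl).strictMono hij
  exact h P τ S V (fun j => lo (e j)) (fun j => hi (e j)) A.card a b i0 i1 hC
    ⟨fun j hj => hW.le _ (hmem _ (he1 j hj)).1,
      fun i j hij hj => hW.sep _ _ (he2 i j hij hj) (hmem _ (he1 j hj)).1⟩ hV
    (fun j hj => (hmem _ (he1 j hj)).2) hb (fun j hj => ha _ (hmem _ (he1 j hj)).1)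

theorem blocks_one {P τ S V} {lo hi : ℕ → ℕ} {n a i0 i1 : ℕ} (hC : Cfg P τ S V) (h0 : i0 ≤ V)
    (hV : i1 ≤ V) (hb : ∀ l, i0 ≤ l → l ≤ i1 → (S i0 \ S l).card < 1) (ha1 : 1 ≤ a)
    (ha : ∀ i < n, a ≤ (inv S (lo i) (hi i)).card) :
    ((range n).filter fun k => i0 ≤ lo k ∧ hi k ≤ i1).card = 0 := by
  have hS : ∀ l, i0 ≤ l → l ≤ i1 → S i0 = S l := by
    intro l h1 h2
    have h3 : S i0 \ S l = ∅ := card_eq_zero.1 (by have := hb l h1 h2; omega)
    refine eq_of_subset_of_card_le (sdiff_eq_empty_iff_subset.1 h3) ?_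
    rw [hC.card l (h2.trans hV), hC.card i0 h0]
  rw [card_eq_zero, filter_eq_empty_iff]
  rintro k hk ⟨h1, h2⟩
  have h3 := ha k (mem_range.1 hk)
  obtain ⟨p, hp⟩ := card_pos.1 (lt_of_lt_of_le ha1 h3)
  obtain ⟨⟨l, a1, a2, a3⟩, l', b1, b2, b3⟩ := mem_inv.1 hp
  rw [← hS l (by omega) (by omega)] at a3
  rw [← hS l' (by omega) (by omega)] at b3
  exact b3 a3

theorem blocks (h : StmReuse) : StmBlocks := by
  intro P τ S V lo hi n a hC hW ha1 ha
  obtain ⟨b, hb⟩ : ∃ b, b = max 1 (a / 20) := ⟨_, rfl⟩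
  have hb1 : 1 ≤ b := by omega
  obtain ⟨g, s, s0, sV, hs, hlast⟩ := blocks_greedy (fun i j => b ≤ (S i \ S j).card)
    (fun i => by simp only [sdiff_self, bot_eq_empty, card_empty]; omega) V (V - 0) 0
    (Nat.zero_le V) rfl
  have hlt : ∀ i < g, s i < s (i + 1) := fun i hi => (hs i hi).1
  have hV : ∀ i ≤ g, s i ≤ V := fun i hi => (blocks_mono hlt hi le_rfl).trans sV
  obtain ⟨bhi, hbhi1, hbhi2⟩ : ∃ bhi : ℕ → ℕ, (∀ i < g, bhi i = s (i + 1) - 1) ∧ bhi g = V :=
    ⟨fun i => if i < g then s (i + 1) - 1 else V, fun i hi => if_pos hi, if_neg (lt_irrefl g)⟩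
  have hble : ∀ i ≤ g, s i ≤ bhi i ∧ bhi i ≤ V := by
    intro i hi
    rcases hi.lt_or_eq with h1 | rfl
    · have h2 := hlt i h1
      have h3 := hV (i + 1) h1
      have h4 := hbhi1 i h1
      omega
    · omega
  have hsmall : ∀ i ≤ g, ∀ l, s i ≤ l → l ≤ bhi i → (S (s i) \ S l).card < b := by
    intro i hi l h1 h2
    rcases hi.lt_or_eq with h3 | rfl
    · have h4 := hlt i h3
      have h5 := hbhi1 i h3
      exact not_le.1 ((hs i h3).2.2 l h1 (by omega))
    · exact not_le.1 (hlast l h1 (by omega))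
  refine ⟨g, b, s, bhi, s, fun i => s (i + 1),
    fun i => ((range n).filter fun k => s i ≤ lo k ∧ hi k ≤ bhi i).card,
    ⟨fun i hi => hble i (by omega), fun i j hij hj => ?_⟩,
    ⟨fun i hi => ⟨(hlt i hi).le, hV (i + 1) hi⟩,
      fun i j hij hj => blocks_mono hlt hij hj.le⟩, hb1, by omega,
    fun i hi => (hs i hi).2.1, ?_, fun i hig => ?_⟩
  · have h1 := hbhi1 i (by omega)
    have h2 := blocks_mono hlt (show i + 1 ≤ j from hij) (by omega : j ≤ g)
    omega
  · have hsub : range n ⊆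
        ((range g).biUnion fun i => (range n).filter fun k => lo k < s (i + 1) ∧ s (i + 1) ≤ hi k) ∪
        ((range (g + 1)).biUnion fun i =>
          (range n).filter fun k => s i ≤ lo k ∧ hi k ≤ bhi i) := by
      intro k hk
      obtain ⟨i, hi1, hi2, hi3⟩ := blocks_loc g s0 (lo k)
      have hk' := hW.le k (mem_range.1 hk)
      rw [mem_union, mem_biUnion, mem_biUnion]
      by_cases hc : hi k ≤ bhi i
      · exact Or.inr ⟨i, mem_range.2 (by omega), mem_filter.2 ⟨hk, hi2, hc⟩⟩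
      · have h1 : i < g := by
          rcases hi1.lt_or_eq with h1 | rfl
          · exact h1
          · omega
        have h2 := hbhi1 i h1
        exact Or.inl ⟨i, mem_range.2 h1, mem_filter.2 ⟨hk, hi3 h1, by omega⟩⟩
    have h1 := card_le_card hsub
    rw [card_range] at h1
    refine h1.trans ((card_union_le _ _).trans (add_le_add ?_ card_biUnion_le))
    refine card_biUnion_le.trans ?_
    have h2 : ∀ i ∈ range g,
        ((range n).filter fun k => lo k < s (i + 1) ∧ s (i + 1) ≤ hi k).card ≤ 1 := by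
      intro i _
      refine card_le_one.2 fun k hk k' hk' => ?_
      rw [mem_filter, mem_range] at hk hk'
      by_contra hne
      rcases Nat.lt_or_gt_of_ne hne with c | c
      · have := hW.sep k k' c hk'.1
        omega
      · have := hW.sep k' k c hk.1
        omega
    refine (sum_le_card_nsmul _ _ 1 h2).trans ?_
    simp
  · by_cases h20 : 20 ≤ a
    · have h1 := blocks_sub h hC hW (hble i hig).2 (hsmall i hig) ha
      have h2 : 20 * b ≤ a := by omega
      obtain ⟨m, hm⟩ : ∃ m, m = ((range n).filter fun k => s i ≤ lo k ∧ hi k ≤ bhi i).card :=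
        ⟨_, rfl⟩
      beta_reduce
      rw [← hm] at h1 ⊢
      have h3 : 20 * b * m ≤ a * m := Nat.mul_le_mul_right m h2
      nlinarith
    · have h1 : b = 1 := by omega
      have h2 := blocks_one (n := n) hC (hV i hig) (hble i hig).2 (h1 ▸ hsmall i hig) ha1 ha
      beta_reduce
      rw [h2]
      omega

end Vale.Agent.P065U
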