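import Vale.Agent.P065U.Basic

/-! P065U: the cell decomposition from the height function. -/

namespace Vale.Agent.P065U

open Classical Finset

namespace CellAux

theorem cnt_one (r A : ℕ) :
    ((range r).filter fun o => (A + o) / r ≠ (A + 1 + o) / r).card ≤ 1 := by
  refine card_le_one.2 fun o ho o' ho' => ?_
  rw [mem_filter, mem_range] at ho ho'
  have key : ∀ o, (A + o) / r ≠ (A + 1 + o) / r → r ∣ A + o + 1 := by
    intro o h
    by_contra hc
    rw [show A + 1 + o = A + o + 1 by ring, Nat.succ_div, if_neg hc] at h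
    exact h rfl
  have h1 := key o ho.2
  have h2 := key o' ho'.2
  have h3 := Nat.eq_zero_of_dvd_of_lt (Nat.dvd_sub h1 h2) (by omega)
  have h4 := Nat.eq_zero_of_dvd_of_lt (Nat.dvd_sub h2 h1) (by omega)
  omega

theorem cnt_le (r A d : ℕ) :
    ((range r).filter fun o => (A + o) / r ≠ (A + d + o) / r).card ≤ d := by
  induction d with
  | zero => simp
  | succ d ih =>
    have := cnt_one r (A + d)
    refine le_trans (card_le_card (t := ((range r).filter fun o => (A + o) / r ≠ (A + d + o) / r) ∪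
      ((range r).filter fun o => (A + d + o) / r ≠ (A + d + 1 + o) / r)) fun o ho => ?_)
      ((card_union_le _ _).trans (by omega))
    rw [mem_union]
    simp only [mem_filter] at ho ⊢
    by_cases h : (A + o) / r = (A + d + o) / r
    · exact Or.inr ⟨ho.1, fun h' => ho.2 (h.trans h')⟩
    · exact Or.inl ⟨ho.1, h⟩

theorem cnt_le' (r A B s : ℕ) (h1 : A ≤ B + s) (h2 : B ≤ A + s) :
    ((range r).filter fun o => (A + o) / r ≠ (B + o) / r).card ≤ s := by
  rcases le_total A B with h | h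
  · obtain ⟨d, rfl⟩ := Nat.exists_eq_add_of_le h
    exact (cnt_le r A d).trans (by omega)
  · obtain ⟨d, rfl⟩ := Nat.exists_eq_add_of_le h
    simp only [ne_comm (a := (B + d + _) / r)]
    exact (cnt_le r B d).trans (by omega)

theorem exists_off {ι : Type} (X : Finset ι) (A B sp : ι → ℕ) (r T : ℕ) (hr : 1 ≤ r)
    (h : ∀ e ∈ X, A e ≤ B e + sp e ∧ B e ≤ A e + sp e) (hT : ∑ e ∈ X, sp e ≤ T) :
    ∃ o, r * (X.filter fun e => (A e + o) / r ≠ (B e + o) / r).card ≤ T := by
  have h1 : ∑ o ∈ range r, (X.filter fun e => (A e + o) / r ≠ (B e + o) / r).card ≤ T := by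
    simp only [card_filter]
    rw [sum_comm]
    refine le_trans (sum_le_sum fun e he => ?_) hT
    rw [← card_filter]
    exact cnt_le' r _ _ _ (h e he).1 (h e he).2
  have h2 : ∑ o ∈ range r, r * (X.filter fun e => (A e + o) / r ≠ (B e + o) / r).card ≤
      ∑ _o ∈ range r, T := by
    rw [← mul_sum, sum_const, card_range, smul_eq_mul]
    exact Nat.mul_le_mul_left _ h1
  obtain ⟨o, -, ho⟩ := exists_le_of_sum_le (nonempty_range_iff.2 (by omega)) h2
  exact ⟨o, ho⟩

/-- rank of a point in its band -/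
noncomputable def rank (P : Finset Pt) (band : Pt → ℕ) (z : Pt) : ℕ :=
  (P.filter fun w => band w = band z ∧ w.1 < z.1).card

theorem rank_mono {P : Finset Pt} {band : Pt → ℕ} {z w : Pt} (hb : band z = band w)
    (h : z.1 ≤ w.1) : rank P band z ≤ rank P band w := by
  refine card_le_card fun v hv => ?_
  rw [mem_filter] at hv ⊢
  exact ⟨hv.1, hv.2.1.trans hb, hv.2.2.trans_le h⟩

theorem rank_lt {P : Finset Pt} {band : Pt → ℕ} {z w : Pt} (hz : z ∈ P) (hb : band z = band w)
    (h : z.1 < w.1) : rank P band z < rank P band w := by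
  refine card_lt_card ⟨fun v hv => ?_, fun hs => ?_⟩
  · rw [mem_filter] at hv ⊢
    exact ⟨hv.1, hv.2.1.trans hb, hv.2.2.trans h⟩
  · exact lt_irrefl _ (mem_filter.1 (hs (mem_filter.2 ⟨hz, hb, h⟩))).2.2

theorem rank_le (P : Finset Pt) (band : Pt → ℕ) (z : Pt) :
    rank P band z ≤ (P.filter fun w => band w = band z).card := by
  refine card_le_card fun v hv => ?_
  rw [mem_filter] at hv ⊢
  exact ⟨hv.1, hv.2.1⟩

theorem cell_card {P : Finset Pt} (hP : Good P) (band : Pt → ℕ) {n0 : ℕ} (hn : 1 ≤ n0)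
    (lab : ℕ × ℕ) :
    (P.filter fun z => (band z, rank P band z / n0) = lab).card ≤ n0 := by
  refine le_trans (card_le_card_of_injOn (t := range n0) (fun z => rank P band z % n0)
    (fun z _ => mem_coe.2 (mem_range.2 (Nat.mod_lt _ hn))) ?_) (card_range n0).le
  intro z hz w hw h
  rw [mem_coe, mem_filter] at hz hw
  have e := hz.2.trans hw.2.symm
  have e1 : band z = band w := congrArg Prod.fst e
  have e2 : rank P band z / n0 = rank P band w / n0 := congrArg Prod.snd e
  have e3 : rank P band z = rank P band w := by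
    rw [← Nat.div_add_mod (rank P band z) n0, ← Nat.div_add_mod (rank P band w) n0, e2]
    exact congrArg _ h
  refine hP.xinj hz.1 hw.1 ?_
  rcases lt_trichotomy z.1 w.1 with c | c | c
  · exact absurd e3 (rank_lt hz.1 e1 c).ne
  · exact c
  · exact absurd e3 (rank_lt hw.1 e1.symm c).ne'

theorem ht_left (e : ℕ × Pt × Pt) : ht e e.2.1.1 = e.2.1.2 := by
  simp [ht]

theorem ht_right (e : ℕ × Pt × Pt) (h : e.2.1.1 < e.2.2.1) : ht e e.2.2.1 = e.2.2.2 := by
  have : e.2.2.1 - e.2.1.1 ≠ 0 := sub_ne_zero.2 h.ne'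
  unfold ht slope
  field_simp
  ring

theorem off_line {P : Finset Pt} (hP : Good P) (e : ℕ × Pt × Pt) (h1 : e.2.1 ∈ P)
    (h2 : e.2.2 ∈ P) (h : e.2.1.1 < e.2.2.1) {z : Pt} (hz : z ∈ P) (n1 : e.2.1 ≠ z)
    (n2 : e.2.2 ≠ z) : ht e z.1 ≠ z.2 := by
  intro hc
  refine hP.gen _ h1 _ h2 _ hz (fun c => h.ne (congrArg Prod.fst c)) n1 n2 ?_
  have : z.1 - e.2.1.1 ≠ 0 := sub_ne_zero.2 fun c => n1 (hP.xinj h1 hz c.symm)
  unfold ht at hc
  conv_rhs => unfold slope
  rw [eq_div_iff this]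
  linarith

theorem zeros_finite (e e' : ℕ × Pt × Pt) (x0 : ℝ) (h : ht e x0 ≠ ht e' x0) :
    {x | ht e x = ht e' x}.Finite := by
  refine Set.Subsingleton.finite fun x hx y hy => ?_
  by_contra hne
  have h1 : ht e x = ht e' x := hx
  have h2 : ht e y = ht e' y := hy
  unfold ht at h h1 h2
  have h3 : (slope e.2.1 e.2.2 - slope e'.2.1 e'.2.2) * (x - y) = 0 := by linarith
  have h4 : slope e.2.1 e.2.2 = slope e'.2.1 e'.2.2 :=
    sub_eq_zero.1 ((mul_eq_zero.1 h3).resolve_right (sub_ne_zero.2 hne))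
  rw [h4] at h h1
  exact h (by linarith)

theorem generic {P τ S V I L E a} (hc : Cfg P τ S V) (hb : Bic S V I L E a)
    (C : Finset (ℕ × Pt × Pt)) (hC : C ⊆ edges I L E) (hne : C.Nonempty)
    (hx : ∀ e ∈ C, ∀ e' ∈ C, e.2.1.1 < e'.2.2.1) :
    ∃ x, (∀ e ∈ C, e.2.1.1 < x ∧ x < e.2.2.1) ∧
      ∀ e ∈ C, ∀ e' ∈ C, ht e x = ht e' x → e = e' := by
  obtain ⟨e1, m1, h1⟩ := exists_max_image C (fun e => e.2.1.1) hne
  obtain ⟨e2, m2, h2⟩ := exists_min_image C (fun e => e.2.2.1) hne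
  have hfin : (⋃ e ∈ (C : Set (ℕ × Pt × Pt)), ⋃ e' ∈ (C : Set (ℕ × Pt × Pt)),
      {x | e ≠ e' ∧ ht e x = ht e' x}).Finite := by
    refine C.finite_toSet.biUnion fun e he => C.finite_toSet.biUnion fun e' he' => ?_
    by_cases hee : e = e'
    · simp [hee]
    · obtain ⟨-, -, -, a1, a2, a3, -⟩ := hb.edge hc (hC he)
      obtain ⟨-, -, -, b1, b2, b3, -⟩ := hb.edge hc (hC he')
      have : ∃ x0, ht e x0 ≠ ht e' x0 := by
        by_cases hp : e.2.1 = e'.2.1
        · have hq : e.2.2 ≠ e'.2.2 := fun hq =>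
            hee (hb.edge_inj hc (hC he) (hC he') (Prod.ext hp hq))
          refine ⟨e'.2.2.1, ?_⟩
          rw [ht_right e' b3]
          exact off_line hc.good e a1 a2 a3 b2
            (fun c => (hx e he e' he').ne (congrArg Prod.fst c)) hq
        · refine ⟨e'.2.1.1, ?_⟩
          rw [ht_left e']
          exact off_line hc.good e a1 a2 a3 b1 hp
            (fun c => (hx e' he' e he).ne' (congrArg Prod.fst c))
      obtain ⟨x0, h0⟩ := this
      exact (zeros_finite e e' x0 h0).subset fun x hx => hx.2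
  obtain ⟨x, hx1, hx2⟩ := (Set.Ioo_infinite (hx e1 m1 e2 m2)).exists_notMem_finite hfin
  refine ⟨x, fun e he => ⟨(h1 e he).trans_lt hx1.1, hx1.2.trans_le (h2 e he)⟩,
    fun e he e' he' h => ?_⟩
  by_contra hee
  exact hx2 (Set.mem_biUnion he (Set.mem_biUnion he' ⟨hee, h⟩))

theorem bundle {P τ S V I L E a} (hc : Cfg P τ S V) (hb : Bic S V I L E a) (h : Pt → ℕ)
    (sp : ℕ × Pt × Pt → ℕ) (r : ℕ)
    (h2 : ∀ e ∈ edges I L E, ∀ x, e.2.1.1 ≤ x → x ≤ e.2.2.1 →
      h (x, ht e x) ≤ h e.2.1 + sp e ∧ h e.2.1 ≤ h (x, ht e x) + sp e)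
    (h3 : ∀ x y y', y ≤ y' → h (x, y) + ((edges I L E).filter fun e =>
      e.2.1.1 < x ∧ x < e.2.2.1 ∧ y < ht e x ∧ ht e x ≤ y').card ≤ h (x, y'))
    (C : Finset (ℕ × Pt × Pt)) (hC : C ⊆ edges I L E)
    (hx : ∀ e ∈ C, ∀ e' ∈ C, e.2.1.1 < e'.2.2.1) (hs : ∀ e ∈ C, sp e ≤ r)
    (hh : ∀ e ∈ C, ∀ e' ∈ C, h e.2.1 < h e'.2.1 + r) : C.card ≤ 3 * r := by
  rcases C.eq_empty_or_nonempty with rfl | hne
  · simp
  obtain ⟨x, g1, g2⟩ := generic hc hb C hC hne hx
  obtain ⟨e1, m1, k1⟩ := exists_min_image C (fun e => ht e x) hne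
  obtain ⟨e2, m2, k2⟩ := exists_max_image C (fun e => ht e x) hne
  have a1 := h3 x _ _ (k1 e2 m2)
  have a2 : (C.erase e1).card ≤ ((edges I L E).filter fun e =>
      e.2.1.1 < x ∧ x < e.2.2.1 ∧ ht e1 x < ht e x ∧ ht e x ≤ ht e2 x).card := by
    refine card_le_card fun e he => ?_
    obtain ⟨n, m⟩ := mem_erase.1 he
    exact mem_filter.2 ⟨hC m, (g1 e m).1, (g1 e m).2,
      lt_of_le_of_ne (k1 e m) fun c => n (g2 _ m _ m1 c.symm), k2 e m⟩
  have a3 := card_erase_add_one m1
  have a4 := (h2 e1 (hC m1) x (g1 e1 m1).1.le (g1 e1 m1).2.le).2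
  have a5 := (h2 e2 (hC m2) x (g1 e2 m2).1.le (g1 e2 m2).2.le).1
  have a6 := hs e1 m1
  have a7 := hs e2 m2
  have a8 := hh e2 m2 e1 m1
  omega

theorem lt_of_div_eq {r x y : ℕ} (hr : 1 ≤ r) (h : x / r = y / r) : x < y + r := by
  have h1 := Nat.div_add_mod x r
  have h2 := Nat.div_add_mod y r
  have h3 := Nat.mod_lt x hr
  rw [h] at h1
  omega

end CellAux

open CellAux in
theorem cell (h : StmH) : StmCell := by
  intro P τ S V I L E a hc hb r n0 hr hn
  obtain ⟨h, sp, h1, h2, h3⟩ := h P τ S V I L E a hc hb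
  have hpq : ∀ e ∈ edges I L E, h e.2.1 ≤ h e.2.2 + sp e ∧ h e.2.2 ≤ h e.2.1 + sp e := by
    intro e he
    obtain ⟨-, -, -, -, -, a3, -⟩ := hb.edge hc he
    have := h2 e he e.2.2.1 a3.le le_rfl
    rw [ht_right e a3] at this
    exact this.symm
  obtain ⟨o, ho⟩ := exists_off (edges I L E) (fun e => h e.2.1) (fun e => h e.2.2) sp r _ hr hpq h1
  obtain ⟨band, hband⟩ : ∃ band : Pt → ℕ, ∀ z, band z = (h z + o) / r := ⟨_, fun _ => rfl⟩
  simp only [← hband] at ho
  refine ⟨fun z => (band z, rank P band z / n0), cell_card hc.good band hn, ?_⟩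
  have hB : r * ((edges I L E).filter fun e => r < sp e).card ≤ 5 * P.card ^ 2 * a ^ 2 := by
    have := card_nsmul_le_sum ((edges I L E).filter fun e => r < sp e) sp r
      fun e he => (mem_filter.1 he).2.le
    rw [smul_eq_mul, mul_comm] at this
    exact this.trans ((sum_le_sum_of_subset (filter_subset _ _)).trans h1)
  obtain ⟨C, hC⟩ : ∃ C : ℕ → ℕ → Finset (ℕ × Pt × Pt), ∀ b g, C b g =
      (edges I L E).filter fun e => band e.2.1 = b ∧ band e.2.2 = b ∧ sp e ≤ r ∧
        rank P band e.2.1 < g * n0 ∧ g * n0 ≤ rank P band e.2.2 := ⟨_, fun _ _ => rfl⟩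
  have hCb : ∀ b g, (C b g).card ≤ 3 * r := by
    intro b g
    rw [hC]
    refine bundle hc hb h sp r h2 h3 _ (filter_subset _ _) ?_ ?_ ?_
    · intro e he e' he'
      rw [mem_filter] at he he'
      by_contra hcon
      have := rank_mono (P := P) (he'.2.2.1.trans he.2.1.symm) (not_lt.1 hcon)
      omega
    · exact fun e he => (mem_filter.1 he).2.2.2.1
    · intro e he e' he'
      rw [mem_filter] at he he'
      have := he.2.1.trans he'.2.1.symm
      rw [hband, hband] at this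
      have := lt_of_div_eq hr this
      omega
  have hD : n0 * ((P.image band).biUnion fun b =>
      (Icc 1 ((P.filter fun w => band w = b).card / n0)).biUnion fun g => C b g).card ≤
      3 * r * P.card := by
    refine le_trans (Nat.mul_le_mul_left _ card_biUnion_le) ?_
    rw [card_eq_sum_card_image band P, mul_sum, mul_sum]
    refine sum_le_sum fun b _ => ?_
    refine le_trans (Nat.mul_le_mul_left _ (card_biUnion_le.trans
      (sum_le_card_nsmul _ _ (3 * r) fun g _ => hCb b g))) ?_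
    rw [Nat.card_Icc, Nat.add_sub_cancel, smul_eq_mul, ← mul_assoc, mul_comm (3 * r)]
    exact Nat.mul_le_mul_right _ (Nat.mul_div_le _ _)
  have hsub : ((edges I L E).filter fun e =>
      (band e.2.1, rank P band e.2.1 / n0) ≠ (band e.2.2, rank P band e.2.2 / n0)) ⊆
      ((edges I L E).filter fun e => band e.2.1 ≠ band e.2.2) ∪
      ((edges I L E).filter fun e => r < sp e) ∪ ((P.image band).biUnion fun b =>
        (Icc 1 ((P.filter fun w => band w = b).card / n0)).biUnion fun g => C b g) := by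
    intro e he
    obtain ⟨he, hne⟩ := mem_filter.1 he
    by_cases c1 : band e.2.1 = band e.2.2
    · by_cases c2 : r < sp e
      · exact mem_union_left _ (mem_union_right _ (mem_filter.2 ⟨he, c2⟩))
      · obtain ⟨-, -, -, a1, a2, a3, -⟩ := hb.edge hc he
        have d1 : rank P band e.2.1 / n0 < rank P band e.2.2 / n0 :=
          lt_of_le_of_ne (Nat.div_le_div_right (rank_mono c1 a3.le))
            fun c => hne (Prod.ext c1 c)
        refine mem_union_right _ (mem_biUnion.2 ⟨band e.2.2, mem_image_of_mem _ a2,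
          mem_biUnion.2 ⟨rank P band e.2.2 / n0, mem_Icc.2 ⟨Nat.zero_lt_of_lt d1,
            Nat.div_le_div_right (rank_le P band _)⟩, ?_⟩⟩)
        rw [hC]
        exact mem_filter.2 ⟨he, c1, rfl, not_lt.1 c2, (Nat.div_lt_iff_lt_mul hn).1 d1,
          Nat.div_mul_le_self _ _⟩
    · exact mem_union_left _ (mem_union_left _ (mem_filter.2 ⟨he, c1⟩))
  have hfin := (card_le_card hsub).trans ((card_union_le _ _).trans
    (Nat.add_le_add_right (card_union_le _ _) _))
  generalize ((edges I L E).filter fun e => band e.2.1 ≠ band e.2.2).card = x1 at ho hfin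
  generalize ((edges I L E).filter fun e => r < sp e).card = x2 at hB hfin
  generalize ((P.image band).biUnion fun b =>
    (Icc 1 ((P.filter fun w => band w = b).card / n0)).biUnion fun g => C b g).card = x3 at hD hfin
  have hr' : (0 : ℝ) < r := by exact_mod_cast hr
  have hn' : (0 : ℝ) < n0 := by exact_mod_cast hn
  have b1 : (x1 : ℝ) + x2 ≤ 10 * (P.card : ℝ) ^ 2 * (a : ℝ) ^ 2 / r := by
    rw [le_div_iff₀ hr']
    have c1 : (r : ℝ) * x1 ≤ 5 * (P.card : ℝ) ^ 2 * (a : ℝ) ^ 2 := by exact_mod_cast ho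
    have c2 : (r : ℝ) * x2 ≤ 5 * (P.card : ℝ) ^ 2 * (a : ℝ) ^ 2 := by exact_mod_cast hB
    linarith
  have b2 : (x3 : ℝ) ≤ 3 * r * P.card / n0 := by
    rw [le_div_iff₀ hn', mul_comm]
    exact_mod_cast hD
  refine le_trans ?_ (add_le_add b1 b2)
  exact_mod_cast hfin

end Vale.Agent.P065U
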