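import Vale.Agent.P065U.Basic

/-! P065U: chains covering the edges of the bicliques. -/

namespace Vale.Agent.P065U

open Classical Finset

namespace Chains

/-- cyclic shift -/
def sh {a : ℕ} (σ : ℕ) (i : Fin a) : Fin a := ⟨(i + σ) % a, Nat.mod_lt _ i.pos⟩

theorem sh_inj {a : ℕ} (σ : ℕ) {i j : Fin a} (h : sh σ i = sh σ j) : i = j :=
  Fin.ext (Nat.ModEq.eq_of_lt_of_lt (Nat.ModEq.add_right_cancel' σ (congrArg Fin.val h)) i.2 j.2)

theorem sh_surj {a : ℕ} (i j : Fin a) : ∃ σ < a, sh σ i = j := by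
  refine ⟨(j + a - i) % a, Nat.mod_lt _ i.pos, Fin.ext ?_⟩
  have h1 : (i : ℕ) + (j + a - i) = j + a := by have := i.2; omega
  change (i + (j + a - i) % a) % a = j
  rw [Nat.add_mod_mod, h1, Nat.add_mod_right, Nat.mod_eq_of_lt j.2]

theorem shift {A B L E : Finset Pt} {a : ℕ} (hL : L ⊆ A) (hE : E ⊆ B) (hAB : A.card = B.card)
    (cL : L.card = a) (cE : E.card = a) : ∃ π : ℕ → Pt → Pt,
    (∀ σ, (∀ p ∈ A, π σ p ∈ B) ∧ ∀ p ∈ A, ∀ q ∈ A, π σ p = π σ q → p = q) ∧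
      ∀ p ∈ L, ∀ q ∈ E, ∃ σ < a, π σ p = q := by
  have eL := equivFinOfCardEq cL
  have eE := equivFinOfCardEq cE
  have g : (A \ L : Finset Pt) ≃ (B \ E : Finset Pt) := equivOfCardEq (by
    rw [card_sdiff_of_subset hL, card_sdiff_of_subset hE, hAB, cL, cE])
  refine ⟨fun σ p => if h : p ∈ L then eE.symm (sh σ (eL ⟨p, h⟩)) else
    if h' : p ∈ A \ L then g ⟨p, h'⟩ else p, fun σ => ⟨fun p hp => ?_, fun p hp q hq h => ?_⟩,
    fun p hp q hq => ?_⟩
  · by_cases h : p ∈ L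
    · simp only [dif_pos h]
      exact hE (Subtype.prop _)
    · simp only [dif_neg h, dif_pos (mem_sdiff.2 ⟨hp, h⟩)]
      exact (mem_sdiff.1 (Subtype.prop _)).1
  · by_cases h1 : p ∈ L <;> by_cases h2 : q ∈ L
    · simp only [dif_pos h1, dif_pos h2] at h
      exact congrArg Subtype.val (eL.injective (sh_inj σ (eE.symm.injective (Subtype.ext h))))
    · simp only [dif_pos h1, dif_neg h2, dif_pos (mem_sdiff.2 ⟨hq, h2⟩)] at h
      exact absurd (h ▸ Subtype.prop _) (mem_sdiff.1 (g ⟨q, mem_sdiff.2 ⟨hq, h2⟩⟩).prop).2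
    · simp only [dif_neg h1, dif_pos h2, dif_pos (mem_sdiff.2 ⟨hp, h1⟩)] at h
      exact absurd (h.symm ▸ Subtype.prop _) (mem_sdiff.1 (g ⟨p, mem_sdiff.2 ⟨hp, h1⟩⟩).prop).2
    · simp only [dif_neg h1, dif_neg h2, dif_pos (mem_sdiff.2 ⟨hp, h1⟩),
        dif_pos (mem_sdiff.2 ⟨hq, h2⟩)] at h
      exact congrArg Subtype.val (g.injective (Subtype.ext h))
  · obtain ⟨σ, h1, h2⟩ := sh_surj (eL ⟨p, hp⟩) (eE ⟨q, hq⟩)
    refine ⟨σ, h1, ?_⟩
    simp only [dif_pos hp, h2, Equiv.symm_apply_apply]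

/-- the chain started at `c` -/
noncomputable def run (S : ℕ → Finset Pt) (π : ℕ → Pt → Pt) (c : Pt) : ℕ → Pt
  | 0 => c
  | l + 1 => if run S π c l ∈ S l \ S (l + 1) then π l (run S π c l) else run S π c l

theorem run_spec {S : ℕ → Finset Pt} {π : ℕ → Pt → Pt} {V : ℕ}
    (h : ∀ l < V, (∀ p ∈ S l \ S (l + 1), π l p ∈ S (l + 1) \ S l) ∧
      ∀ p ∈ S l \ S (l + 1), ∀ q ∈ S l \ S (l + 1), π l p = π l q → p = q) (l : ℕ) (hl : l ≤ V) :
    (∀ c ∈ S 0, run S π c l ∈ S l) ∧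
      ∀ c ∈ S 0, ∀ d ∈ S 0, run S π c l = run S π d l → c = d := by
  induction l with
  | zero => exact ⟨fun c hc => hc, fun c _ d _ e => e⟩
  | succ l ih =>
    obtain ⟨i1, i2⟩ := ih (Nat.le_of_succ_le hl)
    obtain ⟨h1, h2⟩ := h l hl
    refine ⟨fun c hc => ?_, fun c hc d hd e => i2 c hc d hd ?_⟩
    · rw [run]
      split_ifs with h3
      · exact (mem_sdiff.1 (h1 _ h3)).1
      · by_contra h4
        exact h3 (mem_sdiff.2 ⟨i1 c hc, h4⟩)
    · rw [run, run] at e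
      split_ifs at e with h3 h4 h4
      · exact h2 _ h3 _ h4 e
      · exact absurd (e ▸ i1 d hd) (mem_sdiff.1 (h1 _ h3)).2
      · exact absurd (e.symm ▸ i1 c hc) (mem_sdiff.1 (h1 _ h4)).2
      · exact e

end Chains

open Chains

theorem chains : StmChains := by
  intro P τ S V I L E a hC hB
  have key : ∀ l, ∃ π : ℕ → Pt → Pt, l < V →
      (∀ σ, (∀ p ∈ S l \ S (l + 1), π σ p ∈ S (l + 1) \ S l) ∧
        ∀ p ∈ S l \ S (l + 1), ∀ q ∈ S l \ S (l + 1), π σ p = π σ q → p = q) ∧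
      (l ∈ I → ∀ p ∈ L l, ∀ q ∈ E l, ∃ σ < a, π σ p = q) := by
    intro l
    by_cases hl : l < V
    swap
    · exact ⟨fun _ p => p, fun h => absurd h hl⟩
    have hc := hC.card_sdiff hl.le (Nat.succ_le_of_lt hl)
    by_cases hI : l ∈ I
    · obtain ⟨π, h1, h2⟩ := shift (hB.subL l hI) (hB.subE l hI) hc (hB.cardL l hI) (hB.cardE l hI)
      exact ⟨π, fun _ => ⟨h1, fun _ => h2⟩⟩
    · obtain ⟨π, h1, -⟩ := shift (empty_subset _) (empty_subset _) hc card_empty card_empty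
      exact ⟨π, fun _ => ⟨h1, fun h => absurd h hI⟩⟩
  choose π hπ using key
  have sp := fun σ => run_spec (S := S) (π := fun l => π l σ) fun l hl => (hπ l hl).1 σ
  refine ⟨range a ×ˢ S 0, fun γ => run S (fun l => π l γ.1) γ.2, ?_,
    fun γ hγ l hl => (sp γ.1 l hl).1 _ (mem_product.1 hγ).2, fun γ _ l hl => ?_,
    fun e he => ?_, fun l hl => ?_⟩
  · rw [card_product, card_range]
    exact Nat.mul_le_mul_left _ (card_le_card (hC.sub 0 (Nat.zero_le _)))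
  · simp only [run]
    split_ifs with h
    · exact Or.inr ⟨h, ((hπ l hl).1 γ.1).1 _ h⟩
    · exact Or.inl rfl
  · obtain ⟨h1, h2, h3⟩ := mem_edges.1 he
    have hl := hB.lt _ h1
    have h4 := hB.subL _ h1 h2
    obtain ⟨σ, h5, h6⟩ := (hπ _ hl).2 h1 _ h2 _ h3
    obtain ⟨c, h7, h8⟩ := surj_on_of_inj_on_of_card_le (s := S 0) (t := S e.1)
      (fun c _ => run S (fun l => π l σ) c e.1) (sp σ _ hl.le).1
      (fun c d hc hd => (sp σ _ hl.le).2 c hc d hd) (hC.card _ hl.le).le _ (mem_sdiff.1 h4).1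
    refine ⟨(σ, c), mem_product.2 ⟨mem_range.2 h5, h7⟩, h8.symm, ?_⟩
    simp only [run]
    rw [← h8, if_pos h4, h6]
  · rw [← card_range a, ← card_product, card_range]
    refine card_le_card_of_injOn (fun γ => (γ.1, run S (fun l => π l γ.1) γ.2 l))
      (fun γ hγ => ?_) fun γ hγ δ hδ h => ?_
    · obtain ⟨h1, h2⟩ := mem_filter.1 (mem_coe.1 hγ)
      refine mem_coe.2 (mem_product.2 ⟨(mem_product.1 h1).1, ?_⟩)
      by_contra h3
      exact h2 (if_neg h3)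
    · have h1 := (mem_product.1 (mem_filter.1 (mem_coe.1 hγ)).1).2
      have h2 := (mem_product.1 (mem_filter.1 (mem_coe.1 hδ)).1).2
      obtain ⟨h3, h4⟩ := Prod.ext_iff.1 h
      simp only at h3 h4
      rw [← h3] at h4
      exact Prod.ext h3 ((sp γ.1 l hl.le).2 _ h1 _ h2 h4)

end Vale.Agent.P065U
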