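import Vale.Agent.P065U.DefsC

/-! P065U: light windows, heavy windows and the ratio bound. -/

namespace Vale.Agent.P065U

open Classical Finset

namespace Cnt1Aux

theorem markov {α ι : Type} [DecidableEq ι] (Ω : Finset α) (k : α → ι) (w : ι → ℝ) (s : ℝ)
    (hs : 0 < s) (Bad : α → Prop) [DecidablePred Bad] (W : ℝ) (hw : ∀ i, 0 ≤ w i)
    (hb : ∀ e ∈ Ω, Bad e → s * ((Ω.filter fun e' => k e' = k e).card : ℝ) ≤ w (k e))
    (hW : ∑ i ∈ Ω.image k, w i ≤ W) : ((Ω.filter Bad).card : ℝ) ≤ W / s := by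
  rw [le_div_iff₀ hs, mul_comm, card_eq_sum_card_image k (Ω.filter Bad)]
  push_cast
  rw [mul_sum]
  refine le_trans ?_ (le_trans (sum_le_sum_of_subset_of_nonneg
    (image_subset_image (filter_subset Bad Ω)) fun i _ _ => hw i) hW)
  refine sum_le_sum fun i hi => ?_
  obtain ⟨e, he, rfl⟩ := mem_image.1 hi
  rw [mem_filter] at he
  refine le_trans (mul_le_mul_of_nonneg_left ?_ hs.le) (hb e he.1 he.2)
  exact_mod_cast card_le_card (filter_subset_filter _ (filter_subset Bad Ω))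

theorem fiber_le {α ι : Type} [DecidableEq ι] (A : Finset α) (k : α → ι) (T : Finset ι) :
    ∑ i ∈ T, ((A.filter fun e => k e = i).card : ℝ) ≤ A.card := by
  have := sum_card_fiberwise_eq_card_filter A T k
  have h2 : ∑ i ∈ T, (A.filter fun e => k e = i).card ≤ A.card :=
    this.le.trans (card_le_card (filter_subset _ _))
  exact_mod_cast h2

theorem X_of_child (D : Dat) {u u' y : ℕ} (h1 : u ≤ u') (h2 : u' ≤ D.κ) {e : Pt × Pt}
    (h : D.X u' e ∈ child u u' y) : D.X u e = y := by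
  have e1 : D.X u e = D.X u' e / 16 ^ (u' - u) := by
    unfold Dat.X blk
    rw [Nat.div_div_eq_div_mul, ← pow_add]
    congr 2
    omega
  rw [e1]
  unfold child at h
  rw [mem_Ico] at h
  exact Nat.div_eq_of_lt_le h.1 h.2

theorem d_nonneg (D : Dat) (u : ℕ) : 0 ≤ D.d u := by
  unfold Dat.d Dd
  positivity

theorem dd_eq (D : Dat) (u : ℕ) : D.d 0 * D.d u * (2 ^ u * 4 ^ D.κ) = D.Z := by
  unfold Dat.d Dat.Z Dd Zz
  field_simp

theorem nd_eq (D : Dat) : D.P.card * D.d 0 = D.Z := by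
  unfold Dat.d Dat.Z Dd Zz
  field_simp

theorem nC_eq (D : Dat) (u : ℕ) (e : Pt × Pt) : D.nCe u e =
    ((D.Ω.filter fun e' => (D.cell e'.1, D.X u e') = (D.cell e.1, D.X u e)).card : ℝ) := by
  unfold Dat.nCe Dat.nC
  congr 2
  ext e'
  simp only [mem_filter, Prod.mk.injEq]

theorem nA_eq (D : Dat) (u : ℕ) (e : Pt × Pt) : D.nAe u e =
    ((D.Ω.filter fun e' => (e'.1, D.part e'.2, D.X u e') =
      (e.1, D.part e.2, D.X u e)).card : ℝ) := by
  unfold Dat.nAe Dat.nA Dat.key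
  congr 2
  ext e'
  simp only [mem_filter, Prod.mk.injEq]

theorem inW_unique (D : Dat) (hc : StrictMono D.c) {u x x' : ℕ} {θ : ℝ} (h : D.inW u x θ)
    (h' : D.inW u x' θ) : x = x' := by
  have key : ∀ {x x' : ℕ}, D.inW u x θ → D.inW u x' θ → ¬ x < x' := fun {x x'} h h' hlt => by
    have : D.cut u (x + 1) ≤ D.cut u x' := hc.monotone (Nat.mul_le_mul_right _ hlt)
    linarith [h.2, h'.1]
  exact le_antisymm (not_lt.1 (key h' h)) (not_lt.1 (key h h'))

theorem light1 {c2 C : ℝ} {m M T : ℕ} {D : Dat} (h : Sys c2 C m M T D) {u' : ℕ} (h2 : u' ≤ T)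
    {ε : ℝ} (hε : 0 ≤ ε) :
    ((D.Ω.filter fun e => D.nCe u' e < ε * D.d 0 * D.d u').card : ℝ) ≤ C * ε * D.Z := by
  have p0 : 0 ≤ ε * D.d 0 * D.d u' := mul_nonneg (mul_nonneg hε (d_nonneg D 0)) (d_nonneg D u')
  have := markov D.Ω (fun e => (D.cell e.1, D.X u' e)) (fun _ => ε * D.d 0 * D.d u') 1 one_pos
    (fun e => D.nCe u' e < ε * D.d 0 * D.d u') (C * ε * D.Z) (fun _ => p0)
    (fun e _ hb => by rw [one_mul, ← nC_eq]; exact hb.le) (by
      rw [sum_const, nsmul_eq_mul, ← dd_eq D u']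
      calc _ ≤ C * 2 ^ u' * 4 ^ D.κ * (ε * D.d 0 * D.d u') :=
            mul_le_mul_of_nonneg_right (h.touch u' h2) p0
        _ = _ := by ring)
  rwa [div_one] at this

theorem uncut_le {c2 C : ℝ} {m M T : ℕ} {D : Dat} (h : Sys c2 C m M T D) {u' : ℕ}
    (Iv : ℕ → Finset Pt) (hI : ∀ e ∈ D.Ω, e.1 ∈ Iv (D.X u' e) ∧ e.2 ∈ Iv (D.X u' e))
    (π : ℕ → Pt → ℕ × ℕ) (B : ℝ) (hB : 0 ≤ B)
    (hπ : ∀ x lab, (((Iv x).filter fun z => π x z = lab).card : ℝ) ≤ B) (lab : ℕ × ℕ) (x : ℕ) :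
    (((D.Ω.filter fun e => D.cell e.1 = lab ∧ D.X u' e = x).filter fun e =>
      π (D.X u' e) e.1 = π (D.X u' e) e.2).card : ℝ) ≤ C * D.d 0 * B := by
  rw [card_eq_sum_card_fiberwise (f := Prod.fst) (t := D.P.filter fun z => D.cell z = lab)]
  · push_cast
    refine le_trans (sum_le_card_nsmul _ _ B fun a _ => le_trans ?_ (hπ x (π x a))) ?_
    · refine Nat.cast_le.2 (card_le_card_of_injOn Prod.snd (fun e he => ?_) ?_)
      · simp only [coe_filter, mem_filter, Set.mem_ofPred_eq] at he ⊢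
        obtain ⟨⟨⟨h1, -, h3⟩, h4⟩, h5⟩ := he
        rw [← h3, ← h5]
        exact ⟨(hI e h1).2, h4.symm⟩
      · intro e he e' he' hee
        simp only [coe_filter, mem_filter, Set.mem_ofPred_eq] at he he'
        exact Prod.ext (he.2.trans he'.2.symm) hee
    · rw [nsmul_eq_mul]
      exact mul_le_mul_of_nonneg_right (h.cellsz lab) hB
  · intro e he
    simp only [coe_filter, mem_filter, Set.mem_ofPred_eq] at he ⊢
    exact ⟨(h.mem e he.1.1).1, he.1.2.1⟩

end Cnt1Aux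

open Cnt1Aux

theorem light : StmLight := by
  intro c2 C m M T D h u u' h1 h2 ε s hε hs
  refine ⟨light1 h h2 hε, ?_⟩
  refine markov D.Ω (fun e => (D.cell e.1, D.X u e))
    (fun i => ((((D.Ω.filter fun e => D.nCe u' e < ε * D.d 0 * D.d u').filter fun e =>
      (D.cell e.1, D.X u e) = i).card : ℕ) : ℝ)) s hs _ _ (fun _ => Nat.cast_nonneg _)
    (fun e _ hb => ?_) ((fiber_le _ _ _).trans (light1 h h2 hε))
  rw [← nC_eq]
  refine hb.le.trans ?_
  have e1 : ∀ x, D.nC u' (D.cell e.1) x =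
      (((D.Ω.filter fun e' => D.cell e'.1 = D.cell e.1).filter fun e' =>
        D.X u' e' = x).card : ℝ) := fun x => by
    unfold Dat.nC
    rw [filter_filter]
  rw [sum_congr rfl fun x _ => e1 x, ← Nat.cast_sum, sum_card_fiberwise_eq_card_filter]
  refine Nat.cast_le.2 (card_le_card fun e' he' => ?_)
  simp only [mem_filter, Prod.mk.injEq] at he' ⊢
  obtain ⟨⟨a1, a2⟩, a3, a4⟩ := he'
  refine ⟨⟨a1, ?_⟩, a2, X_of_child D h1 (h2.trans h.Tle) a3⟩
  unfold Dat.nCe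
  rw [a2]
  exact a4

theorem heavy : StmHeavy := by
  intro c2 C m M T D h u u' h1 h2 β α hβ hβ1 hα
  obtain ⟨Iv, -, hI, hπ⟩ := h.loc u' h2
  obtain ⟨π, hπ1, hπ2⟩ := hπ β hβ hβ1
  have hC : 0 ≤ C := zero_le_one.trans h.Cge
  have hB : 0 ≤ C / β ^ 5 * D.d u' := mul_nonneg (by positivity) (d_nonneg D u')
  refine markov D.Ω (fun e => (D.cell e.1, D.X u e))
    (fun i => 2 * ((((D.Ω.filter fun e => π (D.X u' e) e.1 ≠ π (D.X u' e) e.2).filter fun e =>
      (D.cell e.1, D.X u e) = i).card : ℕ) : ℝ)) α hα _ _ (fun _ => by positivity)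
    (fun e _ hb => ?_) ?_
  · rw [← nC_eq]
    obtain ⟨x, hx, b1, b2⟩ := hb
    refine b2.trans ?_
    have a1 := uncut_le h Iv hI π _ hB hπ1 (D.cell e.1) x
    have a2 := card_filter_add_card_filter_not
      (s := D.Ω.filter fun e' => D.cell e'.1 = D.cell e.1 ∧ D.X u' e' = x)
      (fun e' => π (D.X u' e') e'.1 = π (D.X u' e') e'.2)
    have a3 : ((D.Ω.filter fun e' => D.cell e'.1 = D.cell e.1 ∧ D.X u' e' = x).filter fun e' =>
        ¬ π (D.X u' e') e'.1 = π (D.X u' e') e'.2).card ≤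
        ((D.Ω.filter fun e => π (D.X u' e) e.1 ≠ π (D.X u' e) e.2).filter fun e' =>
          (D.cell e'.1, D.X u e') = (D.cell e.1, D.X u e)).card := by
      refine card_le_card fun e' he' => ?_
      simp only [mem_filter, Prod.mk.injEq] at he' ⊢
      obtain ⟨⟨c1, c2, c3⟩, c4⟩ := he'
      exact ⟨⟨c1, c4⟩, c2, X_of_child D h1 (h2.trans h.Tle) (c3 ▸ hx)⟩
    have a4 := (Nat.cast_le (α := ℝ)).2 a3
    have a5 := congrArg (Nat.cast : ℕ → ℝ) a2
    push_cast at a5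
    unfold Dat.nC at b1 ⊢
    linarith
  · rw [← mul_sum, mul_assoc]
    exact mul_le_mul_of_nonneg_left ((fiber_le _ _ _).trans hπ2) zero_le_two

theorem ratio : StmRatio := by
  intro c2 C m M T D h u _ Λ hΛ
  refine markov D.Ω (fun e => (e.1, D.part e.2, D.X u e)) (fun i => D.qA u i.1 i.2.1 i.2.2) Λ hΛ
    _ _ (fun _ => Nat.cast_nonneg _) (fun e _ hb => ?_) ?_
  · rw [← nA_eq]
    exact hb.le
  · rw [← sum_fiberwise_of_maps_to (g := Prod.fst) (t := D.P) (fun i hi => by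
      obtain ⟨e, he, rfl⟩ := mem_image.1 hi
      exact (h.mem e he).1), ← nd_eq]
    refine le_trans (sum_le_card_nsmul _ _ (C * D.d 0) fun a _ =>
      le_trans ?_ (h.cellsz (D.cell a))) (le_of_eq (by rw [nsmul_eq_mul]; ring))
    unfold Dat.qA
    rw [← Nat.cast_sum, ← card_biUnion]
    · refine Nat.cast_le.2 (card_le_card fun b hb => ?_)
      obtain ⟨i, hi, hb⟩ := mem_biUnion.1 hb
      unfold Dat.Bp at hb
      simp only [mem_filter] at hb hi ⊢
      rw [← hi.2]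
      exact ⟨hb.1.1, hb.1.2.1⟩
    · intro i hi i' hi' hne
      refine disjoint_left.2 fun b hb hb' => hne ?_
      unfold Dat.Bp at hb hb'
      simp only [coe_filter, mem_filter, Set.mem_ofPred_eq] at hb hb' hi hi'
      have e1 : i.1 = i'.1 := hi.2.trans hi'.2.symm
      refine Prod.ext e1 (Prod.ext (hb.1.2.2.symm.trans hb'.1.2.2) ?_)
      rw [← e1] at hb'
      exact inW_unique D h.cmono hb.2 hb'.2

end Vale.Agent.P065U
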