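import Vale.Agent.P065U.DefsC

/-! P065U: quantile counts (`StmQuant`, `StmBtw`). -/

namespace Vale.Agent.P065U

open Classical Finset

namespace Cnt2

theorem mem_child {u u' x y : ℕ} : y ∈ child u u' x ↔ y / 16 ^ (u' - u) = x := by
  unfold child
  rw [mem_Ico, Nat.div_eq_iff (by positivity), add_mul, one_mul]
  have : 0 < 16 ^ (u' - u) := by positivity
  omega

theorem X_div (D : Dat) {u u' : ℕ} (h : u ≤ u') (h' : u' ≤ D.κ) (e : Pt × Pt) :
    D.X u' e / 16 ^ (u' - u) = D.X u e := by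
  unfold Dat.X blk
  rw [Nat.div_div_eq_div_mul, ← pow_add]
  have : D.κ - u' + (u' - u) = D.κ - u := by omega
  rw [this]

theorem card_mem (Ω : Finset (Pt × Pt)) (p : Pt × Pt → Prop) [DecidablePred p] (f : Pt × Pt → ℕ)
    (Y : Finset ℕ) :
    ((Ω.filter fun e => p e ∧ f e ∈ Y).card : ℝ) =
      ∑ y ∈ Y, ((Ω.filter fun e => p e ∧ f e = y).card : ℝ) := by
  rw [card_eq_sum_card_fiberwise (f := f) (t := Y) (fun e he => (mem_filter.1 he).2.2)]
  push_cast
  refine sum_congr rfl fun y hy => ?_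
  rw [filter_filter]
  have : (Ω.filter fun e => (p e ∧ f e ∈ Y) ∧ f e = y) = Ω.filter fun e => p e ∧ f e = y := by
    refine filter_congr fun e _ => ⟨fun h => ⟨h.1.1, h.2⟩, fun h => ⟨⟨h.1, h.2 ▸ hy⟩, h.2⟩⟩
  rw [this]

theorem left_le (J : Finset ℕ) (w : ℕ → ℝ) (t A : ℝ) (hw : ∀ x, 0 ≤ w x) (hA : ∀ x ∈ J, w x ≤ A)
    (ht : 0 ≤ t) (hA0 : 0 ≤ A) :
    ∑ x ∈ J.filter (fun x => ∑ y ∈ J.filter (fun y => y < x), w y < t), w x ≤ t + A := by
  set F := J.filter (fun x => ∑ y ∈ J.filter (fun y => y < x), w y < t) with hF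
  rcases F.eq_empty_or_nonempty with h | h
  · rw [h, sum_empty]; linarith
  · have hm := mem_filter.1 (F.max'_mem h)
    have hsub : F ⊆ insert (F.max' h) (J.filter fun y => y < F.max' h) := by
      intro x hx
      rcases (F.le_max' x hx).lt_or_eq with c | c
      · exact mem_insert_of_mem (mem_filter.2 ⟨(mem_filter.1 hx).1, c⟩)
      · rw [c]; exact mem_insert_self _ _
    have h1 := sum_le_sum_of_subset_of_nonneg hsub (f := w) (fun i _ _ => hw i)
    rw [sum_insert (by simp)] at h1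
    linarith [hA _ hm.1, hm.2]

theorem right_le (J : Finset ℕ) (w : ℕ → ℝ) (t A : ℝ) (hw : ∀ x, 0 ≤ w x) (hA : ∀ x ∈ J, w x ≤ A)
    (ht : 0 ≤ t) (hA0 : 0 ≤ A) :
    ∑ x ∈ J.filter (fun x => ∑ y ∈ J.filter (fun y => x < y), w y < t), w x ≤ t + A := by
  set F := J.filter (fun x => ∑ y ∈ J.filter (fun y => x < y), w y < t) with hF
  rcases F.eq_empty_or_nonempty with h | h
  · rw [h, sum_empty]; linarith
  · have hm := mem_filter.1 (F.min'_mem h)
    have hsub : F ⊆ insert (F.min' h) (J.filter fun y => F.min' h < y) := by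
      intro x hx
      rcases (F.min'_le x hx).lt_or_eq with c | c
      · exact mem_insert_of_mem (mem_filter.2 ⟨(mem_filter.1 hx).1, c⟩)
      · rw [← c]; exact mem_insert_self _ _
    have h1 := sum_le_sum_of_subset_of_nonneg hsub (f := w) (fun i _ _ => hw i)
    rw [sum_insert (by simp)] at h1
    linarith [hA _ hm.1, hm.2]

theorem nC_nonneg (D : Dat) (u : ℕ) (lab : ℕ × ℕ) (x : ℕ) : 0 ≤ D.nC u lab x := by
  unfold Dat.nC; positivity

theorem sum_nC (D : Dat) (u : ℕ) (lab : ℕ × ℕ) (Y : Finset ℕ) :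
    ((D.Ω.filter fun e => D.cell e.1 = lab ∧ D.X u e ∈ Y).card : ℝ) = ∑ y ∈ Y, D.nC u lab y :=
  card_mem D.Ω (fun e => D.cell e.1 = lab) (D.X u) Y

theorem sum_nA (D : Dat) (u : ℕ) (a : Pt) (j : ℕ) (Y : Finset ℕ) :
    ((D.Ω.filter fun e => (e.1 = a ∧ D.part e.2 = j) ∧ D.X u e ∈ Y).card : ℝ) =
      ∑ y ∈ Y, D.nA u a j y := by
  rw [card_mem D.Ω (fun e => e.1 = a ∧ D.part e.2 = j) (D.X u) Y]
  refine sum_congr rfl fun y _ => ?_
  unfold Dat.nA Dat.key
  simp only [and_assoc]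

/-- the mass of the windows with small mass between them and a fixed window -/
theorem between_le (J : Finset ℕ) (l r xh : ℕ) (hJ : J = Ico l r) (hx : xh ∈ J) (w : ℕ → ℝ)
    (t A : ℝ) (hw : ∀ x, 0 ≤ w x) (hA : ∀ x ∈ J, w x ≤ A) (ht : 0 ≤ t) (hA0 : 0 ≤ A) :
    ∑ x ∈ J.filter (fun x => ∑ y ∈ Ioo xh x, w y + ∑ y ∈ Ioo x xh, w y < t), w x ≤
      2 * t + 3 * A := by
  set J1 := J.filter fun y => xh < y with hJ1
  set J2 := J.filter fun y => y < xh with hJ2
  have h1 := left_le J1 w t A hw (fun x h => hA x (mem_filter.1 h).1) ht hA0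
  have h2 := right_le J2 w t A hw (fun x h => hA x (mem_filter.1 h).1) ht hA0
  set F1 := J1.filter (fun x => ∑ y ∈ J1.filter (fun y => y < x), w y < t) with hF1
  set F2 := J2.filter (fun x => ∑ y ∈ J2.filter (fun y => x < y), w y < t) with hF2
  have hxh := hx
  rw [hJ, mem_Ico] at hxh
  have hsub : J.filter (fun x => ∑ y ∈ Ioo xh x, w y + ∑ y ∈ Ioo x xh, w y < t) ⊆
      {xh} ∪ (F1 ∪ F2) := by
    intro x hx'
    obtain ⟨hxJ, hlt⟩ := mem_filter.1 hx'
    have hxI := hxJ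
    rw [hJ, mem_Ico] at hxI
    have n1 : 0 ≤ ∑ y ∈ Ioo xh x, w y := sum_nonneg fun y _ => hw y
    have n2 : 0 ≤ ∑ y ∈ Ioo x xh, w y := sum_nonneg fun y _ => hw y
    rcases lt_trichotomy xh x with c | c | c
    · refine mem_union_right _ (mem_union_left _ (mem_filter.2 ⟨mem_filter.2 ⟨hxJ, c⟩, ?_⟩))
      have : J1.filter (fun y => y < x) = Ioo xh x := by
        ext y
        simp only [hJ1, hJ, mem_filter, mem_Ico, mem_Ioo]
        omega
      rw [this]; linarith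
    · exact mem_union_left _ (mem_singleton.2 c.symm)
    · refine mem_union_right _ (mem_union_right _ (mem_filter.2 ⟨mem_filter.2 ⟨hxJ, c⟩, ?_⟩))
      have : J2.filter (fun y => x < y) = Ioo x xh := by
        ext y
        simp only [hJ2, hJ, mem_filter, mem_Ico, mem_Ioo]
        omega
      rw [this]; linarith
  have h3 := sum_le_sum_of_subset_of_nonneg hsub (f := w) (fun i _ _ => hw i)
  have un : ∀ s s' : Finset ℕ, ∑ x ∈ s ∪ s', w x ≤ ∑ x ∈ s, w x + ∑ x ∈ s', w x := by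
    intro s s'
    have := sum_union_inter (s₁ := s) (s₂ := s') (f := w)
    have n : 0 ≤ ∑ x ∈ s ∩ s', w x := sum_nonneg fun y _ => hw y
    linarith
  have h4 := un {xh} (F1 ∪ F2)
  have h5 := un F1 F2
  rw [sum_singleton] at h4
  linarith [hA xh hx]

end Cnt2

open Cnt2

theorem quant : StmQuant := by
  intro c2 C m M T D h u u' hu hu' s' α hs hα
  have hκ : u' ≤ D.κ := hu'.trans h.Tle
  set B := D.Ω.filter fun e => D.atoms u u' α e ∧
    (D.lft u u' e < s' * D.nCe u e ∨ D.rgt u u' e < s' * D.nCe u e) with hB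
  set k : Pt × Pt → (ℕ × ℕ) × ℕ := fun e => (D.cell e.1, D.X u e) with hk
  have e1 : (B.card : ℝ) = ∑ i ∈ D.Ω.image k, ((B.filter fun e => k e = i).card : ℝ) := by
    rw [card_eq_sum_card_fiberwise (f := k) (t := D.Ω.image k)
      (fun e he => mem_coe.2 (mem_image_of_mem k (mem_filter.1 he).1))]
    push_cast; rfl
  have e2 : (D.Ω.card : ℝ) = ∑ i ∈ D.Ω.image k, D.nC u i.1 i.2 := by
    rw [card_eq_sum_card_image k]
    push_cast
    refine sum_congr rfl fun i _ => ?_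
    unfold Dat.nC
    have : (D.Ω.filter fun e => k e = i) = D.Ω.filter fun e => D.cell e.1 = i.1 ∧ D.X u e = i.2 :=
      filter_congr fun e _ => by rw [hk, Prod.ext_iff]
    rw [this]
  rw [e1, e2, mul_sum]
  refine sum_le_sum fun i _ => ?_
  obtain ⟨lab, x⟩ := i
  have hn := nC_nonneg D u lab x
  rcases (B.filter fun e => k e = (lab, x)).eq_empty_or_nonempty with he | ⟨e0, he0⟩
  · rw [he, card_empty]; push_cast; positivity
  obtain ⟨hB0, hk0⟩ := mem_filter.1 he0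
  obtain ⟨-, hat, -⟩ := mem_filter.1 hB0
  have hl0 : D.cell e0.1 = lab := congrArg Prod.fst hk0
  have hx0 : D.X u e0 = x := congrArg Prod.snd hk0
  unfold Dat.atoms Dat.nCe at hat
  rw [hl0, hx0] at hat
  set J := child u u' x with hJ
  set w := D.nC u' lab with hw
  set n := D.nC u lab x with hn'
  have h1 := left_le J w (s' * n) (α * n) (nC_nonneg D u' lab) hat (by positivity) (by positivity)
  have h2 := right_le J w (s' * n) (α * n) (nC_nonneg D u' lab) hat (by positivity) (by positivity)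
  rw [hw, ← sum_nC] at h1 h2
  have hsub : (B.filter fun e => k e = (lab, x)) ⊆
      (D.Ω.filter fun e => D.cell e.1 = lab ∧ D.X u' e ∈
        J.filter (fun x => ∑ y ∈ J.filter (fun y => y < x), D.nC u' lab y < s' * n)) ∪
      (D.Ω.filter fun e => D.cell e.1 = lab ∧ D.X u' e ∈
        J.filter (fun x => ∑ y ∈ J.filter (fun y => x < y), D.nC u' lab y < s' * n)) := by
    intro e he
    obtain ⟨hBe, hke⟩ := mem_filter.1 he
    obtain ⟨hΩ, -, hor⟩ := mem_filter.1 hBe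
    have hl : D.cell e.1 = lab := congrArg Prod.fst hke
    have hx : D.X u e = x := congrArg Prod.snd hke
    have hJe : D.X u' e ∈ J := mem_child.2 ((X_div D hu hκ e).trans hx)
    unfold Dat.lft Dat.rgt Dat.nCe at hor
    rw [hl, hx] at hor
    rcases hor with c | c
    · exact mem_union_left _ (mem_filter.2 ⟨hΩ, hl, mem_filter.2 ⟨hJe, c⟩⟩)
    · exact mem_union_right _ (mem_filter.2 ⟨hΩ, hl, mem_filter.2 ⟨hJe, c⟩⟩)
  have h3 : ((B.filter fun e => k e = (lab, x)).card : ℝ) ≤ _ :=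
    Nat.cast_le.2 ((card_le_card hsub).trans (card_union_le _ _))
  push_cast at h3
  show _ ≤ 2 * (s' + α) * n
  linarith

theorem btwL : StmBtw := by
  intro c2 C m M T D h u uh u3 h1 h2 h3 s' α δ hs hα e he hat hd
  have hκ3 : u3 ≤ D.κ := h3.trans h.Tle
  have hκh : uh ≤ D.κ := h2.trans hκ3
  set lab := D.cell e.1 with hlab
  set x0 := D.X u e with hx0
  set xh := D.X uh e with hxh
  set n := D.nCe u e with hn
  set nA := D.nAe u e with hnA
  have npos : 0 < n := by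
    rw [hn]; unfold Dat.nCe Dat.nC
    exact Nat.cast_pos.2 (card_pos.2 ⟨e, mem_filter.2 ⟨he, rfl, rfl⟩⟩)
  have apos : 0 < nA := by
    rw [hnA]; unfold Dat.nAe Dat.nA Dat.key
    exact Nat.cast_pos.2 (card_pos.2 ⟨e, mem_filter.2 ⟨he, rfl, rfl, rfl⟩⟩)
  have hxJ : xh ∈ child u uh x0 := mem_child.2 (X_div D h1 hκh e)
  have hb := between_le (child u uh x0) _ _ xh rfl hxJ (D.nC uh lab) (s' * n) (α * n)
    (nC_nonneg D uh lab) hat (by positivity) (by positivity)
  set J := (child u uh x0).filter (fun x => ∑ y ∈ Ioo xh x, D.nC uh lab y +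
    ∑ y ∈ Ioo x xh, D.nC uh lab y < s' * n) with hJ
  set Y := (child u u3 x0).filter fun y => y / 16 ^ (u3 - uh) ∈ J with hY
  have hC : ∑ y ∈ Y, D.nC u3 lab y ≤ ∑ x ∈ J, D.nC uh lab x := by
    rw [← sum_nC, ← sum_nC]
    refine Nat.cast_le.2 (card_le_card fun e' he' => ?_)
    obtain ⟨a1, a2, a3⟩ := mem_filter.1 he'
    refine mem_filter.2 ⟨a1, a2, ?_⟩
    have := (mem_filter.1 a3).2
    rwa [X_div D h2 hκ3] at this
  have hA : (((D.keye u e).filter fun e' => D.btw uh lab xh (D.X uh e') +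
      D.btw uh lab (D.X uh e') xh < s' * n).card : ℝ) ≤ ∑ y ∈ Y, D.nA u3 e.1 (D.part e.2) y := by
    rw [← sum_nA]
    refine Nat.cast_le.2 (card_le_card fun e' he' => ?_)
    obtain ⟨a1, a2⟩ := mem_filter.1 he'
    obtain ⟨b1, b2, b3, b4⟩ := mem_filter.1 a1
    refine mem_filter.2 ⟨b1, ⟨b2, b3⟩, mem_filter.2 ⟨mem_child.2 ?_, ?_⟩⟩
    · rw [X_div D (h1.trans h2) hκ3]; exact b4
    · rw [X_div D h2 hκ3]
      exact mem_filter.2 ⟨mem_child.2 ((X_div D h1 hκh e').trans b4), a2⟩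
  have hD : ∑ y ∈ Y, |D.nA u3 e.1 (D.part e.2) y / nA - D.nC u3 lab y / n| ≤ δ :=
    (sum_le_sum_of_subset_of_nonneg (filter_subset _ _) fun i _ _ => abs_nonneg _).trans hd
  have hE : ∑ y ∈ Y, D.nA u3 e.1 (D.part e.2) y / nA ≤ ∑ y ∈ Y, D.nC u3 lab y / n + δ := by
    have : ∑ y ∈ Y, D.nA u3 e.1 (D.part e.2) y / nA - ∑ y ∈ Y, D.nC u3 lab y / n ≤ δ := by
      rw [← sum_sub_distrib]
      exact (sum_le_sum fun i _ => le_abs_self _).trans hD
    linarith
  rw [← sum_div, ← sum_div] at hE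
  have hF : (∑ y ∈ Y, D.nC u3 lab y) / n ≤ 2 * s' + 3 * α := by
    rw [div_le_iff₀ npos]; linarith
  have hG : ∑ y ∈ Y, D.nA u3 e.1 (D.part e.2) y ≤ (2 * s' + 3 * α + δ) * nA := by
    rw [← div_le_iff₀ apos]; linarith
  exact hA.trans hG

end Vale.Agent.P065U
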