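import Vale.Agent.P065U.DefsC

/-! P065U: few keys are linked with many points. -/

namespace Vale.Agent.P065U

open Classical Finset

/-- Markov inequality over the fibres of a map -/
theorem Crowd_markov {α ι : Type} [DecidableEq ι] (Ω B : Finset α) (k : α → ι) (W : α → Prop)
    [DecidablePred W] (t : ℝ) (hB : B ⊆ Ω) (ht : 0 ≤ t)
    (h : ∀ e ∈ B, t * ((Ω.filter fun e' => k e' = k e).card : ℝ) ≤
      ((Ω.filter fun e' => k e' = k e).filter W).card) :
    t * (B.card : ℝ) ≤ (Ω.filter W).card := by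
  have h1 : (B.card : ℝ) = ∑ i ∈ B.image k, ((B.filter fun e => k e = i).card : ℝ) := by
    exact_mod_cast card_eq_sum_card_image k B
  have h2 : ∑ i ∈ B.image k, (((Ω.filter W).filter fun e => k e = i).card : ℝ) ≤
      (Ω.filter W).card := by
    have := sum_card_fiberwise_eq_card_filter (Ω.filter W) (B.image k) k
    exact_mod_cast this.trans_le (card_filter_le _ _)
  rw [h1, mul_sum]
  refine le_trans (sum_le_sum fun i hi => ?_) h2
  obtain ⟨e, he, rfl⟩ := mem_image.1 hi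
  have h3 : ((B.filter fun e' => k e' = k e).card : ℝ) ≤ (Ω.filter fun e' => k e' = k e).card :=
    Nat.cast_le.2 (card_le_card (filter_subset_filter _ hB))
  rw [filter_comm]
  exact (mul_le_mul_of_nonneg_left h3 ht).trans (h e he)

/-- points of the cell of `b` seen from `b` in the window `x` -/
noncomputable def Crowd_qB (D : Dat) (u : ℕ) (b : Pt) (x : ℕ) : Finset Pt :=
  D.P.filter fun a' => D.cell a' = D.cell b ∧ D.inW u x (slope a' b)

theorem Crowd_inW {D : Dat} (hc : StrictMono D.c) {u x x' : ℕ} {θ : ℝ} (h : D.inW u x θ)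
    (h' : D.inW u x' θ) : x = x' := by
  have key : ∀ y y' : ℕ, D.inW u y θ → D.inW u y' θ → ¬ y < y' := fun y y' a b hlt => by
    have : D.cut u (y + 1) ≤ D.cut u y' := hc.monotone (Nat.mul_le_mul_right _ hlt)
    linarith [a.2, b.1]
  exact le_antisymm (not_lt.1 (key _ _ h' h)) (not_lt.1 (key _ _ h h'))

theorem Crowd_sum {c2 C m M T D} (h : Sys c2 C m M T D) (u : ℕ) (b : Pt) (Y : Finset ℕ) :
    ∑ x ∈ Y, ((Crowd_qB D u b x).card : ℝ) ≤ C * D.d 0 := by
  refine le_trans ?_ (h.cellsz (D.cell b))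
  have hd : ((Y : Set ℕ)).PairwiseDisjoint (Crowd_qB D u b) := fun x _ x' _ hne =>
    disjoint_left.2 fun z hz hz' =>
      hne (Crowd_inW h.cmono (mem_filter.1 hz).2.2 (mem_filter.1 hz').2.2)
  rw [← Nat.cast_sum, ← card_biUnion hd]
  refine Nat.cast_le.2 (card_le_card fun z hz => ?_)
  obtain ⟨x, -, hx⟩ := mem_biUnion.1 hz
  exact mem_filter.2 ⟨(mem_filter.1 hx).1, (mem_filter.1 hx).2.1⟩

theorem Crowd_dpos {c2 C m M T D} (h : Sys c2 C m M T D) (u : ℕ) : 0 < D.d u := by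
  have : (0 : ℝ) < D.P.card := Nat.cast_pos.2 h.npos
  unfold Dat.d Dd
  positivity

theorem Crowd_Z (D : Dat) : (D.P.card : ℝ) * D.d 0 = D.Z := by
  unfold Dat.d Dd Dat.Z Zz
  ring

/-- the number of crowded edges -/
theorem Crowd_count {c2 C m M T D} (h : Sys c2 C m M T D) {u : ℕ} (hu : u ≤ T) {β Λ : ℝ}
    (hβ : 0 < β) (hβ1 : β ≤ 1) (hΛ : 0 < Λ) :
    ((D.Ω.filter fun e => Λ * D.d u < (Crowd_qB D u e.2 (D.X u e)).card).card : ℝ) ≤
      (C * (C / β ^ 5) / Λ + β) * D.Z := by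
  obtain ⟨Iv, -, hI, hπ⟩ := h.loc u hu
  obtain ⟨π, hπ1, hπ2⟩ := hπ β hβ hβ1
  have hd := Crowd_dpos h u
  have hC : 0 ≤ C / β ^ 5 := by have := h.Cge; positivity
  obtain ⟨G, hG⟩ : ∃ G, G = D.Ω.filter fun e => Λ * D.d u < (Crowd_qB D u e.2 (D.X u e)).card ∧
      π (D.X u e) e.1 = π (D.X u e) e.2 := ⟨_, rfl⟩
  have hGm : ∀ e ∈ G, e ∈ D.Ω ∧ Λ * D.d u < (Crowd_qB D u e.2 (D.X u e)).card ∧
      π (D.X u e) e.1 = π (D.X u e) e.2 := fun e he => by
    rw [hG] at he
    exact mem_filter.1 he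
  have hb : ∀ b ∈ D.P, ((G.filter fun e => e.2 = b).card : ℝ) ≤
      C * (C / β ^ 5) / Λ * D.d 0 := by
    intro b _
    obtain ⟨F, hF⟩ : ∃ F, F = G.filter fun e => e.2 = b := ⟨_, rfl⟩
    rw [← hF]
    have hFm : ∀ e ∈ F, e ∈ G ∧ e.2 = b := fun e he => by
      rw [hF] at he
      exact mem_filter.1 he
    have h1 : (F.card : ℝ) = ∑ x ∈ F.image (D.X u), ((F.filter fun e => D.X u e = x).card : ℝ) := by
      exact_mod_cast card_eq_sum_card_image (D.X u) F
    have h2 : ∀ x ∈ F.image (D.X u), ((F.filter fun e => D.X u e = x).card : ℝ) ≤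
        C / β ^ 5 / Λ * (Crowd_qB D u b x).card := by
      intro x hx
      obtain ⟨e0, he0, rfl⟩ := mem_image.1 hx
      have h3 : ((F.filter fun e => D.X u e = D.X u e0).card : ℝ) ≤
          ((Iv (D.X u e0)).filter fun z => π (D.X u e0) z = π (D.X u e0) b).card := by
        refine Nat.cast_le.2 (card_le_card_of_injOn Prod.fst (fun e he => ?_) fun e he e' he' hh => ?_)
        · obtain ⟨a1, a2⟩ := mem_filter.1 (mem_coe.1 he)
          obtain ⟨a3, a4⟩ := hFm e a1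
          obtain ⟨a5, -, a6⟩ := hGm e a3
          rw [a2, a4] at a6
          exact mem_coe.2 (mem_filter.2 ⟨a2 ▸ (hI e a5).1, a6⟩)
        · exact Prod.ext hh ((hFm e (mem_filter.1 (mem_coe.1 he)).1).2.trans
            (hFm e' (mem_filter.1 (mem_coe.1 he')).1).2.symm)
      have h4 := (hGm e0 (hFm e0 he0).1).2.1
      rw [(hFm e0 he0).2] at h4
      refine (h3.trans (hπ1 _ _)).trans ?_
      rw [div_mul_eq_mul_div (C / β ^ 5) Λ, le_div_iff₀ hΛ, mul_assoc]
      exact mul_le_mul_of_nonneg_left (by linarith) hC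
    rw [h1]
    refine (sum_le_sum h2).trans ?_
    rw [← mul_sum]
    refine (mul_le_mul_of_nonneg_left (Crowd_sum h u b _) (div_nonneg hC hΛ.le)).trans_eq ?_
    ring
  have hG1 : (G.card : ℝ) ≤ C * (C / β ^ 5) / Λ * D.Z := by
    have h1 : (G.card : ℝ) = ∑ b ∈ D.P, ((G.filter fun e => e.2 = b).card : ℝ) := by
      exact_mod_cast card_eq_sum_card_fiberwise (f := Prod.snd) (s := G) (t := D.P)
        fun e he => (h.mem e (hGm e he).1).2.1
    rw [h1]
    refine (sum_le_sum hb).trans_eq ?_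
    rw [sum_const, nsmul_eq_mul, ← Crowd_Z]
    ring
  have hsub : (D.Ω.filter fun e => Λ * D.d u < (Crowd_qB D u e.2 (D.X u e)).card) ⊆
      G ∪ D.Ω.filter fun e => π (D.X u e) e.1 ≠ π (D.X u e) e.2 := by
    intro e he
    obtain ⟨a1, a2⟩ := mem_filter.1 he
    by_cases hh : π (D.X u e) e.1 = π (D.X u e) e.2
    · exact mem_union_left _ (hG ▸ mem_filter.2 ⟨a1, a2, hh⟩)
    · exact mem_union_right _ (mem_filter.2 ⟨a1, hh⟩)
  have h5 : ((D.Ω.filter fun e => Λ * D.d u < (Crowd_qB D u e.2 (D.X u e)).card).card : ℝ) ≤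
      G.card + (D.Ω.filter fun e => π (D.X u e) e.1 ≠ π (D.X u e) e.2).card := by
    exact_mod_cast (card_le_card hsub).trans (card_union_le _ _)
  linarith

/-- a key with few crowded edges is linked with few points -/
theorem Crowd_key {c2 C m M T D} (h : Sys c2 C m M T D) (u u2 : ℕ) {Λ s : ℝ} (hΛ : 0 < Λ)
    (hs : 0 < s) (a : Pt) (j x : ℕ) (hne : (D.key u a j x).Nonempty)
    (hw : (((D.key u a j x).filter fun e =>
      Λ * D.d u2 < (Crowd_qB D u2 e.2 (D.X u2 e)).card).card : ℝ) ≤ s / 2 * D.nA u a j x) :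
    ((D.Zs u u2 s a j x).card : ℝ) ≤ 2 * Λ * D.d u2 / s := by
  have hd := Crowd_dpos h u2
  have hn : 0 < D.nA u a j x := Nat.cast_pos.2 hne.card_pos
  obtain ⟨N, hN⟩ : ∃ N, N = (D.key u a j x).filter fun e =>
      ¬ Λ * D.d u2 < (Crowd_qB D u2 e.2 (D.X u2 e)).card := ⟨_, rfl⟩
  have hNm : ∀ e ∈ N, e ∈ D.key u a j x ∧
      ¬ Λ * D.d u2 < (Crowd_qB D u2 e.2 (D.X u2 e)).card := fun e he => by
    rw [hN] at he
    exact mem_filter.1 he
  have h1 : ∀ a' ∈ D.Zs u u2 s a j x, s / 2 * D.nA u a j x ≤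
      ((N.filter fun e => D.inW u2 (D.X u2 e) (slope a' e.2)).card : ℝ) := by
    intro a' ha'
    have h2 : s * D.nA u a j x < D.lk u u2 a j x a' := (mem_filter.1 ha').2.2
    have hsub : ((D.key u a j x).filter fun e => D.inW u2 (D.X u2 e) (slope a' e.2)) ⊆
        (N.filter fun e => D.inW u2 (D.X u2 e) (slope a' e.2)) ∪ (D.key u a j x).filter fun e =>
          Λ * D.d u2 < (Crowd_qB D u2 e.2 (D.X u2 e)).card := by
      intro e he
      obtain ⟨a1, a2⟩ := mem_filter.1 he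
      by_cases hh : Λ * D.d u2 < (Crowd_qB D u2 e.2 (D.X u2 e)).card
      · exact mem_union_right _ (mem_filter.2 ⟨a1, hh⟩)
      · exact mem_union_left _ (mem_filter.2 ⟨hN ▸ mem_filter.2 ⟨a1, hh⟩, a2⟩)
    have h3 : D.lk u u2 a j x a' ≤ ((N.filter fun e => D.inW u2 (D.X u2 e) (slope a' e.2)).card : ℝ) +
        ((D.key u a j x).filter fun e =>
          Λ * D.d u2 < (Crowd_qB D u2 e.2 (D.X u2 e)).card).card := by
      unfold Dat.lk
      exact_mod_cast (card_le_card hsub).trans (card_union_le _ _)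
    linarith
  have h2 : ∀ e ∈ N, (((D.Zs u u2 s a j x).filter fun a' =>
      D.inW u2 (D.X u2 e) (slope a' e.2)).card : ℝ) ≤ Λ * D.d u2 := by
    intro e he
    obtain ⟨a1, a2⟩ := hNm e he
    refine le_trans (Nat.cast_le.2 (card_le_card fun a' ha' => ?_)) (not_lt.1 a2)
    obtain ⟨b1, b2⟩ := mem_filter.1 ha'
    obtain ⟨b3, b4, -⟩ := mem_filter.1 b1
    obtain ⟨c1, c2, -⟩ := mem_filter.1 a1
    refine mem_filter.2 ⟨b3, ?_, b2⟩
    rw [b4, ← c2]
    exact (h.mem e c1).2.2.2.1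
  have h3 : ∑ a' ∈ D.Zs u u2 s a j x,
      ((N.filter fun e => D.inW u2 (D.X u2 e) (slope a' e.2)).card : ℝ) =
      ∑ e ∈ N, (((D.Zs u u2 s a j x).filter fun a' =>
        D.inW u2 (D.X u2 e) (slope a' e.2)).card : ℝ) := by
    exact_mod_cast sum_card_bipartiteAbove_eq_sum_card_bipartiteBelow
      (s := D.Zs u u2 s a j x) (t := N) fun a' e => D.inW u2 (D.X u2 e) (slope a' e.2)
  have h4 := sum_le_sum h1
  have h5 := sum_le_sum h2
  rw [sum_const, nsmul_eq_mul] at h4 h5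
  have h6 : (N.card : ℝ) ≤ D.nA u a j x := Nat.cast_le.2 (hN ▸ card_filter_le _ _)
  have h7 := mul_le_mul_of_nonneg_right h6 (mul_pos hΛ hd).le
  rw [le_div_iff₀ hs]
  refine le_of_mul_le_mul_right ?_ hn
  linarith

theorem crowd : StmCrowd := by
  intro c2 C m M T D h u u2 _ hu2 β Λ s hβ hβ1 hΛ hs
  have h1 := Crowd_count h hu2 hβ hβ1 hΛ
  have h2 := Crowd_markov D.Ω (D.Ω.filter fun e => 2 * Λ * D.d u2 / s <
      (D.Zs u u2 s e.1 (D.part e.2) (D.X u e)).card) (fun e => (e.1, D.part e.2, D.X u e))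
    (fun e => Λ * D.d u2 < (Crowd_qB D u2 e.2 (D.X u2 e)).card) (s / 2) (filter_subset _ _)
    (by positivity) fun e he => by
      obtain ⟨a1, a2⟩ := mem_filter.1 he
      have e1 : (D.Ω.filter fun e' => (e'.1, D.part e'.2, D.X u e') = (e.1, D.part e.2, D.X u e)) =
          D.key u e.1 (D.part e.2) (D.X u e) := by
        unfold Dat.key
        simp only [Prod.mk.injEq]
      rw [e1]
      by_contra hc
      exact absurd a2 (not_lt.2 (Crowd_key h u u2 hΛ hs _ _ _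
        ⟨e, mem_filter.2 ⟨a1, rfl, rfl, rfl⟩⟩ (not_le.1 hc).le))
  have h3 := mul_le_mul_of_nonneg_left (h2.trans h1) (by positivity : 0 ≤ 2 / s)
  rwa [← mul_assoc, ← mul_assoc, show 2 / s * (s / 2) = 1 by field_simp, one_mul] at h3

end Vale.Agent.P065U
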