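import Vale.Agent.P065U.DefsB

/-! P065U: few edges are shallow in their cell. -/

namespace Vale.Agent.P065U

open Classical Finset

namespace DeepAux

/-- four-cycles of a relation -/
noncomputable def C4 {α : Type} (Q : Finset α) (R : Finset (α × α)) :
    Finset ((α × α) × (α × α)) :=
  ((Q ×ˢ Q) ×ˢ (Q ×ˢ Q)).filter fun t =>
    (t.2.1, t.1.1) ∈ R ∧ (t.2.1, t.1.2) ∈ R ∧ (t.2.2, t.1.1) ∈ R ∧ (t.2.2, t.1.2) ∈ R

theorem c4_low {α : Type} (Q : Finset α) (R : Finset (α × α)) (hR : R ⊆ Q ×ˢ Q) :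
    (R.card : ℝ) ^ 4 ≤ (Q.card : ℝ) ^ 4 * (C4 Q R).card := by
  set r : α → α → ℝ := fun p q => if (p, q) ∈ R then 1 else 0 with hr
  have h1 : (R.card : ℝ) = ∑ p ∈ Q, ∑ q ∈ Q, r p q := by
    rw [← sum_product' (f := r), ← sum_filter, sum_const, nsmul_eq_mul, mul_one,
      filter_mem_eq_inter, inter_eq_right.2 hR]
  have h2 : ∑ p ∈ Q, (∑ q ∈ Q, r p q) ^ 2 = ∑ w ∈ Q ×ˢ Q, ∑ p ∈ Q, r p w.1 * r p w.2 := by
    rw [sum_comm]
    refine sum_congr rfl fun p _ => ?_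
    rw [sq, sum_mul_sum, sum_product]
  have h3 : ∑ w ∈ Q ×ˢ Q, (∑ p ∈ Q, r p w.1 * r p w.2) ^ 2 = (C4 Q R).card := by
    unfold C4
    rw [card_filter, sum_product (Q ×ˢ Q) (Q ×ˢ Q)]
    push_cast
    refine sum_congr rfl fun w _ => ?_
    rw [sq, sum_mul_sum, sum_product]
    refine sum_congr rfl fun p _ => sum_congr rfl fun p' _ => ?_
    simp only [hr]
    by_cases a1 : (p, w.1) ∈ R <;> by_cases a2 : (p, w.2) ∈ R <;> by_cases a3 : (p', w.1) ∈ R <;>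
      by_cases a4 : (p', w.2) ∈ R <;> simp [a1, a2, a3, a4]
  have h4 := sq_sum_le_card_mul_sum_sq (s := Q) (f := fun p => ∑ q ∈ Q, r p q)
  have h5 := sq_sum_le_card_mul_sum_sq (s := Q ×ˢ Q) (f := fun w => ∑ p ∈ Q, r p w.1 * r p w.2)
  rw [← h1, h2] at h4
  rw [h3, card_product] at h5
  push_cast at h5
  calc (R.card : ℝ) ^ 4 = ((R.card : ℝ) ^ 2) ^ 2 := by ring
    _ ≤ ((Q.card : ℝ) * ∑ w ∈ Q ×ˢ Q, ∑ p ∈ Q, r p w.1 * r p w.2) ^ 2 :=
      pow_le_pow_left₀ (sq_nonneg _) h4 2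
    _ = (Q.card : ℝ) ^ 2 * (∑ w ∈ Q ×ˢ Q, ∑ p ∈ Q, r p w.1 * r p w.2) ^ 2 := by ring
    _ ≤ (Q.card : ℝ) ^ 2 * ((Q.card : ℝ) * Q.card * (C4 Q R).card) :=
      mul_le_mul_of_nonneg_left h5 (sq_nonneg _)
    _ = _ := by ring

/-- four-cycles whose first edge is not later than its two neighbours -/
noncomputable def Cm {α : Type} (R : Finset (α × α)) (st : α × α → ℕ) :
    Finset ((α × α) × (α × α)) :=
  (R ×ˢ R).filter fun t => (t.1.1, t.2.2) ∈ R ∧ (t.2.1, t.1.2) ∈ R ∧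
    st t.1 ≤ st (t.1.1, t.2.2) ∧ st t.1 ≤ st (t.2.1, t.1.2)

theorem c4_up {α : Type} (Q : Finset α) (R : Finset (α × α)) (st : α × α → ℕ) :
    (C4 Q R).card ≤ 4 * (Cm R st).card := by
  have hs : C4 Q R ⊆ (Cm R st).image (fun t => ((t.1.2, t.2.2), (t.1.1, t.2.1))) ∪
      (Cm R st).image (fun t => ((t.2.2, t.1.2), (t.1.1, t.2.1))) ∪
      (Cm R st).image (fun t => ((t.1.2, t.2.2), (t.2.1, t.1.1))) ∪
      (Cm R st).image (fun t => ((t.2.2, t.1.2), (t.2.1, t.1.1))) := by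
    rintro ⟨⟨q, q'⟩, p, p'⟩ ht
    obtain ⟨-, a1, a2, a3, a4⟩ := mem_filter.1 ht
    simp only [mem_union, mem_image, Cm, mem_filter, mem_product]
    dsimp only at a1 a2 a3 a4
    have hm : (st (p, q) ≤ st (p, q') ∧ st (p, q) ≤ st (p', q)) ∨
        (st (p, q') ≤ st (p, q) ∧ st (p, q') ≤ st (p', q')) ∨
        (st (p', q) ≤ st (p', q') ∧ st (p', q) ≤ st (p, q)) ∨
        (st (p', q') ≤ st (p', q) ∧ st (p', q') ≤ st (p, q')) := by omega
    rcases hm with h | h | h | h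
    · exact Or.inl (Or.inl (Or.inl ⟨((p, q), (p', q')), ⟨⟨a1, a4⟩, a2, a3, h⟩, rfl⟩))
    · exact Or.inl (Or.inl (Or.inr ⟨((p, q'), (p', q)), ⟨⟨a2, a3⟩, a1, a4, h⟩, rfl⟩))
    · exact Or.inl (Or.inr ⟨((p', q), (p, q')), ⟨⟨a3, a2⟩, a4, a1, h⟩, rfl⟩)
    · exact Or.inr ⟨((p', q'), (p, q)), ⟨⟨a4, a1⟩, a3, a2, h⟩, rfl⟩
  refine (card_le_card hs).trans ?_
  refine (card_union_le _ _).trans ?_
  refine (Nat.add_le_add ((card_union_le _ _).trans (Nat.add_le_add ((card_union_le _ _).trans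
    (Nat.add_le_add card_image_le card_image_le)) card_image_le)) card_image_le).trans ?_
  omega

theorem cm_up {α : Type} (R : Finset (α × α)) (st : α × α → ℕ) (y : ℝ)
    (hy : ∀ x ∈ R, ∃ T : Finset (α × α), (T.card : ℝ) ≤ y ∧ ∀ z ∈ R, (x.1, z.2) ∈ R →
      (z.1, x.2) ∈ R → st x ≤ st (x.1, z.2) → st x ≤ st (z.1, x.2) → z ∈ T) :
    ((Cm R st).card : ℝ) ≤ R.card * y := by
  have h : (Cm R st).card = ∑ x ∈ R, (R.filter fun z => (x.1, z.2) ∈ R ∧ (z.1, x.2) ∈ R ∧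
      st x ≤ st (x.1, z.2) ∧ st x ≤ st (z.1, x.2)).card := by
    unfold Cm
    rw [card_filter, sum_product]
    exact sum_congr rfl fun x _ => (card_filter _ _).symm
  rw [h]
  push_cast
  rw [← nsmul_eq_mul, ← sum_const]
  refine sum_le_sum fun x hx => ?_
  obtain ⟨T, h1, h2⟩ := hy x hx
  refine le_trans (Nat.cast_le.2 (card_le_card fun z hz => ?_)) h1
  obtain ⟨c0, c1, c2, c3, c4⟩ := mem_filter.1 hz
  exact h2 z c0 c1 c2 c3 c4

theorem abs_bound {α : Type} (Q : Finset α) (R : Finset (α × α)) (hR : R ⊆ Q ×ˢ Q)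
    (st : α × α → ℕ) (y : ℝ) (hy0 : 0 ≤ y)
    (hy : ∀ x ∈ R, ∃ T : Finset (α × α), (T.card : ℝ) ≤ y ∧ ∀ z ∈ R, (x.1, z.2) ∈ R →
      (z.1, x.2) ∈ R → st x ≤ st (x.1, z.2) → st x ≤ st (z.1, x.2) → z ∈ T) :
    (R.card : ℝ) ^ 3 ≤ (Q.card : ℝ) ^ 4 * (4 * y) := by
  rcases Nat.eq_zero_or_pos R.card with h0 | h0
  · rw [h0]
    simp only [Nat.cast_zero, ne_eq, OfNat.ofNat_ne_zero, not_false_eq_true, zero_pow]
    positivity
  have h1 := c4_low Q R hR
  have h2 : ((C4 Q R).card : ℝ) ≤ 4 * (Cm R st).card := by exact_mod_cast c4_up Q R st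
  have h3 := cm_up R st y hy
  have h4 : (0 : ℝ) < R.card := by exact_mod_cast h0
  refine le_of_mul_le_mul_right ?_ h4
  calc (R.card : ℝ) ^ 3 * R.card = (R.card : ℝ) ^ 4 := by ring
    _ ≤ (Q.card : ℝ) ^ 4 * (4 * (R.card * y)) :=
      h1.trans (mul_le_mul_of_nonneg_left (by linarith) (by positivity))
    _ = _ := by ring

/-- the step of a pair -/
noncomputable def stp (H : Finset (ℕ × Pt × Pt)) (x : Pt × Pt) : ℕ :=
  if h : ∃ l, (l, x) ∈ H then h.choose else 0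

theorem stp_eq {P τ S V I L E a} (h : Cfg P τ S V) (hb : Bic S V I L E a) {e}
    (he : e ∈ edges I L E) : (stp (edges I L E) e.2, e.2) = e := by
  have hx : ∃ l, (l, e.2) ∈ edges I L E := ⟨e.1, he⟩
  unfold stp
  rw [dif_pos hx]
  exact hb.edge_inj h hx.choose_spec he rfl

theorem later {P τ S V I L E a} (h : Cfg P τ S V) (hb : Bic S V I L E a) {e}
    (he : e ∈ edges I L E) {l : ℕ} (hl : l ≤ e.1) (h2 : e.2.2 ∈ S l) : e.2.1 ∈ S l := by
  obtain ⟨a1, -, -, a4, -, a6, a7, -⟩ := hb.edge h he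
  by_contra hn
  have b1 := h.low l (hl.trans a1.le) _ h2 _ a4 hn
  have b2 := val_sub a6.ne (τ l)
  have b3 := h.mono l e.1 hl a1.le
  have b4 : 0 < (slope e.2.1 e.2.2 - τ l) * (e.2.2.1 - e.2.1.1) :=
    mul_pos (by linarith) (sub_pos.2 a6)
  linarith

theorem cell_bound {P τ S V I L E a} (h : Cfg P τ S V) (hb : Bic S V I L E a)
    (π : Pt → ℕ × ℕ) (g : ℝ) (hg : 0 ≤ g) (lab : ℕ × ℕ) :
    (((edges I L E).filter fun e => π e.2.1 = lab ∧ π e.2.2 = lab ∧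
      (sepC (edges I L E) π S lab (e.1 + 1) : ℝ) < g).card : ℝ) ^ 3 ≤
      ((P.filter fun z => π z = lab).card : ℝ) ^ 4 *
        (4 * (g + 2 * a * (P.filter fun z => π z = lab).card)) := by
  set F := (edges I L E).filter fun e => π e.2.1 = lab ∧ π e.2.2 = lab ∧
    (sepC (edges I L E) π S lab (e.1 + 1) : ℝ) < g with hF
  set Q := P.filter fun z => π z = lab with hQ
  have hcard : (F.image Prod.snd).card = F.card :=
    card_image_of_injOn fun e he e' he' h2 =>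
      hb.edge_inj h (mem_filter.1 he).1 (mem_filter.1 he').1 h2
  have hmem : ∀ x ∈ F.image Prod.snd, (stp (edges I L E) x, x) ∈ F := by
    intro x hx
    obtain ⟨e, he, rfl⟩ := mem_image.1 hx
    rw [stp_eq h hb (mem_filter.1 he).1]
    exact he
  have hsub : F.image Prod.snd ⊆ Q ×ˢ Q := by
    intro x hx
    obtain ⟨a1, a2, a3, -⟩ := mem_filter.1 (hmem x hx)
    obtain ⟨-, -, -, b1, b2, -⟩ := hb.edge h a1
    exact mem_product.2 ⟨mem_filter.2 ⟨b1, a2⟩, mem_filter.2 ⟨b2, a3⟩⟩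
  rw [← hcard]
  refine abs_bound Q _ hsub (stp (edges I L E)) _ (by positivity) fun x hx => ?_
  obtain ⟨a1, -, -, a4⟩ := mem_filter.1 (hmem x hx)
  dsimp only at a4
  set l := stp (edges I L E) x with hl
  have hI : l ∈ I := (mem_edges.1 a1).1
  obtain ⟨-, b2, b3, -⟩ := hb.edge h a1
  refine ⟨((edges I L E).filter fun e => π e.2.1 = lab ∧ π e.2.2 = lab ∧
    ¬ (e.2.1 ∈ S (l + 1) ↔ e.2.2 ∈ S (l + 1))).image Prod.snd ∪ Q ×ˢ E l ∪ L l ×ˢ Q, ?_, ?_⟩
  · have hc : (((edges I L E).filter fun e => π e.2.1 = lab ∧ π e.2.2 = lab ∧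
        ¬ (e.2.1 ∈ S (l + 1) ↔ e.2.2 ∈ S (l + 1))).image Prod.snd ∪ Q ×ˢ E l ∪ L l ×ˢ Q).card ≤
        sepC (edges I L E) π S lab (l + 1) + (Q ×ˢ E l).card + (L l ×ˢ Q).card :=
      (card_union_le _ _).trans
        (Nat.add_le_add_right ((card_union_le _ _).trans (Nat.add_le_add_right card_image_le _)) _)
    rw [card_product, card_product, hb.cardL l hI, hb.cardE l hI] at hc
    refine (Nat.cast_le.2 hc).trans ?_
    push_cast
    linarith
  · intro z c0 c1 c2 c3 c4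
    have d1 := (mem_filter.1 (hmem _ c1)).1
    have d2 := (mem_filter.1 (hmem _ c2)).1
    have d3 := mem_product.1 (hsub c0)
    rw [mem_union, mem_union]
    rcases c3.eq_or_lt with c3 | c3
    · refine Or.inl (Or.inr (mem_product.2 ⟨d3.1, ?_⟩))
      rw [c3]
      exact (mem_edges.1 d1).2.2
    rcases c4.eq_or_lt with c4 | c4
    · refine Or.inr (mem_product.2 ⟨?_, d3.2⟩)
      rw [c4]
      exact (mem_edges.1 d2).2.1
    have e1 : z.2 ∉ S (l + 1) := fun hz2 => (mem_sdiff.1 b2).2 (later h hb d1 c3 hz2)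
    have e2 : z.1 ∈ S (l + 1) := later h hb d2 c4 (mem_sdiff.1 b3).1
    obtain ⟨f1, f2, f3, -⟩ := mem_filter.1 (hmem z c0)
    exact Or.inl (Or.inl (mem_image.2 ⟨_, mem_filter.2 ⟨f1, f2, f3, fun hi => e1 (hi.1 e2)⟩, rfl⟩))

end DeepAux

open DeepAux in
theorem deep : StmDeep := by
  intro P τ S V I L E a h hb π n0 g hn hg
  have hw : (0 : ℝ) ≤ n0 * (4 * g + 8 * a * n0) := by positivity
  obtain ⟨Y, hY0, hY⟩ : ∃ Y : ℝ, 0 ≤ Y ∧ Y ^ 3 = n0 * (4 * g + 8 * a * n0) :=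
    ⟨_, Real.rpow_nonneg hw _, Real.rpow_inv_natCast_pow hw (by norm_num : (3 : ℕ) ≠ 0)⟩
  have h1 : ∀ lab, (((edges I L E).filter fun e => π e.2.1 = lab ∧ π e.2.2 = lab ∧
      (sepC (edges I L E) π S lab (e.1 + 1) : ℝ) < g).card : ℝ) ≤
      (P.filter fun z => π z = lab).card * Y := by
    intro lab
    refine le_of_pow_le_pow_left₀ (n := 3) (by norm_num) (by positivity) ?_
    refine (cell_bound h hb π g hg lab).trans ?_
    have h2 : ((P.filter fun z => π z = lab).card : ℝ) ≤ n0 := by exact_mod_cast hn lab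
    rw [mul_pow, hY, pow_succ, mul_assoc]
    refine mul_le_mul_of_nonneg_left ?_ (by positivity)
    refine mul_le_mul h2 ?_ (by positivity) (by positivity)
    have : (a : ℝ) * (P.filter fun z => π z = lab).card ≤ a * n0 :=
      mul_le_mul_of_nonneg_left h2 (by positivity)
    linarith
  have h2 : ((edges I L E).filter fun e => π e.2.1 = π e.2.2 ∧
      (sepC (edges I L E) π S (π e.2.1) (e.1 + 1) : ℝ) < g) ⊆
      (P.image π).biUnion fun lab => (edges I L E).filter fun e => π e.2.1 = lab ∧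
        π e.2.2 = lab ∧ (sepC (edges I L E) π S lab (e.1 + 1) : ℝ) < g := by
    intro e he
    obtain ⟨a1, a2, a3⟩ := mem_filter.1 he
    exact mem_biUnion.2 ⟨π e.2.1, mem_image_of_mem _ (hb.edge h a1).2.2.2.1,
      mem_filter.2 ⟨a1, rfl, a2.symm, a3⟩⟩
  have h3 : (((edges I L E).filter fun e => π e.2.1 = π e.2.2 ∧
      (sepC (edges I L E) π S (π e.2.1) (e.1 + 1) : ℝ) < g).card : ℝ) ≤ P.card * Y := by
    refine (Nat.cast_le.2 ((card_le_card h2).trans card_biUnion_le)).trans ?_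
    push_cast
    refine (sum_le_sum fun lab _ => h1 lab).trans ?_
    rw [← sum_mul, card_eq_sum_card_image π P]
    push_cast
    exact le_rfl
  calc _ ≤ ((P.card : ℝ) * Y) ^ 3 := pow_le_pow_left₀ (by positivity) h3 3
    _ = _ := by rw [mul_pow, hY]; ring

end Vale.Agent.P065U
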