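import Vale.Agent.P065.Defs

/-! P065 upper bound (power saving over Dey): definitions and interface statements, part A. -/

namespace Vale.Agent.P065U

open Classical Finset

abbrev Pt := ℝ × ℝ

noncomputable section

def val (t : ℝ) (p : Pt) : ℝ := p.2 - t * p.1

def slope (p q : Pt) : ℝ := (q.2 - p.2) / (q.1 - p.1)

/-- distinct abscissae, no three points on a line -/
structure Good (P : Finset Pt) : Prop where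
  xinj : Set.InjOn Prod.fst (P : Set Pt)
  gen : ∀ p ∈ P, ∀ q ∈ P, ∀ r ∈ P, p ≠ q → p ≠ r → q ≠ r → slope p q ≠ slope p r

/-- a sweep: `S l` is the set of the `k` lowest points in direction `τ l`, for `l ≤ V` -/
structure Cfg (P : Finset Pt) (τ : ℕ → ℝ) (S : ℕ → Finset Pt) (V : ℕ) : Prop where
  good : Good P
  mono : ∀ l l', l ≤ l' → l' ≤ V → τ l ≤ τ l'
  sub : ∀ l ≤ V, S l ⊆ P
  card : ∀ l ≤ V, (S l).card = (S 0).card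
  low : ∀ l ≤ V, ∀ p ∈ S l, ∀ q ∈ P, q ∉ S l → val (τ l) p < val (τ l) q
  gen : ∀ l ≤ V, Set.InjOn (val (τ l)) (P : Set Pt)

/-- points whose status is not constant on the index range `[i, j]` -/
def inv (S : ℕ → Finset Pt) (i j : ℕ) : Finset Pt :=
  ((Icc i j).biUnion S).filter fun p => ∃ l ∈ Icc i j, p ∉ S l

/-- `n` index windows with disjoint interiors -/
structure Win (lo hi : ℕ → ℕ) (n V : ℕ) : Prop where
  le : ∀ i < n, lo i ≤ hi i ∧ hi i ≤ V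
  sep : ∀ i j, i < j → j < n → hi i ≤ lo j

/-- bicliques of size `a` at the steps in `I` -/
structure Bic (S : ℕ → Finset Pt) (V : ℕ) (I : Finset ℕ) (L E : ℕ → Finset Pt) (a : ℕ) :
    Prop where
  lt : ∀ l ∈ I, l < V
  subL : ∀ l ∈ I, L l ⊆ S l \ S (l + 1)
  subE : ∀ l ∈ I, E l ⊆ S (l + 1) \ S l
  cardL : ∀ l ∈ I, (L l).card = a
  cardE : ∀ l ∈ I, (E l).card = a

/-- edges `(step, leaving point, entering point)` -/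
def edges (I : Finset ℕ) (L E : ℕ → Finset Pt) : Finset (ℕ × Pt × Pt) :=
  I.biUnion fun l => (L l ×ˢ E l).image fun e => (l, e)

theorem mem_edges {I : Finset ℕ} {L E : ℕ → Finset Pt} {e : ℕ × Pt × Pt} :
    e ∈ edges I L E ↔ e.1 ∈ I ∧ e.2.1 ∈ L e.1 ∧ e.2.2 ∈ E e.1 := by
  simp only [edges, mem_biUnion, mem_image, mem_product]
  constructor
  · rintro ⟨l', h, x, ⟨h1, h2⟩, rfl⟩
    exact ⟨h, h1, h2⟩
  · rintro ⟨h, h1, h2⟩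
    exact ⟨e.1, h, e.2, ⟨h1, h2⟩, rfl⟩

/-- height of the line through the edge at abscissa `x` -/
def ht (e : ℕ × Pt × Pt) (x : ℝ) : ℝ := e.2.1.2 + slope e.2.1 e.2.2 * (x - e.2.1.1)

def StmPot : Prop :=
  ∀ (P : Finset Pt) (S : ℕ → Finset Pt) (T : ℕ → Pt → Prop) (l0 l1 : ℕ),
    (∀ l ≤ l1, S l ⊆ P) → (∀ l ≤ l1, (S l).card = (S 0).card) →
    (∀ l, l0 ≤ l → l + 1 < l1 → ∀ z, T (l + 1) z → T l z) →
    (∀ l, l0 ≤ l → l < l1 → ∀ p ∈ S l \ S (l + 1), ∀ q ∈ S (l + 1) \ S l, T l p → T l q) →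
    ∑ l ∈ Ico l0 l1, min ((S l \ S (l + 1)).filter fun p => ¬ T l p).card
      ((S (l + 1) \ S l).filter (T l)).card ≤ 2 * P.card

def StmSep : Prop :=
  ∀ P τ S V I L E a, Cfg P τ S V → Bic S V I L E a → ∀ l ≤ V,
    ((edges I L E).filter fun e => ¬ (e.2.1 ∈ S l ↔ e.2.2 ∈ S l)).card ≤ 4 * P.card * a

def StmChains : Prop :=
  ∀ P τ S V I L E a, Cfg P τ S V → Bic S V I L E a →
    ∃ (Ch : Finset (ℕ × Pt)) (u : ℕ × Pt → ℕ → Pt), Ch.card ≤ a * P.card ∧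
      (∀ γ ∈ Ch, ∀ l ≤ V, u γ l ∈ S l) ∧
      (∀ γ ∈ Ch, ∀ l < V, u γ (l + 1) = u γ l ∨
        (u γ l ∈ S l \ S (l + 1) ∧ u γ (l + 1) ∈ S (l + 1) \ S l)) ∧
      (∀ e ∈ edges I L E, ∃ γ ∈ Ch, u γ e.1 = e.2.1 ∧ u γ (e.1 + 1) = e.2.2) ∧
      (∀ l < V, (Ch.filter fun γ => u γ (l + 1) ≠ u γ l).card ≤ a * (S l \ S (l + 1)).card)

def StmH : Prop :=
  ∀ P τ S V I L E a, Cfg P τ S V → Bic S V I L E a →
    ∃ (h : Pt → ℕ) (sp : ℕ × Pt × Pt → ℕ),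
      ∑ e ∈ edges I L E, sp e ≤ 5 * P.card ^ 2 * a ^ 2 ∧
      (∀ e ∈ edges I L E, ∀ x, e.2.1.1 ≤ x → x ≤ e.2.2.1 →
        h (x, ht e x) ≤ h e.2.1 + sp e ∧ h e.2.1 ≤ h (x, ht e x) + sp e) ∧
      (∀ x y y', y ≤ y' → h (x, y) + ((edges I L E).filter fun e =>
        e.2.1.1 < x ∧ x < e.2.2.1 ∧ y < ht e x ∧ ht e x ≤ y').card ≤ h (x, y'))

def StmCell : Prop :=
  ∀ P τ S V I L E a, Cfg P τ S V → Bic S V I L E a → ∀ r n0 : ℕ, 1 ≤ r → 1 ≤ n0 →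
    ∃ π : Pt → ℕ × ℕ, (∀ lab, (P.filter fun z => π z = lab).card ≤ n0) ∧
      (((edges I L E).filter fun e => π e.2.1 ≠ π e.2.2).card : ℝ) ≤
        10 * (P.card : ℝ) ^ 2 * (a : ℝ) ^ 2 / r + 3 * r * P.card / n0

def NetBound (c : ℝ) (K0 : ℕ) : Prop :=
  ∀ P τ S (K a : ℕ), Cfg P τ S (2 * K) → K0 ≤ K → 1 ≤ a →
    (∀ i < K, a ≤ (S (2 * i) \ S (2 * i + 1)).card) →
    (K : ℝ) ^ 3 * (a : ℝ) ^ 4 ≤ c * (P.card : ℝ) ^ 4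

def NetBoundW (c : ℝ) (K0 : ℕ) : Prop :=
  ∀ P τ S V lo hi (n a : ℕ), Cfg P τ S V → Win lo hi n V → K0 ≤ n → 1 ≤ a →
    (∀ i < n, a ≤ (S (lo i) \ S (hi i)).card) →
    (n : ℝ) ^ 3 * (a : ℝ) ^ 4 ≤ c * (P.card : ℝ) ^ 4

def InvBound (c : ℝ) (K0 : ℕ) : Prop :=
  ∀ P τ S V lo hi (n a : ℕ), Cfg P τ S V → Win lo hi n V → K0 ≤ n → 1 ≤ a →
    (∀ i < n, a ≤ (inv S (lo i) (hi i)).card) →
    (n : ℝ) ^ 3 * (a : ℝ) ^ 4 ≤ c * (P.card : ℝ) ^ 4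

def StmDey : Prop := ∃ c, 0 < c ∧ NetBound c 0

def StmNetW : Prop := ∀ c K0, NetBound c K0 → NetBoundW c K0

def StmReuse : Prop :=
  ∀ P τ S V lo hi (n a b i0 i1 : ℕ), Cfg P τ S V → Win lo hi n V → i1 ≤ V →
    (∀ i < n, i0 ≤ lo i ∧ hi i ≤ i1) → (∀ l, i0 ≤ l → l ≤ i1 → (S i0 \ S l).card < b) →
    (∀ i < n, a ≤ (inv S (lo i) (hi i)).card) → n * a ≤ (inv S i0 i1).card + 10 * b * n

def StmBlocks : Prop :=
  ∀ P τ S V lo hi (n a : ℕ), Cfg P τ S V → Win lo hi n V → 1 ≤ a →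
    (∀ i < n, a ≤ (inv S (lo i) (hi i)).card) →
    ∃ (g b : ℕ) (blo bhi lo' hi' cnt : ℕ → ℕ), Win blo bhi (g + 1) V ∧ Win lo' hi' g V ∧
      1 ≤ b ∧ a ≤ 40 * b ∧ (∀ i < g, b ≤ (S (lo' i) \ S (hi' i)).card) ∧
      n ≤ g + ∑ i ∈ range (g + 1), cnt i ∧
      ∀ i ≤ g, cnt i * a ≤ 2 * (inv S (blo i) (bhi i)).card

def StmInv1 : Prop := ∀ c, 0 < c → NetBoundW c 0 → ∃ c', 0 < c' ∧ InvBound c' 0

def StmInv2 : Prop :=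
  ∀ c, 0 < c → InvBound c 0 → (∀ c', 0 < c' → ∃ K0, NetBoundW c' K0) →
    ∀ c', 0 < c' → ∃ K0, InvBound c' K0

def changes (S : ℕ → Finset Pt) (V : ℕ) : ℕ := ((range V).filter fun l => S l ≠ S (l + 1)).card

def ChangeBound (ε C : ℝ) : Prop :=
  ∀ P τ S V, Cfg P τ S V → (changes S V : ℝ) ≤ C * (P.card : ℝ) ^ (4 / 3 - ε)

def SlabBound (ε C : ℝ) : Prop :=
  ∀ P τ S V, Cfg P τ S V → 2 * (S 0).card ≤ P.card →
    (changes S V : ℝ) ≤ C * P.card * (((S 0).card : ℝ) + 1) ^ (1 / 3 - ε)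

def StmRestrict : Prop :=
  ∀ P τ S V (i j : ℕ), Cfg P τ S V → i ≤ j → j ≤ V →
    Cfg (inv S i j) (fun l => τ (i + l)) (fun l => S (i + l) ∩ inv S i j) (j - i) ∧
      ∀ l l', i ≤ l → l ≤ j → i ≤ l' → l' ≤ j → S l \ S l' ⊆ inv S i j

def StmRec : Prop :=
  (∀ c, 0 < c → ∃ K0, InvBound c K0) → ∃ ε C : ℝ, 0 < ε ∧ ε < 1 / 3 ∧ 0 < C ∧ ChangeBound ε C

def StmSlab : Prop :=
  ∀ ε C : ℝ, 0 < ε → ε < 1 / 3 → 0 < C → ChangeBound ε C → ∃ C', 0 < C' ∧ SlabBound ε C'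

def StmKsets : Prop :=
  ∀ ε C : ℝ, 0 < ε → ε < 1 / 3 → 0 < C → SlabBound ε C → ∃ C', 0 < C' ∧
    ∀ (P : Finset Pt) (k : ℕ), Good P → 1 ≤ k → 2 * k ≤ P.card →
      (P065.kSets P k : ℝ) ≤ C' * P.card * ((k : ℝ) + 1) ^ (1 / 3 - ε)

def StmHalv : Prop :=
  ∀ ε C : ℝ, ChangeBound ε C → ∀ P : Finset Pt, Good P → Even P.card →
    (P065.halvingLines P : ℝ) ≤ C * (P.card : ℝ) ^ (4 / 3 - ε)

def StmShear : Prop :=
  ∀ P : Finset Pt, P065.GenPos P → ∃ Q : Finset Pt, Good Q ∧ Q.card = P.card ∧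
    P065.halvingLines P ≤ P065.halvingLines Q ∧ ∀ k, P065.kSets P k ≤ P065.kSets Q k

end

end Vale.Agent.P065U
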