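import Vale.Agent.P065U.Basic

/-! P065U: definitions and interface statements, part B (tight configurations). -/

namespace Vale.Agent.P065U

open Classical Finset

noncomputable section

def evens (K : ℕ) : Finset ℕ := (range K).image fun i => 2 * i

def blk (κ u i : ℕ) : ℕ := i / 16 ^ (κ - u)

def Dd (N κ u : ℕ) : ℝ := N / (4 ^ κ * 2 ^ u)

def Zz (N κ : ℕ) : ℝ := (N : ℝ) ^ 2 / 4 ^ κ

def invW (S : ℕ → Finset Pt) (κ u x : ℕ) : Finset Pt :=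
  inv S (2 * (x * 16 ^ (κ - u))) (2 * ((x + 1) * 16 ^ (κ - u)))

def StmFinv : Prop :=
  ∀ Γ, 0 < Γ → InvBound Γ 0 → ∃ C : ℝ, 1 ≤ C ∧ ∀ P τ S V lo hi (u : ℕ), Cfg P τ S V →
    Win lo hi (16 ^ u) V →
    ∑ i ∈ range (16 ^ u), ((inv S (lo i) (hi i)).card : ℝ) ≤ C * 2 ^ u * P.card

def StmLoc : Prop :=
  ∀ Γ, 0 < Γ → InvBound Γ 0 → ∀ A : ℝ, 0 < A → ∃ C : ℝ, 1 ≤ C ∧
    ∀ P τ S (κ : ℕ) L E (a : ℕ), Cfg P τ S (2 * 16 ^ κ) →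
      Bic S (2 * 16 ^ κ) (evens (16 ^ κ)) L E a → 1 ≤ a →
      (a : ℝ) ^ 2 ≤ A * ((P.card : ℝ) / 8 ^ κ) ^ 2 → ∀ u ≤ κ, ∀ β : ℝ, 0 < β → β ≤ 1 →
      ∃ π : ℕ → Pt → ℕ × ℕ,
        (∀ x < 16 ^ u, ∀ lab, (((invW S κ u x).filter fun z => π x z = lab).card : ℝ) ≤
          C / β ^ 5 * Dd P.card κ u) ∧
        (((edges (evens (16 ^ κ)) L E).filter fun e =>
          π (blk κ u (e.1 / 2)) e.2.1 ≠ π (blk κ u (e.1 / 2)) e.2.2).card : ℝ) ≤ β * Zz P.card κ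

/-- edges inside the cell `lab` separated by `S l` -/
def sepC (H : Finset (ℕ × Pt × Pt)) (π : Pt → ℕ × ℕ) (S : ℕ → Finset Pt) (lab : ℕ × ℕ) (l : ℕ) :
    ℕ :=
  (H.filter fun e => π e.2.1 = lab ∧ π e.2.2 = lab ∧ ¬ (e.2.1 ∈ S l ↔ e.2.2 ∈ S l)).card

def StmDeep : Prop :=
  ∀ P τ S V I L E a, Cfg P τ S V → Bic S V I L E a → ∀ (π : Pt → ℕ × ℕ) (n0 : ℕ) (g : ℝ),
    (∀ lab, (P.filter fun z => π z = lab).card ≤ n0) → 0 ≤ g →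
    (((edges I L E).filter fun e => π e.2.1 = π e.2.2 ∧
      (sepC (edges I L E) π S (π e.2.1) (e.1 + 1) : ℝ) < g).card : ℝ) ^ 3 ≤
      (P.card : ℝ) ^ 3 * n0 * (4 * g + 8 * a * n0)

def StmTouch : Prop :=
  ∀ P τ S V I L E a, Cfg P τ S V → Bic S V I L E a → ∀ (π : Pt → ℕ × ℕ) (n0 : ℕ) (g : ℝ),
    (∀ lab, (P.filter fun z => π z = lab).card ≤ n0) → 0 < g → ∀ l0 l1, l0 ≤ l1 → l1 ≤ V →
    ((((edges I L E).filter fun e => π e.2.1 = π e.2.2 ∧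
      g ≤ (sepC (edges I L E) π S (π e.2.1) (e.1 + 1) : ℝ) ∧ l0 ≤ e.1 ∧ e.1 < l1).image
        fun e => π e.2.1).card : ℝ) ≤
      8 * P.card * a / g + 4 * n0 * (inv S l0 l1).card / g

/-- the part of `q` is thin seen from `a`, and lies on the side `σ` of `a` -/
def Thin (P : Finset Pt) (cell : Pt → ℕ × ℕ) (part : Pt → ℕ) (M : ℕ) (σ : ℝ) (a q : Pt) : Prop :=
  ∀ b ∈ P, ∀ b' ∈ P, cell b = cell q → part b = part q → cell b' = cell q → part b' = part q →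
    M * |b.1 - b'.1| ≤ σ * (b.1 - a.1)

def StmThin : Prop :=
  ∀ (P : Finset Pt) (π : Pt → ℕ × ℕ) (n0 m M : ℕ), Set.InjOn Prod.fst (P : Set Pt) → 1 ≤ m →
    (∀ lab, (P.filter fun z => π z = lab).card ≤ n0) →
    ∃ part : Pt → ℕ, (∀ z ∈ P, part z < m) ∧
      ((P ×ˢ P).filter fun e => π e.1 = π e.2 ∧ e.1.1 < e.2.1 ∧
        ¬ Thin P π part M 1 e.1 e.2 ∧ ¬ Thin P π part M (-1) e.2 e.1).card ≤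
        (2 * M + 1) * P.card * (n0 / m + 1)

/-- data of an oriented edge system -/
structure Dat where
  P : Finset Pt
  κ : ℕ
  c : ℕ → ℝ
  Ω : Finset (Pt × Pt)
  st : Pt × Pt → ℕ
  cell : Pt → ℕ × ℕ
  part : Pt → ℕ
  σ : ℝ

namespace Dat

variable (D : Dat)

def X (u : ℕ) (e : Pt × Pt) : ℕ := blk D.κ u (D.st e)
def cut (u x : ℕ) : ℝ := D.c (x * 16 ^ (D.κ - u))
def inW (u x : ℕ) (θ : ℝ) : Prop := D.cut u x < θ ∧ θ < D.cut u (x + 1)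
def d (u : ℕ) : ℝ := Dd D.P.card D.κ u
def Z : ℝ := Zz D.P.card D.κ
def nC (u : ℕ) (lab : ℕ × ℕ) (x : ℕ) : ℝ :=
  (D.Ω.filter fun e => D.cell e.1 = lab ∧ D.X u e = x).card
def key (u : ℕ) (a : Pt) (j x : ℕ) : Finset (Pt × Pt) :=
  D.Ω.filter fun e => e.1 = a ∧ D.part e.2 = j ∧ D.X u e = x
def nA (u : ℕ) (a : Pt) (j x : ℕ) : ℝ := (D.key u a j x).card
def Bp (a : Pt) (j : ℕ) : Finset Pt := D.P.filter fun b => D.cell b = D.cell a ∧ D.part b = j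
def qA (u : ℕ) (a : Pt) (j x : ℕ) : ℝ := ((D.Bp a j).filter fun b => D.inW u x (slope a b)).card

end Dat

def child (u u' x : ℕ) : Finset ℕ := Ico (x * 16 ^ (u' - u)) ((x + 1) * 16 ^ (u' - u))

namespace Dat

variable (D : Dat)

def nCe (u : ℕ) (e : Pt × Pt) : ℝ := D.nC u (D.cell e.1) (D.X u e)
def nAe (u : ℕ) (e : Pt × Pt) : ℝ := D.nA u e.1 (D.part e.2) (D.X u e)
def qAe (u : ℕ) (e : Pt × Pt) : ℝ := D.qA u e.1 (D.part e.2) (D.X u e)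
def keye (u : ℕ) (e : Pt × Pt) : Finset (Pt × Pt) := D.key u e.1 (D.part e.2) (D.X u e)
def dist1 (u u' : ℕ) (e : Pt × Pt) : ℝ := ∑ x ∈ child u u' (D.X u e),
  |D.nA u' e.1 (D.part e.2) x / D.nAe u e - D.qA u' e.1 (D.part e.2) x / D.qAe u e|
def dist2 (u u' : ℕ) (e : Pt × Pt) : ℝ := ∑ x ∈ child u u' (D.X u e),
  |D.nA u' e.1 (D.part e.2) x / D.nAe u e - D.nC u' (D.cell e.1) x / D.nCe u e|
/-- edges of the key of `e` linked with `a'` at level `u2` -/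
def lk (u u2 : ℕ) (a : Pt) (j x : ℕ) (a' : Pt) : ℝ :=
  ((D.key u a j x).filter fun e' => D.inW u2 (D.X u2 e') (slope a' e'.2)).card
/-- mass of the level `u'` windows of the knot of `e` with index in `(x1, x2)` -/
def btw (u' : ℕ) (lab : ℕ × ℕ) (x1 x2 : ℕ) : ℝ := ∑ x ∈ Ioo x1 x2, D.nC u' lab x
def lft (u u' : ℕ) (e : Pt × Pt) : ℝ :=
  ∑ x ∈ (child u u' (D.X u e)).filter fun x => x < D.X u' e, D.nC u' (D.cell e.1) x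
def rgt (u u' : ℕ) (e : Pt × Pt) : ℝ :=
  ∑ x ∈ (child u u' (D.X u e)).filter fun x => D.X u' e < x, D.nC u' (D.cell e.1) x
def atoms (u u' : ℕ) (α : ℝ) (e : Pt × Pt) : Prop :=
  ∀ x ∈ child u u' (D.X u e), D.nC u' (D.cell e.1) x ≤ α * D.nCe u e
def cuts (u u' x : ℕ) : Finset ℝ :=
  (Icc (x * 16 ^ (u' - u)) ((x + 1) * 16 ^ (u' - u))).image (D.cut u')

end Dat

structure Sys (c2 C : ℝ) (m M T : ℕ) (D : Dat) : Prop where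
  c2pos : 0 < c2
  Cge : 1 ≤ C
  mge : 1 ≤ m
  Mge : 1 ≤ M
  Tle : T ≤ D.κ
  good : Good D.P
  npos : 0 < D.P.card
  sgn : D.σ = 1 ∨ D.σ = -1
  cmono : StrictMono D.c
  cgen : ∀ i ≤ 16 ^ D.κ, ∀ p ∈ D.P, ∀ q ∈ D.P, p ≠ q → slope p q ≠ D.c i
  mem : ∀ e ∈ D.Ω, e.1 ∈ D.P ∧ e.2 ∈ D.P ∧ e.1 ≠ e.2 ∧ D.cell e.1 = D.cell e.2 ∧
    D.st e < 16 ^ D.κ ∧ D.c (D.st e) < slope e.1 e.2 ∧ slope e.1 e.2 < D.c (D.st e + 1)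
  step : ∀ i, ((D.Ω.filter fun e => D.st e = i).card : ℝ) ≤ C * ((D.P.card : ℝ) / 8 ^ D.κ) ^ 2
  big : c2 * D.Z ≤ D.Ω.card
  cellsz : ∀ lab, ((D.P.filter fun z => D.cell z = lab).card : ℝ) ≤ C * D.d 0
  plt : ∀ z ∈ D.P, D.part z < m
  thin : ∀ e ∈ D.Ω, Thin D.P D.cell D.part M D.σ e.1 e.2
  touch : ∀ u ≤ T, ((D.Ω.image fun e => (D.cell e.1, D.X u e)).card : ℝ) ≤ C * 2 ^ u * 4 ^ D.κ
  loc : ∀ u ≤ T, ∃ Iv : ℕ → Finset Pt,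
    ∑ x ∈ range (16 ^ u), ((Iv x).card : ℝ) ≤ C * 2 ^ u * D.P.card ∧
    (∀ e ∈ D.Ω, e.1 ∈ Iv (D.X u e) ∧ e.2 ∈ Iv (D.X u e)) ∧
    ∀ β : ℝ, 0 < β → β ≤ 1 → ∃ π : ℕ → Pt → ℕ × ℕ,
      (∀ x lab, (((Iv x).filter fun z => π x z = lab).card : ℝ) ≤ C / β ^ 5 * D.d u) ∧
      ((D.Ω.filter fun e => π (D.X u e) e.1 ≠ π (D.X u e) e.2).card : ℝ) ≤ β * D.Z
  degT : ∀ e ∈ D.Ω,
    ((D.Ω.filter fun e' => e'.1 = e.1 ∧ D.X T e' = D.X T e).card : ℝ) ≤ C * D.d T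

/-- the selected edges before orientation -/
structure Pre (c2 C : ℝ) (m M T κ : ℕ) (P : Finset Pt) (L E : ℕ → Finset Pt)
    (cell : Pt → ℕ × ℕ) (part : Pt → ℕ) (Ω : Finset (ℕ × Pt × Pt)) (σ : ℝ) : Prop where
  sub : Ω ⊆ edges (evens (16 ^ κ)) L E
  sgn : σ = 1 ∨ σ = -1
  big : c2 * Zz P.card κ ≤ Ω.card
  same : ∀ e ∈ Ω, cell e.2.1 = cell e.2.2
  cellsz : ∀ lab, ((P.filter fun z => cell z = lab).card : ℝ) ≤ C * Dd P.card κ 0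
  plt : ∀ z ∈ P, part z < m
  thin : ∀ e ∈ Ω, (σ = 1 → Thin P cell part M 1 e.2.1 e.2.2) ∧
    (σ = -1 → Thin P cell part M (-1) e.2.2 e.2.1)
  touch : ∀ u ≤ T, ((Ω.image fun e => (cell e.2.1, blk κ u (e.1 / 2))).card : ℝ) ≤
    C * 2 ^ u * 4 ^ κ
  degT : ∀ e ∈ Ω,
    ((Ω.filter fun e' => e'.2.1 = e.2.1 ∧ blk κ T (e'.1 / 2) = blk κ T (e.1 / 2)).card : ℝ) ≤
      C * Dd P.card κ T ∧
    ((Ω.filter fun e' => e'.2.2 = e.2.2 ∧ blk κ T (e'.1 / 2) = blk κ T (e.1 / 2)).card : ℝ) ≤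
      C * Dd P.card κ T

def StmPre : Prop :=
  ∀ Γ, 0 < Γ → InvBound Γ 0 → ∀ A1 A2 : ℝ, 0 < A1 → 0 < A2 → ∃ c2 C0 : ℝ, 0 < c2 ∧ 1 ≤ C0 ∧
    ∀ M : ℕ, 1 ≤ M → ∃ m : ℕ, 1 ≤ m ∧ ∀ T : ℕ, ∃ κ0, T ≤ κ0 ∧ ∀ κ, κ0 ≤ κ →
      ∀ P τ S L E (a : ℕ), Cfg P τ S (2 * 16 ^ κ) → Bic S (2 * 16 ^ κ) (evens (16 ^ κ)) L E a →
        1 ≤ a → A1 * ((P.card : ℝ) / 8 ^ κ) ^ 2 ≤ (a : ℝ) ^ 2 →
        (a : ℝ) ^ 2 ≤ A2 * ((P.card : ℝ) / 8 ^ κ) ^ 2 →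
        ∃ cell part Ω σ, ∀ C, C0 ≤ C → Pre c2 C m M T κ P L E cell part Ω σ

def StmPack : Prop :=
  ∀ (c2 C : ℝ) (m M T κ : ℕ) P τ S L E (a : ℕ) cell part Ω σ, 0 < c2 → 1 ≤ C → 1 ≤ m → 1 ≤ M →
    T ≤ κ → Cfg P τ S (2 * 16 ^ κ) → Bic S (2 * 16 ^ κ) (evens (16 ^ κ)) L E a → 1 ≤ a →
    (a : ℝ) ^ 2 ≤ C * ((P.card : ℝ) / 8 ^ κ) ^ 2 → Pre c2 C m M T κ P L E cell part Ω σ →
    (∀ u ≤ T, ∑ x ∈ range (16 ^ u), ((invW S κ u x).card : ℝ) ≤ C * 2 ^ u * P.card) →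
    (∀ u ≤ T, ∀ β : ℝ, 0 < β → β ≤ 1 → ∃ π : ℕ → Pt → ℕ × ℕ,
      (∀ x < 16 ^ u, ∀ lab, (((invW S κ u x).filter fun z => π x z = lab).card : ℝ) ≤
        C / β ^ 5 * Dd P.card κ u) ∧
      (((edges (evens (16 ^ κ)) L E).filter fun e =>
        π (blk κ u (e.1 / 2)) e.2.1 ≠ π (blk κ u (e.1 / 2)) e.2.2).card : ℝ) ≤ β * Zz P.card κ) →
    ∃ D, Sys c2 C m M T D

def StmSysOf : Prop :=
  ∀ c : ℝ, 0 < c → ∃ c2 C : ℝ, 0 < c2 ∧ 1 ≤ C ∧ ∀ M : ℕ, 1 ≤ M → ∃ m : ℕ, 1 ≤ m ∧ ∀ T : ℕ,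
    ∃ K0 : ℕ, ∀ P τ S (K a : ℕ), Cfg P τ S (2 * K) → K0 ≤ K → 1 ≤ a →
      (∀ i < K, a ≤ (S (2 * i) \ S (2 * i + 1)).card) →
      c * (P.card : ℝ) ^ 4 < (K : ℝ) ^ 3 * (a : ℝ) ^ 4 → ∃ D, Sys c2 C m M T D

def StmSysFalse : Prop :=
  ∀ c2 C : ℝ, 0 < c2 → 1 ≤ C → ∃ M : ℕ, 1 ≤ M ∧ ∀ m : ℕ, 1 ≤ m → ∃ T : ℕ,
    ∀ D, ¬ Sys c2 C m M T D

def StmKL : Prop :=
  ∀ (J : Finset ℕ) (p q : ℕ → ℝ) (n Q : ℝ), (∀ j ∈ J, 0 ≤ p j ∧ 0 ≤ q j ∧ (0 < p j → 0 < q j)) →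
    ∑ j ∈ J, p j = n → 0 < n → ∑ j ∈ J, q j ≤ Q → 0 < Q →
    n * (∑ j ∈ J, |p j / n - q j / Q|) ^ 2 / 4 ≤
      ∑ j ∈ J, p j * Real.log (p j / q j) - n * Real.log (n / Q)

def StmJen : Prop :=
  ∀ (ι : Type) (Ω : Finset (Pt × Pt)) (k : Pt × Pt → ι) (w : ι → ℝ) (W : ℝ), Ω.Nonempty →
    (∀ e ∈ Ω, 0 < w (k e)) → ∑ i ∈ Ω.image k, w i ≤ W →
    ∑ e ∈ Ω, Real.log (w (k e) / (Ω.filter fun e' => k e' = k e).card) ≤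
      Ω.card * Real.log (W / Ω.card)

def StmEnt : Prop :=
  ∀ c2 C m M T D, Sys c2 C m M T D → ∀ s n : ℕ, 1 ≤ n → s * n ≤ T → ∃ u, u + s ≤ T ∧
    ∑ e ∈ D.Ω, (D.dist1 u (u + s) e ^ 2 + D.dist2 u (u + s) e ^ 2) ≤
      4 * D.Ω.card * Real.log (C ^ 5 * m / c2 ^ 3) / n

end

end Vale.Agent.P065U
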