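import Vale.Agent.P065U.DefsB

/-! P065U: interface statements, part C (bad events, local lemma). -/

namespace Vale.Agent.P065U

open Classical Finset

noncomputable section

def StmLight : Prop :=
  ∀ c2 C m M T D, Sys c2 C m M T D → ∀ u u', u ≤ u' → u' ≤ T → ∀ ε s : ℝ, 0 ≤ ε → 0 < s →
    ((D.Ω.filter fun e => D.nCe u' e < ε * D.d 0 * D.d u').card : ℝ) ≤ C * ε * D.Z ∧
    ((D.Ω.filter fun e => s * D.nCe u e < ∑ x ∈ (child u u' (D.X u e)).filter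
      (fun x => D.nC u' (D.cell e.1) x < ε * D.d 0 * D.d u'), D.nC u' (D.cell e.1) x).card : ℝ) ≤
      C * ε * D.Z / s

def StmHeavy : Prop :=
  ∀ c2 C m M T D, Sys c2 C m M T D → ∀ u u', u ≤ u' → u' ≤ T → ∀ β α : ℝ, 0 < β → β ≤ 1 → 0 < α →
    ((D.Ω.filter fun e => ∃ x ∈ child u u' (D.X u e),
      2 * C * (C / β ^ 5) * D.d 0 * D.d u' ≤ D.nC u' (D.cell e.1) x ∧
      α * D.nCe u e ≤ D.nC u' (D.cell e.1) x).card : ℝ) ≤ 2 * β * D.Z / α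

def StmRatio : Prop :=
  ∀ c2 C m M T D, Sys c2 C m M T D → ∀ u ≤ T, ∀ Λ : ℝ, 0 < Λ →
    ((D.Ω.filter fun e => Λ * D.nAe u e < D.qAe u e).card : ℝ) ≤ C * D.Z / Λ

def StmQuant : Prop :=
  ∀ c2 C m M T D, Sys c2 C m M T D → ∀ u u', u ≤ u' → u' ≤ T → ∀ s' α : ℝ, 0 ≤ s' → 0 ≤ α →
    ((D.Ω.filter fun e => D.atoms u u' α e ∧
      (D.lft u u' e < s' * D.nCe u e ∨ D.rgt u u' e < s' * D.nCe u e)).card : ℝ) ≤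
      2 * (s' + α) * D.Ω.card

def StmBtw : Prop :=
  ∀ c2 C m M T D, Sys c2 C m M T D → ∀ u uh u3, u ≤ uh → uh ≤ u3 → u3 ≤ T →
    ∀ s' α δ : ℝ, 0 ≤ s' → 0 ≤ α → ∀ e ∈ D.Ω, D.atoms u uh α e → D.dist2 u u3 e ≤ δ →
    (((D.keye u e).filter fun e' => D.btw uh (D.cell e.1) (D.X uh e) (D.X uh e') +
      D.btw uh (D.cell e.1) (D.X uh e') (D.X uh e) < s' * D.nCe u e).card : ℝ) ≤
      (2 * s' + 3 * α + δ) * D.nAe u e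

/-- the window `(α, β)` is short inside `(v, v')` for all reference measures -/
def NonExc (O : Finset ℝ) (i0 : ℕ) (E v v' α β : ℝ) : Prop :=
  E * (β - α) < v' - v ∧
  (∀ o, (o ∈ O ∨ ∃ n ≤ i0, o = v - (v' - v) / 2 ^ n) → o < v →
    E * Real.log ((β - o) / (α - o)) < Real.log ((v' - o) / (v - o))) ∧
  (∀ o, (o ∈ O ∨ ∃ n ≤ i0, o = v' + (v' - v) / 2 ^ n) → v' < o →
    E * Real.log ((o - α) / (o - β)) < Real.log ((o - v) / (o - v')))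

def StmExc0 : Prop :=
  ∀ (y : ℕ → ℝ) (n0 n i0 : ℕ) (O : Finset ℝ) (E : ℝ), StrictMono y → 0 < E →
    (((Ico n0 (n0 + n)).filter fun i =>
      ¬ NonExc O i0 E (y n0) (y (n0 + n)) (y i) (y (i + 1))).card : ℝ) ≤
      E * (1 + 2 * (O.card + i0 + 1))

def Dat.nonExc (D : Dat) (u uh u1 i0 : ℕ) (E : ℝ) (e : Pt × Pt) : Prop :=
  NonExc (D.cuts u uh (D.X u e)) i0 E (D.cut uh (D.X uh e)) (D.cut uh (D.X uh e + 1))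
    (D.cut u1 (D.X u1 e)) (D.cut u1 (D.X u1 e + 1))

def StmExc : Prop :=
  ∀ c2 C m M T D, Sys c2 C m M T D → ∀ u uh u1 i0, u ≤ uh → uh ≤ u1 → u1 ≤ T → ∀ E : ℝ, 0 < E →
    ((D.Ω.filter fun e => ¬ D.nonExc u uh u1 i0 E e).card : ℝ) ≤
      C * D.Z * (E * (1 + 2 * (16 ^ (uh - u) + 1 + i0 + 1))) / 16 ^ (u1 - uh)

/-- points of the cell of `a` that are linked with `a` at level `u2` -/
def Dat.Zs (D : Dat) (u u2 : ℕ) (s : ℝ) (a : Pt) (j x : ℕ) : Finset Pt :=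
  D.P.filter fun a' => D.cell a' = D.cell a ∧ s * D.nA u a j x < D.lk u u2 a j x a'

def StmCrowd : Prop :=
  ∀ c2 C m M T D, Sys c2 C m M T D → ∀ u u2, u ≤ u2 → u2 ≤ T → ∀ β Λ s : ℝ, 0 < β → β ≤ 1 →
    0 < Λ → 0 < s →
    ((D.Ω.filter fun e => 2 * Λ * D.d u2 / s <
      (D.Zs u u2 s e.1 (D.part e.2) (D.X u e)).card).card : ℝ) ≤
      2 / s * (C * (C / β ^ 5) / Λ + β) * D.Z

def StmPair : Prop :=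
  ∀ c2 C m M T D, Sys c2 C m M T D → ∀ u u1, u ≤ u1 → u1 ≤ T →
    ∀ (β ε nU z0 γ γ' : ℝ) (Gd : Pt × Pt → Prop) (Bc : Pt × Pt → Pt × Pt → Prop)
      (Hv : ℕ × ℕ → ℕ → Finset ℕ) (Zs : Pt → ℕ → ℕ → Finset Pt),
      0 < β → β ≤ 1 → 0 < ε → 0 ≤ z0 → 0 ≤ γ' →
      ((D.Ω.filter fun e => ¬ Gd e).card : ℝ) ≤ γ * D.Z →
      (∀ e ∈ D.Ω, Gd e → D.X u1 e ∈ Hv (D.cell e.1) (D.X u e) ∧
        ((Hv (D.cell e.1) (D.X u e)).card : ℝ) ≤ nU ∧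
        ((Zs e.1 (D.part e.2) (D.X u e)).card : ℝ) ≤ z0 ∧
        (((D.keye u e).filter (Bc e)).card : ℝ) ≤ γ' * D.nAe u e) →
      (2 * z0 + 1) * nU ^ 2 * (C * 2 ^ u * D.P.card) / ε +
        (3 * β + 2 * γ + 2 * ε * C * (C / β ^ 5)) * D.Z + 2 * γ' * D.Ω.card < D.Ω.card →
      ∃ a a' b1 b2, a ≠ a' ∧ ((a, b1) ∈ D.Ω ∧ (a, b2) ∈ D.Ω ∧ (a', b1) ∈ D.Ω ∧ (a', b2) ∈ D.Ω) ∧
        (Gd (a, b1) ∧ Gd (a, b2) ∧ Gd (a', b1) ∧ Gd (a', b2)) ∧ D.part b2 = D.part b1 ∧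
        (D.X u (a, b2) = D.X u (a, b1) ∧ D.X u1 (a', b1) = D.X u1 (a, b1) ∧
          D.X u1 (a', b2) = D.X u1 (a, b2)) ∧ ¬ Bc (a, b1) (a, b2) ∧
        a' ∉ Zs a (D.part b1) (D.X u (a, b1)) ∧ a ∉ Zs a' (D.part b1) (D.X u (a, b1))

/-- number of `b ∈ B` with `ϑ b ∈ I` -/
def cnt (B : Finset Pt) (ϑ : Pt → ℝ) (I : Set ℝ) : ℝ := (B.filter fun b => ϑ b ∈ I).card

/-- union of the open intervals of a family -/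
def uni (U : Finset (ℝ × ℝ)) : Set ℝ := {y | ∃ w ∈ U, w.1 < y ∧ y < w.2}

def StmOrb : Prop :=
  ∀ (B : Finset Pt) (ζ : Pt → ℝ) (Δ φ z0 z1 q err : ℝ), 0 < Δ → 0 ≤ φ → 0 < q → 0 ≤ err →
    (∀ x y, z0 ≤ x → x ≤ y → y + Δ + φ ≤ z1 →
      cnt B ζ (Set.Icc x y) / q ≤ cnt B ζ (Set.Icc (x + Δ) (y + Δ + φ)) / q + err) →
    ∀ (x y γ : ℝ) (n : ℕ), z0 ≤ x → x ≤ y → 1 ≤ n → n * φ ≤ Δ → y + n * (Δ + φ) ≤ γ → γ ≤ z1 →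
      cnt B ζ (Set.Icc x y) / q ≤ ((y - x) / Δ + 2) * (cnt B ζ (Set.Icc x γ) / q) / n + n * err

def StmT : Prop :=
  ∀ (B N : Finset Pt) (ζs ζt : Pt → ℝ) (Δ φ z0 z1 qs qt nN err s0 s Λ : ℝ) (nU K J : ℕ)
    (U : Finset (ℝ × ℝ)), 0 < Δ → 0 ≤ φ → 0 < qt → qt ≤ qs → 0 < nN → 0 ≤ err → 0 ≤ s0 → 0 ≤ s →
    (∀ b ∈ B, Δ ≤ ζt b - ζs b ∧ ζt b - ζs b ≤ Δ + φ) →
    (∀ x y, z0 ≤ x → y ≤ z1 →
      cnt B ζt (Set.Icc x y) / qt ≤ cnt B ζs (Set.Icc x y) / qs + err) →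
    cnt B ζt (Set.Icc z0 z1) ≤ qt →
    (∀ w ∈ U, z0 ≤ w.1 ∧ w.1 < w.2 ∧ w.2 ≤ z1 ∧ ∀ b ∈ B, ζt b ≠ w.1 ∧ ζt b ≠ w.2) →
    (∀ w ∈ U, ∀ w' ∈ U, w ≠ w' → w.2 ≤ w'.1 ∨ w'.2 ≤ w.1) → U.card ≤ nU →
    cnt B ζt (Set.Icc z0 z1 \ uni U) ≤ s0 * qt → N ⊆ B → qt ≤ Λ * nN →
    (∀ U' ⊆ U, cnt B ζt (uni U') / qt ≤ cnt N ζt (uni U') / nN + err) →
    ((N.filter fun b => ∃ w ∈ U, w.1 < ζt b ∧ ζt b < w.2 ∧ w.1 < ζs b ∧ ζs b < w.2).card : ℝ) ≤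
      s * nN →
    1 ≤ K → 1 ≤ J → (K + 1) * φ ≤ Δ → J * φ ≤ Δ →
    cnt B ζt (Set.Icc z0 (z1 - J * (Δ + φ))) ≤
      (s0 + s + err + 4 * Λ / K + Λ * nU * K * err + nU * (2 * K + 4) / J + nU * J * err) * qt

/-- the hypotheses of the local lemma for one of the two points -/
structure Side (B N : Finset Pt) (ϑ ϑ' : Pt → ℝ) (t0 t1 : ℝ) (U : Finset (ℝ × ℝ)) (O : Finset ℝ)
    (err s α s' Λ v1 v1' v2 v2' : ℝ) : Prop where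
  noend : ∀ b ∈ B, ϑ b ≠ t0 ∧ ϑ b ≠ t1 ∧ ∀ w ∈ U, ϑ b ≠ w.1 ∧ ϑ b ≠ w.2
  pos : 0 < cnt B ϑ (Set.Ioo t0 t1)
  close : ∀ x y, t0 ≤ x → y ≤ t1 → cnt B ϑ (Set.Icc x y) / cnt B ϑ (Set.Ioo t0 t1) ≤
    cnt B ϑ' (Set.Icc x y) / cnt B ϑ' (Set.Ioo t0 t1) + err
  cover : cnt B ϑ (Set.Ioo t0 t1 \ uni U) ≤ s * cnt B ϑ (Set.Ioo t0 t1)
  atomU : ∀ w ∈ U, cnt B ϑ (Set.Ioo w.1 w.2) ≤ α * cnt B ϑ (Set.Ioo t0 t1)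
  sub : N ⊆ B
  npos : 0 < N.card
  ratio : cnt B ϑ (Set.Ioo t0 t1) ≤ Λ * N.card
  law : ∀ U' ⊆ U, cnt B ϑ (uni U') / cnt B ϑ (Set.Ioo t0 t1) ≤ cnt N ϑ (uni U') / N.card + err
  link : ((N.filter fun b => ∃ w ∈ U, w.1 < ϑ b ∧ ϑ b < w.2 ∧ w.1 < ϑ' b ∧ ϑ' b < w.2).card : ℝ) ≤
    s * N.card
  m0 : s' * cnt B ϑ (Set.Ioo t0 t1) ≤ cnt B ϑ (Set.Ioo t0 v1)
  m1 : s' * cnt B ϑ (Set.Ioo t0 t1) ≤ cnt B ϑ (Set.Ioo v1' v2)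
  m2 : s' * cnt B ϑ (Set.Ioo t0 t1) ≤ cnt B ϑ (Set.Ioo v2' t1)
  cutR : ∀ y, t0 ≤ y → y ≤ t1 → ∃ o ∈ O, y ≤ o ∧ o ≤ t1 ∧
    cnt B ϑ (Set.Icc y o) ≤ α * cnt B ϑ (Set.Ioo t0 t1)
  cutL : ∀ y, t0 ≤ y → y ≤ t1 → ∃ o ∈ O, o ≤ y ∧ t0 ≤ o ∧
    cnt B ϑ (Set.Icc o y) ≤ α * cnt B ϑ (Set.Ioo t0 t1)
  atom1 : cnt B ϑ (Set.Icc v1 v1') ≤ α * cnt B ϑ (Set.Ioo t0 t1)
  atom2 : cnt B ϑ (Set.Icc v2 v2') ≤ α * cnt B ϑ (Set.Ioo t0 t1)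

def stot (err s α Λ : ℝ) (nU K J : ℕ) : ℝ :=
  2 * s + α + err + 4 * Λ / K + Λ * nU * K * err + nU * (2 * K + 4) / J + nU * J * err

/-- common hypotheses: `θ'` is a fuzzy homothetic image of `θ` -/
structure Loc (B N N' : Finset Pt) (θ θ' : Pt → ℝ) (θ0 κ t0 t1 : ℝ) (U : Finset (ℝ × ℝ))
    (O : Finset ℝ) (err s α s' Λ v1 v1' v2 v2' : ℝ) (M nU K J : ℕ) : Prop where
  kpos : 0 < κ
  hom : ∀ b ∈ B, θ b ≠ θ0 ∧ ∃ k, κ ≤ k ∧ k ≤ κ * (1 + 1 / M) ∧ θ' b - θ0 = (1 + k) * (θ b - θ0)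
  ne0 : θ0 ≠ t0
  ne1 : θ0 ≠ t1
  side : Side B N θ θ' t0 t1 U O err s α s' Λ v1 v1' v2 v2'
  side' : Side B N' θ' θ t0 t1 U O err s α s' Λ v1 v1' v2 v2'
  win : ∀ w ∈ U, t0 ≤ w.1 ∧ w.1 < w.2 ∧ w.2 ≤ t1
  disj : ∀ w ∈ U, ∀ w' ∈ U, w ≠ w' → w.2 ≤ w'.1 ∨ w'.2 ≤ w.1
  cardU : U.card ≤ nU
  ord : t0 ≤ v1 ∧ v1 < v1' ∧ v1' ≤ v2 ∧ v2 < v2' ∧ v2' ≤ t1
  memO : t0 ∈ O ∧ t1 ∈ O
  nn : 0 ≤ err ∧ 0 ≤ s ∧ 0 ≤ α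
  num : 1 ≤ K ∧ 1 ≤ J ∧ K + 1 ≤ M ∧ J ≤ M

def StmTR : Prop :=
  ∀ B N N' θ θ' θ0 κ t0 t1 U O err s α s' Λ v1 v1' v2 v2' M nU K J,
    Loc B N N' θ θ' θ0 κ t0 t1 U O err s α s' Λ v1 v1' v2 v2' M nU K J → θ0 < t1 →
    (cnt B θ' (Set.Ioo t0 t1) ≤ cnt B θ (Set.Ioo t0 t1) →
      (∀ y, θ0 < y → 2 * J * Real.log (1 + κ) ≤ Real.log ((t1 - θ0) / (y - θ0)) →
        cnt B θ' (Set.Ioo t0 t1 ∩ Set.Ioc θ0 y) ≤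
          stot err s α Λ nU K J * cnt B θ' (Set.Ioo t0 t1)) ∧
      (∀ (x y : ℝ) (n : ℕ), θ0 < x → t0 ≤ x → x ≤ y → 1 ≤ n → n ≤ M →
        2 * n * Real.log (1 + κ) ≤ Real.log ((t1 - θ0) / (y - θ0)) →
        cnt B θ' (Set.Icc x y) / cnt B θ' (Set.Ioo t0 t1) ≤
          (Real.log ((y - θ0) / (x - θ0)) / Real.log (1 + κ) + 2) / n + n * err) ∧
      (∀ x y x2 y2 : ℝ, θ0 < x → t0 ≤ x → y ≤ t1 → x2 - θ0 ≤ (1 + κ) * (x - θ0) →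
        (1 + κ * (1 + 1 / M)) * (y - θ0) ≤ y2 - θ0 →
        cnt B θ' (Set.Icc x y) / cnt B θ' (Set.Ioo t0 t1) ≤
          cnt B θ' (Set.Icc x2 y2) / cnt B θ' (Set.Ioo t0 t1) + err)) ∧
    (cnt B θ (Set.Ioo t0 t1) ≤ cnt B θ' (Set.Ioo t0 t1) →
      (θ0 < t0 → ∀ y, t0 ≤ y → 2 * J * Real.log (1 + κ) ≤ Real.log ((y - θ0) / (t0 - θ0)) →
        cnt B θ (Set.Ico y t1) ≤ stot err s α Λ nU K J * cnt B θ (Set.Ioo t0 t1)) ∧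
      (t0 < θ0 → cnt B θ (Set.Ioo θ0 t1) ≤ stot err s α Λ nU K J * cnt B θ (Set.Ioo t0 t1)))

/-- numerical side conditions of the local lemma -/
structure Num (err s α s' Λ E : ℝ) (M nU K J i0 : ℕ) : Prop where
  s1 : 0 < s' ∧ s' ≤ 1
  hM : 48 * J / s' + 1 ≤ M
  hi : 2 * (48 / s' + 2) + 1 ≤ i0
  hE : 4 * J ≤ E ∧ 6 ≤ E
  hs : stot err s α Λ nU K J < s' / 4
  ha : α ≤ s' / 8
  he : (48 * J / s' + 1) * err < s' / 8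

/-- the two links -/
structure Links (B : Finset Pt) (θ θ' : Pt → ℝ) (O : Finset ℝ) (i0 : ℕ)
    (E v1 v1' v2 v2' α1 β1 α2 β2 : ℝ) : Prop where
  l1 : ∃ b ∈ B, α1 < θ b ∧ θ b < β1 ∧ α1 < θ' b ∧ θ' b < β1
  l2 : ∃ b ∈ B, α2 < θ b ∧ θ b < β2 ∧ α2 < θ' b ∧ θ' b < β2
  s1 : v1 ≤ α1 ∧ β1 ≤ v1'
  s2 : v2 ≤ α2 ∧ β2 ≤ v2'
  e1 : NonExc O i0 E v1 v1' α1 β1
  e2 : NonExc O i0 E v2 v2' α2 β2

/-- local lemma, centre left of the window -/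
def StmLLa : Prop :=
  ∀ B N N' θ θ' θ0 κ t0 t1 U O err s α s' Λ v1 v1' v2 v2' M nU K J i0 E α1 β1 α2 β2,
    Loc B N N' θ θ' θ0 κ t0 t1 U O err s α s' Λ v1 v1' v2 v2' M nU K J →
    Num err s α s' Λ E M nU K J i0 → Links B θ θ' O i0 E v1 v1' v2 v2' α1 β1 α2 β2 →
    θ0 < t0 → False

/-- local lemma, centre inside the window, mass between the centre and the second link -/
def StmLLb : Prop :=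
  ∀ B N N' θ θ' θ0 κ t0 t1 U O err s α s' Λ v1 v1' v2 v2' M nU K J i0 E α1 β1 α2 β2,
    Loc B N N' θ θ' θ0 κ t0 t1 U O err s α s' Λ v1 v1' v2 v2' M nU K J →
    Num err s α s' Λ E M nU K J i0 → Links B θ θ' O i0 E v1 v1' v2 v2' α1 β1 α2 β2 →
    t0 < θ0 → θ0 < t1 →
    (cnt B θ (Set.Ioo t0 t1) ≤ cnt B θ' (Set.Ioo t0 t1) →
      s' / 2 * cnt B θ (Set.Ioo t0 t1) ≤ cnt B θ (Set.Ioo θ0 v2) → False) ∧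
    (cnt B θ' (Set.Ioo t0 t1) ≤ cnt B θ (Set.Ioo t0 t1) →
      s' / 2 * cnt B θ' (Set.Ioo t0 t1) ≤ cnt B θ' (Set.Ioo θ0 v2) → False)

def StmLL : Prop :=
  ∀ B N N' θ θ' θ0 κ t0 t1 U O err s α s' Λ v1 v1' v2 v2' M nU K J i0 E α1 β1 α2 β2,
    Loc B N N' θ θ' θ0 κ t0 t1 U O err s α s' Λ v1 v1' v2 v2' M nU K J →
    Num err s α s' Λ E M nU K J i0 → Links B θ θ' O i0 E v1 v1' v2 v2' α1 β1 α2 β2 → False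

/-- good edges -/
structure Dat.Gd (D : Dat) (u uh u1 u2 u3 i0 : ℕ) (δ α α3 s' Λ E : ℝ) (s : ℝ)
    (U : ℕ × ℕ → ℕ → Finset ℕ) (nU : ℕ) (e : Pt × Pt) : Prop where
  d1 : D.dist1 u u3 e ≤ δ
  d2 : D.dist2 u u3 e ≤ δ
  ratio : D.qAe u e ≤ Λ * D.nAe u e
  ah : D.atoms u uh α e
  a3 : D.atoms u u3 α3 e
  usub : U (D.cell e.1) (D.X u e) ⊆ child u u2 (D.X u e)
  ucard : (U (D.cell e.1) (D.X u e)).card ≤ nU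
  umass : (1 - s) * D.nCe u e ≤ ∑ x ∈ U (D.cell e.1) (D.X u e), D.nC u2 (D.cell e.1) x
  lft : s' * D.nCe u e ≤ D.lft u uh e
  rgt : s' * D.nCe u e ≤ D.rgt u uh e
  ne : D.nonExc u uh u1 i0 E e

/-- windows of level `u2` as real intervals -/
def Dat.ivs (D : Dat) (u2 : ℕ) (U : Finset ℕ) : Finset (ℝ × ℝ) :=
  U.image fun x => (D.cut u2 x, D.cut u2 (x + 1))

def StmSide : Prop :=
  ∀ c2 C m M T D, Sys c2 C m M T D → ∀ u uh u1 u2 u3 i0, u ≤ uh → uh ≤ u1 → u1 ≤ u2 → u2 ≤ u3 →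
    u3 ≤ T → ∀ (δ α α3 s' Λ E s : ℝ) U nU, 0 ≤ δ → 0 ≤ α3 → 0 ≤ s → ∀ a a' b1 b2,
    (a, b1) ∈ D.Ω → (a, b2) ∈ D.Ω → (a', b1) ∈ D.Ω →
    D.Gd u uh u1 u2 u3 i0 δ α α3 s' Λ E s U nU (a, b1) →
    D.Gd u uh u1 u2 u3 i0 δ α α3 s' Λ E s U nU (a, b2) →
    D.Gd u uh u1 u2 u3 i0 δ α α3 s' Λ E s U nU (a', b1) →
    D.part b2 = D.part b1 → D.X u (a, b2) = D.X u (a, b1) → D.X u (a', b1) = D.X u (a, b1) →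
    D.X uh (a, b1) < D.X uh (a, b2) →
    s' * D.nCe u (a, b1) ≤ D.btw uh (D.cell a) (D.X uh (a, b1)) (D.X uh (a, b2)) →
    a' ∉ D.Zs u u2 s a (D.part b1) (D.X u (a, b1)) →
    Side (D.Bp a (D.part b1)) ((D.keye u (a, b1)).image Prod.snd) (slope a) (slope a')
      (D.cut u (D.X u (a, b1))) (D.cut u (D.X u (a, b1) + 1))
      (D.ivs u2 (U (D.cell a) (D.X u (a, b1)))) (D.cuts u uh (D.X u (a, b1)))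
      (4 * δ + 2 * α3) (s + 2 * δ) (α + 2 * δ) (s' - 2 * δ) Λ
      (D.cut uh (D.X uh (a, b1))) (D.cut uh (D.X uh (a, b1) + 1))
      (D.cut uh (D.X uh (a, b2))) (D.cut uh (D.X uh (a, b2) + 1))

def StmTrans : Prop :=
  ∀ c2 C m M T D, Sys c2 C m M T D → ∀ u uh u1 u2 u3 i0, u ≤ uh → uh ≤ u1 → u1 ≤ u2 → u2 ≤ u3 →
    u3 ≤ T → ∀ (δ α α3 s' Λ E s : ℝ) U (nU K J : ℕ), 0 ≤ δ → 0 ≤ α → 0 ≤ α3 → 0 ≤ s →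
    Num (4 * δ + 2 * α3) (s + 2 * δ) (α + 2 * δ) (s' - 2 * δ) Λ E M nU K J i0 →
    1 ≤ K → 1 ≤ J → K + 1 ≤ M → J ≤ M → ∀ a a' b1 b2, a ≠ a' →
    ((a, b1) ∈ D.Ω ∧ (a, b2) ∈ D.Ω ∧ (a', b1) ∈ D.Ω ∧ (a', b2) ∈ D.Ω) →
    (D.Gd u uh u1 u2 u3 i0 δ α α3 s' Λ E s U nU (a, b1) ∧
      D.Gd u uh u1 u2 u3 i0 δ α α3 s' Λ E s U nU (a, b2) ∧
      D.Gd u uh u1 u2 u3 i0 δ α α3 s' Λ E s U nU (a', b1) ∧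
      D.Gd u uh u1 u2 u3 i0 δ α α3 s' Λ E s U nU (a', b2)) → D.part b2 = D.part b1 →
    (D.X u (a, b2) = D.X u (a, b1) ∧ D.X u1 (a', b1) = D.X u1 (a, b1) ∧
      D.X u1 (a', b2) = D.X u1 (a, b2)) →
    0 < s' → s' * D.nCe u (a, b1) ≤ D.btw uh (D.cell a) (D.X uh (a, b1)) (D.X uh (a, b2)) +
      D.btw uh (D.cell a) (D.X uh (a, b2)) (D.X uh (a, b1)) →
    a' ∉ D.Zs u u2 s a (D.part b1) (D.X u (a, b1)) →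
    a ∉ D.Zs u u2 s a' (D.part b1) (D.X u (a, b1)) → False

end

end Vale.Agent.P065U
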