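import Vale.Agent.P065U.Basic

/-! P065U: the bound of Dey type for bicliques. -/

namespace Vale.Agent.P065U

open Classical Finset

theorem DeyAux_root {M : ℕ} (hM : 1 ≤ M) : ∃ n : ℕ, 1 ≤ n ∧ M ≤ n ^ 3 ∧ n ^ 3 ≤ 8 * M := by
  have hex : ∃ n : ℕ, M ≤ n ^ 3 := ⟨M, Nat.le_self_pow (by norm_num) M⟩
  have h1 := Nat.find_spec hex
  have h2 : ∀ m, m < Nat.find hex → ¬ M ≤ m ^ 3 := fun m => Nat.find_min hex
  generalize Nat.find hex = n at h1 h2
  rcases n with _ | _ | n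
  · simp at h1; omega
  · exact ⟨1, le_rfl, h1, by omega⟩
  · refine ⟨n + 2, by omega, h1, ?_⟩
    have h3 := not_le.1 (h2 (n + 1) (by omega))
    calc (n + 2) ^ 3 ≤ (2 * (n + 1)) ^ 3 := Nat.pow_le_pow_left (by omega) 3
      _ = 8 * (n + 1) ^ 3 := by ring
      _ ≤ 8 * M := by omega

theorem DeyAux_bic {P τ S} {K a : ℕ} (hc : Cfg P τ S (2 * K))
    (ha : ∀ i < K, a ≤ (S (2 * i) \ S (2 * i + 1)).card) :
    ∃ I L E, I.card = K ∧ Bic S (2 * K) I L E a := by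
  set I : Finset ℕ := (range K).image fun i => 2 * i with hI
  have hm : ∀ l ∈ I, l < 2 * K ∧ a ≤ (S l \ S (l + 1)).card := fun l hl => by
    obtain ⟨i, hi, rfl⟩ := mem_image.1 hl
    have := mem_range.1 hi
    exact ⟨by omega, ha i this⟩
  have h1 : ∀ l, ∃ L : Finset Pt, l ∈ I → L ⊆ S l \ S (l + 1) ∧ L.card = a := fun l => by
    by_cases hl : l ∈ I
    · obtain ⟨L, h⟩ := exists_subset_card_eq (hm l hl).2
      exact ⟨L, fun _ => h⟩
    · exact ⟨∅, fun h => absurd h hl⟩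
  have h2 : ∀ l, ∃ E : Finset Pt, l ∈ I → E ⊆ S (l + 1) \ S l ∧ E.card = a := fun l => by
    by_cases hl : l ∈ I
    · obtain ⟨E, h⟩ := exists_subset_card_eq
        ((hm l hl).2.trans_eq (hc.card_sdiff (hm l hl).1.le (hm l hl).1))
      exact ⟨E, fun _ => h⟩
    · exact ⟨∅, fun h => absurd h hl⟩
  choose L hL using h1
  choose E hE using h2
  refine ⟨I, L, E, ?_, fun l hl => (hm l hl).1, fun l hl => (hL l hl).1, fun l hl => (hE l hl).1,
    fun l hl => (hL l hl).2, fun l hl => (hE l hl).2⟩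
  rw [hI, card_image_of_injective _ (mul_right_injective₀ two_ne_zero), card_range]

theorem DeyAux_uncut {P τ S V I L E a} (hc : Cfg P τ S V) (hb : Bic S V I L E a) {n0 : ℕ}
    {π : Pt → ℕ × ℕ} (hπ : ∀ lab, (P.filter fun z => π z = lab).card ≤ n0) :
    ((edges I L E).filter fun e => ¬ π e.2.1 ≠ π e.2.2).card ≤ n0 * P.card := by
  refine card_le_mul_card_image_of_maps_to (f := fun e => e.2.1)
    (fun e he => (hb.edge hc (mem_filter.1 he).1).2.2.2.1) n0 fun p _ => ?_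
  refine le_trans (card_le_card_of_injOn (fun e => e.2.2) (fun e he => ?_) fun e he e' he' h => ?_)
    (hπ (π p))
  · obtain ⟨h1, h2⟩ := mem_filter.1 (mem_coe.1 he)
    obtain ⟨h3, h4⟩ := mem_filter.1 h1
    refine mem_coe.2 (mem_filter.2 ⟨(hb.edge hc h3).2.2.2.2.1, ?_⟩)
    rw [← h2]
    exact (not_not.1 h4).symm
  · obtain ⟨h1, h2⟩ := mem_filter.1 (mem_coe.1 he)
    obtain ⟨h3, h4⟩ := mem_filter.1 (mem_coe.1 he')
    exact hb.edge_inj hc (mem_filter.1 h1).1 (mem_filter.1 h3).1 (Prod.ext (h2.trans h4.symm) h)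

theorem dey (h : StmCell) : StmDey := by
  refine ⟨14 ^ 3 * 8, by norm_num, fun P τ S K a hc _ ha1 ha => ?_⟩
  rcases Nat.eq_zero_or_pos K with rfl | hK
  · simp
  have hN : 1 ≤ P.card := (ha1.trans (ha 0 hK)).trans
    (card_le_card (sdiff_subset.trans (hc.sub _ (by omega))))
  obtain ⟨I, L, E, hI, hb⟩ := DeyAux_bic hc ha
  obtain ⟨n, hn1, hn2, hn3⟩ := DeyAux_root (M := P.card * a ^ 2)
    (Nat.mul_pos hN (Nat.pow_pos ha1))
  obtain ⟨π, hπ, hcut⟩ := h P τ S _ I L E a hc hb (n ^ 2) n (Nat.pow_pos hn1) hn1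
  have h1 := card_filter_add_card_filter_not (s := edges I L E) fun e => π e.2.1 ≠ π e.2.2
  have h2 := DeyAux_uncut hc hb hπ
  rw [hb.card_edges, hI] at h1
  have h3 : (K : ℝ) * a ^ 2 ≤ ((edges I L E).filter fun e => π e.2.1 ≠ π e.2.2).card +
      n * P.card := by
    have : K * a ^ 2 ≤ ((edges I L E).filter fun e => π e.2.1 ≠ π e.2.2).card + n * P.card := by
      omega
    exact_mod_cast this
  have hn : (0 : ℝ) < n := by exact_mod_cast hn1
  have ha0 : (0 : ℝ) < a := by exact_mod_cast ha1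
  have hN0 : (0 : ℝ) ≤ P.card := Nat.cast_nonneg _
  have g2 : (P.card : ℝ) * a ^ 2 ≤ n ^ 3 := by exact_mod_cast hn2
  have g3 : (n : ℝ) ^ 3 ≤ 8 * (P.card * a ^ 2) := by exact_mod_cast hn3
  have h4 : 10 * (P.card : ℝ) ^ 2 * (a : ℝ) ^ 2 / ((n ^ 2 : ℕ) : ℝ) ≤ 10 * (n * P.card) := by
    push_cast
    rw [div_le_iff₀ (by positivity)]
    nlinarith [mul_le_mul_of_nonneg_left g2 hN0]
  have h5 : 3 * ((n ^ 2 : ℕ) : ℝ) * P.card / n = 3 * (n * P.card) := by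
    push_cast
    field_simp
  have h6 : (K : ℝ) * a ^ 2 ≤ 14 * (n * P.card) := by linarith
  have h7 := pow_le_pow_left₀ (by positivity) h6 3
  have h8 : (14 * ((n : ℝ) * P.card)) ^ 3 ≤ 14 ^ 3 * 8 * (P.card : ℝ) ^ 4 * a ^ 2 :=
    calc _ = 14 ^ 3 * (P.card : ℝ) ^ 3 * n ^ 3 := by ring
      _ ≤ 14 ^ 3 * (P.card : ℝ) ^ 3 * (8 * (P.card * a ^ 2)) := by gcongr
      _ = _ := by ring
  refine le_of_mul_le_mul_right ?_ (pow_pos ha0 2)
  calc (K : ℝ) ^ 3 * a ^ 4 * a ^ 2 = (K * a ^ 2) ^ 3 := by ring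
    _ ≤ _ := h7.trans h8

end Vale.Agent.P065U
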