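import Vale.Agent.P065U.DefsB

/-! P065U: the entropy increment argument. -/

namespace Vale.Agent.P065U

open Classical Finset

noncomputable section

namespace EntAux

theorem mem_child {u u' x y : ℕ} : x ∈ child u u' y ↔ x / 16 ^ (u' - u) = y := by
  have h : 0 < 16 ^ (u' - u) := by positivity
  rw [child, mem_Ico, ← Nat.le_div_iff_mul_le h, ← Nat.div_lt_iff_lt_mul h]
  omega

theorem pow_split {u u' κ : ℕ} (hu : u ≤ u') (hu' : u' ≤ κ) :
    16 ^ (κ - u) = 16 ^ (u' - u) * 16 ^ (κ - u') := by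
  rw [← pow_add]
  congr 1
  omega

theorem X_div (D : Dat) {u u' : ℕ} (hu : u ≤ u') (hu' : u' ≤ D.κ) (e : Pt × Pt) :
    D.X u' e / 16 ^ (u' - u) = D.X u e := by
  rw [Dat.X, Dat.X, blk, blk, Nat.div_div_eq_div_mul, pow_split hu hu', mul_comm]

theorem mem_key {D : Dat} {u : ℕ} {a : Pt} {j x : ℕ} {e : Pt × Pt} :
    e ∈ D.key u a j x ↔ e ∈ D.Ω ∧ e.1 = a ∧ D.part e.2 = j ∧ D.X u e = x := by
  simp only [Dat.key, mem_filter]

/-- splitting a set of edges in one window along the children of the window -/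
theorem sum_child (D : Dat) {u u' : ℕ} (hu : u ≤ u') (hu' : u' ≤ D.κ) {y : ℕ}
    {R : Pt × Pt → Prop} {K : Finset (Pt × Pt)} {K' : ℕ → Finset (Pt × Pt)}
    (hK : ∀ e, e ∈ K ↔ R e ∧ D.X u e = y) (hK' : ∀ x e, e ∈ K' x ↔ R e ∧ D.X u' e = x)
    (G : ℕ → ℝ) : ∑ x ∈ child u u' y, ((K' x).card : ℝ) * G x = ∑ e ∈ K, G (D.X u' e) := by
  rw [← sum_fiberwise_of_maps_to (s := K) (t := child u u' y) (g := D.X u')
    fun e he => mem_child.2 ((X_div D hu hu' e).trans ((hK e).1 he).2)]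
  refine sum_congr rfl fun x hx => ?_
  have e1 : K.filter (fun e => D.X u' e = x) = K' x := by
    ext e
    rw [mem_filter, hK, hK']
    refine ⟨fun h => ⟨h.1.1, h.2⟩, fun h => ⟨⟨h.1, ?_⟩, h.2⟩⟩
    rw [← X_div D hu hu', h.2, mem_child.1 hx]
  rw [sum_congr rfl (g := fun _ => G x) fun e he => by rw [(mem_filter.1 he).2], e1, sum_const,
    nsmul_eq_mul]

theorem sum_key (D : Dat) {u u' : ℕ} (hu : u ≤ u') (hu' : u' ≤ D.κ) (a : Pt) (j y : ℕ)
    (G : ℕ → ℝ) :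
    ∑ x ∈ child u u' y, D.nA u' a j x * G x = ∑ e ∈ D.key u a j y, G (D.X u' e) :=
  sum_child D hu hu' (R := fun e => e ∈ D.Ω ∧ e.1 = a ∧ D.part e.2 = j)
    (fun e => by rw [mem_key]; tauto) (fun x e => by rw [mem_key]; tauto) G

theorem sum_nC (D : Dat) {u u' : ℕ} (hu : u ≤ u') (hu' : u' ≤ D.κ) (lab : ℕ × ℕ) (y : ℕ) :
    ∑ x ∈ child u u' y, D.nC u' lab x = D.nC u lab y := by
  have h := sum_child D hu hu' (y := y) (R := fun e => e ∈ D.Ω ∧ D.cell e.1 = lab)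
    (K := D.Ω.filter fun e => D.cell e.1 = lab ∧ D.X u e = y)
    (K' := fun x => D.Ω.filter fun e => D.cell e.1 = lab ∧ D.X u' e = x)
    (fun e => by rw [mem_filter, and_assoc]) (fun x e => by rw [mem_filter, and_assoc]) fun _ => 1
  simpa only [mul_one, sum_const, nsmul_eq_mul, Dat.nC] using h

theorem sum_qA (D : Dat) (hc : StrictMono D.c) {u u' : ℕ} (hu : u ≤ u') (hu' : u' ≤ D.κ)
    (a : Pt) (j y : ℕ) : ∑ x ∈ child u u' y, D.qA u' a j x ≤ D.qA u a j y := by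
  have hm : ∀ {x x' : ℕ}, x ≤ x' → D.cut u' x ≤ D.cut u' x' := fun h =>
    hc.monotone (Nat.mul_le_mul_right _ h)
  have he : ∀ x, D.cut u x = D.cut u' (x * 16 ^ (u' - u)) := fun x => by
    rw [Dat.cut, Dat.cut, pow_split hu hu', mul_assoc]
  simp only [Dat.qA]
  rw [← Nat.cast_sum, Nat.cast_le, ← card_biUnion]
  · refine card_le_card fun b hb => ?_
    obtain ⟨x, hx, hb⟩ := mem_biUnion.1 hb
    rw [child, mem_Ico] at hx
    rw [mem_filter] at hb ⊢
    refine ⟨hb.1, ?_, ?_⟩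
    · rw [he]
      exact (hm hx.1).trans_lt hb.2.1
    · rw [he]
      exact hb.2.2.trans_le (hm hx.2)
  · intro x _ x' _ hx
    rw [Function.onFun, disjoint_left]
    intro b hb hb'
    have h1 := (mem_filter.1 hb).2
    have h2 := (mem_filter.1 hb').2
    rcases lt_or_gt_of_ne hx with h | h
    · exact lt_irrefl _ ((h1.2.trans_le (hm h)).trans h2.1)
    · exact lt_irrefl _ ((h2.2.trans_le (hm h)).trans h1.1)

theorem nA_le_nC (D : Dat) (u : ℕ) (a : Pt) (j x : ℕ) : D.nA u a j x ≤ D.nC u (D.cell a) x := by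
  rw [Dat.nA, Dat.nC, Nat.cast_le]
  refine card_le_card fun e he => ?_
  obtain ⟨h1, h2, -, h3⟩ := mem_key.1 he
  exact mem_filter.2 ⟨h1, by rw [h2], h3⟩

theorem self_mem_key {D : Dat} (u : ℕ) {e : Pt × Pt} (he : e ∈ D.Ω) :
    e ∈ D.key u e.1 (D.part e.2) (D.X u e) := mem_key.2 ⟨he, rfl, rfl, rfl⟩

theorem nAe_pos {D : Dat} (u : ℕ) {e : Pt × Pt} (he : e ∈ D.Ω) : 0 < D.nAe u e := by
  rw [Dat.nAe, Dat.nA, Nat.cast_pos]
  exact card_pos.2 ⟨e, self_mem_key u he⟩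

theorem step (h1 : StmKL) (D : Dat) {u u' : ℕ} (hu : u ≤ u') (hu' : u' ≤ D.κ)
    (q q' : Pt → ℕ → ℕ → ℝ) (hle : ∀ a j x, D.nA u a j x ≤ q a j x)
    (hle' : ∀ a j x, D.nA u' a j x ≤ q' a j x)
    (hsum : ∀ a j y, ∑ x ∈ child u u' y, q' a j x ≤ q a j y) :
    ∑ e ∈ D.Ω, ((∑ x ∈ child u u' (D.X u e), |D.nA u' e.1 (D.part e.2) x / D.nAe u e
        - q' e.1 (D.part e.2) x / q e.1 (D.part e.2) (D.X u e)|) ^ 2 / 4
      + Real.log (D.nAe u e / q e.1 (D.part e.2) (D.X u e)))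
      ≤ ∑ e ∈ D.Ω, Real.log (D.nAe u' e / q' e.1 (D.part e.2) (D.X u' e)) := by
  have hmap : ∀ e ∈ D.Ω, (e.1, D.part e.2, D.X u e)
      ∈ D.Ω.image fun e => (e.1, D.part e.2, D.X u e) := fun e he => mem_image_of_mem _ he
  rw [← sum_fiberwise_of_maps_to hmap, ← sum_fiberwise_of_maps_to hmap]
  refine sum_le_sum fun k hk => ?_
  obtain ⟨e, he, rfl⟩ := mem_image.1 hk
  have e1 : D.Ω.filter (fun e' => (e'.1, D.part e'.2, D.X u e') = (e.1, D.part e.2, D.X u e))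
      = D.key u e.1 (D.part e.2) (D.X u e) := by
    ext e'
    simp only [mem_filter, mem_key, Prod.mk.injEq]
  have hn := nAe_pos u he
  have hn0 : ∀ x, 0 ≤ D.nA u' e.1 (D.part e.2) x := fun x => Nat.cast_nonneg _
  have h := h1 (child u u' (D.X u e)) (D.nA u' e.1 (D.part e.2)) (q' e.1 (D.part e.2))
    (D.nAe u e) (q e.1 (D.part e.2) (D.X u e))
    (fun x _ => ⟨hn0 x, (hn0 x).trans (hle' _ _ _), fun h => h.trans_le (hle' _ _ _)⟩)
    (by
      have h0 := sum_key D hu hu' e.1 (D.part e.2) (D.X u e) fun _ => 1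
      simp only [mul_one, sum_const, nsmul_eq_mul] at h0
      exact h0)
    hn (hsum _ _ _) (hn.trans_le (hle _ _ _))
  rw [sum_key D hu hu' e.1 (D.part e.2) (D.X u e)
    fun x => Real.log (D.nA u' e.1 (D.part e.2) x / q' e.1 (D.part e.2) x)] at h
  rw [e1, sum_congr rfl (g := fun _ => (∑ x ∈ child u u' (D.X u e),
      |D.nA u' e.1 (D.part e.2) x / D.nAe u e
        - q' e.1 (D.part e.2) x / q e.1 (D.part e.2) (D.X u e)|) ^ 2 / 4
      + Real.log (D.nAe u e / q e.1 (D.part e.2) (D.X u e))) fun e' he' => by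
        obtain ⟨-, h2, h3, h4⟩ := mem_key.1 he'
        simp only [Dat.nAe, h2, h3, h4],
    sum_congr rfl (f := fun e' => Real.log (D.nAe u' e' / q' e'.1 (D.part e'.2) (D.X u' e')))
      (g := fun e' => Real.log (D.nA u' e.1 (D.part e.2) (D.X u' e')
        / q' e.1 (D.part e.2) (D.X u' e'))) fun e' he' => by
        obtain ⟨-, h2, h3, -⟩ := mem_key.1 he'
        simp only [Dat.nAe, h2, h3],
    sum_const, nsmul_eq_mul]
  change D.nAe u e * _ ≤ _
  linarith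

theorem jen' (h2 : StmJen) {ι : Type} {Ω : Finset (Pt × Pt)} (k : Pt × Pt → ι) (w : ι → ℝ)
    {W : ℝ} (J : Finset ι) (K : Pt × Pt → Finset (Pt × Pt)) (f : Pt × Pt → ℝ) (hne : Ω.Nonempty)
    (hw : ∀ i ∈ J, 0 ≤ w i) (hJ : ∀ e ∈ Ω, k e ∈ J) (hW : ∑ i ∈ J, w i ≤ W)
    (hK : ∀ e ∈ Ω, ∀ e', e' ∈ K e ↔ e' ∈ Ω ∧ k e' = k e)
    (hf : ∀ e ∈ Ω, 0 < f e ∧ f e ≤ w (k e)) :
    ∑ e ∈ Ω, Real.log (f e / (K e).card) ≤ Ω.card * Real.log (W / Ω.card) := by
  refine le_trans (sum_le_sum fun e he => ?_) (h2 ι Ω k w W hne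
    (fun e he => (hf e he).1.trans_le (hf e he).2) (le_trans (sum_le_sum_of_subset_of_nonneg
      (fun i hi => ?_) fun i hi _ => hw i hi) hW))
  · have e1 : K e = Ω.filter fun e' => k e' = k e := by
      ext e'
      rw [hK e he, mem_filter]
    have h3 : (0 : ℝ) < (K e).card := by
      exact_mod_cast card_pos.2 ⟨e, (hK e he e).2 ⟨he, rfl⟩⟩
    rw [← e1]
    exact Real.log_le_log (div_pos (hf e he).1 h3) (div_le_div_of_nonneg_right (hf e he).2 h3.le)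
  · obtain ⟨e, he, rfl⟩ := mem_image.1 hi
    exact hJ e he

/-- the entropy functional -/
def FF (D : Dat) (u : ℕ) : ℝ :=
  ∑ e ∈ D.Ω, Real.log (D.nAe u e / D.qAe u e) + ∑ e ∈ D.Ω, Real.log (D.nAe u e / D.nCe u e)

variable {c2 C : ℝ} {m M T : ℕ} {D : Dat}

theorem nA_le_qA (h : Sys c2 C m M T D) (u : ℕ) (a : Pt) (j x : ℕ) :
    D.nA u a j x ≤ D.qA u a j x := by
  rw [Dat.nA, Dat.qA, Nat.cast_le]
  refine card_le_card_of_injOn Prod.snd (fun e he => ?_) fun e he e' he' hh => ?_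
  · obtain ⟨h1, rfl, rfl, rfl⟩ := mem_key.1 (mem_coe.1 he)
    obtain ⟨-, h2, -, h3, -, h4, h5⟩ := h.mem e h1
    have h6 : 0 < 16 ^ (D.κ - u) := by positivity
    refine mem_coe.2 (mem_filter.2 ⟨mem_filter.2 ⟨h2, h3.symm, rfl⟩, ?_, ?_⟩)
    · exact (h.cmono.monotone (Nat.div_mul_le_self _ _)).trans_lt h4
    · exact h5.trans_le (h.cmono.monotone ((Nat.div_lt_iff_lt_mul h6).1 (Nat.lt_succ_self _)))
  · exact Prod.ext ((mem_key.1 (mem_coe.1 he)).2.1.trans (mem_key.1 (mem_coe.1 he')).2.1.symm) hh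

theorem FF_step (h1 : StmKL) (h : Sys c2 C m M T D) {u u' : ℕ} (hu : u ≤ u') (hu' : u' ≤ T) :
    ∑ e ∈ D.Ω, (D.dist1 u u' e ^ 2 + D.dist2 u u' e ^ 2) ≤ 4 * (FF D u' - FF D u) := by
  have hk := hu'.trans h.Tle
  have a1 := step h1 D hu hk (D.qA u) (D.qA u') (nA_le_qA h u) (nA_le_qA h u')
    (sum_qA D h.cmono hu hk)
  have a2 := step h1 D hu hk (fun a _ x => D.nC u (D.cell a) x) (fun a _ x => D.nC u' (D.cell a) x)
    (nA_le_nC D u) (nA_le_nC D u') fun a _ y => (sum_nC D hu hk _ y).le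
  rw [sum_add_distrib, ← sum_div] at a1 a2
  rw [sum_add_distrib]
  change (∑ e ∈ D.Ω, D.dist1 u u' e ^ 2) / 4 + ∑ e ∈ D.Ω, Real.log (D.nAe u e / D.qAe u e)
    ≤ ∑ e ∈ D.Ω, Real.log (D.nAe u' e / D.qAe u' e) at a1
  change (∑ e ∈ D.Ω, D.dist2 u u' e ^ 2) / 4 + ∑ e ∈ D.Ω, Real.log (D.nAe u e / D.nCe u e)
    ≤ ∑ e ∈ D.Ω, Real.log (D.nAe u' e / D.nCe u' e) at a2
  unfold FF
  linarith

theorem d_pos (h : Sys c2 C m M T D) (u : ℕ) : 0 < D.d u := by
  have : (0 : ℝ) < D.P.card := by exact_mod_cast h.npos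
  unfold Dat.d Dd
  positivity

theorem Z_eq (D : Dat) : D.Z = D.P.card * D.d 0 := by
  unfold Dat.d Dd Dat.Z Zz
  ring

theorem Z_pos (h : Sys c2 C m M T D) : 0 < D.Z := by
  rw [Z_eq]
  exact mul_pos (by exact_mod_cast h.npos) (d_pos h 0)

theorem card_pos' (h : Sys c2 C m M T D) : (0 : ℝ) < D.Ω.card :=
  (mul_pos h.c2pos (Z_pos h)).trans_le h.big

theorem nonempty (h : Sys c2 C m M T D) : D.Ω.Nonempty :=
  card_pos.1 (by exact_mod_cast card_pos' h)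

theorem FF_top (h2 : StmJen) (h : Sys c2 C m M T D) :
    FF D T ≤ D.Ω.card * Real.log (C ^ 2 * D.P.card / D.Ω.card) := by
  have hC : 0 < C := lt_of_lt_of_le one_pos h.Cge
  have hd := d_pos h T
  have a1 : ∑ e ∈ D.Ω, Real.log (D.nAe T e / D.qAe T e) ≤ 0 := sum_nonpos fun e he =>
    Real.log_nonpos (div_nonneg (Nat.cast_nonneg _) (Nat.cast_nonneg _))
      (div_le_one_of_le₀ (nA_le_qA h _ _ _ _) (Nat.cast_nonneg _))
  have a2 := jen' h2 (W := C ^ 2 * D.P.card) (fun e => (D.cell e.1, D.X T e)) (fun _ => C * D.d T)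
    (D.Ω.image fun e => (D.cell e.1, D.X T e))
    (fun e => D.Ω.filter fun e' => D.cell e'.1 = D.cell e.1 ∧ D.X T e' = D.X T e) (D.nAe T)
    (nonempty h) (fun _ _ => by positivity) (fun e he => mem_image_of_mem _ he)
    (by
      rw [sum_const, nsmul_eq_mul]
      refine (mul_le_mul_of_nonneg_right (h.touch T le_rfl) (by positivity)).trans (le_of_eq ?_)
      unfold Dat.d Dd
      field_simp)
    (fun e _ e' => by simp only [mem_filter, Prod.mk.injEq])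
    fun e he => ⟨nAe_pos T he, le_trans (Nat.cast_le.2 (card_le_card fun e' he' => by
      obtain ⟨b1, b2, -, b3⟩ := mem_key.1 he'
      exact mem_filter.2 ⟨b1, b2, b3⟩)) (h.degT e he)⟩
  change ∑ e ∈ D.Ω, Real.log (D.nAe T e / D.nCe T e) ≤ _ at a2
  unfold FF
  linarith

theorem FF_bot (h2 : StmJen) (h : Sys c2 C m M T D) :
    -FF D 0 ≤ D.Ω.card * Real.log (C * D.Z / D.Ω.card)
      + D.Ω.card * Real.log (D.P.card * m * (C * D.d 0) ^ 2 / D.Ω.card) := by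
  have hX : ∀ e ∈ D.Ω, D.X 0 e = 0 := fun e he =>
    Nat.div_eq_of_lt (h.mem e he).2.2.2.2.1
  have hJ : ∀ e ∈ D.Ω, (e.1, D.part e.2) ∈ D.P ×ˢ range m := fun e he =>
    mem_product.2 ⟨(h.mem e he).1, mem_range.2 (h.plt _ (h.mem e he).2.1)⟩
  have hK : ∀ e ∈ D.Ω, ∀ e', e' ∈ D.keye 0 e ↔
      e' ∈ D.Ω ∧ (e'.1, D.part e'.2) = (e.1, D.part e.2) := fun e he e' => by
    simp only [Dat.keye, mem_key, Prod.mk.injEq]
    exact ⟨fun b => ⟨b.1, b.2.1, b.2.2.1⟩,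
      fun b => ⟨b.1, b.2.1, b.2.2, (hX e' b.1).trans (hX e he).symm⟩⟩
  have a1 := jen' h2 (W := C * D.Z) (fun e => (e.1, D.part e.2)) (fun i => (D.Bp i.1 i.2).card)
    (D.P ×ˢ range m) (D.keye 0) (D.qAe 0) (nonempty h) (fun _ _ => Nat.cast_nonneg _) hJ
    (by
      rw [sum_product, Z_eq, mul_left_comm, ← nsmul_eq_mul]
      refine sum_le_card_nsmul _ _ _ fun a _ => le_trans ?_ (h.cellsz (D.cell a))
      rw [← Nat.cast_sum, Nat.cast_le, ← card_biUnion]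
      · refine card_le_card fun b hb => ?_
        obtain ⟨j, -, hb⟩ := mem_biUnion.1 hb
        exact mem_filter.2 ⟨(mem_filter.1 hb).1, (mem_filter.1 hb).2.1⟩
      · intro j _ j' _ hj
        rw [Function.onFun, disjoint_left]
        intro b hb hb'
        exact hj ((mem_filter.1 hb).2.2.symm.trans (mem_filter.1 hb').2.2))
    hK fun e he => ⟨(nAe_pos 0 he).trans_le (nA_le_qA h _ _ _ _),
      Nat.cast_le.2 (card_filter_le _ _)⟩
  have a2 := jen' h2 (W := D.P.card * m * (C * D.d 0) ^ 2) (fun e => (e.1, D.part e.2))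
    (fun _ => (C * D.d 0) ^ 2) (D.P ×ˢ range m) (D.keye 0) (D.nCe 0) (nonempty h)
    (fun _ _ => sq_nonneg _) hJ
    (by rw [sum_const, nsmul_eq_mul, card_product, card_range, Nat.cast_mul])
    hK fun e he => ⟨(nAe_pos 0 he).trans_le (nA_le_nC D _ _ _ _), by
      refine le_trans ?_ (pow_le_pow_left₀ (Nat.cast_nonneg _) (h.cellsz (D.cell e.1)) 2)
      rw [sq, ← Nat.cast_mul, ← card_product]
      refine Nat.cast_le.2 (card_le_card fun e' he' => ?_)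
      obtain ⟨b1, b2, -⟩ := mem_filter.1 he'
      obtain ⟨b3, b4, -, b5, -⟩ := h.mem e' b1
      exact mem_product.2 ⟨mem_filter.2 ⟨b3, b2⟩, mem_filter.2 ⟨b4, b5.symm.trans b2⟩⟩⟩
  change ∑ e ∈ D.Ω, Real.log (D.qAe 0 e / D.nAe 0 e) ≤ _ at a1
  change ∑ e ∈ D.Ω, Real.log (D.nCe 0 e / D.nAe 0 e) ≤ _ at a2
  have e1 : ∀ x y : ℝ, Real.log (x / y) = -Real.log (y / x) := fun x y => by
    rw [← Real.log_inv, inv_div]
  rw [sum_congr rfl fun e _ => e1 _ _, sum_neg_distrib] at a1 a2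
  unfold FF
  linarith

theorem FF_total (h2 : StmJen) (h : Sys c2 C m M T D) :
    FF D T - FF D 0 ≤ D.Ω.card * Real.log (C ^ 5 * m / c2 ^ 3) := by
  have hC : 0 < C := lt_of_lt_of_le one_pos h.Cge
  have hd := d_pos h 0
  have hZ := Z_pos h
  have hΩ := card_pos' h
  have hc := h.c2pos
  have hN : (0 : ℝ) < D.P.card := by exact_mod_cast h.npos
  have hm : (0 : ℝ) < m := by exact_mod_cast h.mge
  have a1 : Real.log (C ^ 2 * D.P.card / D.Ω.card) + Real.log (C * D.Z / D.Ω.card)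
      + Real.log (D.P.card * m * (C * D.d 0) ^ 2 / D.Ω.card)
      ≤ Real.log (C ^ 5 * m / c2 ^ 3) := by
    rw [← Real.log_mul (by positivity) (by positivity),
      ← Real.log_mul (by positivity) (by positivity)]
    refine Real.log_le_log (by positivity) ?_
    have e1 : C ^ 2 * D.P.card / D.Ω.card * (C * D.Z / D.Ω.card)
        * (D.P.card * m * (C * D.d 0) ^ 2 / D.Ω.card)
        = C ^ 5 * m / ((D.Ω.card : ℝ) / D.Z) ^ 3 := by
      rw [Z_eq]
      field_simp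
    rw [e1]
    exact div_le_div_of_nonneg_left (by positivity) (by positivity)
      (pow_le_pow_left₀ hc.le ((le_div_iff₀ hZ).2 h.big) 3)
  have a2 := mul_le_mul_of_nonneg_left a1 hΩ.le
  linarith [FF_top h2 h, FF_bot h2 h]

end EntAux

open EntAux in
theorem ent (h1 : StmKL) (h2 : StmJen) : StmEnt := by
  intro c2 C m M T D h s n hn hsn
  have hn0 : (0 : ℝ) < n := by exact_mod_cast hn
  have a1 := FF_step h1 h hsn le_rfl
  have a2 : 0 ≤ ∑ e ∈ D.Ω, (D.dist1 (s * n) T e ^ 2 + D.dist2 (s * n) T e ^ 2) :=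
    sum_nonneg fun e _ => by positivity
  have a3 := FF_total h2 h
  obtain ⟨i, hi, a4⟩ := exists_le_of_sum_le (s := range n) (nonempty_range_iff.2 (by omega))
    (f := fun i => FF D (s * (i + 1)) - FF D (s * i))
    (g := fun _ => D.Ω.card * Real.log (C ^ 5 * m / c2 ^ 3) / n) (by
      rw [sum_range_sub fun i => FF D (s * i), sum_const, card_range, nsmul_eq_mul,
        mul_div_cancel₀ _ hn0.ne', mul_zero]
      linarith)
  have a5 : s * i + s ≤ T := le_trans (Nat.mul_le_mul_left s (mem_range.1 hi)) hsn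
  refine ⟨s * i, a5, (FF_step h1 h (Nat.le_add_right _ _) a5).trans ?_⟩
  rw [mul_assoc, mul_div_assoc]
  exact mul_le_mul_of_nonneg_left a4 (by norm_num)

end

end Vale.Agent.P065U
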