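import Vale.Agent.P065U.DefsC

/-! P065U: few windows are exceptional. -/

namespace Vale.Agent.P065U

open Classical Finset

namespace ExcAux

theorem tele (F : ℕ → ℝ) (n0 n : ℕ) {E : ℝ} (hE : 0 < E)
    (hF : ∀ i ∈ Ico n0 (n0 + n), F i < F (i + 1)) {B : Finset ℕ} (hB : B ⊆ Ico n0 (n0 + n))
    (h : ∀ i ∈ B, ¬ E * (F (i + 1) - F i) < F (n0 + n) - F n0) : (B.card : ℝ) ≤ E := by
  have h1 : ∑ i ∈ Ico n0 (n0 + n), (F (i + 1) - F i) = F (n0 + n) - F n0 :=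
    sum_Ico_sub F (Nat.le_add_right _ _)
  rcases B.eq_empty_or_nonempty with rfl | h0
  · simp [hE.le]
  have h2 : 0 < F (n0 + n) - F n0 := h1 ▸ sum_pos (fun i hi => sub_pos.2 (hF i hi)) (h0.mono hB)
  refine le_of_mul_le_mul_right ?_ h2
  calc _ ≤ ∑ i ∈ B, E * (F (i + 1) - F i) := by
        rw [← nsmul_eq_mul]
        exact card_nsmul_le_sum _ _ _ fun i hi => not_lt.1 (h i hi)
    _ ≤ ∑ i ∈ Ico n0 (n0 + n), E * (F (i + 1) - F i) :=
        sum_le_sum_of_subset_of_nonneg hB fun i hi _ =>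
          mul_nonneg hE.le (sub_pos.2 (hF i hi)).le
    _ = _ := by rw [← mul_sum, h1]

theorem cov {ι κ : Type*} {B : Finset κ} (s : Finset ι) (R : ι → κ → Prop) {b : ℝ}
    (hc : ∀ x ∈ B, ∃ i ∈ s, R i x)
    (h : ∀ i ∈ s, ∀ T ⊆ B, (∀ x ∈ T, R i x) → (T.card : ℝ) ≤ b) : (B.card : ℝ) ≤ s.card * b := by
  have h1 : B ⊆ s.biUnion fun i => B.filter (R i) := fun x hx => by
    obtain ⟨i, a, c⟩ := hc x hx
    exact mem_biUnion.2 ⟨i, a, mem_filter.2 ⟨hx, c⟩⟩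
  refine le_trans (Nat.cast_le.2 ((card_le_card h1).trans card_biUnion_le)) ?_
  rw [Nat.cast_sum, ← nsmul_eq_mul]
  exact sum_le_card_nsmul _ _ _ fun i hi =>
    h i hi _ (filter_subset _ _) fun x hx => (mem_filter.1 hx).2

theorem refs {B : Finset ℕ} (O : Finset ℝ) (i0 : ℕ) (g : ℕ → ℝ) (Q : ℝ → ℕ → Prop) {E : ℝ}
    (hE : 0 ≤ E) (hc : ∀ i ∈ B, ∃ o, (o ∈ O ∨ ∃ n ≤ i0, o = g n) ∧ Q o i)
    (h : ∀ o, ∀ T ⊆ B, (∀ x ∈ T, Q o x) → (T.card : ℝ) ≤ E) :
    (B.card : ℝ) ≤ (O.card + i0 + 1) * E := by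
  refine (cov (O ∪ (range (i0 + 1)).image g) Q (fun i hi => ?_) fun o _ => h o).trans ?_
  · obtain ⟨o, b, c⟩ := hc i hi
    exact ⟨o, mem_union.2 (b.imp id fun ⟨n, h1, h2⟩ =>
      mem_image.2 ⟨n, mem_range.2 (by omega), h2.symm⟩), c⟩
  · refine mul_le_mul_of_nonneg_right ?_ hE
    have h1 : (O ∪ (range (i0 + 1)).image g).card ≤ O.card + (i0 + 1) := (card_union_le _ _).trans
      (Nat.add_le_add_left (card_image_le.trans (card_range _).le) _)
    have h2 : ((O ∪ (range (i0 + 1)).image g).card : ℝ) ≤ (O.card + (i0 + 1) : ℕ) :=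
      Nat.cast_le.2 h1
    push_cast at h2
    linarith

theorem three {B : Finset ℕ} (p q r : ℕ → Prop) {a b c : ℝ} (h : ∀ i ∈ B, p i ∨ q i ∨ r i)
    (hp : ∀ T ⊆ B, (∀ i ∈ T, p i) → (T.card : ℝ) ≤ a)
    (hq : ∀ T ⊆ B, (∀ i ∈ T, q i) → (T.card : ℝ) ≤ b)
    (hr : ∀ T ⊆ B, (∀ i ∈ T, r i) → (T.card : ℝ) ≤ c) : (B.card : ℝ) ≤ a + b + c := by
  have h1 : B ⊆ B.filter p ∪ B.filter q ∪ B.filter r := fun i hi => by
    simpa [hi, or_assoc] using h i hi
  have h2 := (card_le_card h1).trans ((card_union_le _ _).trans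
    (Nat.add_le_add_right (card_union_le _ _) _))
  have h3 : (B.card : ℝ) ≤ (B.filter p).card + (B.filter q).card + (B.filter r).card := by
    exact_mod_cast h2
  linarith [hp _ (filter_subset p B) fun i hi => (mem_filter.1 hi).2,
    hq _ (filter_subset q B) fun i hi => (mem_filter.1 hi).2,
    hr _ (filter_subset r B) fun i hi => (mem_filter.1 hi).2]

end ExcAux

open ExcAux in
theorem exc0 : StmExc0 := by
  intro y n0 n i0 O E hy hE
  have hm : ∀ i ∈ Ico n0 (n0 + n), y n0 ≤ y i ∧ y i < y (i + 1) ∧ y (i + 1) ≤ y (n0 + n) :=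
    fun i hi => ⟨hy.monotone (mem_Ico.1 hi).1, hy (Nat.lt_succ_self i),
      hy.monotone (mem_Ico.1 hi).2⟩
  have hs := filter_subset
    (fun i => ¬ NonExc O i0 E (y n0) (y (n0 + n)) (y i) (y (i + 1))) (Ico n0 (n0 + n))
  refine (three (a := E) (b := (O.card + i0 + 1) * E) (c := (O.card + i0 + 1) * E)
    (fun i => ¬ E * (y (i + 1) - y i) < y (n0 + n) - y n0)
    (fun i => ∃ o, (o ∈ O ∨ ∃ k ≤ i0, o = y n0 - (y (n0 + n) - y n0) / 2 ^ k) ∧ o < y n0 ∧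
      ¬ E * Real.log ((y (i + 1) - o) / (y i - o)) < Real.log ((y (n0 + n) - o) / (y n0 - o)))
    (fun i => ∃ o, (o ∈ O ∨ ∃ k ≤ i0, o = y (n0 + n) + (y (n0 + n) - y n0) / 2 ^ k) ∧
      y (n0 + n) < o ∧
      ¬ E * Real.log ((o - y i) / (o - y (i + 1))) < Real.log ((o - y n0) / (o - y (n0 + n))))
    (fun i hi => ?_) (fun T a b => tele y n0 n hE (fun i hi => (hm i hi).2.1) (a.trans hs) b)
    (fun T a b => refs O i0 _ _ hE.le b fun o T' c d => ?_)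
    (fun T a b => refs O i0 _ _ hE.le b fun o T' c d => ?_)).trans_eq (by ring)
  · by_contra c
    push Not at c
    exact (mem_filter.1 hi).2 ⟨c.1, c.2.1, c.2.2⟩
  · rcases T'.eq_empty_or_nonempty with rfl | ⟨j, hj⟩
    · simp [hE.le]
    have ho := (d j hj).1
    refine tele (fun i => Real.log (y i - o)) n0 n hE (fun i hi => Real.log_lt_log
      (by linarith [hm i hi]) (by linarith [hm i hi])) (c.trans (a.trans hs)) fun i hi => ?_
    obtain ⟨c1, c2, c3⟩ := hm i (hs (a (c hi)))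
    have e := (d i hi).2
    rwa [Real.log_div (by linarith) (by linarith), Real.log_div (by linarith) (by linarith)] at e
  · rcases T'.eq_empty_or_nonempty with rfl | ⟨j, hj⟩
    · simp [hE.le]
    have ho := (d j hj).1
    refine tele (fun i => -Real.log (o - y i)) n0 n hE (fun i hi => neg_lt_neg (Real.log_lt_log
      (by linarith [hm i hi]) (by linarith [hm i hi]))) (c.trans (a.trans hs)) fun i hi => ?_
    obtain ⟨c1, c2, c3⟩ := hm i (hs (a (c hi)))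
    have e := (d i hi).2
    rw [Real.log_div (by linarith) (by linarith), Real.log_div (by linarith) (by linarith)] at e
    rwa [neg_sub_neg, neg_sub_neg]

theorem exc (h : StmExc0) : StmExc := by
  intro c2 C m M T D hS u uh u1 i0 h1 h2 h3 E hE
  have hκ := h3.trans hS.Tle
  have hC : 0 ≤ C := zero_le_one.trans hS.Cge
  have hy : StrictMono (D.cut u1) := fun a b hab =>
    hS.cmono (Nat.mul_lt_mul_of_pos_right hab (by positivity))
  have win : ∀ x, ∀ B ⊆ D.Ω, (∀ e ∈ B, D.X u1 e = x) → (B.card : ℝ) ≤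
      16 ^ (D.κ - u1) * (C * ((D.P.card : ℝ) / 8 ^ D.κ) ^ 2) := fun x B hB hx => by
    refine (ExcAux.cov (Ico (x * 16 ^ (D.κ - u1)) (x * 16 ^ (D.κ - u1) + 16 ^ (D.κ - u1)))
      (fun i e => D.st e = i) (fun e he => ?_) fun i _ T a b => le_trans (Nat.cast_le.2
        (card_le_card fun e he => mem_filter.2 ⟨hB (a he), b e he⟩)) (hS.step i)).trans_eq
      (by simp)
    obtain rfl := hx e he
    exact ⟨D.st e, mem_Ico.2 ⟨Nat.div_mul_le_self _ _, Nat.lt_div_mul_add (by positivity)⟩, rfl⟩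
  have hcut : ∀ v, D.cut u1 (v * 16 ^ (u1 - uh)) = D.cut uh v := fun v => by
    unfold Dat.cut
    rw [mul_assoc, ← pow_add, show u1 - uh + (D.κ - u1) = D.κ - uh by omega]
  have hX : ∀ a b, a ≤ b → b ≤ D.κ → ∀ e, D.X a e = D.X b e / 16 ^ (b - a) := fun a b c d e => by
    unfold Dat.X blk
    rw [Nat.div_div_eq_div_mul, ← pow_add, show D.κ - b + (b - a) = D.κ - a by omega]
  obtain ⟨W, hW⟩ : ∃ W : ℝ, W = E * (1 + 2 * (16 ^ (uh - u) + 1 + i0 + 1)) := ⟨_, rfl⟩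
  obtain ⟨B, hB, hB'⟩ : ∃ B : ℕ → Finset ℕ, (∀ v, ((B v).card : ℝ) ≤ W) ∧
      ∀ e, ¬ D.nonExc u uh u1 i0 E e → D.X u1 e ∈ B (D.X uh e) := by
    refine ⟨fun v => (Ico (v * 16 ^ (u1 - uh)) (v * 16 ^ (u1 - uh) + 16 ^ (u1 - uh))).filter
      fun i => ¬ NonExc (D.cuts u uh (v / 16 ^ (uh - u))) i0 E (D.cut u1 (v * 16 ^ (u1 - uh)))
        (D.cut u1 (v * 16 ^ (u1 - uh) + 16 ^ (u1 - uh))) (D.cut u1 i) (D.cut u1 (i + 1)),
      fun v => (h _ _ _ i0 _ E hy hE).trans ?_, fun e b => mem_filter.2 ⟨?_, ?_⟩⟩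
    · have : (D.cuts u uh (v / 16 ^ (uh - u))).card ≤ 16 ^ (uh - u) + 1 :=
        card_image_le.trans (by rw [Nat.card_Icc, add_one_mul, add_assoc, Nat.add_sub_cancel_left])
      have h5 : ((D.cuts u uh (v / 16 ^ (uh - u))).card : ℝ) ≤ 16 ^ (uh - u) + 1 := by
        exact_mod_cast this
      rw [hW]
      gcongr
    · rw [hX uh u1 h2 hκ]
      exact mem_Ico.2 ⟨Nat.div_mul_le_self _ _, Nat.lt_div_mul_add (by positivity)⟩
    · rw [← hX u uh h1 (h2.trans hκ), ← add_one_mul, hcut, hcut]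
      exact b
  have hs := filter_subset (fun e => ¬ D.nonExc u uh u1 i0 E e) D.Ω
  refine (ExcAux.cov (range (16 ^ uh)) (fun v e => D.X uh e = v) (fun e he => ⟨_, mem_range.2 ?_,
    rfl⟩) fun v _ T a b => (ExcAux.cov (B v) (fun x e => D.X u1 e = x) (fun e he =>
      ⟨_, b e he ▸ hB' e (mem_filter.1 (a he)).2, rfl⟩) fun x _ T' c d =>
        win x T' (c.trans (a.trans hs)) d).trans
      (mul_le_mul_of_nonneg_right (hB v) (by positivity))).trans_eq ?_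
  · unfold Dat.X blk
    rw [Nat.div_lt_iff_lt_mul (by positivity), ← pow_add, show uh + (D.κ - uh) = D.κ by omega]
    exact (hS.mem e (hs he)).2.2.2.2.1
  obtain ⟨a, rfl⟩ := Nat.exists_eq_add_of_le h2
  obtain ⟨b, hb⟩ := Nat.exists_eq_add_of_le hκ
  have e1 : (8 : ℝ) ^ D.κ * 8 ^ D.κ = 4 ^ D.κ * (16 ^ uh * 16 ^ a * 16 ^ b) := by
    rw [← pow_add (16 : ℝ), ← pow_add (16 : ℝ), ← hb, ← mul_pow, ← mul_pow]
    norm_num
  rw [← hW, card_range, Dat.Z, Zz, show D.κ - (uh + a) = b by omega, Nat.add_sub_cancel_left,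
    div_pow, sq ((8 : ℝ) ^ D.κ), e1]
  push_cast
  field_simp

end Vale.Agent.P065U
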