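import Vale.Agent.P065U.DefsB

namespace Vale.Agent.P065U

open Classical Finset

namespace FinvAux

theorem layer (f y : ℝ) (hy : 0 ≤ y) (J : ℕ) :
    min f (2 ^ J * y) ≤ y + ∑ j ∈ range J, if 2 ^ j * y ≤ f then 2 ^ j * y else 0 := by
  induction J with
  | zero => simp
  | succ J ih =>
    rw [sum_range_succ]
    split_ifs with h
    · rw [min_eq_right h] at ih
      have := min_le_right f (2 ^ (J + 1) * y)
      rw [pow_succ] at this ⊢
      linarith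
    · rw [min_eq_left (not_le.1 h).le] at ih
      have := min_le_left f (2 ^ (J + 1) * y)
      linarith

theorem sub {Γ : ℝ} (h : InvBound Γ 0) {P τ S V lo hi} {n : ℕ} (hc : Cfg P τ S V)
    (hw : Win lo hi n V) {t : ℝ} (ht : 0 < t) :
    ((((range n).filter fun i => t ≤ ((inv S (lo i) (hi i)).card : ℝ)).card : ℝ)) ^ 3 * t ^ 4 ≤
      Γ * (P.card : ℝ) ^ 4 := by
  obtain ⟨F, hF⟩ : ∃ F, F = (range n).filter fun i => t ≤ ((inv S (lo i) (hi i)).card : ℝ) :=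
    ⟨_, rfl⟩
  rw [← hF]
  obtain ⟨e, he⟩ : ∃ e : ℕ → ℕ, ∀ k (hk : k < F.card), e k = F.orderEmbOfFin rfl ⟨k, hk⟩ :=
    ⟨fun k => if hk : k < F.card then F.orderEmbOfFin rfl ⟨k, hk⟩ else 0,
      fun k hk => dif_pos hk⟩
  have hm : ∀ k < F.card, e k < n ∧ t ≤ ((inv S (lo (e k)) (hi (e k))).card : ℝ) := by
    intro k hk
    have : e k ∈ F := by
      rw [he k hk]
      exact F.orderEmbOfFin_mem rfl _
    rw [hF] at this
    simpa using this
  have h1 := h P τ S V (fun k => lo (e k)) (fun k => hi (e k)) F.card ⌈t⌉₊ hc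
    ⟨fun k hk => hw.le _ (hm k hk).1, fun k l hkl hl => hw.sep _ _ (by
      rw [he k (hkl.trans hl), he l hl]
      exact (F.orderEmbOfFin rfl).strictMono hkl) (hm l hl).1⟩
    (Nat.zero_le _) (Nat.ceil_pos.2 ht) fun k hk => Nat.ceil_le.2 (hm k hk).2
  refine le_trans ?_ h1
  gcongr
  exact Nat.le_ceil t

end FinvAux

open FinvAux in
theorem finv : StmFinv := by
  intro Γ hΓ h
  refine ⟨1 + 5 * (Γ + 1), by linarith, fun P τ S V lo hi u hc hw => ?_⟩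
  have hle : ∀ i < 16 ^ u, ((inv S (lo i) (hi i)).card : ℝ) ≤ P.card := by
    intro i hi'
    refine Nat.cast_le.2 (card_le_card fun p hp => ?_)
    obtain ⟨⟨l, -, h2, h3⟩, -⟩ := mem_inv.1 hp
    exact hc.sub l (h2.trans (hw.le i hi').2) h3
  rcases (Nat.cast_nonneg (α := ℝ) P.card).eq_or_lt with h0 | h0
  · rw [← h0, mul_zero]
    exact sum_nonpos fun i hi' => h0 ▸ hle i (mem_range.1 hi')
  obtain ⟨y, hy⟩ : ∃ y : ℝ, y = P.card / 8 ^ u := ⟨_, rfl⟩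
  have hy0 : 0 < y := by rw [hy]; positivity
  have hN : (P.card : ℝ) = 8 ^ u * y := by rw [hy]; field_simp
  have h8 : (2 : ℝ) ^ (3 * u) = 8 ^ u := by rw [pow_mul]; norm_num
  have h16 : (16 : ℝ) ^ u = 2 ^ u * 8 ^ u := by rw [← mul_pow]; norm_num
  have key : ∀ j : ℕ, (((range (16 ^ u)).filter fun i =>
      2 ^ j * y ≤ ((inv S (lo i) (hi i)).card : ℝ)).card : ℝ) ≤ (Γ + 1) * 16 ^ u * (2 / 5) ^ j := by
    intro j
    have h1 := sub h hc hw (t := 2 ^ j * y) (by positivity)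
    refine le_of_pow_le_pow_left₀ three_ne_zero (by positivity) ?_
    refine le_of_mul_le_mul_right (h1.trans ?_) (show 0 < (2 ^ j * y) ^ 4 by positivity)
    have e1 : ((8 : ℝ) ^ u) ^ 4 = (16 ^ u) ^ 3 := by
      rw [← pow_mul, ← pow_mul, mul_comm u, mul_comm u, pow_mul, pow_mul]
      norm_num
    have e2 : (1 : ℝ) ≤ ((2 / 5) ^ j) ^ 3 * (2 ^ j) ^ 4 := by
      rw [← pow_mul, ← pow_mul, mul_comm j, mul_comm j, pow_mul, pow_mul, ← mul_pow]
      exact one_le_pow₀ (by norm_num)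
    have e3 : Γ ≤ (Γ + 1) ^ 3 := by nlinarith [sq_nonneg Γ, mul_pos hΓ (mul_pos hΓ hΓ)]
    calc Γ * (P.card : ℝ) ^ 4 = Γ * ((16 ^ u) ^ 3 * y ^ 4) * 1 := by
          rw [hN, mul_pow, e1, mul_one]
      _ ≤ (Γ + 1) ^ 3 * ((16 ^ u) ^ 3 * y ^ 4) * (((2 / 5) ^ j) ^ 3 * (2 ^ j) ^ 4) := by gcongr
      _ = _ := by ring
  have h2 : ∑ i ∈ range (16 ^ u), ((inv S (lo i) (hi i)).card : ℝ) ≤
      ∑ i ∈ range (16 ^ u), (y + ∑ j ∈ range (3 * u),
        if 2 ^ j * y ≤ ((inv S (lo i) (hi i)).card : ℝ) then 2 ^ j * y else 0) := by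
    refine sum_le_sum fun i hi' => le_trans (le_of_eq ?_) (layer _ y hy0.le _)
    rw [min_eq_left]
    rw [h8, ← hN]
    exact hle i (mem_range.1 hi')
  refine h2.trans ?_
  rw [sum_add_distrib, sum_comm, sum_const, card_range, nsmul_eq_mul]
  have h3 : ∑ j ∈ range (3 * u), ∑ i ∈ range (16 ^ u),
      (if 2 ^ j * y ≤ ((inv S (lo i) (hi i)).card : ℝ) then 2 ^ j * y else 0) ≤
      ∑ j ∈ range (3 * u), (Γ + 1) * 16 ^ u * y * (4 / 5) ^ j := by
    refine sum_le_sum fun j _ => ?_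
    rw [← sum_filter, sum_const, nsmul_eq_mul]
    refine (mul_le_mul_of_nonneg_right (key j) (by positivity)).trans (le_of_eq ?_)
    have : (4 / 5 : ℝ) ^ j = (2 / 5) ^ j * 2 ^ j := by rw [← mul_pow]; norm_num
    rw [this]
    ring
  have h4 : ∑ j ∈ range (3 * u), (4 / 5 : ℝ) ^ j ≤ 5 := by
    rw [geom_sum_eq (by norm_num), div_le_iff_of_neg (by norm_num)]
    have : (0 : ℝ) ≤ (4 / 5) ^ (3 * u) := by positivity
    linarith
  rw [← mul_sum] at h3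
  have h5 : (Γ + 1) * 16 ^ u * y * ∑ j ∈ range (3 * u), (4 / 5 : ℝ) ^ j ≤
      (Γ + 1) * 16 ^ u * y * 5 := by gcongr
  push_cast
  rw [hN]
  rw [h16] at h3 h5 ⊢
  linarith

end Vale.Agent.P065U
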