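import Vale.Agent.P065U.Basic

/-! P065U: the height function of a family of convex chains. -/

namespace Vale.Agent.P065U

open Classical Finset

namespace HAux

/-- a convex chain -/
structure Chn (τ : ℕ → ℝ) (V : ℕ) (w : ℕ → Pt) : Prop where
  mono : ∀ l l', l ≤ l' → l' ≤ V → τ l ≤ τ l'
  step : ∀ l < V, w (l + 1) ≠ w l → (w l).1 < (w (l + 1)).1 ∧ τ l < slope (w l) (w (l + 1)) ∧
    slope (w l) (w (l + 1)) < τ (l + 1)

/-- `z` is strictly below the line of the active step `j` -/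
def Bel (w : ℕ → Pt) (j : ℕ) (z : Pt) : Prop :=
  w (j + 1) ≠ w j ∧ val (slope (w j) (w (j + 1))) z < val (slope (w j) (w (j + 1))) (w j)

def St (V : ℕ) (w : ℕ → Pt) (z : Pt) : Prop := ∃ j < V, Bel w j z

def Rt (V : ℕ) (w : ℕ → Pt) (l : ℕ) (z : Pt) : Prop := ∃ j, l < j ∧ j < V ∧ Bel w j z

def Lf (w : ℕ → Pt) (l : ℕ) (z : Pt) : Prop := ∃ j < l, Bel w j z

def Sp (V : ℕ) (w : ℕ → Pt) (e : ℕ × Pt × Pt) : Prop :=
  w (e.1 + 1) ≠ w e.1 ∨ (¬ Rt V w e.1 e.2.1 ∧ Rt V w e.1 e.2.2) ∨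
    (¬ ¬ Lf w e.1 e.2.1 ∧ ¬ Lf w e.1 e.2.2)

variable {τ : ℕ → ℝ} {V : ℕ} {w : ℕ → Pt}

theorem Chn.xmono (h : Chn τ V w) {l l' : ℕ} (hl : l ≤ l') (hV : l' ≤ V) :
    (w l).1 ≤ (w l').1 := by
  induction hl with
  | refl => exact le_rfl
  | @step m _ ih =>
    refine (ih (Nat.le_of_succ_le hV)).trans ?_
    by_cases e : w (m + 1) = w m
    · rw [e]
    · exact (h.step m hV e).1.le

theorem Chn.right (h : Chn τ V w) {s : ℝ} {j l : ℕ} (hs : s ≤ τ j) (hl : j ≤ l) (hV : l ≤ V) :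
    val s (w j) ≤ val s (w l) := by
  induction hl with
  | refl => exact le_rfl
  | @step m hm ih =>
    refine (ih (Nat.le_of_succ_le hV)).trans ?_
    by_cases e : w (m + 1) = w m
    · rw [e]
    · obtain ⟨a, b, -⟩ := h.step m hV e
      have c := h.mono j m hm (Nat.le_of_succ_le hV)
      have d := val_sub a.ne s
      have := mul_nonneg (sub_nonneg.2 ((hs.trans c).trans b.le)) (sub_nonneg.2 a.le)
      linarith

theorem Chn.left (h : Chn τ V w) {s : ℝ} {j l : ℕ} (hl : l ≤ j) (hV : j ≤ V) (hs : τ j ≤ s) :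
    val s (w j) ≤ val s (w l) := by
  induction hl with
  | refl => exact le_rfl
  | @step m hm ih =>
    have c := h.mono m (m + 1) (Nat.le_succ m) hV
    refine le_trans ?_ (ih (Nat.le_of_succ_le hV) (c.trans hs))
    by_cases e : w (m + 1) = w m
    · rw [e]
    · obtain ⟨a, -, b⟩ := h.step m hV e
      have d := val_sub a.ne s
      have := mul_nonneg (sub_nonneg.2 (b.le.trans hs)) (sub_nonneg.2 a.le)
      linarith

theorem Chn.above (h : Chn τ V w) {j l : ℕ} (hj : j < V) (ha : w (j + 1) ≠ w j) (hl : l ≤ V) :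
    val (slope (w j) (w (j + 1))) (w j) ≤ val (slope (w j) (w (j + 1))) (w l) := by
  obtain ⟨a, b, c⟩ := h.step j hj ha
  rcases le_or_gt l j with k | k
  · exact h.left k hj.le b.le
  · have d := val_sub a.ne (slope (w j) (w (j + 1)))
    rw [sub_self, zero_mul] at d
    have := h.right c.le k hl
    linarith

theorem seg (e : ℕ × Pt × Pt) (he : e.2.1.1 < e.2.2.1) (s x : ℝ) :
    val s (x, ht e x) - val s e.2.1 = (slope e.2.1 e.2.2 - s) * (x - e.2.1.1) ∧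
    val s e.2.2 - val s (x, ht e x) = (slope e.2.1 e.2.2 - s) * (e.2.2.1 - x) := by
  have h1 : val s (x, ht e x) - val s e.2.1 = (slope e.2.1 e.2.2 - s) * (x - e.2.1.1) := by
    unfold val ht
    ring
  have h2 := val_sub he.ne s
  exact ⟨h1, by linarith⟩

theorem Chn.rt (h : Chn τ V w) {e : ℕ × Pt × Pt} (he : e.2.1.1 < e.2.2.1)
    (hs : slope e.2.1 e.2.2 < τ (e.1 + 1)) {x : ℝ} (h1 : e.2.1.1 ≤ x) (h2 : x ≤ e.2.2.1) :
    (Rt V w e.1 e.2.1 → Rt V w e.1 (x, ht e x)) ∧ (Rt V w e.1 (x, ht e x) → Rt V w e.1 e.2.2) := by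
  constructor <;> rintro ⟨j, a, b, c, d⟩ <;> refine ⟨j, a, b, c, ?_⟩ <;>
    have k := (hs.trans_le (h.mono _ j a b.le)).trans (h.step j b c).2.1 <;>
    obtain ⟨e1, e2⟩ := seg e he (slope (w j) (w (j + 1))) x
  · have := mul_nonneg (sub_nonneg.2 k.le) (sub_nonneg.2 h1)
    linarith
  · have := mul_nonneg (sub_nonneg.2 k.le) (sub_nonneg.2 h2)
    linarith

theorem Chn.lf (h : Chn τ V w) {e : ℕ × Pt × Pt} (hV : e.1 < V) (he : e.2.1.1 < e.2.2.1)
    (hs : τ e.1 < slope e.2.1 e.2.2) {x : ℝ} (h1 : e.2.1.1 ≤ x) (h2 : x ≤ e.2.2.1) :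
    (Lf w e.1 e.2.2 → Lf w e.1 (x, ht e x)) ∧ (Lf w e.1 (x, ht e x) → Lf w e.1 e.2.1) := by
  constructor <;> rintro ⟨j, a, c, d⟩ <;> refine ⟨j, a, c, ?_⟩ <;>
    have k := ((h.step j (a.trans hV) c).2.2.trans_le (h.mono _ _ a hV.le)).trans hs <;>
    obtain ⟨e1, e2⟩ := seg e he (slope (w j) (w (j + 1))) x
  · have := mul_nonneg (sub_nonneg.2 k.le) (sub_nonneg.2 h2)
    linarith
  · have := mul_nonneg (sub_nonneg.2 k.le) (sub_nonneg.2 h1)
    linarith

theorem st_iff {l : ℕ} (hl : l < V) (ha : ¬ w (l + 1) ≠ w l) (z : Pt) :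
    St V w z ↔ Rt V w l z ∨ Lf w l z := by
  constructor
  · rintro ⟨j, a, b⟩
    rcases lt_trichotomy j l with k | rfl | k
    · exact Or.inr ⟨j, k, b⟩
    · exact absurd b.1 ha
    · exact Or.inl ⟨j, k, a, b⟩
  · rintro (⟨j, -, a, b⟩ | ⟨j, a, b⟩)
    exacts [⟨j, a, b⟩, ⟨j, a.trans hl, b⟩]

theorem Chn.const (h : Chn τ V w) {e : ℕ × Pt × Pt} (hV : e.1 < V) (he : e.2.1.1 < e.2.2.1)
    (hs : τ e.1 < slope e.2.1 e.2.2) (hs' : slope e.2.1 e.2.2 < τ (e.1 + 1)) {x : ℝ}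
    (h1 : e.2.1.1 ≤ x) (h2 : x ≤ e.2.2.1) (hn : ¬ Sp V w e) :
    St V w (x, ht e x) ↔ St V w e.2.1 := by
  obtain ⟨a1, a2⟩ := h.rt he hs' h1 h2
  obtain ⟨b1, b2⟩ := h.lf hV he hs h1 h2
  unfold Sp at hn
  rw [not_or, not_or] at hn
  rw [st_iff hV hn.1, st_iff hV hn.1]
  tauto

theorem Chn.not_st (h : Chn τ V w) {e : ℕ × Pt × Pt} (hV : e.1 < V) (hp : w e.1 = e.2.1)
    (hq : w (e.1 + 1) = e.2.2) (he : e.2.1.1 < e.2.2.1) {x y : ℝ} (h1 : e.2.1.1 ≤ x)
    (h2 : x ≤ e.2.2.1) (hy : ht e x ≤ y) : ¬ St V w (x, y) := by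
  rintro ⟨j, a, b, c⟩
  have k1 := h.above a b hV.le
  have k2 := h.above a b (l := e.1 + 1) hV
  rw [hp] at k1
  rw [hq] at k2
  obtain ⟨e1, e2⟩ := seg e he (slope (w j) (w (j + 1))) x
  have e3 : val (slope (w j) (w (j + 1))) (x, ht e x) ≤ val (slope (w j) (w (j + 1))) (x, y) :=
    sub_le_sub_right hy _
  rcases le_total (slope (w j) (w (j + 1))) (slope e.2.1 e.2.2) with k | k
  · have := mul_nonneg (sub_nonneg.2 k) (sub_nonneg.2 h1)
    linarith
  · have := mul_nonneg (sub_nonneg.2 k) (sub_nonneg.2 h2)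
    linarith

variable {P : Finset Pt} {S L E : ℕ → Finset Pt} {I : Finset ℕ} {a : ℕ}

theorem cnt (hp : StmPot) (h : Cfg P τ S V) (hb : Bic S V I L E a) (T : ℕ → Pt → Prop)
    (h1 : ∀ l z, T (l + 1) z → T l z)
    (h2 : ∀ l < V, ∀ p ∈ S l \ S (l + 1), ∀ q ∈ S (l + 1) \ S l, T l p → T l q) :
    ((edges I L E).filter fun e => ¬ T e.1 e.2.1 ∧ T e.1 e.2.2).card ≤ a * (2 * P.card) := by
  have k := hp P S T 0 V h.sub h.card (fun l _ _ => h1 l) fun l _ => h2 l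
  refine le_trans ?_ (Nat.mul_le_mul_left a k)
  have hs : ((edges I L E).filter fun e => ¬ T e.1 e.2.1 ∧ T e.1 e.2.2) ⊆
      edges I (fun l => (L l).filter fun p => ¬ T l p) fun l => (E l).filter (T l) := fun e he => by
    obtain ⟨k1, k2, k3⟩ := mem_filter.1 he
    obtain ⟨k4, k5, k6⟩ := mem_edges.1 k1
    exact mem_edges.2 ⟨k4, mem_filter.2 ⟨k5, k2⟩, mem_filter.2 ⟨k6, k3⟩⟩
  refine (card_le_card hs).trans (card_biUnion_le.trans ?_)
  rw [mul_sum]
  refine le_trans (sum_le_sum fun l hl => card_image_le.trans ?_)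
    (sum_le_sum_of_subset (s := I) fun l hl => mem_Ico.2 ⟨Nat.zero_le l, hb.lt l hl⟩)
  rw [card_product, mul_min]
  refine le_min ?_ ?_
  · rw [mul_comm]
    exact Nat.mul_le_mul ((card_filter_le _ _).trans (hb.cardE l hl).le)
      (card_le_card (filter_subset_filter _ (hb.subL l hl)))
  · exact Nat.mul_le_mul ((card_filter_le _ _).trans (hb.cardL l hl).le)
      (card_le_card (filter_subset_filter _ (hb.subE l hl)))

theorem same (h : Cfg P τ S V) (hb : Bic S V I L E a) (f : ℕ → ℕ)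
    (hf : ∀ l < V, f l ≤ a * (S l \ S (l + 1)).card) :
    ∑ e ∈ edges I L E, f e.1 ≤ a ^ 2 * P.card ^ 2 := by
  refine le_trans ?_ (Nat.mul_le_mul_left _ h.sum_sq)
  rw [← sum_fiberwise_of_maps_to (g := Prod.fst) (t := I) fun e he => (mem_edges.1 he).1, mul_sum]
  refine le_trans (sum_le_sum fun l hl => ?_)
    (sum_le_sum_of_subset (s := I) fun l hl => mem_range.2 (hb.lt l hl))
  rw [sum_congr rfl (g := fun _ => f l) fun e he => by rw [(mem_filter.1 he).2], sum_const,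
    smul_eq_mul]
  refine Nat.mul_le_mul ?_ ((hf l (hb.lt l hl)).trans ?_)
  · refine le_trans (card_le_card (t := (L l ×ˢ E l).image fun e => (l, e)) fun e he => ?_)
      (card_image_le.trans ?_)
    · obtain ⟨k, rfl⟩ := mem_filter.1 he
      exact mem_image.2 ⟨e.2, mem_product.2 (mem_edges.1 k).2, rfl⟩
    · rw [card_product, hb.cardL l hl, hb.cardE l hl, sq]
  · rw [sq]
    exact Nat.mul_le_mul_right _ ((hb.cardL l hl).ge.trans (card_le_card (hb.subL l hl)))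

theorem filt {ι : Type} (C : Finset ι) (p q r : ι → Prop) [DecidablePred p] [DecidablePred q]
    [DecidablePred r] (h : ∀ i ∈ C, ¬ r i → p i → q i) :
    (C.filter p).card ≤ (C.filter q).card + (C.filter r).card := by
  refine le_trans (card_le_card fun i hi => ?_) (card_union_le _ _)
  obtain ⟨k1, k2⟩ := mem_filter.1 hi
  by_cases k : r i
  · exact mem_union_right _ (mem_filter.2 ⟨k1, k⟩)
  · exact mem_union_left _ (mem_filter.2 ⟨k1, h i k1 k k2⟩)

theorem swap_sum {ι κ : Type} (C : Finset ι) (D : Finset κ) (p : ι → κ → Prop)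
    [∀ i e, Decidable (p i e)] :
    ∑ e ∈ D, (C.filter fun i => p i e).card = ∑ i ∈ C, (D.filter fun e => p i e).card := by
  simp only [card_filter]
  exact sum_comm

end HAux

open HAux in
theorem stmH (hp : StmPot) (hc : StmChains) : StmH := by
  intro P τ S V I L E a h hb
  obtain ⟨Ch, u, c1, -, c3, c4, c5⟩ := hc P τ S V I L E a h hb
  have hch : ∀ γ ∈ Ch, Chn τ V (u γ) := fun γ hγ => ⟨h.mono, fun l hl e =>
    h.swap (Nat.le_succ l) hl ((c3 γ hγ l hl).resolve_left e).1 ((c3 γ hγ l hl).resolve_left e).2⟩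
  refine ⟨fun z => (Ch.filter fun γ => ¬ St V (u γ) z).card,
    fun e => (Ch.filter fun γ => Sp V (u γ) e).card, ?_, fun e he x h1 h2 => ?_,
    fun x y y' hy => ?_⟩
  · have k0 : ∀ e ∈ edges I L E, (Ch.filter fun γ => Sp V (u γ) e).card ≤
        (Ch.filter fun γ => ¬ Rt V (u γ) e.1 e.2.1 ∧ Rt V (u γ) e.1 e.2.2).card +
        (Ch.filter fun γ => ¬ ¬ Lf (u γ) e.1 e.2.1 ∧ ¬ Lf (u γ) e.1 e.2.2).card +
        (Ch.filter fun γ => u γ (e.1 + 1) ≠ u γ e.1).card := fun e _ =>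
      (filt Ch _ (fun γ => (¬ Rt V (u γ) e.1 e.2.1 ∧ Rt V (u γ) e.1 e.2.2) ∨
        (¬ ¬ Lf (u γ) e.1 e.2.1 ∧ ¬ Lf (u γ) e.1 e.2.2)) _ fun γ _ k k' => k'.resolve_left k).trans
        (Nat.add_le_add_right (filt Ch _ _ _ fun γ _ k k' => Or.resolve_right k' k) _)
    have k1 : ∑ γ ∈ Ch, ((edges I L E).filter fun e =>
        ¬ Rt V (u γ) e.1 e.2.1 ∧ Rt V (u γ) e.1 e.2.2).card ≤ Ch.card * (a * (2 * P.card)) := by
      rw [← smul_eq_mul, ← sum_const]
      refine sum_le_sum fun γ hγ => cnt hp h hb (Rt V (u γ))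
        (fun l z ⟨j, b, k⟩ => ⟨j, Nat.lt_of_succ_lt b, k⟩) fun l hl p hp' q hq k => ?_
      obtain ⟨b1, -, b3⟩ := h.swap (Nat.le_succ l) hl hp' hq
      obtain ⟨d1, d2⟩ := (hch γ hγ).rt (e := (l, p, q)) b1 b3 b1.le le_rfl
      exact d2 (d1 k)
    have k2 : ∑ γ ∈ Ch, ((edges I L E).filter fun e =>
        ¬ ¬ Lf (u γ) e.1 e.2.1 ∧ ¬ Lf (u γ) e.1 e.2.2).card ≤ Ch.card * (a * (2 * P.card)) := by
      rw [← smul_eq_mul, ← sum_const]
      refine sum_le_sum fun γ hγ => le_trans (le_of_eq ?_) (cnt hp h hb (fun l z => ¬ Lf (u γ) l z)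
        (fun l z k ⟨j, b, k'⟩ => k ⟨j, Nat.lt_succ_of_lt b, k'⟩) fun l hl p hp' q hq k k' => ?_)
      · congr
      · obtain ⟨b1, b2, -⟩ := h.swap (Nat.le_succ l) hl hp' hq
        obtain ⟨d1, d2⟩ := (hch γ hγ).lf (e := (l, p, q)) hl b1 b2 b1.le le_rfl
        exact k (d2 (d1 k'))
    have k3 := same h hb (fun l => (Ch.filter fun γ => u γ (l + 1) ≠ u γ l).card) c5
    have k4 := sum_le_sum k0
    rw [sum_add_distrib, sum_add_distrib] at k4
    rw [← swap_sum] at k1 k2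
    have k5 := Nat.mul_le_mul_right (a * (2 * P.card)) c1
    have k6 : 5 * P.card ^ 2 * a ^ 2 = a * P.card * (a * (2 * P.card)) +
      a * P.card * (a * (2 * P.card)) + a ^ 2 * P.card ^ 2 := by ring
    rw [k6]
    exact k4.trans (Nat.add_le_add (Nat.add_le_add (k1.trans k5) (k2.trans k5)) k3)
  · obtain ⟨b1, -, -, -, -, b2, b3, b4⟩ := hb.edge h he
    exact ⟨filt Ch _ _ _ fun γ hγ k => mt ((hch γ hγ).const b1 b2 b3 b4 h1 h2 k).2,
      filt Ch _ _ _ fun γ hγ k => mt ((hch γ hγ).const b1 b2 b3 b4 h1 h2 k).1⟩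
  · choose! c d1 d2 d3 using c4
    have hsub : (Ch.filter fun γ => ¬ St V (u γ) (x, y)) ⊆
        Ch.filter fun γ => ¬ St V (u γ) (x, y') := fun γ hγ =>
      mem_filter.2 ⟨(mem_filter.1 hγ).1, fun ⟨j, b, k, k'⟩ => (mem_filter.1 hγ).2
        ⟨j, b, k, lt_of_le_of_lt (sub_le_sub_right hy _) k'⟩⟩
    show (Ch.filter fun γ => ¬ St V (u γ) (x, y)).card + _ ≤
      (Ch.filter fun γ => ¬ St V (u γ) (x, y')).card
    rw [← card_sdiff_add_card_eq_card hsub, add_comm]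
    refine Nat.add_le_add_right (card_le_card_of_injOn c (fun e he => ?_) fun e he e' he' k => ?_) _
    · obtain ⟨he, x1, x2, y1, y2⟩ := mem_filter.1 (mem_coe.1 he)
      obtain ⟨b1, -, -, -, -, b2, -⟩ := hb.edge h he
      refine mem_coe.2 (mem_sdiff.2 ⟨mem_filter.2 ⟨d1 e he, (hch _ (d1 e he)).not_st b1 (d2 e he)
        (d3 e he) b2 x1.le x2.le y2⟩, fun k => (mem_filter.1 k).2 ⟨e.1, b1, ?_, ?_⟩⟩)
      · rw [d2 e he, d3 e he]
        exact fun k => b2.ne' (congrArg Prod.fst k)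
      · rw [d2 e he, d3 e he]
        have e1 := (seg e b2 (slope e.2.1 e.2.2) x).1
        rw [sub_self, zero_mul] at e1
        have e2 : val (slope e.2.1 e.2.2) (x, y) < val (slope e.2.1 e.2.2) (x, ht e x) :=
          sub_lt_sub_right y1 _
        linarith
    · obtain ⟨he, x1, x2, -⟩ := mem_filter.1 (mem_coe.1 he)
      obtain ⟨he', x1', x2', -⟩ := mem_filter.1 (mem_coe.1 he')
      have e1 : e.1 = e'.1 := by
        rcases lt_trichotomy e.1 e'.1 with m | m | m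
        · have := (hch _ (d1 e he)).xmono (l := e.1 + 1) m (hb.edge h he').1.le
          rw [d3 e he, k, d2 e' he'] at this
          linarith
        · exact m
        · have := (hch _ (d1 e' he')).xmono (l := e'.1 + 1) m (hb.edge h he).1.le
          rw [d3 e' he', ← k, d2 e he] at this
          linarith
      refine Prod.ext e1 (Prod.ext ?_ ?_)
      · rw [← d2 e he, ← d2 e' he', k, e1]
      · rw [← d3 e he, ← d3 e' he', k, e1]

end Vale.Agent.P065U
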