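import Vale.Agent.P065U.Basic

/-! P065U: halving lines give changes of the middle level. -/

namespace Vale.Agent.P065U

open Classical Finset Filter Topology

namespace HalvAux

/-- the `k` lowest points in direction `t` -/
noncomputable def lowS (P : Finset Pt) (k : ℕ) (t : ℝ) : Finset Pt :=
  P.filter fun p => (P.filter fun q => val t q < val t p).card < k

theorem card_lowS {P : Finset Pt} {k : ℕ} {t : ℝ} (hk : k ≤ P.card)
    (h : Set.InjOn (val t) (P : Set Pt)) : (lowS P k t).card = k := by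
  set r : Pt → ℕ := fun p => (P.filter fun q => val t q < val t p).card with hr
  have h1 : ∀ p ∈ P, ∀ p' ∈ P, val t p < val t p' → r p < r p' := fun p hp p' _ hlt =>
    card_lt_card ⟨fun q hq => mem_filter.2 ⟨(mem_filter.1 hq).1, (mem_filter.1 hq).2.trans hlt⟩,
      fun hs => lt_irrefl _ (mem_filter.1 (hs (mem_filter.2 ⟨hp, hlt⟩))).2⟩
  have h2 : Set.InjOn r (P : Set Pt) := fun p hp p' hp' e => h hp hp' (by
    rcases lt_trichotomy (val t p) (val t p') with c | c | c
    · exact absurd e (h1 p hp p' hp' c).ne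
    · exact c
    · exact absurd e (h1 p' hp' p hp c).ne')
  have h3 : P.image r = range P.card := by
    refine eq_of_subset_of_card_le (fun i hi => ?_) (by rw [card_image_of_injOn h2, card_range])
    obtain ⟨p, hp, rfl⟩ := mem_image.1 hi
    exact mem_range.2 (card_lt_card ⟨filter_subset _ _,
      fun hs => lt_irrefl _ (mem_filter.1 (hs hp)).2⟩)
  have h4 : (lowS P k t).image r = range k := by
    ext i
    simp only [mem_image, lowS, mem_filter, mem_range]
    refine ⟨fun ⟨p, hp, e⟩ => e ▸ hp.2, fun hi => ?_⟩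
    obtain ⟨p, hp, e⟩ := mem_image.1 (h3 ▸ mem_range.2 (hi.trans_le hk) : i ∈ P.image r)
    exact ⟨p, ⟨hp, (show r p < k from e ▸ hi)⟩, e⟩
  have h5 : Set.InjOn r (lowS P k t : Set Pt) := h2.mono (coe_subset.2 (filter_subset _ _))
  rw [← card_image_of_injOn h5, h4, card_range]

/-- `S` is a halving pair of slope `θ` -/
def HP (P S : Finset Pt) (θ : ℝ) : Prop :=
  ∃ p ∈ P, ∃ q ∈ P, p.1 < q.1 ∧ S = {p, q} ∧ slope p q = θ ∧
    (P.filter fun z => val θ z < val θ p).card = (P.card - 2) / 2

theorem hp_of {P S : Finset Pt} (hP : Good P) (hS : S ∈ P.powersetCard 2)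
    (h : P065.Halving P S) : ∃ θ, HP P S θ := by
  obtain ⟨hs, hc⟩ := mem_powersetCard.1 hS
  obtain ⟨p, q, hne, rfl⟩ := card_eq_two.1 hc
  wlog hlt : p.1 < q.1 generalizing p q
  · have hp : p ∈ P := hs (by simp)
    have hq : q ∈ P := hs (by simp)
    have h1 : q.1 < p.1 := lt_of_le_of_ne (not_lt.1 hlt) fun e => hne (hP.xinj hp hq e.symm)
    rw [pair_comm] at hS h hs hc ⊢
    exact this q p hne.symm hS h hs hc h1
  obtain ⟨a, b, c, hab, h1, h2, h3⟩ := h
  have e1 := h1 p (by simp)
  have e2 := h1 q (by simp)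
  have hd : q.1 - p.1 ≠ 0 := (sub_pos.2 hlt).ne'
  have hb : b ≠ 0 := by
    rintro rfl
    have : a * (q.1 - p.1) = 0 := by linarith
    rcases hab with h | h
    · exact h ((mul_eq_zero.1 this).resolve_right hd)
    · exact h rfl
  have e3 : b * slope p q = -a := by
    unfold slope
    field_simp
    linarith
  have e4 : ∀ z : Pt, a * z.1 + b * z.2 - c =
      b * (val (slope p q) z - val (slope p q) p) := fun z => by
    unfold val
    linear_combination e1 + (z.1 - p.1) * e3
  refine ⟨_, p, hs (by simp), q, hs (by simp), hlt, rfl, rfl, ?_⟩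
  rcases hb.lt_or_gt with h | h
  · rw [← h3]
    refine congrArg card (filter_congr fun z _ => ?_)
    have := e4 z
    constructor <;> intro <;> nlinarith
  · rw [← h2]
    refine congrArg card (filter_congr fun z _ => ?_)
    have := e4 z
    constructor <;> intro <;> nlinarith

theorem on_line {P : Finset Pt} (hP : Good P) {p q z : Pt} (hp : p ∈ P) (hq : q ∈ P) (hz : z ∈ P)
    (hlt : p.1 < q.1) (h : val (slope p q) z = val (slope p q) p) : z = p ∨ z = q := by
  by_contra hc
  rw [not_or] at hc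
  have h1 : p.1 ≠ z.1 := fun e => hc.1 (hP.xinj hz hp e.symm)
  have h2 := val_sub h1 (slope p q)
  rw [h, sub_self] at h2
  have h3 := (mul_eq_zero.1 h2.symm).resolve_right (sub_ne_zero.2 h1.symm)
  exact hP.gen p hp q hq z hz (fun e => hlt.ne (e ▸ rfl)) (Ne.symm hc.1) (Ne.symm hc.2)
    (sub_eq_zero.1 h3).symm

theorem hp_unique {P S S' : Finset Pt} (hP : Good P) {θ : ℝ} (h : HP P S θ) (h' : HP P S' θ) :
    S = S' := by
  obtain ⟨p, hp, q, hq, h1, rfl, h2, h3⟩ := h
  obtain ⟨p', hp', q', hq', h1', rfl, h2', h3'⟩ := h'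
  have key : ∀ a ∈ P, ∀ a' ∈ P, (P.filter fun z => val θ z < val θ a).card =
      (P.filter fun z => val θ z < val θ a').card → ¬ val θ a < val θ a' := fun a ha a' _ e c =>
    e.not_lt (card_lt_card ⟨fun z hz => mem_filter.2 ⟨(mem_filter.1 hz).1,
      (mem_filter.1 hz).2.trans c⟩, fun hs => lt_irrefl _ (mem_filter.1
        (hs (mem_filter.2 ⟨ha, c⟩))).2⟩)
  have e : val θ p' = val θ p := le_antisymm (not_lt.1 (key p hp p' hp' (h3.trans h3'.symm)))
    (not_lt.1 (key p' hp' p hp (h3'.trans h3.symm)))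
  have e' : val θ q' = val θ p := by
    have := val_sub h1'.ne θ
    rw [h2', sub_self, zero_mul] at this
    linarith
  subst h2
  rcases on_line hP hp hq hp' h1 e with a | a <;> rcases on_line hP hp hq hq' h1 e' with b | b
  · rw [a, b] at h1'
    exact absurd h1' (lt_irrefl _)
  · rw [a, b]
  · rw [a, b] at h1'
    exact absurd h1' h1.le.not_gt
  · rw [a, b] at h1'
    exact absurd h1' (lt_irrefl _)

theorem change {P S : Finset Pt} (hP : Good P) {θ η : ℝ} (hη : 0 < η) (h2 : 2 ≤ P.card)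
    (hg : ∀ p ∈ P, ∀ q ∈ P, slope p q ≠ θ → η < |slope p q - θ|) (h : HP P S θ) :
    lowS P (P.card / 2) (θ - η) ≠ lowS P (P.card / 2) (θ + η) := by
  obtain ⟨p, hp, q, hq, h1, -, rfl, h3⟩ := h
  have hs : ∀ z ∈ P, z ≠ p → z ≠ q → η < |slope p z - slope p q| := fun z hz a b =>
    hg p hp z hz (hP.gen p hp q hq z hz (fun e => h1.ne (e ▸ rfl)) a.symm b.symm).symm
  have hx : ∀ z ∈ P, z ≠ p → p.1 ≠ z.1 := fun z hz a e => a (hP.xinj hz hp e.symm)
  have hq0 : val (slope p q) q = val (slope p q) p := by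
    have := val_sub h1.ne (slope p q)
    rw [sub_self, zero_mul] at this
    linarith
  intro e
  have a1 : p ∈ lowS P (P.card / 2) (slope p q - η) := by
    refine mem_filter.2 ⟨hp, lt_of_le_of_lt (card_le_card fun z hz => ?_) (h3.trans_lt (by omega))⟩
    obtain ⟨hz, c⟩ := mem_filter.1 hz
    have b1 : z ≠ p := by rintro rfl; exact lt_irrefl _ c
    have b2 : z ≠ q := by
      rintro rfl
      have := val_sub h1.ne (slope p z - η)
      nlinarith
    have b3 := val_sub (hx z hz b1) (slope p q - η)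
    have b4 := val_sub (hx z hz b1) (slope p q)
    refine mem_filter.2 ⟨hz, ?_⟩
    rcases lt_abs.1 (hs z hz b1 b2) with d | d
    · have : z.1 - p.1 < 0 := by nlinarith
      nlinarith
    · have : 0 < z.1 - p.1 := by nlinarith
      nlinarith
  rw [e] at a1
  refine (mem_filter.1 a1).2.not_ge (le_trans ?_ (card_le_card
    (s := insert q (P.filter fun z => val (slope p q) z < val (slope p q) p)) fun z hz => ?_))
  · rw [card_insert_of_notMem (fun c => (mem_filter.1 c).2.ne hq0), h3]
    omega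
  · rcases mem_insert.1 hz with rfl | hz
    · have := val_sub h1.ne (slope p z + η)
      exact mem_filter.2 ⟨hq, by nlinarith⟩
    · obtain ⟨hz, c⟩ := mem_filter.1 hz
      have b1 : z ≠ p := by rintro rfl; exact lt_irrefl _ c
      have b2 : z ≠ q := by rintro rfl; exact c.ne hq0
      have b3 := val_sub (hx z hz b1) (slope p q + η)
      have b4 := val_sub (hx z hz b1) (slope p q)
      refine mem_filter.2 ⟨hz, ?_⟩
      rcases lt_abs.1 (hs z hz b1 b2) with d | d
      · have : z.1 - p.1 < 0 := by nlinarith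
        nlinarith
      · have : 0 < z.1 - p.1 := by nlinarith
        nlinarith

theorem gap (T : Finset ℝ) : ∃ η > (0 : ℝ), ∀ a ∈ T, ∀ b ∈ T, a ≠ b → 2 * η < |a - b| := by
  have h : ∀ᶠ η : ℝ in 𝓝 0, ∀ a ∈ T, ∀ b ∈ T, a ≠ b → 2 * η < |a - b| := by
    simp only [eventually_all_finset]
    intro a _ b _
    by_cases hab : a = b
    · simp [hab]
    · have : ContinuousAt (fun η : ℝ => 2 * η) 0 := by fun_prop
      exact (this.eventually (gt_mem_nhds (by simpa [sub_eq_zero] using hab))).mono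
        fun _ h _ => h
  obtain ⟨η, h1, h2⟩ := ((h.filter_mono nhdsWithin_le_nhds).and
    (self_mem_nhdsWithin (s := Set.Ioi (0 : ℝ)))).exists
  exact ⟨η, h2, h1⟩

end HalvAux

open HalvAux in
theorem halv : StmHalv := by
  intro ε C hC P hP _
  set T : Finset ℝ := insert 0 ((P ×ˢ P).image fun e => slope e.1 e.2) with hT
  have hmem : ∀ p ∈ P, ∀ q ∈ P, slope p q ∈ T := fun p hp q hq =>
    mem_insert_of_mem (mem_image.2 ⟨(p, q), mem_product.2 ⟨hp, hq⟩, rfl⟩)
  have hN : 0 < T.card := card_pos.2 ⟨0, mem_insert_self _ _⟩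
  obtain ⟨η, hη, hg⟩ := gap T
  let th : ℕ → ℝ := fun i => if h : i < T.card then T.orderEmbOfFin rfl ⟨i, h⟩ else 0
  have th1 : ∀ i, th i ∈ T := fun i => by
    simp only [th]
    split_ifs
    · exact orderEmbOfFin_mem _ _ _
    · exact mem_insert_self _ _
  have th2 : ∀ i j, i < j → j < T.card → th i + 2 * η < th j := fun i j a b => by
    have c : th i < th j := by
      simp only [th, dif_pos b, dif_pos (a.trans b)]
      exact (T.orderEmbOfFin rfl).strictMono a
    have := hg _ (th1 j) _ (th1 i) c.ne'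
    rw [abs_of_pos (sub_pos.2 c)] at this
    linarith
  have th3 : ∀ θ ∈ T, ∃ i < T.card, th i = θ := fun θ h => by
    obtain ⟨i, hi⟩ : θ ∈ Set.range (T.orderEmbOfFin rfl) := by
      rw [range_orderEmbOfFin]
      exact h
    exact ⟨i, i.2, by simp only [th, dif_pos i.2, hi]⟩
  let τ : ℕ → ℝ := fun l => th (l / 2) + if l % 2 = 0 then -η else η
  have hgen : ∀ l, Set.InjOn (val (τ l)) (P : Set Pt) := fun l p hp q hq e => by
    by_contra hne
    have h1 : p.1 ≠ q.1 := fun c => hne (hP.xinj hp hq c)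
    have h2 := val_sub h1 (τ l)
    rw [e, sub_self] at h2
    have h3 := sub_eq_zero.1 ((mul_eq_zero.1 h2.symm).resolve_right (sub_ne_zero.2 h1.symm))
    have h4 : |slope p q - th (l / 2)| = η := by
      rw [h3]
      simp only [τ, add_sub_cancel_left]
      split_ifs <;> simp [abs_of_pos hη]
    have := hg _ (hmem p hp q hq) _ (th1 (l / 2)) fun c => by
      rw [c, sub_self, abs_zero] at h4
      exact hη.ne h4
    linarith
  have hcfg : Cfg P τ (fun l => lowS P (P.card / 2) (τ l)) (2 * T.card - 1) := by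
    refine ⟨hP, fun l l' a b => ?_, fun l _ => filter_subset _ _, fun l _ => ?_,
      fun l _ p hp q hq hq' => ?_, fun l _ => hgen l⟩
    · simp only [τ]
      rcases (Nat.div_le_div_right (c := 2) a).eq_or_lt with c | c
      · rw [c]
        split_ifs <;> first | omega | linarith
      · have := th2 _ _ c (by omega)
        split_ifs <;> linarith
    · rw [card_lowS (Nat.div_le_self _ _) (hgen l), card_lowS (Nat.div_le_self _ _) (hgen 0)]
    · by_contra c
      exact hq' (mem_filter.2 ⟨hq, lt_of_le_of_lt (card_le_card fun z hz => mem_filter.2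
        ⟨(mem_filter.1 hz).1, (mem_filter.1 hz).2.trans_le (not_lt.1 c)⟩) (mem_filter.1 hp).2⟩)
  refine le_trans (Nat.cast_le.2 ?_) (hC _ _ _ _ hcfg)
  refine card_le_card_of_forall_subsingleton (fun S l => HP P S (th (l / 2))) (fun S hS => ?_)
    fun l _ S hS S' hS' => hp_unique hP hS.2 hS'.2
  obtain ⟨h1, h2⟩ := mem_filter.1 hS
  obtain ⟨θ, hθ⟩ := hp_of hP h1 h2
  obtain ⟨i, hi, rfl⟩ := th3 θ (by
    obtain ⟨p, hp, q, hq, -, -, rfl, -⟩ := hθ
    exact hmem p hp q hq)
  have e0 : 2 * i / 2 = i := by omega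
  have e1 : (2 * i + 1) / 2 = i := by omega
  refine ⟨2 * i, mem_filter.2 ⟨mem_range.2 (by omega), ?_⟩, by rwa [e0]⟩
  have h3 := change hP hη ((mem_powersetCard.1 h1).2 ▸ card_le_card (mem_powersetCard.1 h1).1)
    (fun p hp q hq c => by linarith [hg _ (hmem p hp q hq) _ (th1 i) c]) hθ
  simpa only [τ, e0, e1, Nat.mul_mod_right, if_true, Nat.mul_add_mod, Nat.one_mod, one_ne_zero,
    if_false, ← sub_eq_add_neg] using h3

end Vale.Agent.P065U
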