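import Vale.Agent.P065U.Basic

/-! P065U: from net bounds to bounds for windows with many involved points. -/

namespace Vale.Agent.P065U

open Classical Finset

namespace InvAux

/-- the bound for one sweep -/
def HB (P : Finset Pt) (S : ℕ → Finset Pt) (V : ℕ) (G : ℝ) : Prop :=
  ∀ lo hi (n a : ℕ), Win lo hi n V → 1 ≤ a → (∀ i < n, a ≤ (inv S (lo i) (hi i)).card) →
    (n : ℝ) ^ 3 * (a : ℝ) ^ 4 ≤ G ^ 3 * (P.card : ℝ) ^ 4

theorem tail_aux (s : Finset ℕ) (cnt : ℕ → ℕ) (X : ℝ) (hX : 0 ≤ X)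
    (h : ∀ k : ℕ, ((s.filter fun i => 2 * 8 ^ k ≤ cnt i).card : ℝ) * 16 ^ k ≤ X) (d : ℕ) :
    ∀ k : ℕ, (∀ i ∈ s, cnt i < 2 * 8 ^ (k + d)) →
      ∑ i ∈ s.filter fun i => 2 * 8 ^ k ≤ cnt i, (cnt i : ℝ) ≤ 32 * X / 2 ^ k := by
  induction d with
  | zero =>
    intro k hk
    rw [add_zero] at hk
    rw [filter_false_of_mem fun i hi => not_le.2 (hk i hi), sum_empty]
    positivity
  | succ d ih =>
    intro k hk
    have h1 := ih (k + 1) fun i hi => by rw [add_right_comm]; exact hk i hi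
    have h2 : ∑ i ∈ s.filter fun i => 2 * 8 ^ k ≤ cnt i, (cnt i : ℝ) ≤
        ∑ i ∈ s.filter fun i => 2 * 8 ^ (k + 1) ≤ cnt i, (cnt i : ℝ) +
          ∑ _i ∈ s.filter fun i => 2 * 8 ^ k ≤ cnt i, (2 * 8 ^ (k + 1) : ℝ) := by
      simp only [sum_filter, ← sum_add_distrib]
      refine sum_le_sum fun i _ => ?_
      by_cases a1 : 2 * 8 ^ (k + 1) ≤ cnt i
      · rw [if_pos a1]
        split_ifs
        · exact le_add_of_nonneg_right (by positivity)
        · positivity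
      · rw [if_neg a1, zero_add]
        split_ifs
        · exact_mod_cast (not_le.1 a1).le
        · exact le_rfl
    rw [sum_const, nsmul_eq_mul] at h2
    have h3 : ((s.filter fun i => 2 * 8 ^ k ≤ cnt i).card : ℝ) * (2 * 8 ^ (k + 1)) ≤
        16 * X / 2 ^ k := by
      have h4 := h k
      rw [show (16 : ℝ) ^ k = 8 ^ k * 2 ^ k by rw [← mul_pow]; norm_num] at h4
      rw [le_div_iff₀ (by positivity), pow_succ]
      linarith
    have h5 : 32 * X / 2 ^ (k + 1) + 16 * X / 2 ^ k = 32 * X / 2 ^ k := by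
      rw [pow_succ]; field_simp; ring
    linarith

theorem tail (s : Finset ℕ) (cnt : ℕ → ℕ) (X : ℝ) (hX : 0 ≤ X)
    (h : ∀ k : ℕ, ((s.filter fun i => 2 * 8 ^ k ≤ cnt i).card : ℝ) * 16 ^ k ≤ X) (k : ℕ) :
    ∑ i ∈ s, (cnt i : ℝ) ≤ s.card * (2 * 8 ^ k) + 32 * X / 2 ^ k := by
  have h1 := tail_aux s cnt X hX h (s.sup cnt) k fun i hi => by
    have a1 : cnt i ≤ s.sup cnt := le_sup hi
    have a2 : k + s.sup cnt < 8 ^ (k + s.sup cnt) := Nat.lt_pow_self (by norm_num)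
    omega
  have h2 : ∑ i ∈ s, (cnt i : ℝ) ≤
      ∑ _i ∈ s, (2 * 8 ^ k : ℝ) + ∑ i ∈ s.filter fun i => 2 * 8 ^ k ≤ cnt i, (cnt i : ℝ) := by
    simp only [sum_filter, ← sum_add_distrib]
    refine sum_le_sum fun i _ => ?_
    split_ifs with a1
    · exact le_add_of_nonneg_left (by positivity)
    · rw [add_zero]
      exact_mod_cast (not_le.1 a1).le
  rw [sum_const, nsmul_eq_mul] at h2
  linarith

theorem HB.sub {P S V G} (h : HB P S V G) {lo hi : ℕ → ℕ} {n a : ℕ} (hw : Win lo hi n V)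
    (ha : 1 ≤ a) (F : Finset ℕ) (hF : ∀ i ∈ F, i < n ∧ a ≤ (inv S (lo i) (hi i)).card) :
    (F.card : ℝ) ^ 3 * (a : ℝ) ^ 4 ≤ G ^ 3 * (P.card : ℝ) ^ 4 := by
  obtain ⟨e, he1, he2⟩ : ∃ e : ℕ → ℕ, (∀ i < F.card, e i ∈ F) ∧
      ∀ i j, i < j → j < F.card → e i < e j := by
    refine ⟨fun i => if hi : i < F.card then F.orderEmbOfFin rfl ⟨i, hi⟩ else 0, fun i hi => ?_,
      fun i j hij hj => ?_⟩
    · simp only [dif_pos hi]
      exact orderEmbOfFin_mem _ _ _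
    · simp only [dif_pos hj, dif_pos (hij.trans hj)]
      exact (F.orderEmbOfFin rfl).strictMono hij
  exact h (fun i => lo (e i)) (fun i => hi (e i)) _ a
    ⟨fun i hi => hw.le _ (hF _ (he1 i hi)).1,
      fun i j hij hj => hw.sep _ _ (he2 i j hij hj) (hF _ (he1 j hj)).1⟩ ha
    fun i hi => (hF _ (he1 i hi)).2

theorem exists_rho (N a : ℕ) (ha : 1 ≤ a) : ∃ ρ : ℝ, 0 ≤ ρ ∧ ρ ^ 3 * (a : ℝ) ^ 4 = (N : ℝ) ^ 4 := by
  have h : (0 : ℝ) < a := by exact_mod_cast ha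
  refine ⟨((N : ℝ) ^ 4 / (a : ℝ) ^ 4) ^ (((3 : ℕ) : ℝ)⁻¹), by positivity, ?_⟩
  rw [Real.rpow_inv_natCast_pow (by positivity) (by norm_num)]
  field_simp

theorem le_of_cube {x y A B : ℝ} (hA : 0 < A) (hy : 0 ≤ y) (h : x ^ 3 * A ≤ B)
    (hB : B ≤ y ^ 3 * A) : x ≤ y :=
  le_of_pow_le_pow_left₀ (n := 3) (by norm_num) hy (le_of_mul_le_mul_right (h.trans hB) hA)

theorem step (hb : StmBlocks) {P τ S V} (hc : Cfg P τ S V) {G D ρ : ℝ} {K0 : ℕ} (hG : 0 ≤ G)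
    (hD : 0 ≤ D) (hρ : 0 ≤ ρ) (h : HB P S V G) (hn : NetBoundW (D ^ 3) K0) {lo hi : ℕ → ℕ}
    {n a : ℕ} (hw : Win lo hi n V) (ha : 1 ≤ a) (hi' : ∀ i < n, a ≤ (inv S (lo i) (hi i)).card)
    (e : ρ ^ 3 * (a : ℝ) ^ 4 = (P.card : ℝ) ^ 4) (k : ℕ) :
    (n : ℝ) ≤ (1 + 2 * 8 ^ k) * (K0 + 1 + 140 * D * ρ) + 32 * (G * ρ) / 2 ^ k := by
  obtain ⟨g, b, blo, bhi, lo', hi', cnt, w1, w2, hb1, hab, hnet, hsum, hcnt⟩ :=
    hb P τ S V lo hi n a hc hw ha hi'
  have ha0 : (0 : ℝ) < a := by exact_mod_cast ha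
  have h1 : (g : ℝ) ≤ K0 + 140 * D * ρ := by
    by_cases hg : K0 ≤ g
    · have h2 := hn P τ S V lo' hi' g b hc w2 hg hb1 hnet
      have h3 : (a : ℝ) ^ 4 ≤ (40 * b) ^ 4 := pow_le_pow_left₀ ha0.le (by exact_mod_cast hab) 4
      have h4 : (g : ℝ) ^ 3 * (a : ℝ) ^ 4 ≤ (g : ℝ) ^ 3 * (40 * b) ^ 4 :=
        mul_le_mul_of_nonneg_left h3 (by positivity)
      have h5 : 0 ≤ D ^ 3 * (P.card : ℝ) ^ 4 := by positivity
      refine (le_of_cube (y := 140 * D * ρ) (pow_pos ha0 4) (by positivity) h4 ?_).trans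
        (le_add_of_nonneg_left (by positivity))
      have h6 : (140 * D * ρ) ^ 3 * (a : ℝ) ^ 4 = 140 ^ 3 * (D ^ 3 * (P.card : ℝ) ^ 4) := by
        rw [← e]; ring
      rw [h6]
      linarith
    · exact (Nat.cast_le.2 (not_le.1 hg).le).trans (le_add_of_nonneg_right (by positivity))
  have h2 := tail (range (g + 1)) cnt (G * ρ) (by positivity) (fun k => by
    have h3 := h.sub w1 (a := 8 ^ k * a) (Nat.mul_pos (by positivity) ha)
      ((range (g + 1)).filter fun i => 2 * 8 ^ k ≤ cnt i) fun i hi => by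
        obtain ⟨a1, a2⟩ := mem_filter.1 hi
        have a3 := hcnt i (Nat.lt_succ_iff.1 (mem_range.1 a1))
        have a4 := Nat.mul_le_mul_right a a2
        rw [mul_assoc] at a4
        exact ⟨mem_range.1 a1, by omega⟩
    refine le_of_cube (pow_pos ha0 4) (by positivity) (le_of_eq_of_le ?_ h3) (le_of_eq ?_)
    · have a5 : ((16 : ℝ) ^ k) ^ 3 = (8 ^ k) ^ 4 := by
        rw [← pow_mul, ← pow_mul, mul_comm k, mul_comm k, pow_mul, pow_mul]; norm_num
      push_cast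
      rw [mul_pow, mul_pow, a5, mul_assoc]
    · rw [← e]; ring) k
  have h3 : (n : ℝ) ≤ g + ∑ i ∈ range (g + 1), (cnt i : ℝ) := by exact_mod_cast hsum
  rw [card_range] at h2
  push_cast at h2
  have h4 : ((g : ℝ) + 1) * (1 + 2 * 8 ^ k) ≤ (K0 + 1 + 140 * D * ρ) * (1 + 2 * 8 ^ k) :=
    mul_le_mul_of_nonneg_right (by linarith) (by positivity)
  linarith

theorem cube_le {n a N G ρ : ℝ} (hn : 0 ≤ n) (h : n ≤ G * ρ)
    (e : ρ ^ 3 * a ^ 4 = N ^ 4) : n ^ 3 * a ^ 4 ≤ G ^ 3 * N ^ 4 := by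
  rw [← e, ← mul_assoc, ← mul_pow]
  exact mul_le_mul_of_nonneg_right (pow_le_pow_left₀ hn h 3) (by positivity)

theorem a_le {P τ S V} (hc : Cfg P τ S V) {i j : ℕ} (hj : j ≤ V) : (inv S i j).card ≤ P.card :=
  card_le_card fun _ hp => by
    obtain ⟨⟨l, -, a1, a2⟩, -⟩ := mem_inv.1 hp
    exact hc.sub l (a1.trans hj) a2

theorem n_le {S : ℕ → Finset Pt} {V : ℕ} {lo hi : ℕ → ℕ} {n a : ℕ} (hw : Win lo hi n V)
    (ha : 1 ≤ a) (h : ∀ i < n, a ≤ (inv S (lo i) (hi i)).card) : n ≤ V := by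
  have h1 : ∀ i < n, lo i < hi i := fun i hi => by
    obtain ⟨p, hp⟩ := card_pos.1 (ha.trans (h i hi))
    obtain ⟨⟨l, a1, a2, a3⟩, l', b1, b2, b3⟩ := mem_inv.1 hp
    by_contra hn
    have : l = l' := by omega
    exact b3 (this ▸ a3)
  have h2 : ∀ i < n, i < hi i := fun i => by
    induction i with
    | zero => exact fun hi => lt_of_le_of_lt (Nat.zero_le _) (h1 0 hi)
    | succ i ih =>
      intro hi
      have a1 := ih (by omega)
      have a2 := hw.sep i (i + 1) (by omega) hi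
      have a3 := h1 _ hi
      omega
  rcases n with _ | n
  · exact Nat.zero_le _
  · have a1 := h2 n (by omega)
    have a2 := (hw.le n (by omega)).2
    omega

theorem le_cube {c : ℝ} (hc : 0 < c) : c ≤ (c + 1) ^ 3 := by
  nlinarith [pow_pos hc 2, pow_pos hc 3]

end InvAux

open InvAux

theorem inv1 (h : StmBlocks) : StmInv1 := by
  intro c hc hn
  have hn' : NetBoundW ((c + 1) ^ 3) 0 := fun P τ S V lo hi n a a1 a2 a3 a4 a5 =>
    (hn P τ S V lo hi n a a1 a2 a3 a4 a5).trans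
      (mul_le_mul_of_nonneg_right (le_cube hc) (by positivity))
  obtain ⟨C, hC⟩ : ∃ C : ℝ, C = (1 + 2 * 8 ^ 6) * (1 + 140 * (c + 1)) := ⟨_, rfl⟩
  have hC0 : 0 < C := by rw [hC]; positivity
  refine ⟨(2 * C + 1) ^ 3, by positivity, fun P τ S V lo hi n a hcf hw _ ha hi' => ?_⟩
  have key : ∀ j : ℕ, HB P S V (2 * C + V / 2 ^ j) := fun j => by
    induction j with
    | zero =>
      intro lo hi n a hw ha hi'
      rcases Nat.eq_zero_or_pos n with rfl | hn0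
      · rw [Nat.cast_zero, zero_pow three_ne_zero, zero_mul]
        positivity
      · have a1 : (n : ℝ) ≤ V := by exact_mod_cast n_le hw ha hi'
        have a2 : (a : ℝ) ≤ P.card := by
          exact_mod_cast (hi' 0 hn0).trans (a_le hcf (hw.le 0 hn0).2)
        have a3 : (n : ℝ) ≤ 2 * C + V / 2 ^ 0 := by rw [pow_zero, div_one]; linarith
        gcongr
    | succ j ih =>
      intro lo hi n a hw ha hi'
      rcases Nat.eq_zero_or_pos n with rfl | hn0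
      · rw [Nat.cast_zero, zero_pow three_ne_zero, zero_mul]
        positivity
      · obtain ⟨ρ, hρ, e⟩ := exists_rho P.card a ha
        have ha0 : (0 : ℝ) < a := by exact_mod_cast ha
        have a2 : (a : ℝ) ≤ P.card := by
          exact_mod_cast (hi' 0 hn0).trans (a_le hcf (hw.le 0 hn0).2)
        have a3 : 1 ≤ ρ := le_of_cube (pow_pos ha0 4) hρ
          (by rw [one_pow, one_mul]; exact pow_le_pow_left₀ ha0.le a2 4) e.ge
        have a4 := step h hcf (by positivity) (by positivity) hρ ih hn' hw ha hi' e 6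
        refine cube_le (by positivity) ?_ e
        have a5 : (V : ℝ) / 2 ^ (j + 1) = V / 2 ^ j / 2 := by rw [pow_succ, div_div]
        rw [a5]
        generalize (V : ℝ) / 2 ^ j = t at *
        have a6 : C * ρ = (1 + 2 * 8 ^ 6) * (1 + 140 * (c + 1)) * ρ := by rw [hC]
        push_cast at a4
        linarith
  refine (key V lo hi n a hw ha hi').trans ?_
  have a1 : (V : ℝ) / 2 ^ V ≤ 1 := by
    rw [div_le_one (by positivity)]
    exact_mod_cast (Nat.lt_two_pow_self).le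
  gcongr

theorem inv2 (h : StmBlocks) : StmInv2 := by
  intro c hc hI hn c' hc'
  obtain ⟨G, hG⟩ : ∃ G : ℝ, G = min 1 c' := ⟨_, rfl⟩
  have hG0 : 0 < G := by rw [hG]; positivity
  have hG3 : G ^ 3 ≤ c' :=
    (pow_le_of_le_one hG0.le (hG ▸ min_le_left _ _) three_ne_zero).trans (hG ▸ min_le_right _ _)
  obtain ⟨k, hk⟩ := pow_unbounded_of_one_lt (96 * (c + 1) / G) (one_lt_two (α := ℝ))
  rw [div_lt_iff₀ hG0] at hk
  obtain ⟨D, hD⟩ : ∃ D : ℝ, D = G / (420 * (1 + 2 * 8 ^ k)) := ⟨_, rfl⟩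
  have hD0 : 0 < D := by rw [hD]; positivity
  have hD1 : (1 + 2 * 8 ^ k) * (140 * D) = G / 3 := by rw [hD]; field_simp; norm_num
  obtain ⟨K0, hK⟩ := hn (D ^ 3) (by positivity)
  refine ⟨3 * ((1 + 2 * 8 ^ k) * (K0 + 1)), fun P τ S V lo hi n a hcf hw hn0 ha hi' => ?_⟩
  have H : HB P S V (c + 1) := fun lo hi n a a1 a2 a3 =>
    (hI P τ S V lo hi n a hcf a1 (Nat.zero_le _) a2 a3).trans
      (mul_le_mul_of_nonneg_right (le_cube hc) (by positivity))
  obtain ⟨ρ, hρ, e⟩ := exists_rho P.card a ha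
  have a1 := step h hcf (by positivity) hD0.le hρ H hK hw ha hi' e k
  have a2 : (3 : ℝ) * ((1 + 2 * 8 ^ k) * (K0 + 1)) ≤ n := by exact_mod_cast hn0
  have a3 : 32 * ((c + 1) * ρ) / 2 ^ k ≤ G / 3 * ρ := by
    rw [div_le_iff₀ (by positivity)]
    have := mul_le_mul_of_nonneg_right hk.le hρ
    linarith
  have a4 : (1 + 2 * 8 ^ k) * (140 * D) * ρ = G / 3 * ρ := by rw [hD1]
  refine (cube_le (G := G) (by positivity) (by linarith) e).trans ?_
  exact mul_le_mul_of_nonneg_right hG3 (by positivity)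

end Vale.Agent.P065U
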