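import Vale.Agent.P065U.DefsB

/-! P065U: a Pinsker-type inequality and a Jensen inequality. -/

namespace Vale.Agent.P065U

open Classical Finset

namespace KLAux

theorem one (a b : ℝ) (ha : 0 ≤ a) (hb : 0 ≤ b) (hab : 0 < a → 0 < b) :
    2 * a - 2 * (√a * √b) ≤ a * Real.log (a / b) := by
  rcases ha.eq_or_lt with h | h
  · subst h
    simp
  · have hb' := hab h
    have h1 : 0 < √a := Real.sqrt_pos.2 h
    have h2 : 0 < √b := Real.sqrt_pos.2 hb'
    have e : Real.log (a / b) = -(2 * Real.log (√b / √a)) := by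
      rw [Real.log_div h2.ne' h1.ne', Real.log_sqrt ha, Real.log_sqrt hb, Real.log_div h.ne' hb'.ne']
      ring
    have h3 := Real.log_le_sub_one_of_pos (div_pos h2 h1)
    have e2 : a * (√b / √a) = √a * √b := by
      have := Real.mul_self_sqrt ha
      field_simp
      nlinarith
    rw [e]
    nlinarith

theorem core (J : Finset ℕ) (a b : ℕ → ℝ) (h : ∀ j ∈ J, 0 ≤ a j ∧ 0 ≤ b j ∧ (0 < a j → 0 < b j))
    (h1 : ∑ j ∈ J, a j = 1) (h2 : ∑ j ∈ J, b j ≤ 1) :
    (∑ j ∈ J, |a j - b j|) ^ 2 / 4 ≤ ∑ j ∈ J, a j * Real.log (a j / b j) := by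
  have e1 : ∑ j ∈ J, |a j - b j| = ∑ j ∈ J, |√(a j) - √(b j)| * (√(a j) + √(b j)) :=
    sum_congr rfl fun j hj => by
      have ea := Real.mul_self_sqrt (h j hj).1
      have eb := Real.mul_self_sqrt (h j hj).2.1
      rw [← abs_of_nonneg (show 0 ≤ √(a j) + √(b j) by positivity), ← abs_mul]
      congr 1
      linarith
  have c := sum_mul_sq_le_sq_mul_sq J (fun j => |√(a j) - √(b j)|) fun j => √(a j) + √(b j)
  have e2 : ∑ j ∈ J, |√(a j) - √(b j)| ^ 2 = ∑ j ∈ J, a j + ∑ j ∈ J, b j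
      - 2 * ∑ j ∈ J, √(a j) * √(b j) := by
    rw [mul_sum, ← sum_add_distrib, ← sum_sub_distrib]
    exact sum_congr rfl fun j hj => by
      have ea := Real.mul_self_sqrt (h j hj).1
      have eb := Real.mul_self_sqrt (h j hj).2.1
      rw [sq_abs]
      linarith
  have e3 : ∑ j ∈ J, (√(a j) + √(b j)) ^ 2 ≤ 4 := by
    have : ∑ j ∈ J, (√(a j) + √(b j)) ^ 2 ≤ ∑ j ∈ J, (2 * a j + 2 * b j) := sum_le_sum fun j hj => by
      have ea := Real.mul_self_sqrt (h j hj).1
      have eb := Real.mul_self_sqrt (h j hj).2.1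
      nlinarith [sq_nonneg (√(a j) - √(b j))]
    rw [sum_add_distrib, ← mul_sum, ← mul_sum] at this
    linarith
  have e4 : 2 * ∑ j ∈ J, a j - 2 * ∑ j ∈ J, √(a j) * √(b j) ≤ ∑ j ∈ J, a j * Real.log (a j / b j) := by
    rw [mul_sum, mul_sum, ← sum_sub_distrib]
    exact sum_le_sum fun j hj => one _ _ (h j hj).1 (h j hj).2.1 (h j hj).2.2
  have e5 : 0 ≤ ∑ j ∈ J, |√(a j) - √(b j)| ^ 2 := sum_nonneg fun _ _ => sq_nonneg _
  rw [e1]
  nlinarith

end KLAux

theorem kl : StmKL := by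
  intro J p q n Q h hp hn hq hQ
  have h0 := KLAux.core J (fun j => p j / n) (fun j => q j / Q)
    (fun j hj => ⟨div_nonneg (h j hj).1 hn.le, div_nonneg (h j hj).2.1 hQ.le, fun h1 =>
      div_pos ((h j hj).2.2 ((div_pos_iff_of_pos_right hn).1 h1)) hQ⟩)
    (by rw [← sum_div, hp, div_self hn.ne']) (by rw [← sum_div, div_le_one hQ]; exact hq)
  have e : ∑ j ∈ J, p j * Real.log (p j / q j) - n * Real.log (n / Q)
      = n * ∑ j ∈ J, p j / n * Real.log (p j / n / (q j / Q)) := by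
    rw [mul_sum]
    nth_rewrite 1 [← hp]
    rw [sum_mul, ← sum_sub_distrib]
    refine sum_congr rfl fun j hj => ?_
    rcases (h j hj).1.eq_or_lt with h1 | h1
    · simp [← h1]
    · have h2 := (h j hj).2.2 h1
      rw [Real.log_div h1.ne' h2.ne', Real.log_div hn.ne' hQ.ne',
        Real.log_div (div_pos h1 hn).ne' (div_pos h2 hQ).ne', Real.log_div h1.ne' hn.ne',
        Real.log_div h2.ne' hQ.ne']
      field_simp
      ring
  rw [e, mul_div_assoc]
  exact mul_le_mul_of_nonneg_left h0 hn.le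

theorem jen : StmJen := by
  intro ι Ω k w W hΩ hw hW
  have hN : (0 : ℝ) < Ω.card := by exact_mod_cast hΩ.card_pos
  have hc : ∀ e ∈ Ω, (0 : ℝ) < (Ω.filter fun e' => k e' = k e).card := fun e he =>
    Nat.cast_pos.2 (card_pos.2 ⟨e, mem_filter.2 ⟨he, rfl⟩⟩)
  have hs : ∑ e ∈ Ω, w (k e) / (Ω.filter fun e' => k e' = k e).card = ∑ i ∈ Ω.image k, w i := by
    rw [← sum_fiberwise_of_maps_to (t := Ω.image k) (g := k) fun e he => mem_image_of_mem k he]
    refine sum_congr rfl fun i hi => ?_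
    obtain ⟨e0, he0, rfl⟩ := mem_image.1 hi
    rw [sum_congr rfl (g := fun _ => w (k e0) / (Ω.filter fun e' => k e' = k e0).card)
      fun e he => by rw [(mem_filter.1 he).2], sum_const, nsmul_eq_mul]
    have := hc e0 he0
    field_simp
  have hW0 : 0 < W := by
    refine lt_of_lt_of_le ?_ hW
    rw [← hs]
    exact sum_pos (fun e he => div_pos (hw e he) (hc e he)) hΩ
  have ht : 0 < W / Ω.card := div_pos hW0 hN
  have h1 : ∀ e ∈ Ω, Real.log (w (k e) / (Ω.filter fun e' => k e' = k e).card) ≤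
      Real.log (W / Ω.card) + (w (k e) / (Ω.filter fun e' => k e' = k e).card / (W / Ω.card) - 1) :=
    fun e he => by
      have hx := div_pos (hw e he) (hc e he)
      have := Real.log_le_sub_one_of_pos (div_pos hx ht)
      rw [Real.log_div hx.ne' ht.ne'] at this
      linarith
  refine (sum_le_sum h1).trans ?_
  rw [sum_add_distrib, sum_sub_distrib, ← sum_div, hs, sum_const, sum_const, nsmul_eq_mul,
    nsmul_eq_mul, mul_one]
  have h2 : (∑ i ∈ Ω.image k, w i) / (W / Ω.card) ≤ Ω.card := by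
    rw [div_le_iff₀ ht, mul_div_cancel₀ _ hN.ne']
    exact hW
  linarith

end Vale.Agent.P065U
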