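import Vale.Agent.P065U.Basic

/-! P065U: from sweeps to `k`-sets. -/

namespace Vale.Agent.P065U

open Classical Finset Filter Topology

namespace KsetsAux

/-- `S` is a lower set of `P` at time `t` -/
def Low (P : Finset Pt) (t : ℝ) (S : Finset Pt) : Prop :=
  ∀ p ∈ S, ∀ q ∈ P, q ∉ S → val t p < val t q

theorem low_uniq {P S S' : Finset Pt} {t : ℝ} (hS : S ⊆ P) (hS' : S' ⊆ P) (hc : S.card = S'.card)
    (h : Low P t S) (h' : Low P t S') : S = S' := by
  by_contra hne
  have h1 : ¬ S ⊆ S' := fun e => hne (eq_of_subset_of_card_le e hc.ge)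
  have h2 : ¬ S' ⊆ S := fun e => hne (eq_of_subset_of_card_le e hc.le).symm
  obtain ⟨p, hp, hp'⟩ := not_subset.1 h1
  obtain ⟨q, hq, hq'⟩ := not_subset.1 h2
  exact lt_asymm (h p hp q (hS' hq) hq') (h' q hq p (hS hp) hp')

theorem low_gen {P S : Finset Pt} {t : ℝ} (hP : Good P) (h : Low P t S) :
    ∃ t', Low P t' S ∧ Set.InjOn (val t') (P : Set Pt) := by
  have h1 : ∀ᶠ t' in 𝓝 t, Low P t' S := by
    refine (eventually_all_finset S).2 fun p hp => (eventually_all_finset P).2 fun q hq => ?_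
    by_cases hqS : q ∈ S
    · exact Eventually.of_forall fun _ hn => absurd hqS hn
    · have c1 : Continuous fun t' => val t' p := by
        unfold val
        fun_prop
      have c2 : Continuous fun t' => val t' q := by
        unfold val
        fun_prop
      filter_upwards [c1.continuousAt.eventually_lt c2.continuousAt (h p hp q hq hqS)] with t' ht _
      exact ht
  obtain ⟨t', h2, h3⟩ := (infinite_of_mem_nhds t h1).exists_notMem_finset
    ((P ×ˢ P).image fun e => slope e.1 e.2)
  refine ⟨t', h2, fun p hp q hq e => ?_⟩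
  by_contra hne
  have hx : p.1 ≠ q.1 := fun e' => hne (hP.xinj hp hq e')
  have h4 := val_sub hx t'
  rw [e, sub_self] at h4
  rcases mul_eq_zero.1 h4.symm with h5 | h5
  · exact h3 (mem_image.2 ⟨(p, q), mem_product.2 ⟨hp, hq⟩, sub_eq_zero.1 h5⟩)
  · exact hx (sub_eq_zero.1 h5).symm

/-- reflection in the horizontal axis -/
def rf (p : Pt) : Pt := (p.1, -p.2)

theorem rf_inj : Function.Injective rf := fun p q h => by
  simp only [rf, Prod.mk.injEq, neg_inj] at h
  exact Prod.ext h.1 h.2

theorem good_rf {P : Finset Pt} (hP : Good P) : Good (P.image rf) := by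
  have hs : ∀ p q, slope (rf p) (rf q) = -slope p q := fun p q => by
    simp only [slope, rf]
    ring
  refine ⟨fun p hp q hq e => ?_, fun p hp q hq r hr h1 h2 h3 => ?_⟩
  · obtain ⟨p, hp0, rfl⟩ := mem_image.1 hp
    obtain ⟨q, hq0, rfl⟩ := mem_image.1 hq
    rw [hP.xinj hp0 hq0 e]
  · obtain ⟨p, hp0, rfl⟩ := mem_image.1 hp
    obtain ⟨q, hq0, rfl⟩ := mem_image.1 hq
    obtain ⟨r, hr0, rfl⟩ := mem_image.1 hr
    rw [hs, hs, Ne, neg_inj]
    exact hP.gen p hp0 q hq0 r hr0 (fun e => h1 (e ▸ rfl)) (fun e => h2 (e ▸ rfl))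
      fun e => h3 (e ▸ rfl)

theorem sep_low {P S : Finset Pt} (h : P065.Separable P S) :
    (∃ t, Low P t S) ∨ ∃ t, Low (P.image rf) t (S.image rf) := by
  obtain ⟨a, b, c, -, h1, h2⟩ := h
  have h3 : ∀ᶠ b' in 𝓝 b, ∀ p ∈ S, ∀ q ∈ P, q ∉ S → a * p.1 + b' * p.2 < a * q.1 + b' * q.2 := by
    refine (eventually_all_finset S).2 fun p hp => (eventually_all_finset P).2 fun q hq => ?_
    by_cases hqS : q ∈ S
    · exact Eventually.of_forall fun _ hn => absurd hqS hn
    · have c1 : Continuous fun b' : ℝ => a * p.1 + b' * p.2 := by fun_prop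
      have c2 : Continuous fun b' : ℝ => a * q.1 + b' * q.2 := by fun_prop
      filter_upwards [c1.continuousAt.eventually_lt c2.continuousAt
        ((h1 p hp).trans (h2 q hq hqS))] with t' ht _
      exact ht
  obtain ⟨b', h4, h5⟩ := (infinite_of_mem_nhds b h3).exists_notMem_finset {0}
  have h6 : b' ≠ 0 := by simpa using h5
  rcases lt_or_gt_of_ne h6 with hb | hb
  · refine Or.inr ⟨a / b', fun p hp q hq hq' => ?_⟩
    obtain ⟨p, hp0, rfl⟩ := mem_image.1 hp
    obtain ⟨q, hq0, rfl⟩ := mem_image.1 hq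
    have h7 := h4 p hp0 q hq0 fun e => hq' (mem_image_of_mem _ e)
    have e : ∀ z : Pt, val (a / b') (rf z) = (a * z.1 + b' * z.2) / (-b') := fun z => by
      simp only [val, rf]
      field_simp
      ring
    rw [e, e]
    exact div_lt_div_of_pos_right h7 (neg_pos.2 hb)
  · refine Or.inl ⟨-a / b', fun p hp q hq hq' => ?_⟩
    have e : ∀ z : Pt, val (-a / b') z = (a * z.1 + b' * z.2) / b' := fun z => by
      simp only [val]
      field_simp
      ring
    rw [e, e]
    exact div_lt_div_of_pos_right (h4 p hp q hq hq') hb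

theorem count {ε C : ℝ} (hC : 0 < C) (h : SlabBound ε C) {P : Finset Pt} {k : ℕ} (hP : Good P)
    (hk : 2 * k ≤ P.card) : ((((P.powersetCard k).filter fun S => ∃ t, Low P t S).card : ℕ) : ℝ) ≤
      C * P.card * ((k : ℝ) + 1) ^ (1 / 3 - ε) + 1 := by
  set F := (P.powersetCard k).filter fun S => ∃ t, Low P t S with hF
  have hex : ∀ S, ∃ t, S ∈ F → Low P t S ∧ Set.InjOn (val t) (P : Set Pt) := fun S => by
    by_cases hS : S ∈ F
    · obtain ⟨t, ht⟩ := (mem_filter.1 hS).2
      obtain ⟨t', ht'⟩ := low_gen hP ht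
      exact ⟨t', fun _ => ht'⟩
    · exact ⟨0, fun e => absurd e hS⟩
  choose T hT using hex
  have hm : ∀ S ∈ F, S ⊆ P ∧ S.card = k := fun S hS => mem_powersetCard.1 (mem_filter.1 hS).1
  have hinj : Set.InjOn T (F : Set (Finset Pt)) := fun S hS S' hS' e =>
    low_uniq (hm S hS).1 (hm S' hS').1 ((hm S hS).2.trans (hm S' hS').2.symm) (hT S hS).1
      (e ▸ (hT S' hS').1)
  have hcard : (F.image T).card = F.card := card_image_of_injOn hinj
  rcases Nat.eq_zero_or_pos F.card with h0 | h0
  · rw [h0, Nat.cast_zero]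
    positivity
  set e := (F.image T).orderEmbOfFin hcard with he
  have hS : ∀ l : ℕ, ∃ S, ∀ hl : l < F.card, S ∈ F ∧ T S = e ⟨l, hl⟩ := fun l => by
    by_cases hl : l < F.card
    · obtain ⟨S, h1, h2⟩ := mem_image.1 (orderEmbOfFin_mem (F.image T) hcard ⟨l, hl⟩)
      exact ⟨S, fun _ => ⟨h1, h2⟩⟩
    · exact ⟨∅, fun h1 => absurd h1 hl⟩
  choose S hS using hS
  have hlt : ∀ l ≤ F.card - 1, l < F.card := fun l hl => by omega
  have hcfg : Cfg P (fun l => T (S l)) S (F.card - 1) := by
    refine ⟨hP, fun l l' h1 h2 => ?_, fun l hl => (hm _ (hS l (hlt l hl)).1).1, fun l hl => ?_,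
      fun l hl => (hT _ (hS l (hlt l hl)).1).1, fun l hl => (hT _ (hS l (hlt l hl)).1).2⟩
    · simp only [(hS l (hlt l (h1.trans h2))).2, (hS l' (hlt l' h2)).2]
      exact e.monotone h1
    · rw [(hm _ (hS l (hlt l hl)).1).2, (hm _ (hS 0 h0).1).2]
  have hch : changes S (F.card - 1) = F.card - 1 := by
    unfold changes
    rw [filter_true_of_mem, card_range]
    intro l hl heq
    have hl' := mem_range.1 hl
    have a1 := (hS l (by omega)).2
    have a2 := (hS (l + 1) (by omega)).2
    rw [← heq, a1] at a2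
    simpa using e.injective a2
  have h1 := h P _ S _ hcfg (by rw [(hm _ (hS 0 h0).1).2]; exact hk)
  rw [hch, (hm _ (hS 0 h0).1).2, Nat.cast_sub h0] at h1
  push_cast at h1
  linarith

end KsetsAux

open KsetsAux in
theorem ksets : StmKsets := by
  intro ε C _ h2 hC h
  refine ⟨2 * (C + 1), by positivity, fun P k hP hk hk2 => ?_⟩
  have hc : (P.image rf).card = P.card := card_image_of_injective _ rf_inj
  have a1 := count hC h hP hk2
  have a2 := count hC h (good_rf hP) (hc.symm ▸ hk2)
  rw [hc] at a2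
  have a3 : P065.kSets P k ≤ ((P.powersetCard k).filter fun S => ∃ t, Low P t S).card +
      (((P.image rf).powersetCard k).filter fun S => ∃ t, Low (P.image rf) t S).card := by
    have b1 : ((P.powersetCard k).filter fun S => ∃ t, Low (P.image rf) t (S.image rf)).card ≤
        (((P.image rf).powersetCard k).filter fun S => ∃ t, Low (P.image rf) t S).card := by
      refine card_le_card_of_injOn (fun S => S.image rf) (fun S hS => ?_)
        fun S _ S' _ e => image_injective rf_inj e
      obtain ⟨c1, c2⟩ := mem_filter.1 hS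
      obtain ⟨c3, c4⟩ := mem_powersetCard.1 c1
      exact mem_filter.2 ⟨mem_powersetCard.2 ⟨image_subset_image c3,
        (card_image_of_injective _ rf_inj).trans c4⟩, c2⟩
    refine le_trans (le_trans (card_le_card fun S hS => ?_) (card_union_le _ _))
      (Nat.add_le_add_left b1 _)
    obtain ⟨c1, c2⟩ := mem_filter.1 hS
    rcases sep_low c2 with c3 | c3
    · exact mem_union_left _ (mem_filter.2 ⟨c1, c3⟩)
    · exact mem_union_right _ (mem_filter.2 ⟨c1, c3⟩)
  have a4 : (P065.kSets P k : ℝ) ≤ _ := Nat.cast_le.2 a3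
  rw [Nat.cast_add] at a4
  have a5 : (1 : ℝ) ≤ ((k : ℝ) + 1) ^ (1 / 3 - ε) :=
    Real.one_le_rpow (by linarith [Nat.cast_nonneg (α := ℝ) k]) (by linarith)
  have a6 : (1 : ℝ) ≤ P.card := by exact_mod_cast (by omega : 1 ≤ P.card)
  have a7 := one_le_mul_of_one_le_of_one_le a6 a5
  nlinarith

end Vale.Agent.P065U
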