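import Vale.Agent.P065U.DefsC

/-! P065U: the local lemma, by reflection from its two one-sided cases. -/

namespace Vale.Agent.P065U

open Classical Finset

namespace LLAux

theorem cnt_congr {B : Finset Pt} {ϑ ϑ' : Pt → ℝ} {I I' : Set ℝ}
    (h : ∀ b ∈ B, ϑ b ∈ I ↔ ϑ' b ∈ I') : cnt B ϑ I = cnt B ϑ' I' := by
  unfold cnt
  rw [filter_congr h]

theorem cnt_Ioo (B : Finset Pt) (ϑ : Pt → ℝ) (x y : ℝ) :
    cnt B (fun b => -ϑ b) (Set.Ioo (-y) (-x)) = cnt B ϑ (Set.Ioo x y) :=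
  cnt_congr fun b _ => by
    simp only [Set.mem_Ioo, neg_lt_neg_iff]
    exact and_comm

theorem cnt_Icc (B : Finset Pt) (ϑ : Pt → ℝ) (x y : ℝ) :
    cnt B (fun b => -ϑ b) (Set.Icc (-y) (-x)) = cnt B ϑ (Set.Icc x y) :=
  cnt_congr fun b _ => by
    simp only [Set.mem_Icc, neg_le_neg_iff]
    exact and_comm

theorem cnt_Icc' (B : Finset Pt) (ϑ : Pt → ℝ) (x y : ℝ) :
    cnt B (fun b => -ϑ b) (Set.Icc x y) = cnt B ϑ (Set.Icc (-y) (-x)) := by
  rw [← cnt_Icc B ϑ (-y) (-x), neg_neg, neg_neg]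

/-- reflected windows -/
noncomputable def rf (U : Finset (ℝ × ℝ)) : Finset (ℝ × ℝ) := U.image fun w => (-w.2, -w.1)

theorem mem_rf {U : Finset (ℝ × ℝ)} {w : ℝ × ℝ} : w ∈ rf U ↔ (-w.2, -w.1) ∈ U := by
  unfold rf
  rw [mem_image]
  constructor
  · rintro ⟨w0, h, rfl⟩
    simpa using h
  · intro h
    exact ⟨_, h, by simp⟩

theorem mem_uni (U : Finset (ℝ × ℝ)) (y : ℝ) : -y ∈ uni (rf U) ↔ y ∈ uni U := by
  constructor
  · rintro ⟨w, hw, h1, h2⟩
    exact ⟨_, mem_rf.1 hw, by simp only; linarith, by simp only; linarith⟩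
  · rintro ⟨w, hw, h1, h2⟩
    exact ⟨(-w.2, -w.1), mem_rf.2 (by simpa using hw), by simp only; linarith,
      by simp only; linarith⟩

theorem mem_uni' (U : Finset (ℝ × ℝ)) (y : ℝ) : -y ∈ uni U ↔ y ∈ uni (rf U) := by
  rw [← mem_uni U (-y), neg_neg]

theorem mem_ng {O : Finset ℝ} {o : ℝ} : o ∈ O.image (fun x => -x) ↔ -o ∈ O := by
  rw [mem_image]
  constructor
  · rintro ⟨x, h, rfl⟩
    simpa using h
  · intro h
    exact ⟨_, h, neg_neg o⟩

theorem side_rf {B N : Finset Pt} {ϑ ϑ' : Pt → ℝ} {t0 t1 : ℝ} {U : Finset (ℝ × ℝ)}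
    {O : Finset ℝ} {err s α s' Λ v1 v1' v2 v2' : ℝ}
    (h : Side B N ϑ ϑ' t0 t1 U O err s α s' Λ v1 v1' v2 v2') :
    Side B N (fun b => -ϑ b) (fun b => -ϑ' b) (-t1) (-t0) (rf U) (O.image fun x => -x)
      err s α s' Λ (-v2') (-v2) (-v1') (-v1) where
  noend b hb := by
    obtain ⟨h0, h1, h2⟩ := h.noend b hb
    refine ⟨fun e => h1 (neg_injective e), fun e => h0 (neg_injective e), fun w hw => ?_⟩
    obtain ⟨h3, h4⟩ := h2 _ (mem_rf.1 hw)
    exact ⟨fun e => h4 (by simp only; linarith), fun e => h3 (by simp only; linarith)⟩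
  pos := by
    rw [cnt_Ioo]
    exact h.pos
  close x y hx hy := by
    rw [cnt_Ioo, cnt_Ioo, cnt_Icc', cnt_Icc']
    exact h.close (-y) (-x) (by linarith) (by linarith)
  cover := by
    rw [cnt_Ioo]
    refine le_trans (le_of_eq (cnt_congr fun b _ => ?_)) h.cover
    simp only [Set.mem_sdiff, Set.mem_Ioo, neg_lt_neg_iff, mem_uni]
    tauto
  atomU w hw := by
    have := h.atomU _ (mem_rf.1 hw)
    rw [cnt_Ioo]
    rw [← cnt_Ioo] at this
    simpa only [neg_neg] using this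
  sub := h.sub
  npos := h.npos
  ratio := by
    rw [cnt_Ioo]
    exact h.ratio
  law U' hU' := by
    have h1 : rf U' ⊆ U := fun w hw => by
      simpa using mem_rf.1 (hU' (mem_rf.1 hw))
    have h2 : ∀ A : Finset Pt, cnt A (fun b => -ϑ b) (uni U') = cnt A ϑ (uni (rf U')) :=
      fun A => cnt_congr fun b _ => mem_uni' U' (ϑ b)
    rw [cnt_Ioo, h2, h2]
    exact h.law _ h1
  link := by
    refine le_trans (le_of_eq ?_) h.link
    congr 2
    refine filter_congr fun b _ => ?_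
    constructor
    · rintro ⟨w, hw, h1, h2, h3, h4⟩
      exact ⟨_, mem_rf.1 hw, by simp only; linarith, by simp only; linarith,
        by simp only; linarith, by simp only; linarith⟩
    · rintro ⟨w, hw, h1, h2, h3, h4⟩
      exact ⟨(-w.2, -w.1), mem_rf.2 (by simpa using hw), by simp only; linarith,
        by simp only; linarith, by simp only; linarith, by simp only; linarith⟩
  m0 := by
    rw [cnt_Ioo, cnt_Ioo]
    exact h.m2
  m1 := by
    rw [cnt_Ioo, cnt_Ioo]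
    exact h.m1
  m2 := by
    rw [cnt_Ioo, cnt_Ioo]
    exact h.m0
  cutR y h0 h1 := by
    obtain ⟨o, ho, a1, a2, a3⟩ := h.cutL (-y) (by linarith) (by linarith)
    refine ⟨-o, mem_ng.2 (by simpa using ho), by linarith, by linarith, ?_⟩
    rw [cnt_Ioo, cnt_Icc', neg_neg]
    exact a3
  cutL y h0 h1 := by
    obtain ⟨o, ho, a1, a2, a3⟩ := h.cutR (-y) (by linarith) (by linarith)
    refine ⟨-o, mem_ng.2 (by simpa using ho), by linarith, by linarith, ?_⟩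
    rw [cnt_Ioo, cnt_Icc', neg_neg]
    exact a3
  atom1 := by
    rw [cnt_Ioo, cnt_Icc]
    exact h.atom2
  atom2 := by
    rw [cnt_Ioo, cnt_Icc]
    exact h.atom1

theorem loc_rf {B N N' : Finset Pt} {θ θ' : Pt → ℝ} {θ0 κ t0 t1 : ℝ} {U : Finset (ℝ × ℝ)}
    {O : Finset ℝ} {err s α s' Λ v1 v1' v2 v2' : ℝ} {M nU K J : ℕ}
    (h : Loc B N N' θ θ' θ0 κ t0 t1 U O err s α s' Λ v1 v1' v2 v2' M nU K J) :
    Loc B N N' (fun b => -θ b) (fun b => -θ' b) (-θ0) κ (-t1) (-t0) (rf U)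
      (O.image fun x => -x) err s α s' Λ (-v2') (-v2) (-v1') (-v1) M nU K J where
  kpos := h.kpos
  hom b hb := by
    obtain ⟨h0, k, h1, h2, h3⟩ := h.hom b hb
    exact ⟨fun e => h0 (neg_injective e), k, h1, h2, by linarith⟩
  ne0 e := h.ne1 (neg_injective e)
  ne1 e := h.ne0 (neg_injective e)
  side := side_rf h.side
  side' := side_rf h.side'
  win w hw := by
    obtain ⟨h1, h2, h3⟩ := h.win _ (mem_rf.1 hw)
    simp only at h1 h2 h3
    exact ⟨by linarith, by linarith, by linarith⟩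
  disj w hw w' hw' hne := by
    have := h.disj _ (mem_rf.1 hw) _ (mem_rf.1 hw') fun e => hne (by
      simp only [Prod.mk.injEq, neg_inj] at e
      exact Prod.ext e.2 e.1)
    simp only at this
    rcases this with h1 | h1
    · right
      linarith
    · left
      linarith
  cardU := card_image_le.trans h.cardU
  ord := by
    obtain ⟨h1, h2, h3, h4, h5⟩ := h.ord
    exact ⟨by linarith, by linarith, by linarith, by linarith, by linarith⟩
  memO := ⟨mem_ng.2 (by simpa using h.memO.2), mem_ng.2 (by simpa using h.memO.1)⟩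
  nn := h.nn
  num := h.num

theorem nonExc_rf {O : Finset ℝ} {i0 : ℕ} {E v v' α β : ℝ} (h : NonExc O i0 E v v' α β) :
    NonExc (O.image fun x => -x) i0 E (-v') (-v) (-β) (-α) := by
  obtain ⟨h1, h2, h3⟩ := h
  refine ⟨by linarith, fun o ho hlt => ?_, fun o ho hlt => ?_⟩
  · have := h3 (-o) (ho.imp mem_ng.1 fun ⟨n, hn, e⟩ => ⟨n, hn, by rw [e]; ring⟩) (by linarith)
    rw [show -α - o = -o - α by ring, show -β - o = -o - β by ring,
      show -v - o = -o - v by ring, show -v' - o = -o - v' by ring]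
    exact this
  · have := h2 (-o) (ho.imp mem_ng.1 fun ⟨n, hn, e⟩ => ⟨n, hn, by rw [e]; ring⟩) (by linarith)
    rw [show o - -β = β - -o by ring, show o - -α = α - -o by ring,
      show o - -v' = v' - -o by ring, show o - -v = v - -o by ring]
    exact this

theorem links_rf {B : Finset Pt} {θ θ' : Pt → ℝ} {O : Finset ℝ} {i0 : ℕ}
    {E v1 v1' v2 v2' α1 β1 α2 β2 : ℝ} (h : Links B θ θ' O i0 E v1 v1' v2 v2' α1 β1 α2 β2) :
    Links B (fun b => -θ b) (fun b => -θ' b) (O.image fun x => -x) i0 E (-v2') (-v2) (-v1') (-v1)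
      (-β2) (-α2) (-β1) (-α1) where
  l1 := by
    obtain ⟨b, hb, h1, h2, h3, h4⟩ := h.l2
    exact ⟨b, hb, by linarith, by linarith, by linarith, by linarith⟩
  l2 := by
    obtain ⟨b, hb, h1, h2, h3, h4⟩ := h.l1
    exact ⟨b, hb, by linarith, by linarith, by linarith, by linarith⟩
  s1 := ⟨by linarith [h.s2.2], by linarith [h.s2.1]⟩
  s2 := ⟨by linarith [h.s1.2], by linarith [h.s1.1]⟩
  e1 := nonExc_rf h.e2
  e2 := nonExc_rf h.e1

theorem split (B : Finset Pt) (ϑ : Pt → ℝ) (x y c : ℝ) (h : ∀ b ∈ B, ϑ b ≠ c) :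
    cnt B ϑ (Set.Ioo x y) ≤ cnt B ϑ (Set.Ioo c y) + cnt B ϑ (Set.Ioo x c) := by
  unfold cnt
  norm_cast
  refine le_trans (card_le_card ?_) (card_union_le _ _)
  intro b hb
  simp only [mem_filter, mem_union] at hb ⊢
  rcases lt_or_gt_of_ne (h b hb.1) with h1 | h1
  · exact Or.inr ⟨hb.1, hb.2.1, h1⟩
  · exact Or.inl ⟨hb.1, h1, hb.2.2⟩

end LLAux

open LLAux in
theorem ll (ha : StmLLa) (hb : StmLLb) : StmLL := by
  intro B N N' θ θ' θ0 κ t0 t1 U O err s α s' Λ v1 v1' v2 v2' M nU K J i0 E α1 β1 α2 β2 hL hN hK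
  have hL' := loc_rf hL
  have hK' := links_rf hK
  rcases lt_or_gt_of_ne hL.ne0 with h0 | h0
  · exact ha _ _ _ _ _ _ _ _ _ _ _ _ _ _ _ _ _ _ _ _ _ _ _ _ _ _ _ _ _ _ hL hN hK h0
  rcases lt_or_gt_of_ne hL.ne1 with h1 | h1
  swap
  · exact ha _ _ _ _ _ _ _ _ _ _ _ _ _ _ _ _ _ _ _ _ _ _ _ _ _ _ _ _ _ _ hL' hN hK'
      (by linarith)
  obtain ⟨a1, a2⟩ := hb _ _ _ _ _ _ _ _ _ _ _ _ _ _ _ _ _ _ _ _ _ _ _ _ _ _ _ _ _ _ hL hN hK h0 h1
  obtain ⟨b1, b2⟩ := hb _ _ _ _ _ _ _ _ _ _ _ _ _ _ _ _ _ _ _ _ _ _ _ _ _ _ _ _ _ _ hL' hN hK'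
    (by linarith) (by linarith)
  simp only [cnt_Ioo] at b1 b2
  have n1 : ∀ b ∈ B, θ b ≠ θ0 := fun b h => (hL.hom b h).1
  have n2 : ∀ b ∈ B, θ' b ≠ θ0 := fun b h e => by
    obtain ⟨h2, k, h3, -, h4⟩ := hL.hom b h
    rw [e, sub_self] at h4
    have h5 : 0 < 1 + k := by linarith [hL.kpos]
    exact h2 (sub_eq_zero.1 ((mul_eq_zero.1 h4.symm).resolve_left h5.ne'))
  have s1 := split B θ v1' v2 θ0 n1
  have s2 := split B θ' v1' v2 θ0 n2
  have m1 := hL.side.m1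
  have m2 := hL.side'.m1
  rcases le_total (cnt B θ (Set.Ioo t0 t1)) (cnt B θ' (Set.Ioo t0 t1)) with hq | hq
  · by_cases hc : s' / 2 * cnt B θ (Set.Ioo t0 t1) ≤ cnt B θ (Set.Ioo θ0 v2)
    · exact a1 hq hc
    · exact b1 hq (by linarith [not_le.1 hc])
  · by_cases hc : s' / 2 * cnt B θ' (Set.Ioo t0 t1) ≤ cnt B θ' (Set.Ioo θ0 v2)
    · exact a2 hq hc
    · exact b2 hq (by linarith [not_le.1 hc])

end Vale.Agent.P065U
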