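import Vale.Agent.P065U.DefsC

/-! P065U: local lemma, centre left of the window. -/

namespace Vale.Agent.P065U

open Classical Finset

namespace LLa

theorem cnt_mono (B : Finset Pt) (ϑ : Pt → ℝ) {I I' : Set ℝ} (h : I ⊆ I') :
    cnt B ϑ I ≤ cnt B ϑ I' := by
  unfold cnt
  exact_mod_cast card_le_card (monotone_filter_right _ fun b _ hb => h hb)

theorem log_mono {c x y x' y' : ℝ} (h0 : c < x') (h1 : x' ≤ x) (h2 : x < y) (h3 : y ≤ y') :
    Real.log ((y - c) / (x - c)) ≤ Real.log ((y' - c) / (x' - c)) := by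
  have a1 : 0 < x' - c := by linarith
  have a2 : 0 < x - c := by linarith
  refine Real.log_le_log (div_pos (by linarith) a2) ?_
  exact div_le_div₀ (by linarith) (by linarith) a1 (by linarith)

theorem link {c κ k x x' a b : ℝ} (hκ : 0 < κ) (hk : κ ≤ k) (e : x' - c = (1 + k) * (x - c))
    (ha : c < a) (h1 : a < x) (h2 : x' < b) : (1 + κ) * (a - c) ≤ b - c := by
  have : (1 + κ) * (a - c) ≤ (1 + k) * (x - c) :=
    mul_le_mul (by linarith) (by linarith) (by linarith) (by linarith)
  linarith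

theorem cmp {c o v v' a b κ E J : ℝ} (hκ : 0 < κ) (h0 : c ≤ o) (h1 : o < v) (h2 : v - c ≤ 2 * (v - o))
    (hv : v < v') (ha : v ≤ a) (hl : (1 + κ) * (a - c) ≤ b - c) (hE : 4 * J ≤ E)
    (hm : Real.log ((v' - c) / (v - c)) < 2 * J * Real.log (1 + κ)) (hE0 : 0 ≤ E)
    (hne : E * Real.log ((b - o) / (a - o)) < Real.log ((v' - o) / (v - o))) : False := by
  have hD : 0 < Real.log (1 + κ) := Real.log_pos (by linarith)
  have a1 : 0 < a - o := by linarith
  have a2 : 0 < v - o := by linarith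
  have a3 : 0 < v - c := by linarith
  have b1 : Real.log (1 + κ) ≤ Real.log ((b - o) / (a - o)) := by
    refine Real.log_le_log (by linarith) ?_
    rw [le_div_iff₀ a1]
    nlinarith
  have b2 : Real.log ((v' - o) / (v - o)) ≤ 2 * Real.log ((v' - c) / (v - c)) := by
    have e : 2 * Real.log ((v' - c) / (v - c)) = Real.log (((v' - c) / (v - c)) ^ 2) := by
      rw [Real.log_pow]; norm_num
    rw [e]
    refine Real.log_le_log (div_pos (by linarith) a2) ?_
    have e1 : (v' - o) / (v - o) = 1 + (v' - v) / (v - o) := by field_simp; ring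
    have e2 : (v' - c) / (v - c) = 1 + (v' - v) / (v - c) := by field_simp; ring
    have e3 : (v' - v) / (v - o) ≤ 2 * ((v' - v) / (v - c)) := by
      rw [← mul_div_assoc, div_le_div_iff₀ a2 a3]
      nlinarith
    rw [e1, e2]
    nlinarith [sq_nonneg ((v' - v) / (v - c))]
  nlinarith [mul_le_mul_of_nonneg_left b1 hE0, mul_le_mul_of_nonneg_right hE hD.le]

theorem leb {c v v' a b κ E J : ℝ} (hκ : 0 < κ) (h0 : c < v) (h2 : v' - v ≤ v - c)
    (hv : v < v') (ha : v ≤ a) (hl : (1 + κ) * (a - c) ≤ b - c) (hE : 4 * J ≤ E) (hJ : 0 ≤ J)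
    (hm : Real.log ((v' - c) / (v - c)) < 2 * J * Real.log (1 + κ))
    (hne : E * (b - a) < v' - v) : False := by
  have a3 : 0 < v - c := by linarith
  have b0 : κ * (v - c) ≤ b - a := by nlinarith
  have b1 : Real.log (1 + κ) ≤ κ := by
    have := Real.log_le_sub_one_of_pos (show 0 < 1 + κ by linarith)
    linarith
  have b2 : (v' - v) / (2 * (v - c)) ≤ Real.log ((v' - c) / (v - c)) := by
    have h := Real.one_sub_inv_le_log_of_pos (div_pos (show 0 < v' - c by linarith) a3)
    refine le_trans ?_ h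
    have e : 1 - ((v' - c) / (v - c))⁻¹ = (v' - v) / (v' - c) := by
      have : v' - c ≠ 0 := by linarith
      field_simp; ring
    rw [e]
    exact div_le_div_of_nonneg_left (by linarith) (by linarith) (by linarith)
  have b3 : (v' - v) / (2 * (v - c)) < 2 * J * κ :=
    (b2.trans_lt hm).trans_le (mul_le_mul_of_nonneg_left b1 (by linarith))
  rw [div_lt_iff₀ (by linarith)] at b3
  have b4 : 0 ≤ b - a := le_trans (by positivity) b0
  nlinarith [mul_le_mul_of_nonneg_left b0 hJ, mul_le_mul_of_nonneg_right hE b4]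

end LLa

open LLa in
theorem lla (h : StmTR) : StmLLa := by
  intro B N N' θ θ' θ0 κ t0 t1 U O err s α s' Λ v1 v1' v2 v2' M nU K J i0 E α1 β1 α2 β2 hL hN hk h0
  obtain ⟨o1, o2, o3, o4, o5⟩ := hL.ord
  have hs := hN.hs
  have hs' := hN.s1.1
  obtain ⟨tA, tB⟩ := h B N N' θ θ' θ0 κ t0 t1 U O err s α s' Λ v1 v1' v2 v2' M nU K J hL
    (by linarith)
  have hm : Real.log ((v1' - θ0) / (v1 - θ0)) < 2 * J * Real.log (1 + κ) ∧
      Real.log ((v2' - θ0) / (v2 - θ0)) < 2 * J * Real.log (1 + κ) := by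
    rcases le_total (cnt B θ' (Set.Ioo t0 t1)) (cnt B θ (Set.Ioo t0 t1)) with c | c
    · have : Real.log ((t1 - θ0) / (v1 - θ0)) < 2 * J * Real.log (1 + κ) := by
        by_contra hc
        have h1 := (tA c).1 v1 (by linarith) (not_lt.1 hc)
        have h2 := hL.side'.m0
        have h3 := hL.side'.pos
        have h4 := cnt_mono B θ' (show Set.Ioo t0 v1 ⊆ Set.Ioo t0 t1 ∩ Set.Ioc θ0 v1 from
          fun x hx => ⟨⟨hx.1, by linarith [hx.2]⟩, by linarith [hx.1], hx.2.le⟩)
        nlinarith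
      exact ⟨(log_mono (by linarith) le_rfl o2 (by linarith)).trans_lt this,
        (log_mono (by linarith) (by linarith) o4 o5).trans_lt this⟩
    · have : Real.log ((v2' - θ0) / (t0 - θ0)) < 2 * J * Real.log (1 + κ) := by
        by_contra hc
        have h1 := (tB c).1 h0 v2' (by linarith) (not_lt.1 hc)
        have h2 := hL.side.m2
        have h3 := hL.side.pos
        have h4 := cnt_mono B θ (Set.Ioo_subset_Ico_self : Set.Ioo v2' t1 ⊆ Set.Ico v2' t1)
        nlinarith
      exact ⟨(log_mono h0 o1 o2 (by linarith)).trans_lt this,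
        (log_mono h0 (by linarith) o4 le_rfl).trans_lt this⟩
  rcases le_total (t0 - θ0) (v2 - t0) with c | c
  · obtain ⟨b, hb, l1, -, -, l4⟩ := hk.l2
    obtain ⟨-, k, k1, -, k3⟩ := hL.hom b hb
    have := hk.s2.1
    exact cmp hL.kpos h0.le (by linarith) (by linarith) o4 this
      (link hL.kpos k1 k3 (by linarith) l1 l4) hN.hE.1 hm.2 (by linarith [hN.hE.2])
      (hk.e2.2.1 t0 (Or.inl hL.memO.1) (by linarith))
  · obtain ⟨b, hb, l1, -, -, l4⟩ := hk.l1
    obtain ⟨-, k, k1, -, k3⟩ := hL.hom b hb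
    have := hk.s1.1
    exact leb hL.kpos (by linarith) (by linarith) o2 this
      (link hL.kpos k1 k3 (by linarith) l1 l4) hN.hE.1 (Nat.cast_nonneg _) hm.1 hk.e1.1

end Vale.Agent.P065U
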