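import Vale.Agent.P065U.DefsC

/-! P065U: local lemma, centre inside the window. -/

namespace Vale.Agent.P065U

open Classical Finset

namespace LLbAux

theorem cnt_mono (B : Finset Pt) (ϑ : Pt → ℝ) {I I' : Set ℝ} (h : I ⊆ I') :
    cnt B ϑ I ≤ cnt B ϑ I' := by
  unfold cnt
  exact_mod_cast card_le_card fun b hb => by
    rw [mem_filter] at hb ⊢
    exact ⟨hb.1, h hb.2⟩

theorem cnt_union (B : Finset Pt) (ϑ : Pt → ℝ) {I I1 I2 : Set ℝ} (h : I ⊆ I1 ∪ I2) :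
    cnt B ϑ I ≤ cnt B ϑ I1 + cnt B ϑ I2 := by
  unfold cnt
  have : (B.filter fun b => ϑ b ∈ I) ⊆
      (B.filter fun b => ϑ b ∈ I1) ∪ (B.filter fun b => ϑ b ∈ I2) := by
    intro b hb
    rw [mem_filter] at hb
    rcases h hb.2 with h1 | h1
    · exact mem_union_left _ (mem_filter.2 ⟨hb.1, h1⟩)
    · exact mem_union_right _ (mem_filter.2 ⟨hb.1, h1⟩)
  exact_mod_cast (card_le_card this).trans (card_union_le _ _)

theorem cnt_empty (B : Finset Pt) (ϑ : Pt → ℝ) : cnt B ϑ ∅ = 0 := by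
  simp [cnt]

theorem cmp {θ0 o v v' α β κ E J : ℝ} (h1 : θ0 ≤ o) (h2 : o < v) (h3 : v - θ0 ≤ 2 * (v - o))
    (h4 : v < v') (h5 : v ≤ α) (hκ : 0 < κ) (hL : (1 + κ) * (α - θ0) < β - θ0) (hE : 4 * J ≤ E)
    (hE0 : 0 ≤ E) (hA : Real.log ((v' - θ0) / (v - θ0)) < 2 * J * Real.log (1 + κ))
    (hN : E * Real.log ((β - o) / (α - o)) < Real.log ((v' - o) / (v - o))) : False := by
  have ha : 0 < α - o := by linarith
  have hr : 0 < v - o := by linarith
  have hp : 0 < v - θ0 := by linarith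
  have hΔ : 0 < Real.log (1 + κ) := Real.log_pos (by linarith)
  have e1 : Real.log (1 + κ) ≤ Real.log ((β - o) / (α - o)) := by
    apply Real.log_le_log (by linarith)
    rw [le_div_iff₀ ha]
    nlinarith [mul_nonneg hκ.le (sub_nonneg.2 h1)]
  have e2 : Real.log ((v' - o) / (v - o)) ≤ 2 * Real.log ((v' - θ0) / (v - θ0)) := by
    have : 2 * Real.log ((v' - θ0) / (v - θ0)) = Real.log (((v' - θ0) / (v - θ0)) ^ 2) := by
      rw [Real.log_pow]; norm_num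
    rw [this]
    apply Real.log_le_log (div_pos (by linarith) hr)
    have a1 : (v' - o) / (v - o) = 1 + (v' - v) / (v - o) := by field_simp; ring
    have a2 : (v' - θ0) / (v - θ0) = 1 + (v' - v) / (v - θ0) := by field_simp; ring
    have a3 : (v' - v) / (v - o) ≤ 2 * ((v' - v) / (v - θ0)) := by
      rw [div_le_iff₀ hr]
      have a4 : 0 ≤ (v' - v) / (v - θ0) := div_nonneg (by linarith) hp.le
      have a5 : (v' - v) / (v - θ0) * (v - θ0) = v' - v := by field_simp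
      nlinarith
    rw [a1, a2]
    nlinarith [sq_nonneg ((v' - v) / (v - θ0))]
  have e3 : E * Real.log (1 + κ) ≤ E * Real.log ((β - o) / (α - o)) :=
    mul_le_mul_of_nonneg_left e1 hE0
  have e4 : 4 * J * Real.log (1 + κ) ≤ E * Real.log (1 + κ) :=
    mul_le_mul_of_nonneg_right hE hΔ.le
  linarith

theorem leb {θ0 v v' α β κ E J : ℝ} (h2 : θ0 < v) (h3 : v' - v ≤ v - θ0)
    (h4 : v < v') (h5 : v ≤ α) (hκ : 0 < κ) (hL : (1 + κ) * (α - θ0) < β - θ0) (hE : 4 * J ≤ E)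
    (hJ : 0 ≤ J) (hA : Real.log ((v' - θ0) / (v - θ0)) < 2 * J * Real.log (1 + κ))
    (hN : E * (β - α) < v' - v) : False := by
  have hp : 0 < v - θ0 := by linarith
  have hΔ : Real.log (1 + κ) ≤ κ := by
    have := Real.log_le_sub_one_of_pos (show 0 < 1 + κ by linarith)
    linarith
  have e1 : (v' - v) / (2 * (v - θ0)) ≤ Real.log ((v' - θ0) / (v - θ0)) := by
    have a1 := Real.one_sub_inv_le_log_of_pos (show 0 < (v' - θ0) / (v - θ0) from
      div_pos (by linarith) hp)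
    refine le_trans ?_ a1
    rw [inv_div]
    have a2 : 1 - (v - θ0) / (v' - θ0) = (v' - v) / (v' - θ0) := by
      have : v' - θ0 ≠ 0 := by linarith
      field_simp; ring
    rw [a2]
    exact div_le_div_of_nonneg_left (by linarith) (by linarith) (by linarith)
  have e2 : 2 * J * Real.log (1 + κ) ≤ 2 * J * κ := mul_le_mul_of_nonneg_left hΔ (by linarith)
  have e3 : (v' - v) / (2 * (v - θ0)) < 2 * J * κ := by linarith
  rw [div_lt_iff₀ (by linarith)] at e3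
  have e4 : κ * (v - θ0) ≤ β - α := by nlinarith
  have e5 : 0 ≤ β - α := le_trans (by positivity) e4
  have e6 : 4 * J * (κ * (v - θ0)) ≤ 4 * J * (β - α) := mul_le_mul_of_nonneg_left e4 (by linarith)
  have e7 : 4 * J * (β - α) ≤ E * (β - α) := mul_le_mul_of_nonneg_right hE e5
  nlinarith

theorem pow_bound {p l μ : ℝ} {i0 : ℕ} (hp : 0 < p) (hl : 0 < l)
    (h : Real.log ((l + p) / p) ≤ μ) (hi : 2 * μ + 1 ≤ i0) : l / 2 ^ i0 ≤ p := by
  have h0 : 0 < (l + p) / p := by positivity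
  have h1 : (l + p) / p ≤ Real.exp μ := by
    rw [← Real.exp_log h0]; exact Real.exp_le_exp.2 h
  have h2 : Real.exp μ ≤ 2 ^ i0 := by
    have a1 : (2 : ℝ) ^ i0 = Real.exp (i0 * Real.log 2) := by
      rw [← Real.log_pow, Real.exp_log (by positivity)]
    rw [a1, Real.exp_le_exp]
    have a2 := Real.log_two_gt_d9
    have a3 : (0 : ℝ) ≤ i0 := Nat.cast_nonneg _
    nlinarith
  rw [div_le_iff₀ hp] at h1
  rw [div_le_iff₀ (by positivity)]
  nlinarith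

theorem link {θ0 v α β κ k x x' : ℝ} (hκ : 0 < κ) (hv : θ0 < v) (h1 : v ≤ α) (b1 : α < x)
    (b4 : x' < β) (k1 : κ ≤ k) (k3 : x' - θ0 = (1 + k) * (x - θ0)) :
    (1 + κ) * (α - θ0) < β - θ0 := by
  nlinarith

theorem big {θ0 v v' α β κ E M : ℝ} (hκ : 0 < κ) (hv : θ0 < v) (h1 : v ≤ α) (hM : 1 ≤ M)
    (hE : 6 ≤ E) (hL : (1 + κ) * (α - θ0) < β - θ0) (n1 : E * (β - α) < v' - v)
    (c3 : v' - θ0 < (1 + κ * (1 + 1 / M)) * (v - θ0)) : False := by
  have a1 : (1 : ℝ) / M ≤ 1 := by rw [div_le_one (by linarith)]; exact hM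
  have a2 : κ * (v - θ0) ≤ β - α := by nlinarith
  have a3 : 0 < κ * (v - θ0) := mul_pos hκ (by linarith)
  have a4 : κ * (v - θ0) * (1 / M) ≤ κ * (v - θ0) * 1 := mul_le_mul_of_nonneg_left a1 a3.le
  have a5 : 6 * (β - α) ≤ E * (β - α) := mul_le_mul_of_nonneg_right hE (by linarith)
  nlinarith

theorem mid {θ0 v v' α β κ E J μ : ℝ} {i0 : ℕ} (hv : θ0 < v) (h4 : v < v') (h5 : v ≤ α)
    (hκ : 0 < κ) (hL : (1 + κ) * (α - θ0) < β - θ0) (hE : 4 * J ≤ E) (hJ : 0 ≤ J)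
    (hA : Real.log ((v' - θ0) / (v - θ0)) < 2 * J * Real.log (1 + κ))
    (n1 : E * (β - α) < v' - v)
    (n2 : ∀ n ≤ i0, v - (v' - v) / 2 ^ n < v →
      E * Real.log ((β - (v - (v' - v) / 2 ^ n)) / (α - (v - (v' - v) / 2 ^ n))) <
        Real.log ((v' - (v - (v' - v) / 2 ^ n)) / (v - (v - (v' - v) / 2 ^ n))))
    (c3 : Real.log ((v' - θ0) / (v - θ0)) ≤ μ) (hi : 2 * μ + 1 ≤ i0) : False := by
  have hex : (v' - v) / 2 ^ i0 ≤ v - θ0 := by
    refine pow_bound (μ := μ) (by linarith) (by linarith) ?_ hi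
    have : v' - v + (v - θ0) = v' - θ0 := by ring
    rw [this]; exact c3
  have hX : ∃ n : ℕ, (v' - v) / 2 ^ n ≤ v - θ0 := ⟨i0, hex⟩
  have f1 := Nat.find_spec hX
  have f2 : Nat.find hX ≤ i0 := Nat.find_min' hX hex
  rcases hn : Nat.find hX with _ | n
  · rw [hn] at f1
    exact leb hv (by simpa using f1) h4 h5 hκ hL hE hJ hA n1
  · have f3 := Nat.find_min hX (show n < Nat.find hX by omega)
    rw [hn] at f1 f2
    have f4 : 0 < (v' - v) / 2 ^ (n + 1) := div_pos (by linarith) (by positivity)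
    have f5 : (v' - v) / 2 ^ n = 2 * ((v' - v) / 2 ^ (n + 1)) := by
      rw [pow_succ]; field_simp
    exact cmp (o := v - (v' - v) / 2 ^ (n + 1)) (by linarith) (by linarith)
      (by linarith [not_le.1 f3]) h4 h5 hκ hL hE (by linarith) hA (n2 (n + 1) f2 (by linarith))

theorem small {Δ s' J err L m A : ℝ} {M : ℕ} (hΔ : 0 < Δ) (hΔ1 : Δ < 1) (s0 : 0 < s')
    (hJ : 1 ≤ J) (err0 : 0 ≤ err) (hM : 48 * J / s' + 1 ≤ M) (he : (48 * J / s' + 1) * err < s' / 8)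
    (hL : 48 / s' + 2 < L) (hA : L < 2 * J * Δ) (hm : m ≤ 1) (hmass : 3 * s' / 8 ≤ A)
    (x2 : ∀ n : ℕ, 1 ≤ n → n ≤ M → 2 * n * Δ ≤ L → A ≤ (m / Δ + 2) / n + n * err) : False := by
  obtain ⟨n, hn⟩ : ∃ n : ℕ, n = ⌈24 / (s' * Δ)⌉₊ := ⟨_, rfl⟩
  have g0 : 0 < 24 / (s' * Δ) := by positivity
  have g1 : 24 / (s' * Δ) ≤ n := hn ▸ Nat.le_ceil _
  have g2 : (n : ℝ) < 24 / (s' * Δ) + 1 := hn ▸ Nat.ceil_lt_add_one g0.le
  have hn0 : (0 : ℝ) < n := g0.trans_le g1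
  have g3 : 1 ≤ n := by exact_mod_cast hn0
  have g48 : 0 < 48 / s' := by positivity
  have g4 : 1 < J * Δ := by linarith
  have g5 : 24 / (s' * Δ) ≤ 48 * J / s' := by
    rw [div_le_div_iff₀ (by positivity) s0]
    nlinarith
  have g6 : (n : ℝ) ≤ 48 * J / s' + 1 := by linarith
  have g7 : n ≤ M := by exact_mod_cast g6.trans hM
  have g8 : 2 * n * Δ ≤ L := by
    have b1 : 2 * (n : ℝ) * Δ ≤ 2 * (24 / (s' * Δ) + 1) * Δ := by gcongr
    have b2 : 2 * (24 / (s' * Δ) + 1) * Δ = 48 / s' + 2 * Δ := by field_simp; ring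
    linarith
  have a1 := x2 n g3 g7 g8
  have a3 : (m / Δ + 2) / n ≤ s' / 8 := by
    have b1 : m / Δ ≤ 1 / Δ := div_le_div_of_nonneg_right hm hΔ.le
    have b2 : 2 ≤ 2 / Δ := by rw [le_div_iff₀ hΔ]; linarith
    have b3 : 1 / Δ + 2 / Δ = s' / 8 * (24 / (s' * Δ)) := by field_simp; ring
    have b4 : s' / 8 * (24 / (s' * Δ)) ≤ s' / 8 * n := mul_le_mul_of_nonneg_left g1 (by linarith)
    rw [div_le_iff₀ hn0]
    linarith
  have a4 : n * err ≤ (48 * J / s' + 1) * err := mul_le_mul_of_nonneg_right g6 err0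
  linarith

theorem log_two {θ0 o v : ℝ} (h0 : θ0 < o) (h1 : o < v) (c1 : v - o < o - θ0) :
    Real.log ((v - θ0) / (o - θ0)) ≤ 1 := by
  have b1 := Real.log_le_sub_one_of_pos
    (show 0 < (v - θ0) / (o - θ0) from div_pos (by linarith) (by linarith))
  have b2 : (v - θ0) / (o - θ0) ≤ 2 := by rw [div_le_iff₀ (by linarith)]; linarith
  linarith

theorem quarter {s' q a b t : ℝ} (s0 : 0 < s') (hq : 0 < q) (hm : s' / 2 * q ≤ a) (h1 : a ≤ b)
    (h2 : b ≤ t * q) (h3 : t < s' / 4) : False := by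
  nlinarith

theorem err_lt {s' J err : ℝ} (s0 : 0 < s') (hJ : 1 ≤ J) (err0 : 0 ≤ err)
    (he : (48 * J / s' + 1) * err < s' / 8) : err < s' / 8 := by
  have : 0 ≤ 48 * J / s' := by positivity
  nlinarith

theorem dbl {θ0 o v κ : ℝ} (h0 : θ0 < o) (c1 : v - o < o - θ0) (c2 : 1 ≤ κ) :
    v - θ0 ≤ (1 + κ) * (o - θ0) := by
  nlinarith

end LLbAux

open LLbAux

theorem llb (h : StmTR) : StmLLb := by
  intro B N N' θ θ' θ0 κ t0 t1 U O err s α s' Λ v1 v1' v2 v2' M nU K J i0 E α1 β1 α2 β2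
    hL hN hK h0 h1
  obtain ⟨hx, hc⟩ := h B N N' θ θ' θ0 κ t0 t1 U O err s α s' Λ v1 v1' v2 v2' M nU K J hL h1
  obtain ⟨-, -, -, o4, o5⟩ := hL.ord
  have o6 : v2 ≤ t1 := o4.le.trans o5
  have s0 := hN.s1.1
  constructor
  · intro hq hm
    exact quarter s0 hL.side.pos hm
      (cnt_mono B θ (I := Set.Ioo θ0 v2) (I' := Set.Ioo θ0 t1) (Set.Ioo_subset_Ioo_right o6))
      ((hc hq).2 h0) hN.hs
  intro hq hm
  obtain ⟨x1, x2, x3⟩ := hx hq
  clear hc hx hq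
  have hq0 := hL.side'.pos
  have hκ := hL.kpos
  have hΔ : 0 < Real.log (1 + κ) := Real.log_pos (by linarith)
  obtain ⟨err0, -, -⟩ := hL.nn
  obtain ⟨-, hJ1, -, hJM⟩ := hL.num
  have hJ : (1 : ℝ) ≤ J := by exact_mod_cast hJ1
  have hM1 : (1 : ℝ) ≤ M := by exact_mod_cast hJ1.trans hJM
  have hsq := mul_pos s0 hq0
  have hv : θ0 < v2 := by
    by_contra hc'
    rw [Set.Ioo_eq_empty hc', cnt_empty] at hm
    linarith
  have hα2 := hK.s2.1
  have hLk : (1 + κ) * (α2 - θ0) < β2 - θ0 := by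
    obtain ⟨b, hb, b1, -, -, b4⟩ := hK.l2
    obtain ⟨-, k, k1, -, k3⟩ := hL.hom b hb
    exact link hκ hv hα2 b1 b4 k1 k3
  obtain ⟨n1, n2, -⟩ := hK.e2
  have hA0 : Real.log ((t1 - θ0) / (v2 - θ0)) < 2 * J * Real.log (1 + κ) := by
    by_contra hc'
    exact quarter s0 hq0 hm
      (cnt_mono B θ' (I := Set.Ioo θ0 v2) (I' := Set.Ioo t0 t1 ∩ Set.Ioc θ0 v2)
        fun y hy => ⟨⟨h0.trans hy.1, hy.2.trans_le o6⟩, hy.1, hy.2.le⟩)
      (x1 v2 hv (not_lt.1 hc')) hN.hs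
  have hmono : Real.log ((v2' - θ0) / (v2 - θ0)) ≤ Real.log ((t1 - θ0) / (v2 - θ0)) := by
    apply Real.log_le_log (div_pos (by linarith) (by linarith))
    exact div_le_div_of_nonneg_right (by linarith) (by linarith)
  have hA : Real.log ((v2' - θ0) / (v2 - θ0)) < 2 * J * Real.log (1 + κ) := hmono.trans_lt hA0
  have hE0 : 0 ≤ E := by linarith [hN.hE.2]
  obtain ⟨o, ho, p1, p2, p3⟩ := hL.side'.cutR θ0 h0.le h1.le
  have hα := hN.ha
  have hαq := mul_le_mul_of_nonneg_right hα hq0.le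
  have hov : o < v2 := by
    by_contra hc'
    have a2 := cnt_mono B θ' (I := Set.Ioo θ0 v2) (I' := Set.Icc θ0 o)
      fun y hy => ⟨hy.1.le, hy.2.le.trans (not_lt.1 hc')⟩
    linarith
  have hmass : 3 * s' / 8 ≤ cnt B θ' (Set.Icc o v2) / cnt B θ' (Set.Ioo t0 t1) := by
    have a2 := cnt_union B θ' (I := Set.Ioo θ0 v2) (I1 := Set.Icc θ0 o) (I2 := Set.Icc o v2)
      fun y hy => by
        rcases le_total y o with c | c
        · exact Or.inl ⟨hy.1.le, c⟩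
        · exact Or.inr ⟨c, hy.2.le⟩
    rw [le_div_iff₀ hq0]
    linarith
  rcases le_or_gt (o - θ0) (v2 - o) with c1 | c1
  · exact cmp p1 hov (by linarith) o4 hα2 hκ hLk hN.hE.1 hE0 hA (n2 o (Or.inl ho) hov)
  have ho0 : θ0 < o := by linarith
  have hto : t0 ≤ o := h0.le.trans p1
  have herr := err_lt s0 hJ err0 hN.he
  rcases le_or_gt 1 κ with c2 | c2
  · rcases le_or_gt ((1 + κ * (1 + 1 / M)) * (v2 - θ0)) (v2' - θ0) with c3 | c3
    · have a1 := x3 o v2 v2 v2' ho0 hto o6 (dbl ho0 c1 c2) c3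
      have a2 : cnt B θ' (Set.Icc v2 v2') / cnt B θ' (Set.Ioo t0 t1) ≤ α := by
        rw [div_le_iff₀ hq0]; exact hL.side'.atom2
      linarith
    · exact big hκ hv hα2 hM1 hN.hE.2 hLk n1 c3
  have hΔ1 : Real.log (1 + κ) < 1 := by
    have := Real.log_le_sub_one_of_pos (show 0 < 1 + κ by linarith)
    linarith
  rcases le_or_gt (Real.log ((v2' - θ0) / (v2 - θ0))) (48 / s' + 2) with c3 | c3
  · exact mid hv o4 hα2 hκ hLk hN.hE.1 (by linarith) hA n1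
      (fun n hn hlt => n2 _ (Or.inr ⟨n, hn, rfl⟩) hlt) c3 hN.hi
  · exact small hΔ hΔ1 s0 hJ err0 hN.hM hN.he (c3.trans_le hmono) hA0 (log_two ho0 hov c1) hmass
      fun n g3 g7 g8 => x2 o v2 n ho0 hto hov.le g3 g7 g8

end Vale.Agent.P065U
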