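import Vale.Agent.P065U.DefsB

/-! P065U: cell decompositions inside windows. -/

namespace Vale.Agent.P065U

open Classical Finset

namespace LocAux

theorem win (hc : StmCell) (hr : StmRestrict) {P τ S V I L E a} (h : Cfg P τ S V)
    (hb : Bic S V I L E a) {i j : ℕ} (hij : i ≤ j) (hj : j ≤ V) {r n0 : ℕ} (h1 : 1 ≤ r)
    (h2 : 1 ≤ n0) : ∃ π : Pt → ℕ × ℕ, (∀ lab, ((inv S i j).filter fun z => π z = lab).card ≤ n0) ∧
      (((edges I L E).filter fun e => (i ≤ e.1 ∧ e.1 < j) ∧ π e.2.1 ≠ π e.2.2).card : ℝ) ≤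
        10 * ((inv S i j).card : ℝ) ^ 2 * (a : ℝ) ^ 2 / r + 3 * r * (inv S i j).card / n0 := by
  obtain ⟨c1, c2⟩ := hr P τ S V i j h hij hj
  have hm : ∀ l, l ∈ ((range (j - i)).filter fun l => i + l ∈ I) ↔ l < j - i ∧ i + l ∈ I :=
    fun l => by rw [mem_filter, mem_range]
  have hb' : Bic (fun l => S (i + l) ∩ inv S i j) (j - i)
      ((range (j - i)).filter fun l => i + l ∈ I) (fun l => L (i + l)) (fun l => E (i + l)) a := by
    refine ⟨fun l hl => ((hm l).1 hl).1, fun l hl p hp => ?_, fun l hl p hp => ?_,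
      fun l hl => hb.cardL _ ((hm l).1 hl).2, fun l hl => hb.cardE _ ((hm l).1 hl).2⟩
    · obtain ⟨a1, a2⟩ := (hm l).1 hl
      have b := hb.subL _ a2 hp
      have c := c2 _ _ (by omega) (by omega) (by omega) (by omega) b
      rw [mem_sdiff] at b
      exact mem_sdiff.2 ⟨mem_inter.2 ⟨b.1, c⟩, fun d => b.2 (mem_inter.1 d).1⟩
    · obtain ⟨a1, a2⟩ := (hm l).1 hl
      have b := hb.subE _ a2 hp
      have c := c2 _ _ (by omega) (by omega) (by omega) (by omega) b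
      rw [mem_sdiff] at b
      exact mem_sdiff.2 ⟨mem_inter.2 ⟨b.1, c⟩, fun d => b.2 (mem_inter.1 d).1⟩
  obtain ⟨π, p1, p2⟩ := hc _ _ _ _ _ _ _ _ c1 hb' r n0 h1 h2
  refine ⟨π, p1, le_trans ?_ p2⟩
  refine Nat.cast_le.2 (card_le_card_of_injOn (fun e => (e.1 - i, e.2)) (fun e he => ?_) ?_)
  · obtain ⟨e1, ⟨e2, e3⟩, e4⟩ := mem_filter.1 (mem_coe.1 he)
    obtain ⟨e5, e6, e7⟩ := mem_edges.1 e1
    refine mem_coe.2 (mem_filter.2 ⟨mem_edges.2 ?_, e4⟩)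
    simp only [hm, Nat.add_sub_cancel' e2]
    exact ⟨⟨by omega, e5⟩, e6, e7⟩
  · intro e he e' he' hee
    have e2 := (mem_filter.1 (mem_coe.1 he)).2.1.1
    have e3 := (mem_filter.1 (mem_coe.1 he')).2.1.1
    simp only [Prod.mk.injEq] at hee
    exact Prod.ext (by omega) hee.2

theorem few {S V K L E a} (hb : Bic S V (evens K) L E a) (x w : ℕ) :
    ((edges (evens K) L E).filter fun e => 2 * (x * w) ≤ e.1 ∧ e.1 < 2 * ((x + 1) * w)).card ≤
      w * a ^ 2 := by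
  have hb' : Bic S V ((evens K).filter fun l => 2 * (x * w) ≤ l ∧ l < 2 * ((x + 1) * w)) L E a :=
    ⟨fun l hl => hb.lt l (mem_filter.1 hl).1, fun l hl => hb.subL l (mem_filter.1 hl).1,
      fun l hl => hb.subE l (mem_filter.1 hl).1, fun l hl => hb.cardL l (mem_filter.1 hl).1,
      fun l hl => hb.cardE l (mem_filter.1 hl).1⟩
  refine le_trans (card_le_card fun e he => ?_) (hb'.card_edges.le.trans ?_)
  · obtain ⟨e1, e2⟩ := mem_filter.1 he
    rw [mem_edges] at e1 ⊢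
    exact ⟨mem_filter.2 ⟨e1.1, e2⟩, e1.2⟩
  · refine Nat.mul_le_mul_right _ (le_trans (card_le_card (t := (range w).image
      fun t => 2 * (x * w + t)) fun l hl => ?_) (card_image_le.trans (card_range w).le))
    obtain ⟨l1, l2, l3⟩ := mem_filter.1 hl
    obtain ⟨t, -, rfl⟩ := mem_image.1 l1
    rw [add_mul, one_mul] at l3
    exact mem_image.2 ⟨t - x * w, mem_range.2 (by omega), by omega⟩

theorem bad {Γ : ℝ} (hI : InvBound Γ 0) {P τ S V} (h : Cfg P τ S V) {w M : ℕ}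
    (hV : 2 * (M * w) ≤ V) {z : ℝ} (hz : 0 < z) :
    (((range M).filter fun x => z < (inv S (2 * (x * w)) (2 * ((x + 1) * w))).card).card : ℝ) ^ 3 *
      z ^ 4 ≤ Γ * (P.card : ℝ) ^ 4 := by
  generalize hF : ((range M).filter fun x =>
    z < (inv S (2 * (x * w)) (2 * ((x + 1) * w))).card) = F
  have hm : ∀ x ∈ F, x < M ∧ z < (inv S (2 * (x * w)) (2 * ((x + 1) * w))).card := fun x hx => by
    rwa [← hF, mem_filter, mem_range] at hx
  obtain ⟨e, he1, he2⟩ : ∃ e : ℕ → ℕ, (∀ i < F.card, e i ∈ F) ∧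
      ∀ i j, i < j → j < F.card → e i < e j := by
    refine ⟨fun i => if hi : i < F.card then F.orderEmbOfFin rfl ⟨i, hi⟩ else 0, fun i hi => ?_,
      fun i j hij hj => ?_⟩
    · simp only [dif_pos hi]
      exact orderEmbOfFin_mem _ _ _
    · simp only [dif_pos hj, dif_pos (hij.trans hj)]
      exact (F.orderEmbOfFin rfl).strictMono hij
  refine le_trans ?_ (hI P τ S V (fun i => 2 * (e i * w)) (fun i => 2 * ((e i + 1) * w)) F.card ⌈z⌉₊ h
    ⟨fun i hi => ⟨?_, ?_⟩, fun i j hij hj => ?_⟩ (Nat.zero_le _) (Nat.ceil_pos.2 hz)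
    fun i hi => Nat.ceil_le.2 (hm _ (he1 i hi)).2.le)
  · gcongr
    exact Nat.le_ceil z
  · gcongr
    omega
  · refine le_trans ?_ hV
    gcongr
    exact (hm _ (he1 i hi)).1
  · gcongr
    exact he2 i j hij hj

theorem num {A β G C d y n a2 Z M : ℝ} {r n0 : ℝ} (hA : 0 < A) (hβ : 0 < β) (hβ1 : β ≤ 1)
    (hG : 1 ≤ G) (hd : 0 < d) (hM : 0 < M) (hy : 0 < y) (hC : 36 * G * (30 * G ^ 2 * A) ≤ C)
    (hAd : 1 ≤ A * d ^ 2) (h1 : M * y ^ 2 * a2 ≤ A * Z * d ^ 2) (h2 : M * d * y = Z)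
    (n1 : 0 ≤ n) (n2 : n ≤ G / β * y) (a0 : 0 ≤ a2) (r1 : 30 * G ^ 2 * A / β ^ 3 * d ^ 2 ≤ r)
    (r2 : r ≤ 30 * G ^ 2 * A / β ^ 3 * d ^ 2 + 1) (n3 : C / β ^ 5 * d ≤ 2 * n0) :
    10 * n ^ 2 * a2 / r + 3 * r * n / n0 ≤ 2 / 3 * (β * Z / M) := by
  have G0 : 0 < G := by linarith
  have Z0 : 0 < Z := by rw [← h2]; positivity
  have C0 : 0 < C := lt_of_lt_of_le (by positivity) hC
  have r0 : 0 < r := lt_of_lt_of_le (by positivity) r1
  have n4 : 36 * G * (30 * G ^ 2 * A) / β ^ 5 * d / 2 ≤ n0 := by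
    have : 36 * G * (30 * G ^ 2 * A) / β ^ 5 * d ≤ C / β ^ 5 * d := by gcongr
    linarith
  have r3 : r ≤ 2 * (30 * G ^ 2 * A / β ^ 3 * d ^ 2) := by
    have b1 : A ≤ 30 * G ^ 2 * A / β ^ 3 := by
      rw [le_div_iff₀ (by positivity)]
      have := pow_le_one₀ hβ.le hβ1 (n := 3)
      have := one_le_pow₀ hG (n := 2)
      nlinarith
    have : A * d ^ 2 ≤ 30 * G ^ 2 * A / β ^ 3 * d ^ 2 := by gcongr
    linarith
  have t1 : 10 * n ^ 2 * a2 / r ≤ 1 / 3 * (β * Z / M) := by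
    calc _ ≤ 10 * (G / β * y) ^ 2 * a2 / (30 * G ^ 2 * A / β ^ 3 * d ^ 2) := by gcongr
      _ = 1 / 3 * (β * (M * y ^ 2 * a2) / (A * d ^ 2) / M) := by field_simp; ring
      _ ≤ 1 / 3 * (β * (A * Z * d ^ 2) / (A * d ^ 2) / M) := by gcongr
      _ = _ := by field_simp
  have t2 : 3 * r * n / n0 ≤ 1 / 3 * (β * Z / M) := by
    calc _ ≤ 3 * (2 * (30 * G ^ 2 * A / β ^ 3 * d ^ 2)) * (G / β * y) /
          (36 * G * (30 * G ^ 2 * A) / β ^ 5 * d / 2) := by gcongr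
      _ = _ := by rw [← h2]; field_simp; ring
  linarith

end LocAux

open LocAux in
theorem loc (hc : StmCell) (hr : StmRestrict) : StmLoc := by
  intro Γ hΓ hI A hA
  obtain ⟨G, eG⟩ : ∃ G, G = 1 + 27 * Γ * A ^ 3 := ⟨_, rfl⟩
  have hG : 1 ≤ G := by rw [eG]; exact le_add_of_nonneg_right (by positivity)
  have hG' : 0 ≤ 36 * G * (30 * G ^ 2 * A) := by positivity
  obtain ⟨C, eC⟩ : ∃ C, C = 36 * G * (30 * G ^ 2 * A) + A + 1 := ⟨_, rfl⟩
  refine ⟨C, by linarith, fun P τ S κ L E a h hb ha hA2 u hu β hβ hβ1 => ?_⟩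
  obtain ⟨v, rfl⟩ := Nat.exists_eq_add_of_le hu
  simp only [invW, blk, Nat.add_sub_cancel_left]
  have a1 : (1 : ℝ) ≤ (a : ℝ) ^ 2 := one_le_pow₀ (by exact_mod_cast ha)
  have N0 : (0 : ℝ) < P.card := by
    refine lt_of_le_of_ne (Nat.cast_nonneg _) fun e => ?_
    rw [← e] at hA2
    simp only [zero_div, ne_eq, OfNat.ofNat_ne_zero, not_false_eq_true, zero_pow, mul_zero] at hA2
    linarith
  obtain ⟨X, eX⟩ : ∃ X : ℝ, X = 2 ^ u := ⟨_, rfl⟩
  obtain ⟨Y, eY⟩ : ∃ Y : ℝ, Y = 2 ^ v := ⟨_, rfl⟩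
  have X1 : 1 ≤ X := eX ▸ one_le_pow₀ one_le_two
  have Y1 : 1 ≤ Y := eY ▸ one_le_pow₀ one_le_two
  have X0 : 0 < X := by linarith
  have Y0 : 0 < Y := by linarith
  have pw : ∀ k n : ℕ, ((2 : ℝ) ^ k) ^ n = ((2 : ℝ) ^ n) ^ k := fun k n => pow_right_comm _ _ _
  have e4 : (4 : ℝ) ^ (u + v) = X ^ 2 * Y ^ 2 := by
    rw [eX, eY, pw, pw v, ← pow_add]; norm_num
  have e8 : (8 : ℝ) ^ (u + v) = X ^ 3 * Y ^ 3 := by
    rw [eX, eY, pw, pw v, ← pow_add]; norm_num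
  have eM : ((16 ^ u : ℕ) : ℝ) = X ^ 4 := by rw [eX, pw]; norm_num
  have ew : ((16 ^ v : ℕ) : ℝ) = Y ^ 4 := by rw [eY, pw]; norm_num
  rw [Dd, Zz, e4, ← eX]
  rw [e8] at hA2
  rw [pow_add] at h hb ⊢
  have w0 : 0 < 16 ^ v := by positivity
  generalize 16 ^ u = M at *
  generalize 16 ^ v = w at *
  generalize hN : (P.card : ℝ) = N at *
  obtain ⟨d, ed⟩ : ∃ d, d = N / (X ^ 2 * Y ^ 2 * X) := ⟨_, rfl⟩
  obtain ⟨Z, eZ⟩ : ∃ Z, Z = N ^ 2 / (X ^ 2 * Y ^ 2) := ⟨_, rfl⟩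
  have d0 : 0 < d := by rw [ed]; positivity
  have Z0 : 0 < Z := by rw [eZ]; positivity
  have hAd : 1 ≤ A * d ^ 2 := by
    refine (a1.trans hA2).trans ?_
    rw [ed]
    gcongr A * (N / ?_) ^ 2
    calc X ^ 2 * Y ^ 2 * X = X ^ 3 * Y ^ 2 * 1 := by ring
      _ ≤ X ^ 3 * Y ^ 2 * Y := by gcongr
      _ = _ := by ring
  have hCd : 1 ≤ C / β ^ 5 * d := by
    have b1 : A + 1 ≤ C / β ^ 5 := by
      rw [le_div_iff₀ (by positivity)]
      have := pow_le_one₀ hβ.le hβ1 (n := 5)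
      nlinarith
    refine le_trans ?_ (mul_le_mul_of_nonneg_right b1 d0.le)
    refine le_of_pow_le_pow_left₀ (n := 2) (by norm_num) (by positivity) ?_
    nlinarith [sq_nonneg d, sq_nonneg (A * d)]
  rw [← ed, ← eZ]
  have r0 : 0 < 30 * G ^ 2 * A / β ^ 3 * d ^ 2 := by positivity
  have hw := fun x : Fin M => win hc hr h hb (i := 2 * (x * w)) (j := 2 * ((x + 1) * w))
    (by gcongr; omega) (by gcongr; exact x.2) (Nat.ceil_pos.2 r0) (Nat.floor_pos.2 hCd)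
  choose π0 hπ1 hπ2 using hw
  obtain ⟨π, eπ⟩ : ∃ π : ℕ → Pt → ℕ × ℕ, ∀ x : Fin M, π0 x = π x :=
    ⟨fun x => if hx : x < M then π0 ⟨x, hx⟩ else fun _ => 0, fun x => by simp only [dif_pos x.2]⟩
  simp only [eπ] at hπ1 hπ2
  refine ⟨π, fun x hx lab => (Nat.cast_le.2 (hπ1 ⟨x, hx⟩ lab)).trans
    (Nat.floor_le (by linarith)), ?_⟩
  obtain ⟨y, ey⟩ : ∃ y, y = N / X ^ 3 := ⟨_, rfl⟩
  have y0 : 0 < y := by rw [ey]; positivity
  have z0 : 0 < G / β * y := by positivity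
  have hbad := bad hI h le_rfl z0
  generalize hF : ((range M).filter fun x =>
    G / β * y < (inv S (2 * (x * w)) (2 * ((x + 1) * w))).card) = F at hbad
  have hF3 : (F.card : ℝ) * (A * Z / X ^ 4) ≤ 1 / 3 * (β * Z) := by
    have b1 : (F.card : ℝ) * A * 3 ≤ β * X ^ 4 := by
      refine le_of_pow_le_pow_left₀ (n := 3) (by norm_num) (by positivity) ?_
      refine le_of_mul_le_mul_right ?_ (pow_pos z0 4)
      have b2 : 27 * Γ * A ^ 3 ≤ G ^ 4 / β := by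
        rw [le_div_iff₀ hβ]
        have : G ≤ G ^ 4 := le_self_pow₀ hG (by norm_num)
        have : 27 * Γ * A ^ 3 * β ≤ 27 * Γ * A ^ 3 := mul_le_of_le_one_right (by positivity) hβ1
        linarith
      calc _ = 27 * A ^ 3 * ((F.card : ℝ) ^ 3 * (G / β * y) ^ 4) := by ring
        _ ≤ 27 * A ^ 3 * (Γ * N ^ 4) := by rw [← hN]; gcongr
        _ = 27 * Γ * A ^ 3 * N ^ 4 := by ring
        _ ≤ G ^ 4 / β * N ^ 4 := by gcongr
        _ = _ := by rw [ey]; field_simp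
    calc _ = (F.card : ℝ) * A * 3 * (Z / (3 * X ^ 4)) := by field_simp
      _ ≤ β * X ^ 4 * (Z / (3 * X ^ 4)) := by gcongr
      _ = _ := by field_simp
  have hx : ∀ x ∈ range M, (((edges (evens (M * w)) L E).filter fun e =>
      (2 * (x * w) ≤ e.1 ∧ e.1 < 2 * ((x + 1) * w)) ∧ π x e.2.1 ≠ π x e.2.2).card : ℝ) ≤
      (if x ∈ F then A * Z / X ^ 4 else 0) + 2 / 3 * (β * Z / X ^ 4) := fun x hx => by
    split_ifs with hxF
    · refine le_add_of_le_of_nonneg ?_ (by positivity)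
      calc _ ≤ ((w * a ^ 2 : ℕ) : ℝ) := Nat.cast_le.2 (le_trans (card_le_card
            (monotone_filter_right _ fun e _ he => he.1)) (few hb x w))
        _ = Y ^ 4 * (a : ℝ) ^ 2 := by rw [← ew]; norm_cast
        _ ≤ Y ^ 4 * (A * (N / (X ^ 3 * Y ^ 3)) ^ 2) := by gcongr
        _ = _ := by rw [eZ]; field_simp
    · rw [zero_add]
      rw [← hF, mem_filter, not_and, not_lt] at hxF
      refine (hπ2 ⟨x, mem_range.1 hx⟩).trans (num hA hβ hβ1 hG d0 (by positivity) y0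
        (C := C) (by linarith) hAd ?_ ?_ (Nat.cast_nonneg _) (hxF hx) (by positivity)
        (Nat.le_ceil _) (Nat.ceil_lt_add_one r0.le).le ?_)
      · calc _ ≤ X ^ 4 * y ^ 2 * (A * (N / (X ^ 3 * Y ^ 3)) ^ 2) := by gcongr
          _ = _ := by rw [eZ, ey, ed]; field_simp
      · rw [eZ, ey, ed]
        field_simp
      · have b1 := Nat.lt_floor_add_one (C / β ^ 5 * d)
        have b2 : (1 : ℝ) ≤ ⌊C / β ^ 5 * d⌋₊ := by exact_mod_cast Nat.floor_pos.2 hCd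
        linarith
  have hs := sum_le_sum hx
  rw [sum_add_distrib, ← sum_filter, filter_mem_eq_inter, inter_eq_right.2
    (hF ▸ filter_subset _ _), sum_const, sum_const, nsmul_eq_mul, nsmul_eq_mul, card_range,
    eM, ← Nat.cast_sum] at hs
  have he : X ^ 4 * (2 / 3 * (β * Z / X ^ 4)) = 2 / 3 * (β * Z) := by field_simp
  refine le_trans (Nat.cast_le.2 (le_trans (card_le_card fun e he => ?_) card_biUnion_le))
    (hs.trans (by linarith))
  obtain ⟨e1, e2⟩ := mem_filter.1 he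
  have e3 : e.1 < 2 * (M * w) := hb.lt _ (mem_edges.1 e1).1
  have e5 := Nat.div_mul_le_self (e.1 / 2) w
  have e6 := Nat.lt_div_mul_add (a := e.1 / 2) w0
  refine mem_biUnion.2 ⟨e.1 / 2 / w, mem_range.2 ((Nat.div_lt_iff_lt_mul w0).2 (by omega)),
    mem_filter.2 ⟨e1, ⟨by omega, ?_⟩, e2⟩⟩
  rw [add_mul, one_mul]
  omega

end Vale.Agent.P065U
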