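import Vale.Agent.P065U.Basic

/-! P065U: windows instead of consecutive steps, and restriction to the varying points. -/

namespace Vale.Agent.P065U

open Classical Finset

/-- the index sequence `lo 0, hi 0, lo 1, hi 1, …, V` -/
def idxW (lo hi : ℕ → ℕ) (n V : ℕ) (l : ℕ) : ℕ :=
  if l < 2 * n then (if l % 2 = 0 then lo (l / 2) else hi (l / 2)) else V

theorem idxW_le {lo hi : ℕ → ℕ} {n V : ℕ} (hw : Win lo hi n V) (l : ℕ) : idxW lo hi n V l ≤ V := by
  unfold idxW
  by_cases h : l < 2 * n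
  · have h1 := hw.le (l / 2) (by omega)
    rw [if_pos h]
    by_cases h2 : l % 2 = 0
    · rw [if_pos h2]
      omega
    · rw [if_neg h2]
      omega
  · rw [if_neg h]

theorem idxW_mono {lo hi : ℕ → ℕ} {n V : ℕ} (hw : Win lo hi n V) : Monotone (idxW lo hi n V) := by
  refine monotone_nat_of_le_succ fun l => ?_
  by_cases h : l + 1 < 2 * n
  · unfold idxW
    rw [if_pos h, if_pos (by omega : l < 2 * n)]
    by_cases h2 : l % 2 = 0
    · have e : (l + 1) / 2 = l / 2 := by omega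
      rw [if_pos h2, if_neg (by omega : ¬ (l + 1) % 2 = 0), e]
      exact (hw.le (l / 2) (by omega)).1
    · rw [if_neg h2, if_pos (by omega : (l + 1) % 2 = 0)]
      exact hw.sep _ _ (by omega) (by omega)
  · have e : idxW lo hi n V (l + 1) = V := if_neg h
    rw [e]
    exact idxW_le hw l

theorem idxW_even {lo hi : ℕ → ℕ} {n V i : ℕ} (hi' : i < n) : idxW lo hi n V (2 * i) = lo i := by
  unfold idxW
  have e : 2 * i / 2 = i := by omega
  rw [if_pos (by omega : 2 * i < 2 * n), if_pos (by omega : 2 * i % 2 = 0), e]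

theorem idxW_odd {lo hi : ℕ → ℕ} {n V i : ℕ} (hi' : i < n) :
    idxW lo hi n V (2 * i + 1) = hi i := by
  unfold idxW
  have e : (2 * i + 1) / 2 = i := by omega
  rw [if_pos (by omega : 2 * i + 1 < 2 * n), if_neg (by omega : ¬ (2 * i + 1) % 2 = 0), e]

/-- a sweep sampled along a monotone index sequence -/
theorem Cfg.comp {P τ S V} (h : Cfg P τ S V) {f : ℕ → ℕ} (hf : Monotone f) (hV : ∀ l, f l ≤ V)
    (W : ℕ) : Cfg P (fun l => τ (f l)) (fun l => S (f l)) W :=
  ⟨h.good, fun _ l' a _ => h.mono _ _ (hf a) (hV l'), fun l _ => h.sub _ (hV l),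
    fun l _ => (h.card _ (hV l)).trans (h.card _ (hV 0)).symm, fun l _ => h.low _ (hV l),
    fun l _ => h.gen _ (hV l)⟩

theorem netW : StmNetW := by
  intro c K0 hN P τ S V lo hi n a h hw hK ha hc
  refine hN P _ _ n a (h.comp (idxW_mono hw) (idxW_le hw) (2 * n)) hK ha fun i hi' => ?_
  show a ≤ (S (idxW lo hi n V (2 * i)) \ S (idxW lo hi n V (2 * i + 1))).card
  rw [idxW_even hi', idxW_odd hi']
  exact hc i hi'

theorem sdiff_inv_eq {S : ℕ → Finset Pt} {i j l l' : ℕ} (h1 : i ≤ l) (h2 : l ≤ j) (h3 : i ≤ l')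
    (h4 : l' ≤ j) : S l \ inv S i j ⊆ S l' \ inv S i j := by
  intro p hp
  rw [mem_sdiff] at hp ⊢
  refine ⟨?_, hp.2⟩
  by_contra hn
  exact hp.2 (mem_inv.2 ⟨⟨l, h1, h2, hp.1⟩, l', h3, h4, hn⟩)

theorem restrict : StmRestrict := by
  intro P τ S V i j h hij hj
  have hsub : inv S i j ⊆ P := by
    intro p hp
    obtain ⟨⟨l, -, h2, h3⟩, -⟩ := mem_inv.1 hp
    exact h.sub l (h2.trans hj) h3
  have hsub' : ((inv S i j : Finset Pt) : Set Pt) ⊆ (P : Set Pt) := fun p hp => hsub hp
  refine ⟨⟨⟨h.good.xinj.mono hsub', fun p hp q hq r hr =>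
    h.good.gen p (hsub hp) q (hsub hq) r (hsub hr)⟩, fun l l' a b => h.mono _ _ (by omega) (by omega),
    fun l _ => inter_subset_right, fun l hl => ?_, fun l hl p hp q hq hq' => ?_,
    fun l hl => (h.gen (i + l) (by omega)).mono hsub'⟩, fun l l' h1 h2 h3 h4 p hp => ?_⟩
  · have e : S (i + l) \ inv S i j = S (i + 0) \ inv S i j :=
      Subset.antisymm (sdiff_inv_eq (by omega) (by omega) (by omega) (by omega))
        (sdiff_inv_eq (by omega) (by omega) (by omega) (by omega))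
    have e1 := card_sdiff_add_card_inter (S (i + l)) (inv S i j)
    have e2 := card_sdiff_add_card_inter (S (i + 0)) (inv S i j)
    have e3 := h.card (i + l) (by omega)
    have e4 := h.card (i + 0) (by omega)
    rw [e] at e1
    show (S (i + l) ∩ inv S i j).card = (S (i + 0) ∩ inv S i j).card
    omega
  · exact h.low (i + l) (by omega) p (mem_inter.1 hp).1 q (hsub hq)
      fun hq2 => hq' (mem_inter.2 ⟨hq2, hq⟩)
  · rw [mem_sdiff] at hp
    exact mem_inv.2 ⟨⟨l, h1, h2, hp.1⟩, l', h3, h4, hp.2⟩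

end Vale.Agent.P065U
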