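import Vale.Agent.P065U.DefsC

/-! P065U: orbits of an approximate translation. -/

namespace Vale.Agent.P065U

open Classical Finset

namespace OrbAux

/-- indicator of a proposition -/
noncomputable def ind (p : Prop) : ℝ := if p then 1 else 0

theorem ind_nn (p : Prop) : 0 ≤ ind p := by unfold ind; split_ifs <;> norm_num

theorem ind_pos {p : Prop} (h : p) : ind p = 1 := if_pos h

theorem ind_neg {p : Prop} (h : ¬ p) : ind p = 0 := if_neg h

theorem ind_le {p : Prop} {a : ℝ} (h0 : 0 ≤ a) (h : p → 1 ≤ a) : ind p ≤ a := by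
  by_cases hp : p
  · rw [ind_pos hp]; exact h hp
  · rwa [ind_neg hp]

theorem card_eq {ι : Type} (s : Finset ι) (p : ι → Prop) [DecidablePred p] :
    ((s.filter p).card : ℝ) = ∑ i ∈ s, ind (p i) := by
  rw [card_filter]
  push_cast
  exact sum_congr rfl fun i _ => by unfold ind; congr

theorem cnt_eq (B : Finset Pt) (ζ : Pt → ℝ) (I : Set ℝ) :
    cnt B ζ I = ∑ b ∈ B, ind (ζ b ∈ I) := card_eq _ _

theorem cnt_nn (B : Finset Pt) (ζ : Pt → ℝ) (I : Set ℝ) : 0 ≤ cnt B ζ I := Nat.cast_nonneg _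

theorem cnt_mono {B : Finset Pt} {ζ ζ' : Pt → ℝ} {I I' : Set ℝ}
    (h : ∀ b ∈ B, ζ b ∈ I → ζ' b ∈ I') : cnt B ζ I ≤ cnt B ζ' I' := by
  rw [cnt_eq, cnt_eq]
  exact sum_le_sum fun b hb => ind_le (ind_nn _) fun h' => (ind_pos (h b hb h')).ge

theorem sum_ind_le {ι : Type} {s : Finset ι} {p : ι → Prop} {Q : Prop} {L : ℝ}
    (h1 : ∀ i ∈ s, p i → Q) (h2 : ((s.filter p).card : ℝ) ≤ L) :
    ∑ i ∈ s, ind (p i) ≤ L * ind Q := by
  by_cases hQ : Q
  · rwa [ind_pos hQ, mul_one, ← card_eq]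
  · rw [ind_neg hQ, mul_zero]
    exact (sum_eq_zero fun i hi => ind_neg fun h => hQ (h1 i hi h)).le

theorem one_le_sum {ι : Type} {s : Finset ι} {p : ι → Prop} {i : ι} (hi : i ∈ s) (h : p i) :
    1 ≤ ∑ i ∈ s, ind (p i) :=
  (ind_pos h).ge.trans (single_le_sum (f := fun i => ind (p i)) (fun _ _ => ind_nn _) hi)

theorem sum_cnt_le {ι : Type} {s : Finset ι} {B : Finset Pt} {ζ : Pt → ℝ} {I : ι → Set ℝ}
    {I' : Set ℝ} {L : ℝ} (h1 : ∀ i ∈ s, I i ⊆ I')
    (h2 : ∀ b ∈ B, ∀ S : Finset ι, (∀ i ∈ S, i ∈ s ∧ ζ b ∈ I i) → (S.card : ℝ) ≤ L) :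
    ∑ i ∈ s, cnt B ζ (I i) ≤ L * cnt B ζ I' := by
  simp only [cnt_eq]
  rw [sum_comm, mul_sum]
  exact sum_le_sum fun b hb => sum_ind_le (fun i hi h => h1 i hi h)
    (h2 b hb _ fun i hi => mem_filter.1 hi)

theorem cnt_sub {N B : Finset Pt} (h : N ⊆ B) (ζ : Pt → ℝ) (I : Set ℝ) : cnt N ζ I ≤ cnt B ζ I :=
  Nat.cast_le.2 (card_le_card (filter_subset_filter _ h))

theorem card_int {S : Finset ℕ} {l : ℝ} (hl : 0 ≤ l) (h : ∀ i ∈ S, ∀ j ∈ S, (j : ℝ) - i ≤ l) :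
    (S.card : ℝ) ≤ l + 1 := by
  rcases S.eq_empty_or_nonempty with rfl | hS
  · simp only [card_empty, Nat.cast_zero]; linarith
  have h1 : S.card ≤ (Icc (S.min' hS) (S.max' hS)).card :=
    card_le_card fun i hi => mem_Icc.2 ⟨S.min'_le i hi, S.le_max' i hi⟩
  have h2 := h _ (S.min'_mem hS) _ (S.max'_mem hS)
  have h3 := S.min'_le_max' hS
  rw [Nat.card_Icc] at h1
  have h4 : S.card + S.min' hS ≤ S.max' hS + 1 := by omega
  have h5 : (S.card : ℝ) + S.min' hS ≤ S.max' hS + 1 := by exact_mod_cast h4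
  linarith

end OrbAux

open OrbAux in
theorem orb : StmOrb := by
  intro B ζ Δ φ z0 z1 q err hΔ hφ hq herr h x y γ n hx hxy hn hnφ hγ hz
  have hn0 : (0 : ℝ) < n := by exact_mod_cast hn
  have h1 : ∀ j : ℕ, j ≤ n → cnt B ζ (Set.Icc x y) / q ≤
      cnt B ζ (Set.Icc (x + j * Δ) (y + j * (Δ + φ))) / q + j * err := by
    intro j
    induction j with
    | zero => intro _; simp
    | succ j ih =>
      intro hj
      have a0 : (0 : ℝ) ≤ j := Nat.cast_nonneg j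
      have a1 : ((j : ℝ) + 1) * (Δ + φ) ≤ n * (Δ + φ) :=
        mul_le_mul_of_nonneg_right (by exact_mod_cast hj) (by linarith)
      have a2 := h (x + j * Δ) (y + j * (Δ + φ)) (by nlinarith) (by nlinarith) (by linarith)
      have a3 := ih (Nat.le_of_succ_le hj)
      have e1 : x + ((j + 1 : ℕ) : ℝ) * Δ = x + j * Δ + Δ := by push_cast; ring
      have e2 : y + ((j + 1 : ℕ) : ℝ) * (Δ + φ) = y + j * (Δ + φ) + Δ + φ := by push_cast; ring
      rw [e1, e2]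
      push_cast
      linarith
  have h2 : ∑ j ∈ Icc 1 n, cnt B ζ (Set.Icc (x + (j : ℕ) * Δ) (y + (j : ℕ) * (Δ + φ))) ≤
      ((y - x) / Δ + 2) * cnt B ζ (Set.Icc x γ) := by
    refine sum_cnt_le (fun j hj => Set.Icc_subset_Icc ?_ ?_) fun b _ S hS => ?_
    · have : (0 : ℝ) ≤ j * Δ := by positivity
      linarith
    · have : (j : ℝ) * (Δ + φ) ≤ n * (Δ + φ) :=
        mul_le_mul_of_nonneg_right (by exact_mod_cast (mem_Icc.1 hj).2) (by linarith)
      linarith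
    · have a0 : 0 ≤ (y - x) / Δ := div_nonneg (by linarith) hΔ.le
      refine (card_int (l := (y - x) / Δ + 1) (by linarith) fun i hi j hj => ?_).trans
        (by linarith)
      obtain ⟨b1, -, b2⟩ := hS i hi
      obtain ⟨-, b3, -⟩ := hS j hj
      have b4 : (i : ℝ) * φ ≤ n * φ :=
        mul_le_mul_of_nonneg_right (by exact_mod_cast (mem_Icc.1 b1).2) hφ
      rw [div_add_one hΔ.ne', le_div_iff₀ hΔ]
      linarith
  have h3 : ∑ _j ∈ Icc 1 n, cnt B ζ (Set.Icc x y) / q ≤ ∑ j ∈ Icc 1 n,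
      (cnt B ζ (Set.Icc (x + (j : ℕ) * Δ) (y + (j : ℕ) * (Δ + φ))) / q + n * err) :=
    sum_le_sum fun j hj => (h1 j (mem_Icc.1 hj).2).trans (by
      have : (j : ℝ) * err ≤ n * err :=
        mul_le_mul_of_nonneg_right (by exact_mod_cast (mem_Icc.1 hj).2) herr
      linarith)
  rw [sum_add_distrib, sum_const, sum_const, ← sum_div, Nat.card_Icc, Nat.add_sub_cancel,
    nsmul_eq_mul, nsmul_eq_mul] at h3
  have h4 := div_le_div_of_nonneg_right h2 hq.le
  rw [mul_div_assoc] at h4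
  rw [div_add' _ _ _ hn0.ne', le_div_iff₀ hn0]
  linarith

open OrbAux in
theorem stmT (h : StmOrb) : StmT := by
  intro B N ζs ζt Δ φ z0 z1 qs qt nN err s0 s Λ nU K J U hΔ hφ hqt hq hnN herr hs0 hs hsh hcl htot
    hw hdis hU hcov hN hΛ hlaw hlink hK hJ hKφ hJφ
  have hK0 : (0 : ℝ) < K := by exact_mod_cast hK
  have hJ0 : (0 : ℝ) < J := by exact_mod_cast hJ
  have hKφ0 : 0 ≤ (K : ℝ) * φ := by positivity
  have hKΔ : 0 ≤ (K : ℝ) * Δ := by positivity
  have horb := h B ζt Δ φ z0 z1 qt err hΔ hφ hqt herr fun x y hx _ hy => by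
    refine (hcl x y hx (by linarith)).trans (add_le_add_left ?_ _)
    refine div_le_div₀ (cnt_nn _ _ _) (cnt_mono fun b hb hm => ?_) hqt hq
    obtain ⟨a1, a2⟩ := hsh b hb
    exact ⟨by linarith [hm.1], by linarith [hm.2]⟩
  set zs := z1 - J * (Δ + φ) with hzs
  have hzs1 : zs ≤ z1 := by
    have : 0 ≤ (J : ℝ) * (Δ + φ) := by positivity
    linarith
  set Ul := U.filter fun w => 2 * (K + 1) * Δ ≤ w.2 - w.1 with hUl
  set Us := U.filter fun w => ¬ 2 * (K + 1) * Δ ≤ w.2 - w.1 with hUs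
  have cl : (Ul.card : ℝ) ≤ nU := by exact_mod_cast (card_filter_le _ _).trans hU
  have cs : (Us.card : ℝ) ≤ nU := by exact_mod_cast (card_filter_le _ _).trans hU
  have s1 : ∀ w ∈ Us, cnt B ζt (Set.Icc w.1 (min w.2 zs)) ≤ ((2 * K + 4) / J + J * err) * qt := by
    intro w hwm
    obtain ⟨a1, a2⟩ := mem_filter.1 hwm
    by_cases hc : w.1 ≤ min w.2 zs
    · have a3 := horb w.1 (min w.2 zs) z1 J (hw w a1).1 hc hJ hJφ
        (by linarith [min_le_right w.2 zs]) le_rfl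
      have a4 : cnt B ζt (Set.Icc w.1 z1) / qt ≤ 1 := (div_le_one hqt).2
        ((cnt_mono fun b _ hm => Set.Icc_subset_Icc_left (hw w a1).1 hm).trans htot)
      have a5 : (min w.2 zs - w.1) / Δ + 2 ≤ 2 * K + 4 := by
        rw [← le_sub_iff_add_le, div_le_iff₀ hΔ]
        linarith [min_le_left w.2 zs, not_le.1 a2]
      have a6 := mul_le_mul a5 a4 (div_nonneg (cnt_nn _ _ _) hqt.le) (by positivity)
      rw [mul_one] at a6
      rw [← div_le_iff₀ hqt]
      exact a3.trans (add_le_add_left (div_le_div_of_nonneg_right a6 hJ0.le) _)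
    · rw [Set.Icc_eq_empty hc, cnt_eq, sum_eq_zero fun b _ => ind_neg (Set.notMem_empty _)]
      positivity
  have l1 : ∀ w ∈ Ul, cnt B ζt (Set.Icc w.1 (w.1 + Δ + φ)) ≤
      4 / K * cnt B ζt (Set.Icc w.1 w.2) + K * err * qt := by
    intro w hwm
    obtain ⟨a1, a2⟩ := mem_filter.1 hwm
    have a3 := horb w.1 (w.1 + Δ + φ) w.2 K (hw w a1).1 (by linarith) hK (by linarith)
      (by linarith) (hw w a1).2.2.1
    have a5 : (w.1 + Δ + φ - w.1) / Δ + 2 ≤ 4 := by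
      rw [← le_sub_iff_add_le, div_le_iff₀ hΔ]
      linarith
    have a6 := div_le_div_of_nonneg_right
      (mul_le_mul_of_nonneg_right a5 (div_nonneg (cnt_nn B ζt (Set.Icc w.1 w.2)) hqt.le)) hK0.le
    rw [div_le_iff₀ hqt] at a3
    refine a3.trans ((mul_le_mul_of_nonneg_right (add_le_add_left a6 _) hqt.le).trans_eq ?_)
    field_simp
  have l2 : ∑ w ∈ Ul, cnt B ζt (Set.Icc w.1 w.2) ≤ 1 * cnt B ζt (Set.Icc z0 z1) := by
    refine sum_cnt_le (fun w hwm => Set.Icc_subset_Icc (hw w (mem_filter.1 hwm).1).1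
      (hw w (mem_filter.1 hwm).1).2.2.1) fun b hb S hS => ?_
    refine Nat.cast_le_one.2 (card_le_one.2 fun w hwm w' hwm' => ?_)
    obtain ⟨a1, a2, a3⟩ := hS w hwm
    obtain ⟨b1, b2, b3⟩ := hS w' hwm'
    have a4 := (mem_filter.1 a1).1
    have b4 := (mem_filter.1 b1).1
    by_contra hne
    rcases hdis w a4 w' b4 hne with c | c
    · exact ((hw w a4).2.2.2 b hb).2 (le_antisymm a3 (c.trans b2))
    · exact ((hw w' b4).2.2.2 b hb).2 (le_antisymm b3 (c.trans a2))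
  have l3 : ∑ w ∈ Ul, cnt B ζt (Set.Icc w.1 (w.1 + Δ + φ)) ≤ (4 / K + nU * K * err) * qt := by
    refine (sum_le_sum l1).trans ?_
    rw [sum_add_distrib, ← mul_sum, sum_const, nsmul_eq_mul]
    have a1 := mul_le_mul_of_nonneg_left (l2.trans ((one_mul _).trans_le htot))
      (show (0 : ℝ) ≤ 4 / K by positivity)
    have a2 := mul_le_mul_of_nonneg_right cl (show 0 ≤ K * err * qt by positivity)
    linarith
  have l4 : cnt N ζt (uni Ul) ≤ s * nN + ∑ w ∈ Ul, cnt B ζt (Set.Icc w.1 (w.1 + Δ + φ)) := by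
    have a1 : ∑ w ∈ Ul, cnt N ζt (Set.Icc w.1 (w.1 + Δ + φ)) ≤
        ∑ w ∈ Ul, cnt B ζt (Set.Icc w.1 (w.1 + Δ + φ)) :=
      sum_le_sum fun w _ => cnt_sub hN _ _
    refine le_trans ?_ (add_le_add hlink a1)
    simp only [cnt_eq]
    rw [card_eq, sum_comm, ← sum_add_distrib]
    refine sum_le_sum fun b hb => ind_le
      (add_nonneg (ind_nn _) (sum_nonneg fun _ _ => ind_nn _)) ?_
    rintro ⟨w, hwm, a2, a3⟩
    by_cases hc : ζt b ≤ w.1 + Δ + φ
    · exact le_add_of_nonneg_of_le (ind_nn _)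
        (one_le_sum (p := fun w : ℝ × ℝ => ζt b ∈ Set.Icc w.1 (w.1 + Δ + φ)) hwm ⟨a2.le, hc⟩)
    · obtain ⟨a4, a5⟩ := hsh b (hN hb)
      refine le_add_of_le_of_nonneg (ind_pos ?_).ge (sum_nonneg fun _ _ => ind_nn _)
      exact ⟨w, (mem_filter.1 hwm).1, a2, a3, by linarith [not_le.1 hc], by linarith⟩
  have l5 : cnt B ζt (uni Ul) ≤ (s + Λ * (4 / K + nU * K * err) + err) * qt := by
    rw [← div_le_iff₀ hqt]
    refine (hlaw Ul (filter_subset _ _)).trans (add_le_add_left ?_ _)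
    rw [div_le_iff₀ hnN]
    have a1 := mul_le_mul_of_nonneg_left hΛ
      (show (0 : ℝ) ≤ 4 / K + nU * K * err by positivity)
    linarith
  have m1 : cnt B ζt (Set.Icc z0 zs) ≤ cnt B ζt (Set.Icc z0 z1 \ uni U) + cnt B ζt (uni Ul) +
      ∑ w ∈ Us, cnt B ζt (Set.Icc w.1 (min w.2 zs)) := by
    simp only [cnt_eq]
    rw [sum_comm, ← sum_add_distrib, ← sum_add_distrib]
    refine sum_le_sum fun b _ => ind_le (add_nonneg (add_nonneg (ind_nn _) (ind_nn _))
      (sum_nonneg fun _ _ => ind_nn _)) fun hm => ?_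
    by_cases hc : ζt b ∈ uni U
    · obtain ⟨w, hwm, a2, a3⟩ := hc
      by_cases hl : 2 * (K + 1) * Δ ≤ w.2 - w.1
      · exact le_add_of_le_of_nonneg (le_add_of_nonneg_of_le (ind_nn _)
          (ind_pos ⟨w, mem_filter.2 ⟨hwm, hl⟩, a2, a3⟩).ge) (sum_nonneg fun _ _ => ind_nn _)
      · exact le_add_of_nonneg_of_le (add_nonneg (ind_nn _) (ind_nn _))
          (one_le_sum (p := fun w : ℝ × ℝ => ζt b ∈ Set.Icc w.1 (min w.2 zs))
            (mem_filter.2 ⟨hwm, hl⟩) ⟨a2.le, le_min a3.le hm.2⟩)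
    · exact le_add_of_le_of_nonneg (le_add_of_le_of_nonneg
        (ind_pos ⟨⟨hm.1, hm.2.trans hzs1⟩, hc⟩).ge (ind_nn _)) (sum_nonneg fun _ _ => ind_nn _)
  have s2 := sum_le_sum s1
  rw [sum_const, nsmul_eq_mul] at s2
  have s3 := mul_le_mul_of_nonneg_right cs
    (show 0 ≤ ((2 * K + 4) / J + J * err) * qt by positivity)
  refine (m1.trans (add_le_add (add_le_add hcov l5) (s2.trans s3))).trans_eq ?_
  ring

end Vale.Agent.P065U
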