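import Vale.Agent.P065U.DefsB

/-! P065U: packing the selected edges into an oriented edge system. -/

namespace Vale.Agent.P065U

open Classical Finset

theorem pack : StmPack := by
  intro c2 C m M T κ P τ S L E a cell part Ω σ hc2 hC hm hM hT hcfg hb ha ha2 hp hinv hloc
  obtain ⟨o, ho⟩ : ∃ o : ℕ × Pt × Pt → Pt × Pt,
      (σ = 1 ∧ ∀ e, o e = e.2) ∨ (σ = -1 ∧ ∀ e, o e = e.2.swap) :=
    hp.sgn.elim (fun h => ⟨_, Or.inl ⟨h, fun _ => rfl⟩⟩) fun h => ⟨_, Or.inr ⟨h, fun _ => rfl⟩⟩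
  have oinj : Set.InjOn o Ω := fun e he e' he' h => by
    refine hb.edge_inj hcfg (hp.sub he) (hp.sub he') ?_
    rcases ho with ⟨-, ho⟩ | ⟨-, ho⟩ <;> rw [ho, ho] at h
    exacts [h, Prod.swap_injective h]
  obtain ⟨st, hst⟩ : ∃ st : Pt × Pt → ℕ, ∀ e ∈ Ω, st (o e) = e.1 / 2 := by
    refine ⟨fun x => if h : ∃ e ∈ Ω, o e = x then h.choose.1 / 2 else 0, fun e he => ?_⟩
    have h : ∃ e' ∈ Ω, o e' = o e := ⟨e, he, rfl⟩
    simp only [dif_pos h]
    rw [oinj h.choose_spec.1 he h.choose_spec.2]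
  have hev : ∀ i < 16 ^ κ, 2 * i ∈ evens (16 ^ κ) := fun i hi =>
    mem_image.2 ⟨i, mem_range.2 hi, rfl⟩
  have hne : ∀ i < 16 ^ κ, ∃ p q, (2 * i, p, q) ∈ edges (evens (16 ^ κ)) L E := fun i hi => by
    obtain ⟨p, hp⟩ := card_pos.1 ((hb.cardL _ (hev i hi)).symm ▸ ha : 0 < (L (2 * i)).card)
    obtain ⟨q, hq⟩ := card_pos.1 ((hb.cardE _ (hev i hi)).symm ▸ ha : 0 < (E (2 * i)).card)
    exact ⟨p, q, mem_edges.2 ⟨hev i hi, hp, hq⟩⟩
  have he2 : ∀ e ∈ Ω, e.1 = 2 * (e.1 / 2) ∧ e.1 / 2 < 16 ^ κ := fun e he => by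
    obtain ⟨i, hi, h⟩ := mem_image.1 (mem_edges.1 (hp.sub he)).1
    have := mem_range.1 hi
    omega
  have hτ : ∀ i < 16 ^ κ, τ (2 * i + 1) ≤ τ (2 * (i + 1)) := fun i hi =>
    hcfg.mono _ _ (by omega) (by omega)
  have hle : ∀ (A : Finset (Pt × Pt)) (B : Finset (ℕ × Pt × Pt)), A ⊆ Ω.image o →
      (∀ e ∈ Ω, o e ∈ A → e ∈ B) → (A.card : ℝ) ≤ B.card := fun A B h1 h2 => by
    refine Nat.cast_le.2 (le_trans (card_le_card fun x hx => ?_) (card_image_le (f := o)))
    obtain ⟨e, he, rfl⟩ := mem_image.1 (h1 hx)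
    exact mem_image_of_mem _ (h2 e he hx)
  have hN : 0 < P.card := by
    obtain ⟨p, q, h⟩ := hne 0 (by positivity)
    exact card_pos.2 ⟨p, (hb.edge hcfg h).2.2.2.1⟩
  have hcell : ∀ e ∈ Ω, cell (o e).1 = cell e.2.1 := fun e he => by
    rcases ho with ⟨-, ho⟩ | ⟨-, ho⟩ <;> rw [ho]
    exact (hp.same e he).symm
  refine ⟨⟨P, κ, fun i => if i ≤ 16 ^ κ then τ (2 * i) else τ (2 * 16 ^ κ) + i, Ω.image o, st,
    cell, part, σ⟩, hc2, hC, hm, hM, hT, hcfg.good, hN, hp.sgn, ?_, ?_, ?_, ?_, ?_, hp.cellsz,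
    hp.plt, ?_, ?_, ?_, ?_⟩
  · refine strictMono_nat_of_lt_succ fun i => ?_
    dsimp only
    rcases lt_trichotomy i (16 ^ κ) with h | h | h
    · obtain ⟨p, q, he⟩ := hne i h
      obtain ⟨-, -, -, -, -, -, h1, h2⟩ := hb.edge hcfg he
      rw [if_pos h.le, if_pos (show i + 1 ≤ _ from h)]
      exact (h1.trans h2).trans_le (hτ i h)
    · rw [if_pos h.le, if_neg (by omega), h]
      have : (0 : ℝ) < ((16 ^ κ + 1 : ℕ) : ℝ) := by positivity
      linarith
    · rw [if_neg (by omega), if_neg (by omega)]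
      push_cast
      linarith
  · intro i hi p hp q hq hpq h
    dsimp only at hi hp hq h
    rw [if_pos hi] at h
    have h1 := val_sub (fun e => hpq (hcfg.good.xinj hp hq e)) (τ (2 * i))
    rw [h, sub_self, zero_mul, sub_eq_zero] at h1
    exact hpq (hcfg.gen (2 * i) (by omega) hq hp h1).symm
  · intro x hx
    obtain ⟨e, he, rfl⟩ := mem_image.1 hx
    obtain ⟨-, -, -, h1, h2, h3, h4, h5⟩ := hb.edge hcfg (hp.sub he)
    obtain ⟨h6, h7⟩ := he2 e he
    have h8 := hτ _ h7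
    have h9 : e.2.1 ≠ e.2.2 := fun h => h3.ne (by rw [h])
    dsimp only
    rw [hst e he, if_pos h7.le, if_pos (show e.1 / 2 + 1 ≤ _ from h7)]
    rw [← h6] at h8 ⊢
    rcases ho with ⟨-, ho⟩ | ⟨-, ho⟩ <;> rw [ho]
    · exact ⟨h1, h2, h9, hp.same e he, h7, h4, h5.trans_le h8⟩
    · rw [slope_comm] at h4 h5
      exact ⟨h2, h1, h9.symm, (hp.same e he).symm, h7, h4, h5.trans_le h8⟩
  · intro i
    refine le_trans ?_ ha2
    by_cases hi : i < 16 ^ κ
    · refine (hle _ ((L (2 * i) ×ˢ E (2 * i)).image (Prod.mk (2 * i))) (filter_subset _ _)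
        fun e he h => ?_).trans ?_
      · have h2 : st (o e) = i := (mem_filter.1 h).2
        have h3 := (mem_edges.1 (hp.sub he)).2
        have h4 : e.1 = 2 * i := by rw [← h2, hst e he]; exact (he2 e he).1
        rw [h4] at h3
        exact mem_image.2 ⟨e.2, mem_product.2 h3, by rw [← h4]⟩
      · have := card_image_le (s := L (2 * i) ×ˢ E (2 * i)) (f := Prod.mk (2 * i))
        rw [card_product, hb.cardL _ (hev i hi), hb.cardE _ (hev i hi), ← sq] at this
        exact_mod_cast this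
    · refine (hle _ ∅ (filter_subset _ _) fun e he h => absurd ?_ hi).trans (by simp)
      have h2 : st (o e) = i := (mem_filter.1 h).2
      rw [← h2, hst e he]
      exact (he2 e he).2
  · dsimp only
    rw [card_image_of_injOn oinj]
    exact hp.big
  · intro x hx
    obtain ⟨e, he, rfl⟩ := mem_image.1 hx
    dsimp only
    rcases ho with ⟨h, ho⟩ | ⟨h, ho⟩ <;> rw [ho, h]
    exacts [(hp.thin e he).1 h, (hp.thin e he).2 h]
  · intro u hu
    refine le_trans (le_of_eq ?_) (hp.touch u hu)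
    dsimp only [Dat.X]
    rw [image_image, image_congr fun e he => ?_]
    simp only [Function.comp, hst e he, hcell e he]
  · intro u hu
    refine ⟨fun x => if x < 16 ^ u then invW S κ u x else ∅, ?_, ?_, fun β h0 h1 => ?_⟩
    · refine le_trans (le_of_eq (sum_congr rfl fun x hx => ?_)) (hinv u hu)
      simp only [if_pos (mem_range.1 hx)]
    · intro x hx
      obtain ⟨e, he, rfl⟩ := mem_image.1 hx
      obtain ⟨-, h1, h2, -⟩ := hb.edge hcfg (hp.sub he)
      obtain ⟨h6, h7⟩ := he2 e he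
      have hpos : 0 < 16 ^ (κ - u) := by positivity
      have a1 : blk κ u (e.1 / 2) < 16 ^ u := by
        unfold blk
        rw [Nat.div_lt_iff_lt_mul hpos, ← pow_add, Nat.add_sub_cancel' (hu.trans hT)]
        exact h7
      have a2 : blk κ u (e.1 / 2) * 16 ^ (κ - u) ≤ e.1 / 2 := Nat.div_mul_le_self _ _
      have a3 : e.1 / 2 < (blk κ u (e.1 / 2) + 1) * 16 ^ (κ - u) :=
        (Nat.div_lt_iff_lt_mul hpos).1 (Nat.lt_succ_self _)
      dsimp only [Dat.X]
      rw [hst e he, if_pos a1]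
      rw [mem_sdiff] at h1 h2
      have b1 : e.2.1 ∈ invW S κ u (blk κ u (e.1 / 2)) := mem_inv.2
        ⟨⟨e.1, by omega, by omega, h1.1⟩, e.1 + 1, by omega, by omega, h1.2⟩
      have b2 : e.2.2 ∈ invW S κ u (blk κ u (e.1 / 2)) := mem_inv.2
        ⟨⟨e.1 + 1, by omega, by omega, h2.1⟩, e.1, by omega, by omega, h2.2⟩
      rcases ho with ⟨-, ho⟩ | ⟨-, ho⟩ <;> rw [ho]
      exacts [⟨b1, b2⟩, ⟨b2, b1⟩]
    · obtain ⟨π, h2, h3⟩ := hloc u hu β h0 h1
      refine ⟨π, fun x lab => ?_, le_trans ?_ h3⟩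
      · dsimp only
        split_ifs with h
        · exact h2 x h lab
        · rw [filter_empty, card_empty, Nat.cast_zero]
          unfold Dat.d Dd
          have : 0 < C := by linarith
          positivity
      · refine hle _ _ (filter_subset _ _) fun e h4 he => ?_
        have h5 : π (blk κ u (st (o e))) (o e).1 ≠ π (blk κ u (st (o e))) (o e).2 :=
          (mem_filter.1 he).2
        rw [hst e h4] at h5
        refine mem_filter.2 ⟨hp.sub h4, ?_⟩
        rcases ho with ⟨-, ho⟩ | ⟨-, ho⟩ <;> rw [ho] at h5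
        exacts [h5, h5.symm]
  · intro x hx
    obtain ⟨e, he, rfl⟩ := mem_image.1 hx
    rcases ho with ⟨-, ho⟩ | ⟨-, ho⟩
    · refine le_trans (hle _ _ (filter_subset _ _) fun e' he' h => ?_) (hp.degT e he).1
      have h5 : (o e').1 = (o e).1 ∧ blk κ T (st (o e')) = blk κ T (st (o e)) := (mem_filter.1 h).2
      rw [hst e he, hst e' he', ho, ho] at h5
      exact mem_filter.2 ⟨he', h5⟩
    · refine le_trans (hle _ _ (filter_subset _ _) fun e' he' h => ?_) (hp.degT e he).2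
      have h5 : (o e').1 = (o e).1 ∧ blk κ T (st (o e')) = blk κ T (st (o e)) := (mem_filter.1 h).2
      rw [hst e he, hst e' he', ho, ho] at h5
      exact mem_filter.2 ⟨he', h5⟩

end Vale.Agent.P065U
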