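import Vale.Agent.P065U.DefsC

/-! P065U: two points with two common neighbours. -/

namespace Vale.Agent.P065U

open Classical Finset

noncomputable section

namespace PairAux

section abstract

variable {ι K : Type}

/-- fibre of a map -/
def fb (s : Finset ι) (k : ι → K) (κ : K) : Finset ι := s.filter fun e => k e = κ

theorem mem_fb {s : Finset ι} {k : ι → K} {κ : K} {e : ι} : e ∈ fb s k κ ↔ e ∈ s ∧ k e = κ :=
  mem_filter

theorem sum_fb (s : Finset ι) (k : ι → K) (J : Finset K) (hJ : ∀ e ∈ s, k e ∈ J) (f : ι → ℝ) :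
    ∑ e ∈ s, f e = ∑ κ ∈ J, ∑ e ∈ fb s k κ, f e :=
  (sum_fiberwise_of_maps_to hJ f).symm

theorem sum_card_fb (s : Finset ι) (k : ι → K) (J : Finset K) :
    ∑ κ ∈ J, ((fb s k κ).card : ℝ) ≤ s.card := by
  have h := sum_card_fiberwise_eq_card_filter s J k
  have h2 : ∑ κ ∈ J, (fb s k κ).card ≤ s.card := h.trans_le (card_filter_le _ _)
  exact_mod_cast h2

theorem card_le_fb (s : Finset ι) (k : ι → K) (J : Finset K) (hJ : ∀ e ∈ s, k e ∈ J) {t : ℝ}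
    (h : ∀ κ ∈ J, ((fb s k κ).card : ℝ) ≤ t) : (s.card : ℝ) ≤ J.card * t := by
  have h1 := sum_fb s k J hJ fun _ => 1
  simp only [sum_const, nsmul_eq_mul, mul_one] at h1
  rw [h1]
  exact (sum_le_sum h).trans_eq (by rw [sum_const, nsmul_eq_mul])

theorem fib_le (O : Finset ι) (k : ι → K) (J : Finset K) (hJ : ∀ e ∈ O, k e ∈ J) (g : K → ℝ)
    (hg : ∀ κ ∈ J, 0 ≤ g κ) :
    ∑ e ∈ O, g (k e) / (fb O k (k e)).card ≤ ∑ κ ∈ J, g κ := by
  rw [sum_fb O k J hJ]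
  refine sum_le_sum fun κ hκ => ?_
  rw [sum_congr rfl (g := fun _ => g κ / (fb O k κ).card) fun e he => by rw [(mem_fb.1 he).2],
    sum_const, nsmul_eq_mul]
  rcases eq_or_ne ((fb O k κ).card : ℝ) 0 with h | h
  · rw [h, zero_mul]
    exact hg κ hκ
  · rw [mul_div_cancel₀ _ h]

theorem tourn (A : Finset ι) (F : ι → Finset ι) {z : ℝ} (hz : 0 ≤ z)
    (h1 : ∀ a ∈ A, ((F a).card : ℝ) ≤ z)
    (h2 : ∀ a ∈ A, ∀ a' ∈ A, a ≠ a' → a' ∈ F a ∨ a ∈ F a') : (A.card : ℝ) ≤ 2 * z + 1 := by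
  have e1 : ∑ a ∈ A, ∑ a' ∈ A, (if a' ∈ F a then (1 : ℝ) else 0) ≤ A.card * z := by
    refine (sum_le_sum fun a ha => ?_).trans_eq (by rw [sum_const, nsmul_eq_mul])
    rw [sum_boole]
    exact (Nat.cast_le.2 (card_le_card fun x hx => (mem_filter.1 hx).2)).trans (h1 a ha)
  have e2 : ∑ a ∈ A, ∑ a' ∈ A, (if a ∈ F a' then (1 : ℝ) else 0) ≤ A.card * z := by
    rw [sum_comm]
    exact e1
  have e3 : ∑ a ∈ A, ∑ a' ∈ A, (if a = a' then (1 : ℝ) else 0) = A.card := by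
    rw [sum_congr rfl (g := fun _ => 1) fun a ha => by rw [sum_ite_eq, if_pos ha]]
    simp
  have e4 : ∑ _a ∈ A, ∑ _a' ∈ A, (1 : ℝ) ≤ ∑ a ∈ A, ∑ a' ∈ A, ((if a = a' then (1 : ℝ) else 0) +
      (if a' ∈ F a then (1 : ℝ) else 0) + (if a ∈ F a' then (1 : ℝ) else 0)) := by
    refine sum_le_sum fun a ha => sum_le_sum fun a' ha' => ?_
    by_cases h : a = a'
    · rw [if_pos h]
      split_ifs <;> norm_num
    · rw [if_neg h]
      rcases h2 a ha a' ha' h with h3 | h3 <;> rw [if_pos h3] <;> split_ifs <;> norm_num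
  simp only [sum_add_distrib, sum_const, nsmul_eq_mul, mul_one] at e4
  rcases (Nat.cast_nonneg (α := ℝ) A.card).eq_or_lt with h | h
  · linarith
  · refine le_of_mul_le_mul_left ?_ h
    linarith

theorem num {dg ct bd bs gs nA b γ : ℝ} (hd : 0 < dg) (hb : 0 < b) (hct : 0 ≤ ct) (hbd : 0 ≤ bd)
    (hgs : 0 ≤ gs) (hγ : 0 ≤ γ) (h1 : nA ≤ dg + ct) (h2 : bs ≤ γ * nA) (h3 : dg ≤ bd + bs + gs) :
    1 ≤ b / dg + ct / dg + bd / dg + 2 * γ + gs / b := by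
  have a1 : 0 ≤ b / dg := by positivity
  have a2 : 0 ≤ ct / dg := by positivity
  have a3 : 0 ≤ bd / dg := by positivity
  have a4 : 0 ≤ gs / b := by positivity
  rcases le_total dg b with h4 | h4
  · have := (one_le_div hd).2 h4
    linarith
  rcases le_total dg ct with h5 | h5
  · have := (one_le_div hd).2 h5
    linarith
  have a5 : gs / dg ≤ gs / b := div_le_div_of_nonneg_left hgs hb h4
  have a6 : bs ≤ 2 * γ * dg := h2.trans (by nlinarith)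
  have a7 : 1 ≤ bd / dg + 2 * γ + gs / dg := by
    rw [← sub_nonneg, show bd / dg + 2 * γ + gs / dg - 1 = (bd + 2 * γ * dg + gs - dg) / dg by
      field_simp]
    exact div_nonneg (by linarith) hd.le
  linarith

theorem low (Ω O Cut Bad : Finset ι) (k : ι → K) (J : Finset K) (Bs Gs : ι → Finset ι)
    (b : K → ℝ) {γ : ℝ} (hγ : 0 ≤ γ) (hJ : ∀ e ∈ O, k e ∈ J) (hb0 : ∀ κ ∈ J, 0 ≤ b κ)
    (h1 : ∀ e ∈ Ω, e ∈ O ∨ e ∈ Cut) (hb : ∀ e ∈ O, 0 < b (k e))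
    (hB : ∀ e ∈ O, e ∉ Bad → ((Bs e).card : ℝ) ≤ γ * (fb Ω k (k e)).card)
    (hG : ∀ e ∈ O, e ∉ Bad → ∀ e' ∈ O, k e' = k e → e' ∈ Bad ∨ e' ∈ Bs e ∨ e' ∈ Gs e) :
    (O.card : ℝ) ≤ 2 * Bad.card + ∑ κ ∈ J, b κ + Cut.card + 2 * γ * O.card +
      ∑ e ∈ O, (Gs e).card / b (k e) := by
  have key : ∀ e ∈ O, (1 : ℝ) ≤ (if e ∈ Bad then (1 : ℝ) else 0) +
      (b (k e) / (fb O k (k e)).card + (fb Cut k (k e)).card / (fb O k (k e)).card +
        (fb Bad k (k e)).card / (fb O k (k e)).card + 2 * γ + (Gs e).card / b (k e)) := by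
    intro e he
    have hbe := hb e he
    by_cases h : e ∈ Bad
    · rw [if_pos h]
      exact le_add_of_nonneg_right (by positivity)
    · rw [if_neg h, zero_add]
      refine num (Nat.cast_pos.2 (card_pos.2 ⟨e, mem_fb.2 ⟨he, rfl⟩⟩)) hbe (Nat.cast_nonneg _)
        (Nat.cast_nonneg _) (Nat.cast_nonneg _) hγ ?_ (hB e he h) ?_
      · have : (fb Ω k (k e)).card ≤ (fb O k (k e)).card + (fb Cut k (k e)).card :=
          (card_le_card fun x hx => mem_union.2 ((h1 x (mem_fb.1 hx).1).imp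
            (fun h => mem_fb.2 ⟨h, (mem_fb.1 hx).2⟩) fun h => mem_fb.2 ⟨h, (mem_fb.1 hx).2⟩)).trans
            (card_union_le _ _)
        exact_mod_cast this
      · have : (fb O k (k e)).card ≤ (fb Bad k (k e)).card + (Bs e).card + (Gs e).card := by
          refine (card_le_card (t := fb Bad k (k e) ∪ Bs e ∪ Gs e) fun x hx => ?_).trans
            ((card_union_le _ _).trans (Nat.add_le_add_right (card_union_le _ _) _))
          obtain ⟨a1, a2⟩ := mem_fb.1 hx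
          rw [mem_union, mem_union, mem_fb]
          rcases hG e he h x a1 a2 with a3 | a3 | a3
          · exact Or.inl (Or.inl ⟨a3, a2⟩)
          · exact Or.inl (Or.inr a3)
          · exact Or.inr a3
        exact_mod_cast this
  have e1 := sum_le_sum key
  simp only [sum_add_distrib, sum_const, nsmul_eq_mul, mul_one, sum_boole] at e1
  have e2 : ((O.filter fun e => e ∈ Bad).card : ℝ) ≤ Bad.card :=
    Nat.cast_le.2 (card_le_card fun x hx => (mem_filter.1 hx).2)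
  have e3 := fib_le O k J hJ b hb0
  have e4 := (fib_le O k J hJ (fun κ => (fb Cut k κ).card) fun _ _ => Nat.cast_nonneg _).trans
    (sum_card_fb Cut k J)
  have e5 := (fib_le O k J hJ (fun κ => (fb Bad k κ).card) fun _ _ => Nat.cast_nonneg _).trans
    (sum_card_fb Bad k J)
  linarith

end abstract

/-- groups of keys -/
abbrev Gr := ℕ × (ℕ × ℕ) × (ℕ × ℕ) × ℕ

variable (D : Dat) (u : ℕ) (Iv : ℕ → Finset Pt) (π : ℕ → Pt → ℕ × ℕ)

/-- key of an edge -/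
def kk (e : Pt × Pt) : Pt × ℕ × ℕ := (e.1, D.part e.2, D.X u e)

/-- group of a key -/
def gg (κ : Pt × ℕ × ℕ) : Gr := (κ.2.2, π κ.2.2 κ.1, D.cell κ.1, κ.2.1)

/-- possible second endpoints in a group -/
def BB (G : Gr) : Finset Pt := fb (Iv G.1) (fun b => (G.1, π G.1 b, D.cell b, D.part b)) G

theorem key_eq (e : Pt × Pt) : D.keye u e = fb D.Ω (kk D u) (kk D u e) := by
  ext e'
  simp only [Dat.keye, Dat.key, mem_filter, mem_fb, kk, Prod.mk.injEq]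

theorem sum_BB (Γ : Finset Gr) {n : ℕ} (h : ∀ G ∈ Γ, G.1 < n) :
    ∑ G ∈ Γ, ((BB D Iv π G).card : ℝ) ≤ ∑ x ∈ range n, ((Iv x).card : ℝ) := by
  rw [sum_fb Γ Prod.fst (range n) fun G hG => mem_range.2 (h G hG)]
  refine sum_le_sum fun x _ => le_trans (le_of_eq (sum_congr rfl fun G hG => ?_))
    (sum_card_fb (Iv x) (fun b => (x, π x b, D.cell b, D.part b)) (fb Γ Prod.fst x))
  rw [BB, (mem_fb.1 hG).2]

theorem sum_keys (J : Finset (Pt × ℕ × ℕ)) (Γ : Finset Gr) (hΓ : ∀ κ ∈ J, gg D π κ ∈ Γ)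
    (hJ : ∀ κ ∈ J, κ.1 ∈ Iv κ.2.2) {s : ℝ}
    (hs : ∀ x lab, (((Iv x).filter fun z => π x z = lab).card : ℝ) ≤ s) :
    ∑ κ ∈ J, ((BB D Iv π (gg D π κ)).card : ℝ) ≤ s * ∑ G ∈ Γ, ((BB D Iv π G).card : ℝ) := by
  rw [sum_fb J (gg D π) Γ hΓ, mul_sum]
  refine sum_le_sum fun G _ => ?_
  rw [sum_congr rfl (g := fun _ => ((BB D Iv π G).card : ℝ)) fun κ hκ => by rw [(mem_fb.1 hκ).2],
    sum_const, nsmul_eq_mul]
  refine mul_le_mul_of_nonneg_right (le_trans (Nat.cast_le.2 ?_) (hs G.1 G.2.1)) (Nat.cast_nonneg _)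
  refine card_le_card_of_injOn Prod.fst (fun κ hκ => ?_) fun κ hκ κ' hκ' e => ?_
  · obtain ⟨a1, rfl⟩ := mem_fb.1 (mem_coe.1 hκ)
    exact mem_coe.2 (mem_filter.2 ⟨hJ κ a1, rfl⟩)
  · have a1 := (mem_fb.1 (mem_coe.1 hκ)).2.trans (mem_fb.1 (mem_coe.1 hκ')).2.symm
    simp only [gg, Prod.mk.injEq] at a1
    exact Prod.ext e (Prod.ext a1.2.2.2 a1.1)

end PairAux

open PairAux in
theorem pair : StmPair := by
  intro c2 C m M T D h u u1 _ hu1 β ε nU z0 γ γ' Gd Bc Hv Zs hβ hβ1 hε hz hγ' hbad hgd hlt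
  have huT : u ≤ T := by omega
  obtain ⟨Iv, hIv, hmem, hπ⟩ := h.loc u huT
  obtain ⟨π, hπ1, hπ2⟩ := hπ β hβ hβ1
  by_contra hno
  obtain ⟨O, hO⟩ : ∃ O : Finset (Pt × Pt),
      ∀ e, e ∈ O ↔ e ∈ D.Ω ∧ π (D.X u e) e.1 = π (D.X u e) e.2 :=
    ⟨D.Ω.filter _, fun e => mem_filter⟩
  obtain ⟨Gs, hGs⟩ : ∃ Gs : Pt × Pt → Finset (Pt × Pt), ∀ e e', e' ∈ Gs e ↔
      e' ∈ O ∧ kk D u e' = kk D u e ∧ Gd e ∧ Gd e' ∧ ¬ Bc e e' :=
    ⟨fun e => O.filter _, fun e e' => mem_filter⟩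
  obtain ⟨J, hJ⟩ : ∃ J : Finset (Pt × ℕ × ℕ), ∀ κ, κ ∈ J ↔ ∃ e ∈ O, kk D u e = κ :=
    ⟨O.image _, fun κ => mem_image⟩
  obtain ⟨Γ, hΓ⟩ : ∃ Γ : Finset Gr, ∀ G, G ∈ Γ ↔ ∃ e ∈ O, gg D π (kk D u e) = G :=
    ⟨O.image _, fun κ => mem_image⟩
  have hBB : ∀ e ∈ O, e.2 ∈ BB D Iv π (gg D π (kk D u e)) := fun e he => by
    obtain ⟨a1, a2⟩ := (hO e).1 he
    refine mem_fb.2 ⟨(hmem e a1).2, ?_⟩
    simp only [gg, kk, a2, (h.mem e a1).2.2.2.1]
  have hS : ∑ G ∈ Γ, ((BB D Iv π G).card : ℝ) ≤ C * 2 ^ u * D.P.card := by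
    refine (sum_BB D Iv π Γ fun G hG => ?_).trans hIv
    obtain ⟨e, he, rfl⟩ := (hΓ G).1 hG
    have a1 := (h.mem e ((hO e).1 he).1).2.2.2.2.1
    refine (Nat.div_lt_iff_lt_mul (by positivity)).2 ?_
    rwa [← pow_add, Nat.add_sub_cancel' (huT.trans h.Tle)]
  have hC : 0 < C := one_pos.trans_le h.Cge
  have hd : 0 ≤ D.d u := by
    unfold Dat.d Dd
    positivity
  have hZ : 0 ≤ D.Z := by
    unfold Dat.Z Zz
    positivity
  have hK : ∑ κ ∈ J, ε * ((BB D Iv π (gg D π κ)).card : ℝ) ≤ ε * C * (C / β ^ 5) * D.Z := by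
    have a1 := sum_keys D Iv π J Γ (fun κ hκ => by
      obtain ⟨e, he, rfl⟩ := (hJ κ).1 hκ
      exact (hΓ _).2 ⟨e, he, rfl⟩) (fun κ hκ => by
      obtain ⟨e, he, rfl⟩ := (hJ κ).1 hκ
      exact (hmem e ((hO e).1 he).1).1) hπ1
    have a2 := a1.trans (mul_le_mul_of_nonneg_left hS (by positivity))
    rw [← mul_sum]
    refine (mul_le_mul_of_nonneg_left a2 hε.le).trans_eq ?_
    unfold Dat.d Dat.Z Dd Zz
    field_simp
  have hcl : ∀ G ∈ Γ, ∑ e ∈ fb O (fun e => gg D π (kk D u e)) G, ((Gs e).card : ℝ) ≤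
      ((BB D Iv π G).card : ℝ) ^ 2 * nU ^ 2 * (2 * z0 + 1) := by
    intro G _
    rw [← Nat.cast_sum, ← card_sigma]
    rcases ((fb O (fun e => gg D π (kk D u e)) G).sigma Gs).eq_empty_or_nonempty with h0 | ⟨p0, h0⟩
    · rw [h0, card_empty, Nat.cast_zero]
      positivity
    have hp : ∀ p ∈ (fb O (fun e => gg D π (kk D u e)) G).sigma Gs,
        (p.1 ∈ O ∧ gg D π (kk D u p.1) = G) ∧ p.2 ∈ O ∧ kk D u p.2 = kk D u p.1 ∧ Gd p.1 ∧
          Gd p.2 ∧ ¬ Bc p.1 p.2 := fun p hp =>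
      ⟨mem_fb.1 (mem_sigma.1 hp).1, (hGs _ _).1 (mem_sigma.1 hp).2⟩
    have hH : ∀ e ∈ O, gg D π (kk D u e) = G → Gd e → e.2 ∈ BB D Iv π G ∧
        D.X u1 e ∈ Hv G.2.2.1 G.1 ∧ ((Hv G.2.2.1 G.1).card : ℝ) ≤ nU := by
      rintro e he rfl hg
      exact ⟨hBB e he, (hgd e ((hO e).1 he).1 hg).1, (hgd e ((hO e).1 he).1 hg).2.1⟩
    have hn := (hH _ (hp p0 h0).1.1 (hp p0 h0).1.2 (hp p0 h0).2.2.2.1).2.2
    refine (card_le_fb _ (fun p => ((p.1.2, D.X u1 p.1), (p.2.2, D.X u1 p.2)))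
      ((BB D Iv π G ×ˢ Hv G.2.2.1 G.1) ×ˢ (BB D Iv π G ×ˢ Hv G.2.2.1 G.1)) (fun p hp0 => ?_)
      (t := 2 * z0 + 1) fun y _ => ?_).trans ?_
    · obtain ⟨⟨a1, a2⟩, a3, a4, a5, a6, -⟩ := hp p hp0
      have b1 := hH _ a1 a2 a5
      have b2 := hH _ a3 (by rw [a4, a2]) a6
      exact mem_product.2 ⟨mem_product.2 ⟨b1.1, b1.2.1⟩, mem_product.2 ⟨b2.1, b2.2.1⟩⟩
    · obtain ⟨⟨b1, x1⟩, b2, x2⟩ := y
      obtain ⟨A, hA⟩ : ∃ A : Finset Pt, ∀ a, a ∈ A ↔ a ∈ D.P ∧ (a, b1) ∈ D.Ω ∧ (a, b2) ∈ D.Ω ∧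
          Gd (a, b1) ∧ Gd (a, b2) ∧ D.part b2 = D.part b1 ∧ D.X u (a, b1) = G.1 ∧
          D.X u (a, b2) = G.1 ∧ D.X u1 (a, b1) = x1 ∧ D.X u1 (a, b2) = x2 ∧
          ¬ Bc (a, b1) (a, b2) := ⟨D.P.filter _, fun a => mem_filter⟩
      have hq : ∀ p ∈ fb ((fb O (fun e => gg D π (kk D u e)) G).sigma Gs)
          (fun p => ((p.1.2, D.X u1 p.1), (p.2.2, D.X u1 p.2))) ((b1, x1), b2, x2),
          p = ⟨(p.1.1, b1), (p.1.1, b2)⟩ ∧ p.1.1 ∈ A := by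
        rintro ⟨⟨a, c1⟩, a', c2⟩ hp0
        obtain ⟨hp1, hp2⟩ := mem_fb.1 hp0
        obtain ⟨⟨a1, a2⟩, a3, a4, a5, a6, a7⟩ := hp _ hp1
        simp only [Prod.mk.injEq, kk] at hp2 a4
        obtain ⟨⟨rfl, e1⟩, rfl, e2⟩ := hp2
        obtain ⟨rfl, e3, e4⟩ := a4
        have e5 : D.X u (a', c1) = G.1 := congrArg Prod.fst a2
        exact ⟨rfl, (hA _).2 ⟨(h.mem _ ((hO _).1 a1).1).1, ((hO _).1 a1).1, ((hO _).1 a3).1, a5, a6,
          e3, e5, e4.trans e5, e1, e2, a7⟩⟩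
      refine le_trans (Nat.cast_le.2 (card_le_card_of_injOn (fun p => p.1.1)
        (fun p hp0 => mem_coe.2 (hq p (mem_coe.1 hp0)).2) fun p hp0 p' hp' e => ?_))
        (tourn A (fun a => Zs a (D.part b1) G.1) hz (fun a ha => ?_) fun a ha a' ha' hne => ?_)
      · rw [(hq p (mem_coe.1 hp0)).1, (hq p' (mem_coe.1 hp')).1]
        simp only at e
        rw [e]
      · obtain ⟨-, a1, -, a2, -, -, a3, -⟩ := (hA a).1 ha
        have := (hgd _ a1 a2).2.2.1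
        rwa [a3] at this
      · obtain ⟨-, a1, a2, a3, a4, a5, a6, a7, a8, a9, a10⟩ := (hA a).1 ha
        obtain ⟨-, d1, d2, d3, d4, -, -, -, d8, d9, -⟩ := (hA a').1 ha'
        by_contra hc
        rw [not_or] at hc
        exact hno ⟨a, a', b1, b2, hne, ⟨a1, a2, d1, d2⟩, ⟨a3, a4, d3, d4⟩, a5,
          ⟨a7.trans a6.symm, d8.trans a8.symm, d9.trans a9.symm⟩, a10, by rw [a6]; exact hc.1,
          by rw [a6]; exact hc.2⟩
    · refine mul_le_mul_of_nonneg_right ?_ (by positivity)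
      have a1 : ((Hv G.2.2.1 G.1).card : ℝ) ^ 2 ≤ nU ^ 2 :=
        pow_le_pow_left₀ (Nat.cast_nonneg _) hn 2
      rw [card_product, card_product]
      push_cast
      calc _ = ((BB D Iv π G).card : ℝ) ^ 2 * ((Hv G.2.2.1 G.1).card : ℝ) ^ 2 := by ring
        _ ≤ _ := mul_le_mul_of_nonneg_left a1 (sq_nonneg _)
  have hW : ∑ e ∈ O, ((Gs e).card : ℝ) / (ε * (BB D Iv π (gg D π (kk D u e))).card) ≤
      (2 * z0 + 1) * nU ^ 2 * (C * 2 ^ u * D.P.card) / ε := by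
    rw [sum_fb O (fun e => gg D π (kk D u e)) Γ fun e he => (hΓ _).2 ⟨e, he, rfl⟩]
    refine le_trans (sum_le_sum (g := fun G => (2 * z0 + 1) * nU ^ 2 / ε *
      ((BB D Iv π G).card : ℝ)) fun G hG => ?_) ?_
    · rw [sum_congr rfl (g := fun e => ((Gs e).card : ℝ) / (ε * (BB D Iv π G).card))
        fun e he => by rw [(mem_fb.1 he).2], ← sum_div]
      obtain ⟨e, he, rfl⟩ := (hΓ G).1 hG
      have a1 : (0 : ℝ) < (BB D Iv π (gg D π (kk D u e))).card :=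
        Nat.cast_pos.2 (card_pos.2 ⟨_, hBB e he⟩)
      refine (div_le_div_of_nonneg_right (hcl _ hG) (by positivity)).trans_eq ?_
      field_simp
    · rw [← mul_sum]
      refine (mul_le_mul_of_nonneg_left hS (by positivity)).trans_eq ?_
      ring
  have hsplit : ∀ e ∈ D.Ω, e ∈ O ∨
      e ∈ D.Ω.filter fun e => π (D.X u e) e.1 ≠ π (D.X u e) e.2 := fun e he => by
    rw [hO, mem_filter]
    tauto
  have key := low D.Ω O _ (D.Ω.filter fun e => ¬ Gd e) (kk D u) J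
    (fun e => (D.keye u e).filter (Bc e)) Gs (fun κ => ε * (BB D Iv π (gg D π κ)).card) hγ'
    (fun e he => (hJ _).2 ⟨e, he, rfl⟩) (fun _ _ => by positivity) hsplit
    (fun e he => mul_pos hε (Nat.cast_pos.2 (card_pos.2 ⟨_, hBB e he⟩)))
    (fun e he hb => by
      have a1 := ((hO e).1 he).1
      rw [← key_eq]
      exact (hgd e a1 (by_contra fun hc => hb (mem_filter.2 ⟨a1, hc⟩))).2.2.2)
    (fun e he hb e' he' hk => by
      have a1 := ((hO e).1 he).1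
      have a2 := ((hO e').1 he').1
      have a3 : Gd e := by_contra fun hc => hb (mem_filter.2 ⟨a1, hc⟩)
      rw [mem_filter, mem_filter, key_eq, mem_fb, hGs]
      tauto)
  have e1 : (D.Ω.card : ℝ) ≤ O.card +
      (D.Ω.filter fun e => π (D.X u e) e.1 ≠ π (D.X u e) e.2).card := by
    exact_mod_cast (card_le_card fun e he => mem_union.2 (hsplit e he)).trans (card_union_le _ _)
  have e2 : γ' * (O.card : ℝ) ≤ γ' * D.Ω.card :=
    mul_le_mul_of_nonneg_left (Nat.cast_le.2 (card_le_card fun e he => ((hO e).1 he).1)) hγ'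
  have e3 : 0 ≤ β * D.Z := by positivity
  have e4 : 0 ≤ ε * C * (C / β ^ 5) * D.Z := by positivity
  linarith

end

end Vale.Agent.P065U
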