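import Vale.Agent.P065U.Basic

/-! P065U: the potential lemma and the separation bound. -/

namespace Vale.Agent.P065U

open Classical Finset

theorem Pot_split (A B : Finset Pt) (T : Pt → Prop) :
    (A.filter T).card = ((A ∩ B).filter T).card + ((A \ B).filter T).card := by
  rw [← card_union_of_disjoint (disjoint_filter_filter (disjoint_sdiff_inter A B).symm),
    ← filter_union, union_comm, sdiff_union_inter]

theorem Pot_step (A B : Finset Pt) (T : Pt → Prop) (hc : A.card = B.card)
    (h : ∀ p ∈ A \ B, ∀ q ∈ B \ A, T p → T q) :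
    min ((A \ B).filter fun p => ¬ T p).card ((B \ A).filter T).card + (A.filter T).card
      ≤ (B.filter T).card := by
  have h1 := Pot_split A B T
  have h2 := Pot_split B A T
  rw [inter_comm] at h2
  rcases ((A \ B).filter T).eq_empty_or_nonempty with h3 | ⟨p, hp⟩
  · rw [h3, card_empty] at h1
    omega
  · rw [mem_filter] at hp
    have h4 : (B \ A).filter T = B \ A := filter_true_of_mem fun q hq => h p hp.1 q hq hp.2
    have h5 := card_filter_add_card_filter_not (s := A \ B) T
    have h6 := card_sdiff_comm hc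
    rw [h4] at h2 ⊢
    omega

theorem Pot_mono {A P : Finset Pt} (hA : A ⊆ P) {T T' : Pt → Prop} (h : ∀ z, T' z → T z) :
    (A.filter T).card + (P.filter T').card ≤ (A.filter T').card + (P.filter T).card := by
  have e : ∀ B : Finset Pt, (B.filter T).card
      = (B.filter T').card + ((B.filter T).filter fun z => ¬ T' z).card := by
    intro B
    rw [← card_filter_add_card_filter_not (s := B.filter T) T', filter_filter]
    congr 2
    exact filter_congr fun z _ => ⟨fun hz => hz.2, fun hz => ⟨h z hz, hz⟩⟩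
  have h1 : ((A.filter T).filter fun z => ¬ T' z).card
      ≤ ((P.filter T).filter fun z => ¬ T' z).card :=
    card_le_card (filter_subset_filter _ (filter_subset_filter _ hA))
  have h2 := e A
  have h3 := e P
  omega

theorem pot : StmPot := by
  intro P S T l0 l1 hsub hcard hT hstep
  have st : ∀ l, l0 ≤ l → l < l1 → _ := fun l h1 h2 =>
    Pot_step (S l) (S (l + 1)) (T l) ((hcard l h2.le).trans (hcard (l + 1) h2).symm)
      (hstep l h1 h2)
  have key : ∀ n, l0 ≤ n → n < l1 →
      ∑ l ∈ Ico l0 (n + 1), min ((S l \ S (l + 1)).filter fun p => ¬ T l p).card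
        ((S (l + 1) \ S l).filter (T l)).card + (P.filter (T n)).card
      ≤ ((S (n + 1)).filter (T n)).card + (P.filter (T l0)).card := by
    intro n hn
    induction n, hn using Nat.le_induction with
    | base =>
      intro h
      have := st l0 le_rfl h
      rw [Nat.Ico_succ_singleton, sum_singleton]
      omega
    | succ n hn ih =>
      intro h
      have h1 := ih (by omega)
      have h2 := st (n + 1) (by omega) h
      have h3 := Pot_mono (hsub (n + 1) h.le) (hT n hn h)
      rw [sum_Ico_succ_top (by omega)]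
      omega
  rcases le_or_gt l1 l0 with h | h
  · rw [Ico_eq_empty_of_le h, sum_empty]
    exact Nat.zero_le _
  · obtain ⟨n, rfl⟩ : ∃ n, l1 = n + 1 := ⟨l1 - 1, by omega⟩
    have h1 := key n (by omega) (by omega)
    have h2 : ((S (n + 1)).filter (T n)).card ≤ (P.filter (T n)).card :=
      card_le_card (filter_subset_filter _ (hsub _ le_rfl))
    have h3 : (P.filter (T l0)).card ≤ P.card := card_filter_le _ _
    omega

theorem Pot_imp1 {P τ S V} (h : Cfg P τ S V) {j l : ℕ} (hj : j < l) (hl : l ≤ V) {p q : Pt}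
    (hp : p ∈ S j \ S (j + 1)) (hq : q ∈ S (j + 1) \ S j) (h1 : p ∈ S l) : q ∈ S l := by
  by_contra h2
  obtain ⟨a1, -, a3⟩ := h.swap (Nat.le_succ j) (hj.trans_le hl) hp hq
  have a4 := h.low l hl p h1 q (h.sub (j + 1) (hj.trans_le hl) (mem_sdiff.1 hq).1) h2
  have a5 := val_sub a1.ne (τ l)
  have a6 := h.mono (j + 1) l hj hl
  nlinarith

theorem Pot_imp2 {P τ S V} (h : Cfg P τ S V) {j l : ℕ} (hj : l ≤ j) (hV : j < V) {p q : Pt}
    (hp : p ∈ S j \ S (j + 1)) (hq : q ∈ S (j + 1) \ S j) (h1 : p ∉ S l) : q ∉ S l := by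
  intro h2
  obtain ⟨a1, a2, -⟩ := h.swap (Nat.le_succ j) hV hp hq
  have a4 := h.low l (hj.trans hV.le) q h2 p (h.sub j hV.le (mem_sdiff.1 hp).1) h1
  have a5 := val_sub a1.ne (τ l)
  have a6 := h.mono l j hj hV.le
  nlinarith

/-- edges of the steps in `J` going from the complement of `T` to `T` -/
theorem Pot_count {S V I L E a} (hb : Bic S V I L E a) (J : Finset ℕ) (T : Pt → Prop)
    (F : Finset (ℕ × Pt × Pt))
    (hF : ∀ e ∈ F, e ∈ edges I L E ∧ e.1 ∈ J ∧ ¬ T e.2.1 ∧ T e.2.2) :
    F.card ≤ a * ∑ l ∈ J, min ((S l \ S (l + 1)).filter fun p => ¬ T p).card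
      ((S (l + 1) \ S l).filter T).card := by
  have h1 : F ⊆ edges (I ∩ J) (fun l => (L l).filter fun p => ¬ T p) fun l => (E l).filter T := by
    intro e he
    obtain ⟨a1, a2, a3, a4⟩ := hF e he
    rw [mem_edges] at a1 ⊢
    exact ⟨mem_inter.2 ⟨a1.1, a2⟩, mem_filter.2 ⟨a1.2.1, a3⟩, mem_filter.2 ⟨a1.2.2, a4⟩⟩
  refine (card_le_card h1).trans (card_biUnion_le.trans ?_)
  rw [mul_sum]
  refine le_trans (sum_le_sum fun l hl => ?_) (sum_le_sum_of_subset inter_subset_right)
  have hl' := (mem_inter.1 hl).1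
  refine card_image_le.trans ?_
  rw [card_product, mul_min]
  refine le_min ?_ ?_
  · rw [mul_comm]
    exact Nat.mul_le_mul ((card_filter_le _ _).trans (hb.cardE l hl').le)
      (card_le_card (filter_subset_filter _ (hb.subL l hl')))
  · exact Nat.mul_le_mul ((card_filter_le _ _).trans (hb.cardL l hl').le)
      (card_le_card (filter_subset_filter _ (hb.subE l hl')))

theorem Pot_part (hp : StmPot) {P τ S V I L E a} (h : Cfg P τ S V) (hb : Bic S V I L E a)
    {l0 l1 : ℕ} (hV : l1 ≤ V) (T : Pt → Prop)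
    (hT : ∀ l, l0 ≤ l → l < l1 → ∀ p ∈ S l \ S (l + 1), ∀ q ∈ S (l + 1) \ S l, T p → T q)
    (F : Finset (ℕ × Pt × Pt))
    (hF : ∀ e ∈ F, e ∈ edges I L E ∧ e.1 ∈ Ico l0 l1 ∧ ¬ T e.2.1 ∧ T e.2.2) :
    F.card ≤ a * (2 * P.card) :=
  (Pot_count hb _ T F hF).trans (Nat.mul_le_mul_left a
    (hp P S (fun _ => T) l0 l1 (fun l hl => h.sub l (hl.trans hV))
      (fun l hl => h.card l (hl.trans hV)) (fun _ _ _ _ hz => hz) hT))

theorem sep (h : StmPot) : StmSep := by
  intro P τ S V I L E a hc hb l hl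
  set F := (edges I L E).filter fun e => ¬ (e.2.1 ∈ S l ↔ e.2.2 ∈ S l) with hF
  have h1 := Pot_part h hc hb (l0 := 0) hl (fun z => z ∈ S l)
    (fun j _ hj p hp q hq => Pot_imp1 hc hj hl hp hq) (F.filter fun e => e.1 < l) fun e he => by
      obtain ⟨a1, a2⟩ := mem_filter.1 he
      obtain ⟨a3, a4⟩ := mem_filter.1 a1
      obtain ⟨-, b1, b2, -⟩ := hb.edge hc a3
      have b3 := Pot_imp1 hc a2 hl b1 b2
      exact ⟨a3, mem_Ico.2 ⟨Nat.zero_le _, a2⟩, by tauto, by tauto⟩
  have h2 := Pot_part h hc hb (l0 := l) le_rfl (fun z => z ∉ S l)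
    (fun j hj hV p hp q hq => Pot_imp2 hc hj hV hp hq) (F.filter fun e => ¬ e.1 < l) fun e he => by
      obtain ⟨a1, a2⟩ := mem_filter.1 he
      obtain ⟨a3, a4⟩ := mem_filter.1 a1
      obtain ⟨b0, b1, b2, -⟩ := hb.edge hc a3
      have b3 := Pot_imp2 hc (not_lt.1 a2) b0 b1 b2
      exact ⟨a3, mem_Ico.2 ⟨not_lt.1 a2, b0⟩, by tauto, by tauto⟩
  have h3 := card_filter_add_card_filter_not (s := F) fun e => e.1 < l
  calc F.card ≤ a * (2 * P.card) + a * (2 * P.card) := by omega
    _ = _ := by ring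

end Vale.Agent.P065U
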