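import Vale.Agent.P065U.DefsB

/-! P065U: selection of the good edges. -/

namespace Vale.Agent.P065U

open Classical Finset

namespace PreAux

theorem card_evens (K : ℕ) : (evens K).card = K := by
  unfold evens
  rw [card_image_of_injective _ (mul_right_injective₀ two_ne_zero), card_range]

theorem pow_split {κ u : ℕ} (hu : u ≤ κ) : 16 ^ κ = 16 ^ u * 16 ^ (κ - u) := by
  rw [← pow_add, add_tsub_cancel_of_le hu]

theorem win_mem {κ u l : ℕ} (hu : u ≤ κ) (hl : l ∈ evens (16 ^ κ)) :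
    blk κ u (l / 2) < 16 ^ u ∧ 2 * (blk κ u (l / 2) * 16 ^ (κ - u)) ≤ l ∧
      l < 2 * ((blk κ u (l / 2) + 1) * 16 ^ (κ - u)) := by
  obtain ⟨i, hi, rfl⟩ := mem_image.1 hl
  have h0 : 0 < 16 ^ (κ - u) := by positivity
  rw [Nat.mul_div_cancel_left _ two_pos]
  unfold blk
  have h1 := Nat.div_mul_le_self i (16 ^ (κ - u))
  have h2 : i < (i / 16 ^ (κ - u) + 1) * 16 ^ (κ - u) := by
    rw [← Nat.div_lt_iff_lt_mul h0]; omega
  refine ⟨?_, by omega, by omega⟩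
  rw [Nat.div_lt_iff_lt_mul h0, ← pow_split hu]
  exact mem_range.1 hi

theorem win_le {κ u x : ℕ} (hu : u ≤ κ) (hx : x < 16 ^ u) :
    2 * (x * 16 ^ (κ - u)) ≤ 2 * ((x + 1) * 16 ^ (κ - u)) ∧
      2 * ((x + 1) * 16 ^ (κ - u)) ≤ 2 * 16 ^ κ := by
  rw [pow_split hu]
  constructor <;> gcongr <;> omega

theorem win (κ u : ℕ) (hu : u ≤ κ) : Win (fun x => 2 * (x * 16 ^ (κ - u)))
    (fun x => 2 * ((x + 1) * 16 ^ (κ - u))) (16 ^ u) (2 * 16 ^ κ) :=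
  ⟨fun _ hx => win_le hu hx, fun i j hij _ => by gcongr; omega⟩

variable {P : Finset Pt} {τ : ℕ → ℝ} {S L E : ℕ → Finset Pt} {κ a : ℕ}

theorem mem_invW (hc : Cfg P τ S (2 * 16 ^ κ)) (hb : Bic S (2 * 16 ^ κ) (evens (16 ^ κ)) L E a)
    {u : ℕ} (hu : u ≤ κ) {e : ℕ × Pt × Pt} (he : e ∈ edges (evens (16 ^ κ)) L E) :
    e.2.1 ∈ invW S κ u (blk κ u (e.1 / 2)) ∧ e.2.2 ∈ invW S κ u (blk κ u (e.1 / 2)) := by
  obtain ⟨-, h1, h2, -⟩ := hb.edge hc he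
  obtain ⟨-, h3, h4⟩ := win_mem hu (mem_edges.1 he).1
  rw [mem_sdiff] at h1 h2
  exact ⟨mem_inv.2 ⟨⟨_, h3, h4.le, h1.1⟩, _, h3.trans (Nat.le_succ _), h4, h1.2⟩,
    mem_inv.2 ⟨⟨_, h3.trans (Nat.le_succ _), h4, h2.1⟩, _, h3, h4.le, h2.2⟩⟩

theorem deg (hc : Cfg P τ S (2 * 16 ^ κ)) (hb : Bic S (2 * 16 ^ κ) (evens (16 ^ κ)) L E a)
    {T : ℕ} (hT : T ≤ κ) {Ω : Finset (ℕ × Pt × Pt)} (hΩ : Ω ⊆ edges (evens (16 ^ κ)) L E)
    {π : ℕ → Pt → ℕ × ℕ} {c : ℝ}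
    (hπ : ∀ x < 16 ^ T, ∀ lab, (((invW S κ T x).filter fun z => π x z = lab).card : ℝ) ≤ c)
    (hs : ∀ e ∈ Ω, π (blk κ T (e.1 / 2)) e.2.1 = π (blk κ T (e.1 / 2)) e.2.2)
    (e : ℕ × Pt × Pt) (he : e ∈ Ω) :
    ((Ω.filter fun e' => e'.2.1 = e.2.1 ∧ blk κ T (e'.1 / 2) = blk κ T (e.1 / 2)).card : ℝ) ≤ c ∧
    ((Ω.filter fun e' => e'.2.2 = e.2.2 ∧ blk κ T (e'.1 / 2) = blk κ T (e.1 / 2)).card : ℝ) ≤
      c := by
  have hx := (win_mem hT (mem_edges.1 (hΩ he)).1).1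
  constructor
  · refine le_trans (Nat.cast_le.2 (card_le_card_of_injOn (fun e' => e'.2.2) (fun e' he' => ?_)
      fun e1 h1 e2 h2 h => ?_)) (hπ _ hx (π (blk κ T (e.1 / 2)) e.2.1))
    · obtain ⟨a1, a2, a3⟩ := mem_filter.1 (mem_coe.1 he')
      exact mem_coe.2 (mem_filter.2 ⟨a3 ▸ (mem_invW hc hb hT (hΩ a1)).2,
        by rw [← a2, ← a3, hs e' a1]⟩)
    · obtain ⟨a1, a2, -⟩ := mem_filter.1 (mem_coe.1 h1)
      obtain ⟨b1, b2, -⟩ := mem_filter.1 (mem_coe.1 h2)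
      exact hb.edge_inj hc (hΩ a1) (hΩ b1) (Prod.ext (a2.trans b2.symm) h)
  · refine le_trans (Nat.cast_le.2 (card_le_card_of_injOn (fun e' => e'.2.1) (fun e' he' => ?_)
      fun e1 h1 e2 h2 h => ?_)) (hπ _ hx (π (blk κ T (e.1 / 2)) e.2.2))
    · obtain ⟨a1, a2, a3⟩ := mem_filter.1 (mem_coe.1 he')
      exact mem_coe.2 (mem_filter.2 ⟨a3 ▸ (mem_invW hc hb hT (hΩ a1)).1,
        by rw [← a2, ← a3, hs e' a1]⟩)
    · obtain ⟨a1, a2, -⟩ := mem_filter.1 (mem_coe.1 h1)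
      obtain ⟨b1, b2, -⟩ := mem_filter.1 (mem_coe.1 h2)
      exact hb.edge_inj hc (hΩ a1) (hΩ b1) (Prod.ext h (a2.trans b2.symm))

theorem touch_sum (ht : StmTouch) (hc : Cfg P τ S (2 * 16 ^ κ))
    (hb : Bic S (2 * 16 ^ κ) (evens (16 ^ κ)) L E a) {u : ℕ} (hu : u ≤ κ) {π : Pt → ℕ × ℕ} {n0 : ℕ}
    {g : ℝ} (hπ : ∀ lab, (P.filter fun z => π z = lab).card ≤ n0) (hg : 0 < g)
    {Ω : Finset (ℕ × Pt × Pt)} (hΩ : ∀ e ∈ Ω, e ∈ edges (evens (16 ^ κ)) L E ∧ π e.2.1 = π e.2.2 ∧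
      g ≤ (sepC (edges (evens (16 ^ κ)) L E) π S (π e.2.1) (e.1 + 1) : ℝ)) :
    ((Ω.image fun e => (π e.2.1, blk κ u (e.1 / 2))).card : ℝ) ≤
      16 ^ u * (8 * P.card * a / g) +
        4 * n0 * (∑ x ∈ range (16 ^ u), ((invW S κ u x).card : ℝ)) / g := by
  have h1 : (Ω.image fun e => (π e.2.1, blk κ u (e.1 / 2))) ⊆ (range (16 ^ u)).biUnion fun x =>
      (((edges (evens (16 ^ κ)) L E).filter fun e => π e.2.1 = π e.2.2 ∧
        g ≤ (sepC (edges (evens (16 ^ κ)) L E) π S (π e.2.1) (e.1 + 1) : ℝ) ∧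
        2 * (x * 16 ^ (κ - u)) ≤ e.1 ∧ e.1 < 2 * ((x + 1) * 16 ^ (κ - u))).image
          fun e => π e.2.1).image fun lab => (lab, x) := by
    intro z hz
    obtain ⟨e, he, rfl⟩ := mem_image.1 hz
    obtain ⟨a1, a2, a3⟩ := hΩ e he
    obtain ⟨b1, b2, b3⟩ := win_mem hu (mem_edges.1 a1).1
    exact mem_biUnion.2 ⟨_, mem_range.2 b1, mem_image.2 ⟨_, mem_image.2
      ⟨e, mem_filter.2 ⟨a1, a2, a3, b2, b3⟩, rfl⟩, rfl⟩⟩
  refine (Nat.cast_le.2 ((card_le_card h1).trans card_biUnion_le)).trans ?_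
  rw [Nat.cast_sum]
  refine (sum_le_sum fun x hx => (Nat.cast_le.2 card_image_le).trans
    (ht P τ S _ _ L E a hc hb π n0 g hπ hg _ _ (win_le hu (mem_range.1 hx)).1
      (win_le hu (mem_range.1 hx)).2)).trans_eq ?_
  rw [sum_add_distrib, sum_const, card_range, nsmul_eq_mul, ← sum_div, ← mul_sum]
  push_cast
  rfl

theorem card_six {α : Type} {H F1 F2 F3 F4 F5 F6 : Finset α}
    (h : ∀ e ∈ H, e ∈ F1 ∨ e ∈ F2 ∨ e ∈ F3 ∨ e ∈ F4 ∨ e ∈ F5 ∨ e ∈ F6) :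
    (H.card : ℝ) ≤ F1.card + (F2.card + (F3.card + (F4.card + (F5.card + F6.card)))) := by
  have h1 : H ⊆ F1 ∪ (F2 ∪ (F3 ∪ (F4 ∪ (F5 ∪ F6)))) := fun e he => by
    simpa only [mem_union] using h e he
  have h2 := card_le_card h1
  have a1 := card_union_le F1 (F2 ∪ (F3 ∪ (F4 ∪ (F5 ∪ F6))))
  have a2 := card_union_le F2 (F3 ∪ (F4 ∪ (F5 ∪ F6)))
  have a3 := card_union_le F3 (F4 ∪ (F5 ∪ F6))
  have a4 := card_union_le F4 (F5 ∪ F6)
  have a5 := card_union_le F5 F6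
  exact_mod_cast (by omega : H.card ≤
    F1.card + (F2.card + (F3.card + (F4.card + (F5.card + F6.card)))))

theorem six (p q r s t : Prop) :
    ¬ p ∨ (p ∧ ¬ q) ∨ ¬ r ∨ (p ∧ ¬ s ∧ ¬ t) ∨ (p ∧ q ∧ r ∧ s) ∨ (p ∧ q ∧ r ∧ t) := by
  tauto

theorem ceil_bd {x : ℝ} (hx : 1 ≤ x) : 1 ≤ ⌈x⌉₊ ∧ x ≤ ⌈x⌉₊ ∧ (⌈x⌉₊ : ℝ) ≤ 2 * x :=
  ⟨Nat.one_le_ceil_iff.2 (by linarith), Nat.le_ceil x,
    by linarith [Nat.ceil_lt_add_one (show 0 ≤ x by linarith)]⟩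

theorem num1 {A1 A2 R lam y w a r n0 : ℝ} (hA1 : 0 < A1) (hy : 0 < y) (hw : 0 < w) (hR : 0 < R)
    (hl : 0 < lam) (h1 : 200 * A2 ≤ A1 * R) (h2 : 120 * R ≤ A1 * lam) (ha : a ^ 2 ≤ A2 * y ^ 2)
    (hr : R * (y * w) ^ 2 ≤ r) (hr' : r ≤ 2 * (R * (y * w) ^ 2)) (hn : lam * (y * w) ≤ n0) :
    10 * (y * w ^ 3) ^ 2 * a ^ 2 / r + 3 * r * (y * w ^ 3) / n0 ≤ A1 / 10 * (y ^ 2 * w ^ 4) := by
  have b1 : 10 * (y * w ^ 3) ^ 2 * a ^ 2 / r ≤ A1 / 20 * (y ^ 2 * w ^ 4) := by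
    rw [div_le_iff₀ (lt_of_lt_of_le (by positivity) hr)]
    have c1 := mul_le_mul_of_nonneg_left ha (show 0 ≤ 10 * (y * w ^ 3) ^ 2 by positivity)
    have c2 := mul_le_mul_of_nonneg_left hr (show 0 ≤ A1 / 20 * (y ^ 2 * w ^ 4) by positivity)
    have c3 := mul_le_mul_of_nonneg_right h1 (show 0 ≤ y ^ 4 * w ^ 6 by positivity)
    linarith
  have b2 : 3 * r * (y * w ^ 3) / n0 ≤ A1 / 20 * (y ^ 2 * w ^ 4) := by
    rw [div_le_iff₀ (lt_of_lt_of_le (by positivity) hn)]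
    have c1 := mul_le_mul_of_nonneg_right hr' (show 0 ≤ 3 * (y * w ^ 3) by positivity)
    have c2 := mul_le_mul_of_nonneg_left hn (show 0 ≤ A1 / 20 * (y ^ 2 * w ^ 4) by positivity)
    have c3 := mul_le_mul_of_nonneg_right h2 (show 0 ≤ y ^ 3 * w ^ 5 by positivity)
    linarith
  linarith

theorem num2 {A1 B lam η y w a n0 f : ℝ} (hA1 : 0 < A1) (hy : 0 < y) (hw : 0 < w) (hB : 0 < B)
    (hl : 0 < lam) (hη : 0 < η) (h1 : 24000 * lam * η = A1 ^ 3) (h2 : 2 * B * lam ≤ η * w)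
    (ha0 : 0 ≤ a) (ha : a ≤ B * y) (hn0 : 0 ≤ n0) (hn : n0 ≤ 2 * (lam * (y * w)))
    (hf : f ^ 3 ≤ (y * w ^ 3) ^ 3 * n0 * (4 * (η * (y * w) ^ 2) + 8 * a * n0)) :
    f ≤ A1 / 10 * (y ^ 2 * w ^ 4) := by
  have c1 : a * n0 ≤ B * y * (2 * (lam * (y * w))) := mul_le_mul ha hn hn0 (by positivity)
  have c2 := mul_le_mul_of_nonneg_right h2 (show 0 ≤ y ^ 2 * w by positivity)
  have c3 : 4 * (η * (y * w) ^ 2) + 8 * a * n0 ≤ 12 * (η * (y * w) ^ 2) := by linarith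
  refine le_of_pow_le_pow_left₀ three_ne_zero (by positivity) (hf.trans ?_)
  calc _ ≤ (y * w ^ 3) ^ 3 * (2 * (lam * (y * w))) * (12 * (η * (y * w) ^ 2)) := by gcongr
    _ = 24000 * lam * η * (y ^ 2 * w ^ 4) ^ 3 / 1000 := by ring
    _ = _ := by rw [h1]; ring

theorem num3 {A1 lam y w M m n0 q : ℝ} (hy : 0 < y) (hw : 0 < w) (hM : 0 < M) (hm : 0 < m)
    (h1 : 40 * M * lam ≤ A1 * m) (h2 : 20 * M ≤ A1 * (y * w)) (hn : n0 ≤ 2 * (lam * (y * w)))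
    (hq : q ≤ n0 / m) : M * (y * w ^ 3) * (q + 1) ≤ A1 / 10 * (y ^ 2 * w ^ 4) := by
  have c1 : M * q ≤ A1 / 20 * (y * w) := by
    rw [le_div_iff₀ hm] at hq
    refine le_of_mul_le_mul_right ?_ hm
    have d1 := mul_le_mul_of_nonneg_left (hq.trans hn) hM.le
    have d2 := mul_le_mul_of_nonneg_right h1 (show 0 ≤ y * w by positivity)
    linarith
  have c2 := mul_le_mul_of_nonneg_right c1 (show 0 ≤ y * w ^ 3 by positivity)
  have c3 := mul_le_mul_of_nonneg_right h2 (show 0 ≤ y * w ^ 3 by positivity)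
  linarith

theorem num4 {B lam η y w a n0 CF t s : ℝ} (hy : 0 < y) (hw : 0 < w) (hB : 0 < B)
    (hη : 0 < η) (ht : 0 < t) (hCF : 0 < CF) (ha : a ≤ B * y) (hn0 : 0 ≤ n0)
    (hn : n0 ≤ 2 * (lam * (y * w))) (htw : t ^ 3 ≤ w) (hs : s ≤ CF * t * (y * w ^ 3)) :
    t ^ 4 * (8 * (y * w ^ 3) * a / (η * (y * w) ^ 2)) + 4 * n0 * s / (η * (y * w) ^ 2) ≤
      (8 * B + 8 * lam * CF) / η * t * w ^ 2 := by
  calc _ ≤ t * w * (8 * (y * w ^ 3) * (B * y) / (η * (y * w) ^ 2)) +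
        4 * (2 * (lam * (y * w))) * (CF * t * (y * w ^ 3)) / (η * (y * w) ^ 2) := by
        refine add_le_add ?_ (div_le_div_of_nonneg_right ?_ (by positivity))
        · refine le_trans (mul_le_mul_of_nonneg_left (div_le_div_of_nonneg_right
            (mul_le_mul_of_nonneg_left ha (by positivity)) (by positivity)) (by positivity)) ?_
          refine mul_le_mul_of_nonneg_right ?_ (by positivity)
          rw [show t ^ 4 = t * t ^ 3 by ring]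
          gcongr
        · exact (mul_le_mul_of_nonneg_left hs (by positivity)).trans (by gcongr)
    _ = _ := by field_simp; ring

end PreAux

open PreAux in
theorem pre (hc : StmCell) (hd : StmDeep) (ht : StmTouch) (hth : StmThin) (hf : StmFinv)
    (hl : StmLoc) : StmPre := by
  intro Γ hΓ hI A1 A2 hA1 hA2
  obtain ⟨CF, hCF, hF⟩ := hf Γ hΓ hI
  obtain ⟨CL, hCL, hL⟩ := hl Γ hΓ hI A2 hA2
  obtain ⟨B, hB⟩ : ∃ B : ℝ, B = A2 + 1 := ⟨_, rfl⟩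
  obtain ⟨R, hR⟩ : ∃ R : ℝ, R = 200 * A2 / A1 + 1 := ⟨_, rfl⟩
  obtain ⟨lam, hlam⟩ : ∃ lam : ℝ, lam = 120 * R / A1 + 1 := ⟨_, rfl⟩
  obtain ⟨η, hη⟩ : ∃ η : ℝ, η = A1 ^ 3 / (24000 * lam) := ⟨_, rfl⟩
  obtain ⟨β, hβ⟩ : ∃ β : ℝ, β = min 1 (A1 / 10) := ⟨_, rfl⟩
  have hB0 : 0 < B := by rw [hB]; positivity
  have hR1 : 1 ≤ R := by rw [hR]; exact le_add_of_nonneg_left (by positivity)
  have hl1 : 1 ≤ lam := by rw [hlam]; exact le_add_of_nonneg_left (by positivity)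
  have hl0 : 0 < lam := one_pos.trans_le hl1
  have hη0 : 0 < η := by rw [hη]; positivity
  have hβ0 : 0 < β := by rw [hβ]; positivity
  have eR : 200 * A2 ≤ A1 * R := by rw [hR, mul_add, mul_div_cancel₀ _ hA1.ne']; linarith
  have el : 120 * R ≤ A1 * lam := by rw [hlam, mul_add, mul_div_cancel₀ _ hA1.ne']; linarith
  have eη : 24000 * lam * η = A1 ^ 3 := by rw [hη]; field_simp
  have k1 : 0 ≤ (8 * B + 8 * lam * CF) / η := by positivity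
  have k2 : 0 ≤ CL / β ^ 5 := by positivity
  refine ⟨A1 / 4, 2 * lam + (8 * B + 8 * lam * CF) / η + CL / β ^ 5, by positivity, by linarith,
    fun M hM => ?_⟩
  obtain ⟨hm1, hm2, -⟩ := ceil_bd (x := 40 * (2 * M + 1) * lam / A1 + 1)
    (le_add_of_nonneg_left (by positivity))
  generalize ⌈40 * (2 * (M : ℝ) + 1) * lam / A1 + 1⌉₊ = m at hm1 hm2
  have em : 40 * (2 * (M : ℝ) + 1) * lam ≤ A1 * m := by
    have := mul_le_mul_of_nonneg_left hm2 hA1.le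
    rw [mul_add, mul_div_cancel₀ _ hA1.ne'] at this
    linarith
  refine ⟨m, hm1, fun T => ?_⟩
  obtain ⟨κ1, hκ1⟩ := pow_unbounded_of_one_lt
    (B * (1 + 20 * (2 * M + 1) / A1) + 2 * B * lam / η) (one_lt_two (α := ℝ))
  refine ⟨κ1 + 3 * T, by omega, fun κ hκ P τ S L E a hcf hb ha ha1 ha2 => ?_⟩
  obtain ⟨w, hw⟩ : ∃ w : ℝ, w = 2 ^ κ := ⟨_, rfl⟩
  have hw0 : 0 < w := by rw [hw]; positivity
  have hwp : ∀ j : ℕ, ((2 : ℝ) ^ j) ^ κ = w ^ j := fun j => by rw [hw, ← pow_mul, ← pow_mul, mul_comm]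
  have w2 : (4 : ℝ) ^ κ = w ^ 2 := by rw [← hwp]; norm_num
  have w3 : (8 : ℝ) ^ κ = w ^ 3 := by rw [← hwp]; norm_num
  have w4 : (16 : ℝ) ^ κ = w ^ 4 := by rw [← hwp]; norm_num
  have hwl : B * (1 + 20 * (2 * M + 1) / A1) + 2 * B * lam / η ≤ w :=
    hκ1.le.trans (hw ▸ pow_le_pow_right₀ one_le_two (by omega))
  obtain ⟨π', hπ1, hπ2⟩ := hL P τ S κ L E a hcf hb ha ha2 T (by omega) β hβ0 (hβ ▸ min_le_left _ _)
  obtain ⟨y, hy⟩ : ∃ y : ℝ, y = P.card / 8 ^ κ := ⟨_, rfl⟩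
  rw [← hy] at ha1 ha2
  have hN : (P.card : ℝ) = y * w ^ 3 := by rw [hy, w3]; field_simp
  have hZ : Zz P.card κ = y ^ 2 * w ^ 4 := by unfold Zz; rw [hN, w2]; field_simp
  have hD : Dd P.card κ 0 = y * w := by
    unfold Dd; rw [hN, w2, pow_zero, mul_one, div_eq_iff (by positivity)]; ring
  have hy0' : 0 ≤ y := hy ▸ div_nonneg (Nat.cast_nonneg _) (by positivity)
  have ha' : (1 : ℝ) ≤ a := by exact_mod_cast ha
  have haB : (a : ℝ) ≤ B * y := by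
    refine le_of_pow_le_pow_left₀ two_ne_zero (by positivity) (ha2.trans ?_)
    rw [mul_pow]
    exact mul_le_mul_of_nonneg_right (by rw [hB]; linarith [sq_nonneg A2]) (sq_nonneg _)
  have hy0 : 0 < y := pos_of_mul_pos_left (by linarith : 0 < y * B) hB0.le
  have k3 : 0 ≤ 2 * B * lam / η := by positivity
  have k4 : 0 ≤ 20 * (2 * (M : ℝ) + 1) / A1 := by positivity
  have hd1 : 1 + 20 * (2 * M + 1) / A1 ≤ y * w := by
    have c1 := mul_le_mul_of_nonneg_left (sub_nonneg.2 hwl) hy0.le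
    have c2 := mul_le_mul_of_nonneg_right (ha'.trans haB) (add_nonneg zero_le_one k4)
    have c3 := mul_nonneg hy0.le k3
    linarith
  have ed : 20 * (2 * (M : ℝ) + 1) ≤ A1 * (y * w) := by
    have := mul_le_mul_of_nonneg_left hd1 hA1.le
    rw [mul_add, mul_div_cancel₀ _ hA1.ne'] at this
    linarith
  have ew : 2 * B * lam ≤ η * w := by
    have c1 : 0 ≤ B * (1 + 20 * (2 * M + 1) / A1) := by positivity
    rw [← div_le_iff₀' hη0]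
    linarith
  obtain ⟨r1, r2, r3⟩ := ceil_bd (x := R * (y * w) ^ 2)
    (one_le_mul_of_one_le_of_one_le hR1 (one_le_pow₀ (by linarith)))
  obtain ⟨n1, n2, n3⟩ := ceil_bd (x := lam * (y * w))
    (one_le_mul_of_one_le_of_one_le hl1 (by linarith))
  generalize ⌈R * (y * w) ^ 2⌉₊ = r at r1 r2 r3
  generalize ⌈lam * (y * w)⌉₊ = n0 at n1 n2 n3
  obtain ⟨π, hp1, hp2⟩ := hc P τ S _ _ L E a hcf hb r n0 r1 n1
  obtain ⟨part, hq1, hq2⟩ := hth P π n0 m M hcf.good.xinj hm1 hp1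
  have hg : 0 < η * (y * w) ^ 2 := by positivity
  have b1 := hp2.trans (hN ▸ num1 hA1 hy0 hw0 (one_pos.trans_le hR1) hl0 eR el ha2 r2 r3 n2)
  have b2 := num2 hA1 hy0 hw0 hB0 hl0 hη0 eη ew (Nat.cast_nonneg a) haB (Nat.cast_nonneg n0) n3
    (hN ▸ hd P τ S _ _ L E a hcf hb π n0 _ hp1 hg.le)
  have b3 := hπ2.trans (mul_le_mul_of_nonneg_right (hβ ▸ min_le_right _ _ : β ≤ A1 / 10)
    (by rw [hZ]; positivity))
  rw [hZ] at b3
  have b4 : (((edges (evens (16 ^ κ)) L E).filter fun e => π e.2.1 = π e.2.2 ∧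
      ¬ Thin P π part M 1 e.2.1 e.2.2 ∧ ¬ Thin P π part M (-1) e.2.2 e.2.1).card : ℝ) ≤
      A1 / 10 * (y ^ 2 * w ^ 4) := by
    refine (Nat.cast_le.2 ((card_le_card_of_injOn (fun e => e.2) (fun e he => ?_)
      fun e1 h1 e2 h2 h => hb.edge_inj hcf (mem_filter.1 (mem_coe.1 h1)).1
        (mem_filter.1 (mem_coe.1 h2)).1 h).trans hq2)).trans ?_
    · obtain ⟨c1, c2, c3⟩ := mem_filter.1 (mem_coe.1 he)
      obtain ⟨-, -, -, c4, c5, c6, -⟩ := hb.edge hcf c1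
      exact mem_coe.2 (mem_filter.2 ⟨mem_product.2 ⟨c4, c5⟩, c2, c6, c3⟩)
    · rw [Nat.cast_mul, Nat.cast_mul, Nat.cast_add (n0 / m), hN]
      push_cast
      exact num3 hy0 hw0 (by positivity) (by exact_mod_cast hm1) em ed n3 Nat.cast_div_le
  have b5 : A1 * (y ^ 2 * w ^ 4) ≤ ((edges (evens (16 ^ κ)) L E).card : ℝ) := by
    rw [hb.card_edges, card_evens]
    push_cast
    rw [w4]
    linarith [mul_le_mul_of_nonneg_right ha1 (show 0 ≤ w ^ 4 by positivity)]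
  have key : ∀ (Th : ℕ × Pt × Pt → Prop) (σ : ℝ), σ = 1 ∨ σ = -1 →
      (∀ e, Th e → (σ = 1 → Thin P π part M 1 e.2.1 e.2.2) ∧
        (σ = -1 → Thin P π part M (-1) e.2.2 e.2.1)) →
      A1 / 4 * (y ^ 2 * w ^ 4) ≤ (((edges (evens (16 ^ κ)) L E).filter fun e => π e.2.1 = π e.2.2 ∧
        η * (y * w) ^ 2 ≤ (sepC (edges (evens (16 ^ κ)) L E) π S (π e.2.1) (e.1 + 1) : ℝ) ∧
        π' (blk κ T (e.1 / 2)) e.2.1 = π' (blk κ T (e.1 / 2)) e.2.2 ∧ Th e).card : ℝ) →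
      ∃ cell part Ω σ, ∀ C, 2 * lam + (8 * B + 8 * lam * CF) / η + CL / β ^ 5 ≤ C →
        Pre (A1 / 4) C m M T κ P L E cell part Ω σ := fun Th σ hσ hTh hbig => by
    refine ⟨π, part, _, σ, fun C hC => ⟨filter_subset _ _, hσ, hZ ▸ hbig,
      fun e he => (mem_filter.1 he).2.1, fun lab => ?_, hq1,
      fun e he => hTh e (mem_filter.1 he).2.2.2.2, fun u hu => ?_, fun e he => ?_⟩⟩
    · rw [hD]
      refine (Nat.cast_le.2 (hp1 lab)).trans (n3.trans ?_)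
      rw [← mul_assoc]
      exact mul_le_mul_of_nonneg_right (by linarith) (by positivity)
    · refine (touch_sum ht hcf hb (by omega) hp1 hg fun e he =>
        ⟨(mem_filter.1 he).1, (mem_filter.1 he).2.1, (mem_filter.1 he).2.2.1⟩).trans ?_
      have c1 := hF P τ S _ _ _ u hcf (win κ u (by omega))
      have c2 : ((2 : ℝ) ^ u) ^ 3 ≤ w := by
        rw [hw, ← pow_mul]; exact pow_le_pow_right₀ one_le_two (by omega)
      have c3 : (16 : ℝ) ^ u = (2 ^ u) ^ 4 := by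
        rw [← pow_mul, mul_comm, pow_mul]; norm_num
      rw [hN] at c1
      rw [c3, hN, w2]
      refine (num4 hy0 hw0 hB0 hη0 (by positivity) (one_pos.trans_le hCF) haB
        (Nat.cast_nonneg n0) n3 c2 c1).trans ?_
      gcongr
      linarith
    · refine deg hcf hb (by omega) (filter_subset _ _) (π := π') (fun x hx lab =>
        (hπ1 x hx lab).trans (mul_le_mul_of_nonneg_right (by linarith) ?_))
        (fun e he => (mem_filter.1 he).2.2.2.1) e he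
      exact div_nonneg (Nat.cast_nonneg _) (by positivity)
  by_contra hn
  have c1 := not_le.1 fun h => hn (key (fun e => Thin P π part M 1 e.2.1 e.2.2) 1 (Or.inl rfl)
    (fun e he => ⟨fun _ => he, fun h => absurd h (by norm_num)⟩) h)
  have c2 := not_le.1 fun h => hn (key (fun e => Thin P π part M (-1) e.2.2 e.2.1) (-1) (Or.inr rfl)
    (fun e he => ⟨fun h => absurd h (by norm_num), fun _ => he⟩) h)
  have c3 : 0 < A1 * (y ^ 2 * w ^ 4) := by positivity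
  refine absurd (b5.trans ((card_six fun e he => ?_).trans (add_le_add b1 (add_le_add b2
    (add_le_add b3 (add_le_add b4 (add_le_add c1.le c2.le))))))) (not_le.2 (by linarith))
  simp only [mem_filter, he, true_and, ← not_le]
  exact six _ _ _ _ _

end Vale.Agent.P065U
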