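import Vale.Agent.P065U.Basic

namespace Vale.Agent.P065U

open Classical Finset Filter Topology

theorem rec_succ (S : ℕ → Finset Pt) (V : ℕ) :
    changes S (V + 1) = changes S V + if S V ≠ S (V + 1) then 1 else 0 := by
  unfold changes
  rw [range_add_one, filter_insert]
  split_ifs with h
  · rw [card_insert_of_notMem (by simp)]
  · rfl

theorem rec_mono (S : ℕ → Finset Pt) : Monotone (changes S) :=
  monotone_nat_of_le_succ fun V => by rw [rec_succ]; omega

theorem rec_ivt (S : ℕ → Finset Pt) (V v : ℕ) (h : v ≤ changes S V) :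
    ∃ l ≤ V, changes S l = v := by
  induction V with
  | zero => exact ⟨0, le_rfl, by simp [changes] at h ⊢; omega⟩
  | succ V ih =>
    by_cases h1 : v ≤ changes S V
    · obtain ⟨l, hl, e⟩ := ih h1
      exact ⟨l, by omega, e⟩
    · refine ⟨V + 1, le_rfl, ?_⟩
      rw [rec_succ] at h ⊢
      split_ifs at h ⊢ <;> omega

theorem rec_cmp (S S' : ℕ → Finset Pt) (i d : ℕ)
    (h : ∀ l < d, S' l = S' (l + 1) → S (i + l) = S (i + l + 1)) :
    changes S (i + d) ≤ changes S i + changes S' d := by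
  induction d with
  | zero => simp
  | succ d ih =>
    have := ih fun l hl => h l (by omega)
    have h2 := h d (by omega)
    rw [← add_assoc, rec_succ, rec_succ]
    split_ifs with a b
    · omega
    · exact absurd (h2 (not_not.1 b)) a
    · omega
    · omega

/-- one step of the recursion -/
theorem rec_step (h : StmRestrict) {K0 t : ℕ} (hI : InvBound (1 / 16) K0) (ht : 1 ≤ t)
    (hK : K0 ≤ 8 * t ^ 4) {P τ S V} (hc : Cfg P τ S V) (hN : 1 ≤ P.card)
    (hq : 8 * t ^ 4 ≤ changes S V) : ∃ P' τ' S' V', Cfg P' τ' S' V' ∧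
      8 * t ^ 3 * P'.card ≤ P.card ∧ changes S V ≤ 8 * t ^ 4 * (changes S' V' + 1) := by
  set K := 8 * t ^ 4 with hKd
  set R := 8 * t ^ 3 with hRd
  have hK0 : 0 < K := by positivity
  have hR0 : 0 < R := by positivity
  set q := changes S V / K with hqd
  have hq0 : 0 < q := Nat.div_pos hq hK0
  have hex : ∀ i, ∃ l ≤ V, i ≤ K → changes S l = i * q := fun i => by
    by_cases hi : i ≤ K
    · obtain ⟨l, hl, e⟩ := rec_ivt S V (i * q)
        ((Nat.mul_le_mul_right q hi).trans (Nat.mul_div_le _ _))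
      exact ⟨l, hl, fun _ => e⟩
    · exact ⟨0, Nat.zero_le _, fun h => absurd h hi⟩
  choose c hcV hcq using hex
  have hm : ∀ i j, i ≤ j → j ≤ K → c i ≤ c j := fun i j hij hj => by
    rcases hij.eq_or_lt with rfl | hlt
    · exact le_rfl
    · by_contra hn
      have := rec_mono S (not_le.1 hn).le
      rw [hcq j hj, hcq i (hij.trans hj)] at this
      exact absurd (Nat.le_of_mul_le_mul_right this hq0) (not_le.2 hlt)
  have hW : Win c (fun i => c (i + 1)) K V :=
    ⟨fun i hi => ⟨hm _ _ (Nat.le_succ i) hi, hcV _⟩, fun i j hij hj => hm _ _ hij hj.le⟩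
  obtain ⟨i, hi, hlt⟩ : ∃ i < K, (inv S (c i) (c (i + 1))).card < P.card / R + 1 := by
    by_contra hn
    push Not at hn
    have h1 := hI P τ S V c _ K (P.card / R + 1) hc hW hK (Nat.le_add_left _ _) hn
    have h2 : (P.card : ℝ) ≤ (R : ℝ) * ((P.card / R + 1 : ℕ) : ℝ) := by
      exact_mod_cast (Nat.lt_mul_div_succ _ hR0).le
    have h3 := pow_le_pow_left₀ (Nat.cast_nonneg _) h2 4
    have h4 : (R : ℝ) ^ 4 = 8 * (K : ℝ) ^ 3 := by rw [hRd, hKd]; push_cast; ring
    have h5 : (0 : ℝ) < (P.card : ℝ) ^ 4 := by positivity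
    rw [mul_pow, h4] at h3
    linarith
  have hle := hm _ _ (Nat.le_succ i) hi
  obtain ⟨h1, h2⟩ := h P τ S V (c i) (c (i + 1)) hc hle (hcV _)
  refine ⟨_, _, _, _, h1, (Nat.mul_le_mul_left R (Nat.lt_succ_iff.1 hlt)).trans
    (Nat.mul_div_le _ _), ?_⟩
  have h3 := rec_cmp S (fun l => S (c i + l) ∩ inv S (c i) (c (i + 1))) (c i) (c (i + 1) - c i)
    fun l hl e => by
      have a1 := h2 (c i + l) (c i + l + 1) (by omega) (by omega) (by omega) (by omega)
      have a2 := h2 (c i + l + 1) (c i + l) (by omega) (by omega) (by omega) (by omega)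
      ext p
      have a3 := Finset.ext_iff.1 e p
      simp only [mem_inter, ← add_assoc] at a3
      constructor
      · intro hp
        by_contra hn
        exact hn (a3.1 ⟨hp, a1 (mem_sdiff.2 ⟨hp, hn⟩)⟩).1
      · intro hp
        by_contra hn
        exact hn (a3.2 ⟨hp, a2 (mem_sdiff.2 ⟨hp, hn⟩)⟩).1
  rw [Nat.add_sub_cancel' hle, hcq _ hi, hcq _ hi.le, Nat.succ_mul,
    Nat.add_le_add_iff_left] at h3
  exact (Nat.lt_mul_div_succ _ hK0).le.trans (Nat.mul_le_mul_left K (Nat.succ_le_succ h3))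

theorem recur (h : StmRestrict) : StmRec := by
  intro hI
  obtain ⟨K0, hI⟩ := hI (1 / 16) (by norm_num)
  obtain ⟨t, ht, hK⟩ : ∃ t : ℕ, 1 ≤ t ∧ K0 ≤ 8 * t ^ 4 :=
    ⟨K0 + 1, by omega, by nlinarith [Nat.le_self_pow (n := 4) (by norm_num) (K0 + 1)]⟩
  have ht' : (1 : ℝ) ≤ t := by exact_mod_cast ht
  have hR : (0 : ℝ) < 8 * t ^ 3 := by positivity
  obtain ⟨ε, hε, h0, h1⟩ : ∃ ε : ℝ, (8 * (t : ℝ) ^ 3) ^ ε < 3 / 2 ∧ 0 < ε ∧ ε < 1 / 3 := by
    have a1 : ∀ᶠ ε : ℝ in 𝓝[>] 0, (8 * (t : ℝ) ^ 3) ^ ε < 3 / 2 :=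
      nhdsWithin_le_nhds ((Real.continuousAt_const_rpow hR.ne').eventually_lt continuousAt_const
        (by simp only [Real.rpow_zero]; norm_num))
    exact (a1.and (Ioo_mem_nhdsGT (show (0 : ℝ) < 1 / 3 by norm_num))).exists
  have hpow : (8 * (t : ℝ) ^ 3) ^ (4 / 3 - ε) * (3 / 4) ≥ 8 * t ^ 4 := by
    have e : (8 * (t : ℝ) ^ 3) ^ (4 / 3 : ℝ) = 16 * t ^ 4 := by
      rw [show 8 * (t : ℝ) ^ 3 = (2 * t) ^ 3 by ring, ← Real.rpow_natCast,
        ← Real.rpow_mul (by positivity), show ((3 : ℕ) : ℝ) * (4 / 3) = (4 : ℕ) by norm_num,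
        Real.rpow_natCast]
      ring
    have hp := Real.rpow_pos_of_pos hR ε
    rw [Real.rpow_sub hR, e, ge_iff_le, div_mul_eq_mul_div, le_div_iff₀ hp]
    nlinarith [pow_pos (zero_lt_one.trans_le ht') 4]
  refine ⟨ε, 4 * (8 * t ^ 4), h0, h1, by positivity, fun P τ S V hc => ?_⟩
  induction hN : P.card using Nat.strong_induction_on generalizing P τ S V with
  | _ N ih =>
  subst hN
  rcases Nat.eq_zero_or_pos P.card with hz | hz
  · have : changes S V = 0 := by
      refine card_eq_zero.2 (filter_eq_empty_iff.2 fun l hl hne => hne ?_)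
      have hl := mem_range.1 hl
      have e := card_eq_zero.1 hz
      have b1 := hc.sub l hl.le
      have b2 := hc.sub (l + 1) hl
      rw [e, subset_empty] at b1 b2
      rw [b1, b2]
    rw [this, Nat.cast_zero]; positivity
  have hN1 : (1 : ℝ) ≤ (P.card : ℝ) ^ (4 / 3 - ε) :=
    Real.one_le_rpow (by exact_mod_cast hz) (by linarith)
  have hK' : (0 : ℝ) < 8 * t ^ 4 := by positivity
  by_cases hq : 8 * t ^ 4 ≤ changes S V
  · obtain ⟨P', τ', S', V', hc', a1, a2⟩ := rec_step h hI ht hK hc hz hq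
    have a3 : P'.card < P.card := by
      rcases Nat.eq_zero_or_pos P'.card with h0 | h0
      · omega
      · nlinarith [Nat.one_le_pow 3 t ht]
    have a4 := ih _ a3 P' τ' S' V' hc' rfl
    have a5 : (8 * (t : ℝ) ^ 3 * P'.card) ^ (4 / 3 - ε) ≤ (P.card : ℝ) ^ (4 / 3 - ε) :=
      Real.rpow_le_rpow (by positivity) (by exact_mod_cast a1) (by linarith)
    rw [Real.mul_rpow hR.le (Nat.cast_nonneg _)] at a5
    have a6 : (changes S V : ℝ) ≤ 8 * t ^ 4 * (changes S' V' + 1) := by exact_mod_cast a2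
    have a7 := mul_le_mul_of_nonneg_right hpow
      (Real.rpow_nonneg (Nat.cast_nonneg P'.card) (4 / 3 - ε))
    have a8 : (changes S' V' : ℝ) + 1 ≤ 4 * (P.card : ℝ) ^ (4 / 3 - ε) := by linarith
    have a9 := mul_le_mul_of_nonneg_left a8 hK'.le
    linarith
  · have : (changes S V : ℝ) ≤ 8 * t ^ 4 := by exact_mod_cast (not_le.1 hq).le
    nlinarith

end Vale.Agent.P065U
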