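import Vale.Agent.P065U.Basic

/-! P065U: inside a block, few points are used by two different windows. -/

namespace Vale.Agent.P065U

open Classical Finset

theorem reuse_tour {α : Type} (R : Finset α) (C : α → Finset α) (c : ℕ)
    (hC : ∀ p ∈ R, (C p).card ≤ c) (h : ∀ p ∈ R, ∀ q ∈ R, p ≠ q → q ∈ C p ∨ p ∈ C q) :
    R.card ≤ 2 * c + 1 := by
  let A : Finset (α × α) := R.biUnion fun p => (C p).image fun q => (p, q)
  have hA : A.card ≤ R.card * c :=
    card_biUnion_le_card_mul _ _ _ fun p hp => card_image_le.trans (hC p hp)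
  have hsub : R.offDiag ⊆ A ∪ A.image Prod.swap := by
    rintro ⟨p, q⟩ hpq
    obtain ⟨hp, hq, hne⟩ := mem_offDiag.1 hpq
    rcases h p hp q hq hne with h1 | h1
    · exact mem_union_left _ (mem_biUnion.2 ⟨p, hp, mem_image.2 ⟨q, h1, rfl⟩⟩)
    · exact mem_union_right _ (mem_image.2
        ⟨(q, p), mem_biUnion.2 ⟨q, hq, mem_image.2 ⟨p, h1, rfl⟩⟩, rfl⟩)
  have h1 := (card_le_card hsub).trans ((card_union_le _ _).trans
    (add_le_add hA (card_image_le.trans hA)))
  rw [offDiag_card] at h1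
  by_contra hn
  have h2 : R.card * (2 * c + 2) ≤ R.card * R.card := Nat.mul_le_mul_left _ (by omega)
  have h3 : R.card * (2 * c + 2) = R.card * c + R.card * c + 2 * R.card := by ring
  omega

theorem reuse_sum {α : Type} (U : ℕ → Finset α) (W : Finset α) (n c : ℕ)
    (hW : ∀ i < n, U i ⊆ W)
    (hc : ∀ i < n, ((U i).filter fun p => ∃ i', i < i' ∧ i' < n ∧ p ∈ U i').card ≤ c) :
    ∑ i ∈ range n, (U i).card ≤ W.card + c * n := by
  have h1 : ∑ i ∈ range n, ((U i).filter fun p => ¬ ∃ i', i < i' ∧ i' < n ∧ p ∈ U i').card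
      ≤ W.card := by
    rw [← card_biUnion]
    · exact card_le_card (biUnion_subset.2 fun i hi =>
        (filter_subset _ _).trans (hW i (mem_range.1 hi)))
    · intro i hi j hj hne
      refine disjoint_left.2 fun p hp hp' => ?_
      rw [mem_filter] at hp hp'
      rcases Nat.lt_or_gt_of_ne hne with hlt | hlt
      · exact hp.2 ⟨j, hlt, mem_range.1 hj, hp'.1⟩
      · exact hp'.2 ⟨i, hlt, mem_range.1 hi, hp.1⟩
  have h2 : ∑ i ∈ range n, ((U i).filter fun p => ∃ i', i < i' ∧ i' < n ∧ p ∈ U i').card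
      ≤ c * n := by
    refine (sum_le_card_nsmul _ _ c fun i hi => hc i (mem_range.1 hi)).trans ?_
    rw [card_range, smul_eq_mul, mul_comm]
  rw [← sum_congr rfl fun i _ => card_filter_add_card_filter_not
    (s := U i) fun p => ∃ i', i < i' ∧ i' < n ∧ p ∈ U i', sum_add_distrib]
  omega

theorem reuse_val {p q : Pt} (h : p.1 < q.1) {t t' : ℝ} (ht : t ≤ t') (hv : val t q < val t p) :
    val t' q < val t' p := by
  unfold val at hv ⊢
  nlinarith

theorem reuse_side {R : Finset Pt} {P : Finset Pt} (hP : Good P) (hR : R ⊆ P)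
    (A B : Pt → Finset Pt) (b : ℕ) (hA : ∀ p ∈ R, (A p).card < b) (hB : ∀ p ∈ R, (B p).card < b)
    (h : ∀ p ∈ R, ∀ q ∈ R, p.1 < q.1 → q ∈ A p ∨ p ∈ B q) : R.card ≤ 5 * b := by
  rcases R.eq_empty_or_nonempty with rfl | ⟨p0, hp0⟩
  · simp
  have hb := hA p0 hp0
  have h1 := reuse_tour R (fun p => A p ∪ B p) (2 * (b - 1)) (fun p hp => by
    have := card_union_le (A p) (B p)
    have := hA p hp
    have := hB p hp
    omega) fun p hp q hq hne => by
    rcases lt_trichotomy p.1 q.1 with hlt | heq | hlt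
    · exact (h p hp q hq hlt).imp (mem_union_left _) (mem_union_right _)
    · exact absurd (hP.xinj (hR hp) (hR hq) heq) hne
    · exact (h q hq p hp hlt).symm.imp (mem_union_right _) (mem_union_left _)
  omega

theorem reuse : StmReuse := by
  intro P τ S V lo hi n a b i0 i1 hc hw hV hin hb ha
  rcases Nat.eq_zero_or_pos n with rfl | hn
  · simp
  have hi01 : i0 ≤ i1 := (hin 0 hn).1.trans ((hw.le 0 hn).1.trans (hin 0 hn).2)
  have hi0 : i0 ≤ V := hi01.trans hV
  let U : ℕ → Finset Pt := fun i =>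
    P.filter fun p => p ∉ S i0 ∧ ∃ l, lo i ≤ l ∧ l ≤ hi i ∧ p ∈ S l
  let D : ℕ → Finset Pt := fun i =>
    P.filter fun p => p ∈ S i0 ∧ ∃ l, lo i ≤ l ∧ l ≤ hi i ∧ p ∉ S l
  have hU := reuse_sum U ((inv S i0 i1).filter fun p => ¬ p ∈ S i0) n (5 * b)
    (fun i hi' p hp => by
      obtain ⟨-, h1, l, h2, h3, h4⟩ := mem_filter.1 hp
      exact mem_filter.2 ⟨mem_inv.2 ⟨⟨l, (hin i hi').1.trans h2, h3.trans (hin i hi').2, h4⟩,
        i0, le_rfl, hi01, h1⟩, h1⟩)
    (fun i hi' => by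
      have hex : ∀ p ∈ (U i).filter fun p => ∃ i', i < i' ∧ i' < n ∧ p ∈ U i',
          ∃ l l', p ∈ P ∧ p ∉ S i0 ∧ i0 ≤ l ∧ l ≤ hi i ∧ hi i ≤ l' ∧ l' ≤ i1 ∧
            p ∈ S l ∧ p ∈ S l' := by
        intro p hp
        obtain ⟨hp1, j, hij, hj, hp2⟩ := mem_filter.1 hp
        obtain ⟨h0, h1, l, h2, h3, h4⟩ := mem_filter.1 hp1
        obtain ⟨-, -, l', h5, h6, h7⟩ := mem_filter.1 hp2
        exact ⟨l, l', h0, h1, (hin i hi').1.trans h2, h3, (hw.sep i j hij hj).trans h5,
          h6.trans (hin j hj).2, h4, h7⟩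
      choose! f g hfg using hex
      have hhi := (hin i hi').2
      refine reuse_side hc.good (fun p hp => (hfg p hp).1) (fun p => S (g p) \ S i0)
        (fun p => S (f p) \ S i0) b (fun p hp => ?_) (fun p hp => ?_) fun p hp q hq hlt => ?_
      · obtain ⟨-, -, h1, h2, h3, h4, -⟩ := hfg p hp
        rw [hc.card_sdiff (h4.trans hV) hi0]
        exact hb _ (by omega) h4
      · obtain ⟨-, -, h1, h2, -⟩ := hfg p hp
        rw [hc.card_sdiff (by omega) hi0]
        exact hb _ h1 (by omega)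
      · obtain ⟨p0, p1, p2, p3, p4, p5, -, p7⟩ := hfg p hp
        obtain ⟨q0, q1, q2, q3, -, -, q6, -⟩ := hfg q hq
        by_cases hpq : p ∈ S (f q)
        · exact Or.inr (mem_sdiff.2 ⟨hpq, p1⟩)
        · refine Or.inl (mem_sdiff.2 ⟨?_, q1⟩)
          by_contra hq'
          have h1 := hc.low (f q) (by omega) q q6 p p0 hpq
          have h2 := reuse_val hlt (hc.mono (f q) (g p) (by omega) (by omega)) h1
          exact lt_asymm h2 (hc.low (g p) (by omega) p p7 q q0 hq'))
  have hD := reuse_sum D ((inv S i0 i1).filter fun p => p ∈ S i0) n (5 * b)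
    (fun i hi' p hp => by
      obtain ⟨-, h1, l, h2, h3, h4⟩ := mem_filter.1 hp
      exact mem_filter.2 ⟨mem_inv.2 ⟨⟨i0, le_rfl, hi01, h1⟩,
        l, (hin i hi').1.trans h2, h3.trans (hin i hi').2, h4⟩, h1⟩)
    (fun i hi' => by
      have hex : ∀ p ∈ (D i).filter fun p => ∃ i', i < i' ∧ i' < n ∧ p ∈ D i',
          ∃ l l', p ∈ P ∧ p ∈ S i0 ∧ i0 ≤ l ∧ l ≤ hi i ∧ hi i ≤ l' ∧ l' ≤ i1 ∧
            p ∉ S l ∧ p ∉ S l' := by
        intro p hp
        obtain ⟨hp1, j, hij, hj, hp2⟩ := mem_filter.1 hp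
        obtain ⟨h0, h1, l, h2, h3, h4⟩ := mem_filter.1 hp1
        obtain ⟨-, -, l', h5, h6, h7⟩ := mem_filter.1 hp2
        exact ⟨l, l', h0, h1, (hin i hi').1.trans h2, h3, (hw.sep i j hij hj).trans h5,
          h6.trans (hin j hj).2, h4, h7⟩
      choose! f g hfg using hex
      have hhi := (hin i hi').2
      refine reuse_side hc.good (fun p hp => (hfg p hp).1) (fun p => S i0 \ S (f p))
        (fun p => S i0 \ S (g p)) b (fun p hp => ?_) (fun p hp => ?_) fun q hq p hp hlt => ?_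
      · obtain ⟨-, -, h1, h2, -⟩ := hfg p hp
        exact hb _ h1 (by omega)
      · obtain ⟨-, -, h1, h2, h3, h4, -⟩ := hfg p hp
        exact hb _ (by omega) h4
      · obtain ⟨p0, p1, p2, p3, p4, p5, -, p7⟩ := hfg p hp
        obtain ⟨q0, q1, q2, q3, -, -, q6, -⟩ := hfg q hq
        by_cases hpq : p ∈ S (f q)
        · refine Or.inr (mem_sdiff.2 ⟨q1, fun hq' => ?_⟩)
          have h1 := hc.low (f q) (by omega) p hpq q q0 q6
          have h2 := reuse_val hlt (hc.mono (f q) (g p) (by omega) (by omega)) h1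
          exact lt_asymm h2 (hc.low (g p) (by omega) q hq' p p0 p7)
        · exact Or.inl (mem_sdiff.2 ⟨p1, hpq⟩))
  have hsum : n * a ≤ ∑ i ∈ range n, ((U i).card + (D i).card) := by
    have h1 := card_nsmul_le_sum (range n) (fun i => (U i).card + (D i).card) a fun i hi' => by
      have hi'' := mem_range.1 hi'
      refine (ha i hi'').trans ((card_le_card fun p hp => ?_).trans (card_union_le _ _))
      obtain ⟨⟨l, h1, h2, h3⟩, l', h4, h5, h6⟩ := mem_inv.1 hp
      have hP := hc.sub l (h2.trans (hw.le i hi'').2) h3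
      by_cases h0 : p ∈ S i0
      · exact mem_union_right _ (mem_filter.2 ⟨hP, h0, l', h4, h5, h6⟩)
      · exact mem_union_left _ (mem_filter.2 ⟨hP, h0, l, h1, h2, h3⟩)
    rwa [card_range, smul_eq_mul] at h1
  rw [sum_add_distrib] at hsum
  have h3 := card_filter_add_card_filter_not (s := inv S i0 i1) fun p => p ∈ S i0
  have h4 : 10 * b * n = 5 * b * n + 5 * b * n := by ring
  omega

end Vale.Agent.P065U
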