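import Vale.Agent.P065U.SF2

/-! P065U: choice of the parameters. -/

namespace Vale.Agent.P065U

open Classical Finset

theorem sf_pow (x y : ℝ) (hy : 0 < y) : ∃ r : ℕ, x ≤ y * 2 ^ r := by
  obtain ⟨r, hr⟩ := pow_unbounded_of_one_lt (x / y) (show (1 : ℝ) < 2 by norm_num)
  exact ⟨r, by rw [div_lt_iff₀ hy] at hr; linarith⟩

theorem sf_num {s' η Λ : ℝ} {M nU K J i0 : ℕ} (hs : 0 < s') (hs1 : s' ≤ 1) (hΛ : 0 < Λ)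
    (hη : 0 < η) (hJ : 1 ≤ J)
    (hX : η * (1 + Λ * nU * K + nU * J + (96 * J / s' + 1)) ≤ s' / 64)
    (hK : 4 * Λ / K ≤ s' / 64) (hJ' : nU * (2 * K + 4) / (J : ℝ) ≤ s' / 64)
    (hM : 96 * J / s' + 1 ≤ M) (hi : 2 * (96 / s' + 2) + 1 ≤ i0) :
    Num (4 * (η / 8) + 2 * (η / 4)) (s' / 64 + 2 * (η / 8)) (s' / 32 + 2 * (η / 8))
      (s' - 2 * (η / 8)) Λ (10 * J) M nU K J i0 := by
  have hJ1 : (1 : ℝ) ≤ J := by exact_mod_cast hJ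
  have p1 : 0 ≤ η * (Λ * nU * K) := by positivity
  have p2 : 0 ≤ η * (nU * J) := by positivity
  have p3 : 0 ≤ η * (96 * J / s' + 1) := by positivity
  have hη' : η ≤ s' / 64 := by nlinarith
  have q0 : s' / 2 ≤ s' - 2 * (η / 8) := by linarith
  have q1 : 48 * J / (s' - 2 * (η / 8)) ≤ 96 * J / s' := by
    rw [div_le_div_iff₀ (by linarith) hs]
    nlinarith
  have q2 : 48 / (s' - 2 * (η / 8)) ≤ 96 / s' := by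
    rw [div_le_div_iff₀ (by linarith) hs]
    nlinarith
  have e : 4 * (η / 8) + 2 * (η / 4) = η := by ring
  rw [e]
  refine ⟨⟨by linarith, by linarith⟩, by linarith, by linarith, ⟨by linarith, by linarith⟩, ?_,
    by linarith, ?_⟩
  · unfold stot
    nlinarith
  · nlinarith [mul_le_mul_of_nonneg_right q1 hη.le]

theorem Sys.mono {c2 c C m M T D} (h : Sys c2 C m M T D) (hc : 0 < c) (hle : c ≤ c2) :
    Sys c C m M T D :=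
  { h with c2pos := hc, big := (mul_le_mul_of_nonneg_right hle (sf_Zpos h).le).trans h.big }

theorem sf_par1 {c2 C : ℝ} (hc : 0 < c2) (hc1 : c2 ≤ 1) (hC1 : 1 ≤ C) :
    ∃ (ω s' Λ ε ε1 ε2 β βh βu βc Λ2 : ℝ) (r1 r5 : ℕ), 0 < ω ∧ ω ≤ 1 ∧ 0 < s' ∧ s' ≤ 1 / 704 ∧
      0 < Λ ∧ 0 < ε ∧ 0 < ε1 ∧ 0 < ε2 ∧ (0 < β ∧ β ≤ 1) ∧ (0 < βh ∧ βh ≤ 1) ∧
      (0 < βu ∧ βu ≤ 1) ∧ (0 < βc ∧ βc ≤ 1) ∧ 0 < Λ2 ∧ C / Λ ≤ ω ∧ C * ε1 ≤ ω ∧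
      2 * βh / (s' / 32) ≤ ω ∧ 2 * C * (C / βh ^ 5) ≤ s' / 32 * ε1 * 2 ^ r1 ∧
      C * ε2 / (s' / 64) ≤ ω ∧ 2 * βu ≤ ω ∧ 2 * (s' + s' / 32) * C ≤ ω ∧
      2 / (s' / 64) * (C * (C / βc ^ 5) / Λ2 + βc) ≤ ω ∧
      (4 * Λ2 / (s' / 64) + C) * (2 * C * (C / βu ^ 5) / ε1) ^ 2 * C / ε ≤ c2 / 8 * 2 ^ r5 ∧
      3 * β + 2 * (11 * ω) + 2 * ε * C * (C / β ^ 5) ≤ 3 * c2 / 8 := by
  have hC0 : 0 < C := by linarith
  obtain ⟨ω, hω⟩ : ∃ x, x = c2 / 176 := ⟨_, rfl⟩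
  have ω0 : 0 < ω := by rw [hω]; positivity
  have ω1 : ω ≤ 1 / 176 := by linarith
  obtain ⟨β, hβ⟩ : ∃ x, x = c2 / 24 := ⟨_, rfl⟩
  have β0 : 0 < β := by rw [hβ]; positivity
  obtain ⟨s', hs'⟩ : ∃ x, x = ω / (4 * C) := ⟨_, rfl⟩
  have s0 : 0 < s' := by rw [hs']; positivity
  have sC : s' * C = ω / 4 := by rw [hs']; field_simp
  have s1 : s' ≤ 1 / 704 := by nlinarith
  have w1 : ω * s' ≤ 1 := by nlinarith
  obtain ⟨βc, hβc⟩ : ∃ x, x = ω * (s' / 64) / 4 := ⟨_, rfl⟩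
  have βc0 : 0 < βc := by rw [hβc]; positivity
  obtain ⟨Λ2, hΛ2⟩ : ∃ x, x = C * (C / βc ^ 5) / βc := ⟨_, rfl⟩
  have Λ20 : 0 < Λ2 := by rw [hΛ2]; positivity
  obtain ⟨r1, hr1⟩ := sf_pow (2 * C * (C / (ω * (s' / 32) / 2) ^ 5)) (s' / 32 * (ω / C))
    (by positivity)
  obtain ⟨ε, hε⟩ : ∃ x, x = c2 * β ^ 5 / (16 * C ^ 2) := ⟨_, rfl⟩
  have ε0 : 0 < ε := by rw [hε]; positivity
  obtain ⟨r5, hr5⟩ := sf_pow
    ((4 * Λ2 / (s' / 64) + C) * (2 * C * (C / (ω / 2) ^ 5) / (ω / C)) ^ 2 * C / ε) (c2 / 8)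
    (by positivity)
  have e1 : C * (C / βc ^ 5) / Λ2 = βc := by rw [hΛ2]; field_simp
  have e2 : 2 * ε * C * (C / β ^ 5) = c2 / 8 := by rw [hε]; field_simp; norm_num
  refine ⟨ω, s', C / ω, ε, ω / C, ω * (s' / 64) / C, β, ω * (s' / 32) / 2, ω / 2, βc, Λ2, r1, r5,
    ω0, by linarith, s0, s1, by positivity, ε0, by positivity, by positivity, ⟨β0, by linarith⟩,
    ⟨by positivity, by linarith⟩, ⟨by positivity, by linarith⟩, ⟨βc0, by linarith⟩, Λ20,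
    le_of_eq (by field_simp), le_of_eq (by field_simp), le_of_eq (by field_simp), hr1,
    le_of_eq (by field_simp), by linarith, by linarith, ?_, hr5, by linarith⟩
  rw [e1, hβc]
  exact le_of_eq (by field_simp; norm_num)

theorem sf_nat (x : ℝ) : ∃ n : ℕ, x ≤ n ∧ 1 ≤ n :=
  ⟨⌈x⌉₊ + 1, by push_cast; linarith [Nat.le_ceil x], by omega⟩

theorem sf_par2 {C ω s' Λ G2 : ℝ} (r1 r5 : ℕ) (ω0 : 0 < ω) (s0 : 0 < s') :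
    ∃ r3 nU K J i0 : ℕ, 1 ≤ K ∧ 1 ≤ J ∧ G2 * 2 ^ (r1 + r3 + (r1 + r3 + r5)) ≤ nU ∧
      C * (10 * J * (1 + 2 * (16 ^ r1 + 1 + i0 + 1))) / 16 ^ r3 ≤ ω ∧ 4 * Λ / K ≤ s' / 64 ∧
      nU * (2 * K + 4) / (J : ℝ) ≤ s' / 64 ∧ 2 * (96 / s' + 2) + 1 ≤ i0 := by
  obtain ⟨n0, hn0, hn1⟩ := sf_nat (G2 * 2 ^ r5 * 4 ^ r1)
  obtain ⟨K, hK, hK1⟩ := sf_nat (256 * Λ / s')
  obtain ⟨j0, hj0, hj1⟩ := sf_nat (64 * (2 * K + 4) / s')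
  obtain ⟨i0, hi0⟩ := exists_nat_ge (2 * (96 / s' + 2) + 1)
  obtain ⟨r3, hr3⟩ := sf_pow (C * (10 * (j0 * n0) * (1 + 2 * (16 ^ r1 + 1 + i0 + 1)))) ω ω0
  have nU1 : 1 ≤ n0 * 4 ^ r3 := Nat.mul_pos hn1 (by positivity)
  have J1 : 1 ≤ j0 * (n0 * 4 ^ r3) := Nat.mul_pos hj1 nU1
  have hK0 : (0 : ℝ) < K := by exact_mod_cast hK1
  refine ⟨r3, n0 * 4 ^ r3, K, j0 * (n0 * 4 ^ r3), i0, hK1, J1, ?_, ?_, ?_, ?_, hi0⟩
  · push_cast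
    calc G2 * 2 ^ (r1 + r3 + (r1 + r3 + r5)) = G2 * 2 ^ r5 * 4 ^ r1 * 4 ^ r3 := by
          rw [show (4 : ℝ) = 2 * 2 by norm_num, mul_pow, mul_pow]; ring
      _ ≤ _ := by gcongr
  · rw [div_le_iff₀ (by positivity)]
    push_cast
    have e : (16 : ℝ) ^ r3 = 4 ^ r3 * 4 ^ r3 := by rw [← mul_pow]; norm_num
    have e2 : (2 : ℝ) ^ r3 ≤ 4 ^ r3 := pow_le_pow_left₀ (by norm_num) (by norm_num) _
    have e3 : (0 : ℝ) < 4 ^ r3 := by positivity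
    have := mul_le_mul_of_nonneg_right (hr3.trans (mul_le_mul_of_nonneg_left e2 ω0.le)) e3.le
    rw [e]
    linarith
  · rw [div_le_iff₀ s0] at hK
    rw [div_le_iff₀ hK0]
    linarith
  · have hJ0 : (0 : ℝ) < (j0 * (n0 * 4 ^ r3) : ℕ) := by exact_mod_cast J1
    have hU0 : (0 : ℝ) < (n0 * 4 ^ r3 : ℕ) := by exact_mod_cast nU1
    rw [div_le_iff₀ s0] at hj0
    rw [div_le_iff₀ hJ0, Nat.cast_mul j0]
    nlinarith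

theorem sf_par3 {ω s' Y : ℝ} (ω0 : 0 < ω) (ω1 : ω ≤ 1) (s0 : 0 < s') (s1 : s' ≤ 1) (hY : 1 ≤ Y) :
    ∃ η β3 : ℝ, 0 < η ∧ η ≤ s' / 64 ∧ η * Y ≤ s' / 64 ∧ (0 < β3 ∧ β3 ≤ 1) ∧
      2 * β3 / (η / 4) ≤ ω := by
  have h0 : 0 < s' / 64 / Y := by positivity
  have h1 : s' / 64 / Y ≤ s' / 64 := div_le_self (by positivity) hY
  refine ⟨s' / 64 / Y, ω * (s' / 64 / Y / 4) / 2, h0, h1, le_of_eq (by field_simp),
    ⟨by positivity, by nlinarith⟩, le_of_eq (by field_simp)⟩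

theorem sysFalse (hE : StmEnt) (hL : StmLight) (hH : StmHeavy) (hR : StmRatio) (hQ : StmQuant)
    (hB : StmBtw) (hX : StmExc) (hC : StmCrowd) (hP : StmPair) (hT : StmTrans) : StmSysFalse := by
  intro c0 C hc0 hC1
  obtain ⟨c2, hc, hc1, hle⟩ : ∃ c2 : ℝ, 0 < c2 ∧ c2 ≤ 1 ∧ c2 ≤ c0 :=
    ⟨min c0 1, lt_min hc0 one_pos, min_le_right _ _, min_le_left _ _⟩
  obtain ⟨ω, s', Λ, ε, ε1, ε2, β, βh, βu, βc, Λ2, r1, r5, ω0, ω1, s0, s1, Λ0, ε0, ε10, ε20, hβ,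
    hβh, hβu, hβc, Λ20, b2, b3, b4, b4', b6, b7, b8, b11, b13, b14⟩ := sf_par1 hc hc1 hC1
  obtain ⟨r3, nU, K, J, i0, hK1, J1, b7', b9, hK, hJ, hi0⟩ :=
    sf_par2 (C := C) (Λ := Λ) (G2 := 2 * C * (C / βu ^ 5) / ε2) r1 r5 ω0 s0
  obtain ⟨η, β3, η0, η1, hX', hβ3, b5⟩ := sf_par3 (Y := 1 + Λ * nU * K + nU * J + (96 * J / s' + 1))
    ω0 ω1 s0 (by linarith) (by
      have : 0 ≤ Λ * nU * K + nU * J + (96 * J / s' + 1) := by positivity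
      linarith)
  obtain ⟨r6, hr6⟩ := sf_pow (2 * C * (C / β3 ^ 5)) (η / 4 * ε1) (by positivity)
  obtain ⟨M0, hM0⟩ := exists_nat_ge (96 * J / s' + 1)
  refine ⟨M0 + K + 1 + J, by omega, fun m hm => ?_⟩
  have hlog : 0 ≤ Real.log (C ^ 5 * m / c2 ^ 3) := by
    refine Real.log_nonneg ?_
    rw [le_div_iff₀ (by positivity), one_mul]
    have h1 : (1 : ℝ) ≤ m := by exact_mod_cast hm
    exact (pow_le_one₀ hc.le hc1).trans (one_le_mul_of_one_le_of_one_le (one_le_pow₀ hC1) h1)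
  obtain ⟨n, hn, hn'⟩ := sf_nat (4 * C * Real.log (C ^ 5 * m / c2 ^ 3) / (η / 8) ^ 2 / ω)
  refine ⟨(r1 + r3 + (r1 + r3 + r5) + r6) * n, fun D h0 => ?_⟩
  have hJ0 : (0 : ℝ) < J := by exact_mod_cast J1
  have hn00 : (0 : ℝ) < n := by exact_mod_cast hn'
  have hM : 96 * J / s' + 1 ≤ ((M0 + K + 1 + J : ℕ) : ℝ) :=
    hM0.trans (by exact_mod_cast (by omega))
  have b1 : 4 * C * Real.log (C ^ 5 * m / c2 ^ 3) / n / (η / 8) ^ 2 ≤ ω := by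
    rw [div_le_iff₀ ω0] at hn
    rw [div_right_comm, div_le_iff₀ hn00]
    linarith
  have b5' : 2 * C * (C / β3 ^ 5) ≤ η / 4 * ε1 * 2 ^ (r1 + r3 + (r1 + r3 + r5) + r6) :=
    hr6.trans (mul_le_mul_of_nonneg_left (pow_le_pow_right₀ (by norm_num) (by omega))
      (by positivity))
  have b13' : (4 * Λ2 / (s' / 64) + C) * (2 * C * (C / βu ^ 5) / ε1 * 2 ^ (r1 + r3)) ^ 2 * C / ε ≤
      c2 / 8 * 2 ^ (r1 + r3 + (r1 + r3 + r5)) := by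
    have := mul_le_mul_of_nonneg_right b13 (show (0 : ℝ) ≤ (2 ^ (r1 + r3)) ^ 2 by positivity)
    exact le_trans (le_of_eq (by ring)) (this.trans (le_of_eq (by ring)))
  exact sf_main hE hL hH hR hQ hB hX hC hP hT (h0.mono hc hle) hn' le_rfl (by positivity)
    (by positivity) (by positivity) s0 Λ0 (by positivity) (by positivity) ε0 ε10 ε20 ε10 hβ hβh hβ3
    hβu hβc Λ20 hlog b1 b2 b3 b4 b4' b5 b5' b6 b7 b7' b8 b9 b3 b11 (by linarith) b13' b14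
    (sf_num s0 (by linarith) Λ0 η0 J1 hX' hK hJ hM hi0) hK1 J1 (by omega) (by omega)

end Vale.Agent.P065U
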