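import Vale.Agent.P065U.Basic

/-! P065U: a shear makes the abscissae distinct. -/

namespace Vale.Agent.P065U

open Classical Finset

/-- the shear -/
def shr (e : ℝ) (p : Pt) : Pt := (p.1 + e * p.2, p.2)

theorem shr_inj (e : ℝ) : Function.Injective (shr e) := by
  intro p q h
  have h1 : p.1 + e * p.2 = q.1 + e * q.2 := congrArg Prod.fst h
  have h2 : p.2 = q.2 := (Prod.ext_iff.1 h).2
  refine Prod.ext ?_ h2
  rw [h2] at h1
  linarith

theorem shr_lin (e a b : ℝ) (p : Pt) :
    a * (shr e p).1 + (b - a * e) * (shr e p).2 = a * p.1 + b * p.2 := by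
  unfold shr
  ring

theorem shr_ne (e : ℝ) {a b : ℝ} (h : a ≠ 0 ∨ b ≠ 0) : a ≠ 0 ∨ b - a * e ≠ 0 := by
  by_cases ha : a = 0
  · right
    rcases h with h | h
    · exact absurd ha h
    · rw [ha]
      simpa using h
  · exact Or.inl ha

theorem exists_shear (P : Finset Pt) :
    ∃ e : ℝ, ∀ p ∈ P, ∀ q ∈ P, (shr e p).1 = (shr e q).1 → p = q := by
  obtain ⟨e, he⟩ := Infinite.exists_notMem_finset
    ((P ×ˢ P).image fun x : Pt × Pt => (x.2.1 - x.1.1) / (x.1.2 - x.2.2))
  refine ⟨e, fun p hp q hq h => ?_⟩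
  have h1 : p.1 + e * p.2 = q.1 + e * q.2 := h
  by_cases h2 : p.2 = q.2
  · refine Prod.ext ?_ h2
    rw [h2] at h1
    linarith
  · exfalso
    apply he
    refine mem_image.2 ⟨(p, q), mem_product.2 ⟨hp, hq⟩, ?_⟩
    have : p.2 - q.2 ≠ 0 := sub_ne_zero.2 h2
    show (q.1 - p.1) / (p.2 - q.2) = e
    rw [div_eq_iff this]
    linarith

theorem good_shear (P : Finset Pt) (hP : P065.GenPos P) (e : ℝ)
    (he : ∀ p ∈ P, ∀ q ∈ P, (shr e p).1 = (shr e q).1 → p = q) : Good (P.image (shr e)) := by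
  constructor
  · intro p' hp' q' hq' h
    obtain ⟨p, hp, rfl⟩ := mem_image.1 (mem_coe.1 hp')
    obtain ⟨q, hq, rfl⟩ := mem_image.1 (mem_coe.1 hq')
    rw [he p hp q hq h]
  · intro p' hp' q' hq' r' hr' hpq hpr hqr hs
    obtain ⟨p, hp, rfl⟩ := mem_image.1 hp'
    obtain ⟨q, hq, rfl⟩ := mem_image.1 hq'
    obtain ⟨r, hr, rfl⟩ := mem_image.1 hr'
    have n1 : p ≠ q := fun h => hpq (by rw [h])
    have n2 : p ≠ r := fun h => hpr (by rw [h])
    have n3 : q ≠ r := fun h => hqr (by rw [h])
    have d1 : (shr e q).1 - (shr e p).1 ≠ 0 := fun h =>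
      n1 (he q hq p hp (sub_eq_zero.1 h)).symm
    have d2 : (shr e r).1 - (shr e p).1 ≠ 0 := fun h =>
      n2 (he r hr p hp (sub_eq_zero.1 h)).symm
    apply hP p hp q hq r hr n1 n2 n3
    rw [collinear_iff_of_mem (p₀ := p) (by simp)]
    refine ⟨q - p, fun x hx => ?_⟩
    simp only [Set.mem_insert_iff, Set.mem_singleton_iff] at hx
    rcases hx with rfl | rfl | rfl
    · exact ⟨0, by simp⟩
    · exact ⟨1, by simp⟩
    · unfold slope at hs
      rw [div_eq_div_iff d1 d2] at hs
      refine ⟨((shr e x).1 - (shr e p).1) / ((shr e q).1 - (shr e p).1), ?_⟩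
      have e2 : x.2 - p.2 =
          ((shr e x).1 - (shr e p).1) / ((shr e q).1 - (shr e p).1) * (q.2 - p.2) := by
        rw [div_mul_eq_mul_div, eq_div_iff d1]
        have a1 : (shr e q).2 = q.2 := rfl
        have a2 : (shr e p).2 = p.2 := rfl
        have a3 : (shr e x).2 = x.2 := rfl
        rw [a1, a2, a3] at hs
        linarith
      have e1 : x.1 - p.1 =
          ((shr e x).1 - (shr e p).1) / ((shr e q).1 - (shr e p).1) * (q.1 - p.1) := by
        have b1 : q.1 - p.1 = ((shr e q).1 - (shr e p).1) - e * (q.2 - p.2) := by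
          unfold shr
          ring
        have b2 : x.1 - p.1 = ((shr e x).1 - (shr e p).1) - e * (x.2 - p.2) := by
          unfold shr
          ring
        rw [b1, mul_sub, div_mul_cancel₀ _ d1, b2, e2]
        ring
      refine Prod.ext ?_ ?_
      · simp only [vadd_eq_add, Prod.fst_add, Prod.smul_fst, Prod.fst_sub, smul_eq_mul]
        linarith
      · simp only [vadd_eq_add, Prod.snd_add, Prod.smul_snd, Prod.snd_sub, smul_eq_mul]
        linarith

theorem filter_shear (P : Finset Pt) (e : ℝ) (A B : Pt → Prop) [DecidablePred A]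
    [DecidablePred B] (h : ∀ p, B (shr e p) ↔ A p) :
    ((P.image (shr e)).filter B).card = (P.filter A).card := by
  rw [filter_image, card_image_of_injective _ (shr_inj e)]
  congr 1
  exact filter_congr fun p _ => h p

theorem sep_shear (P S : Finset Pt) (e : ℝ) (h : P065.Separable P S) :
    P065.Separable (P.image (shr e)) (S.image (shr e)) := by
  obtain ⟨a, b, c, h0, h1, h2⟩ := h
  refine ⟨a, b - a * e, c, shr_ne e h0, fun p' hp' => ?_, fun p' hp' hn => ?_⟩
  · obtain ⟨p, hp, rfl⟩ := mem_image.1 hp'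
    rw [shr_lin]
    exact h1 p hp
  · obtain ⟨p, hp, rfl⟩ := mem_image.1 hp'
    rw [shr_lin]
    exact h2 p hp fun hS => hn (mem_image_of_mem _ hS)

theorem halv_shear (P S : Finset Pt) (e : ℝ) (h : P065.Halving P S) :
    P065.Halving (P.image (shr e)) (S.image (shr e)) := by
  obtain ⟨a, b, c, h0, h1, h2, h3⟩ := h
  refine ⟨a, b - a * e, c, shr_ne e h0, fun p' hp' => ?_, ?_, ?_⟩
  · obtain ⟨p, hp, rfl⟩ := mem_image.1 hp'
    rw [shr_lin]
    exact h1 p hp
  · rw [card_image_of_injective _ (shr_inj e), ← h2]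
    exact filter_shear P e _ _ fun p => by rw [shr_lin]
  · rw [card_image_of_injective _ (shr_inj e), ← h3]
    exact filter_shear P e _ _ fun p => by rw [shr_lin]

theorem pow_shear {P S : Finset Pt} (e : ℝ) {k : ℕ} (h : S ∈ P.powersetCard k) :
    S.image (shr e) ∈ (P.image (shr e)).powersetCard k := by
  rw [mem_powersetCard] at h ⊢
  exact ⟨image_subset_image h.1, by rw [card_image_of_injective _ (shr_inj e), h.2]⟩

theorem shear : StmShear := by
  intro P hP
  obtain ⟨e, he⟩ := exists_shear P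
  refine ⟨P.image (shr e), good_shear P hP e he, card_image_of_injective _ (shr_inj e), ?_,
    fun k => ?_⟩
  · unfold P065.halvingLines
    refine card_le_card_of_injOn (fun S => S.image (shr e)) (fun S hS => ?_)
      (image_injective (shr_inj e)).injOn
    rw [mem_coe, mem_filter] at hS ⊢
    exact ⟨pow_shear e hS.1, halv_shear P S e hS.2⟩
  · unfold P065.kSets
    refine card_le_card_of_injOn (fun S => S.image (shr e)) (fun S hS => ?_)
      (image_injective (shr_inj e)).injOn
    rw [mem_coe, mem_filter] at hS ⊢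
    exact ⟨pow_shear e hS.1, sep_shear P S e hS.2⟩

end Vale.Agent.P065U
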