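import Vale.Agent.P065U.Basic

/-! P065U: from the bound in the number of points to the bound in `k`. -/

namespace Vale.Agent.P065U

open Classical Finset

namespace SlabAux

theorem runs (ch : ℕ → Prop) [DecidablePred ch] (w : ℕ → ℕ) (k V : ℕ) (B : ℝ) (hB : 0 ≤ B)
    (h : ∀ i i', i ≤ i' → i' ≤ V → ∑ l ∈ Ico i i', w l ≤ k →
      (((Ico i i').filter ch).card : ℝ) ≤ B) (M : ℕ) :
    ∀ i, i ≤ V → ∑ l ∈ Ico i V, w l ≤ M * k →
      (((Ico i V).filter ch).card : ℝ) ≤ (M + 1) * (B + 1) := by
  induction M with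
  | zero =>
    intro i hi hs
    have := h i V hi le_rfl (by omega)
    push_cast
    linarith
  | succ M ih =>
    intro i hi hs
    have hM : (0 : ℝ) ≤ M := Nat.cast_nonneg M
    by_cases h1 : ∑ l ∈ Ico i V, w l ≤ k
    · have := h i V hi le_rfl h1
      push_cast
      nlinarith
    have hex : ∃ m, k < ∑ l ∈ Ico i (m + 1), w l ∧ m < V := by
      have : i < V := by
        by_contra h2
        rw [Ico_eq_empty h2] at h1
        simp at h1
      refine ⟨V - 1, ?_, by omega⟩
      rw [show V - 1 + 1 = V by omega]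
      omega
    obtain ⟨h2, h3⟩ := Nat.find_spec hex
    have h4 : ∀ m < Nat.find hex, ¬ (k < ∑ l ∈ Ico i (m + 1), w l ∧ m < V) :=
      fun m hm => Nat.find_min hex hm
    generalize Nat.find hex = m at h2 h3 h4
    have him : i ≤ m := by
      by_contra h5
      rw [Ico_eq_empty (by omega)] at h2
      simp at h2
    have h5 : ∑ l ∈ Ico i m, w l ≤ k := by
      rcases him.eq_or_lt with rfl | h6
      · simp
      · have := h4 (m - 1) (by omega)
        rw [show m - 1 + 1 = m by omega] at this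
        omega
    have h6 := sum_Ico_consecutive w (show i ≤ m + 1 by omega) (show m + 1 ≤ V by omega)
    have h7 := ih (m + 1) (by omega) (by rw [add_mul] at hs; omega)
    have h8 := h i m him h3.le h5
    have h9 : ((Ico i V).filter ch).card ≤
        ((Ico i m).filter ch).card + 1 + ((Ico (m + 1) V).filter ch).card := by
      refine le_trans (card_le_card (t := insert m ((Ico i m).filter ch) ∪
        (Ico (m + 1) V).filter ch) ?_) ((card_union_le _ _).trans ?_)
      · intro l hl
        simp only [mem_filter, mem_Ico, mem_union, mem_insert] at hl ⊢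
        by_cases e1 : l = m
        · exact Or.inl (Or.inl e1)
        by_cases e2 : l < m
        · exact Or.inl (Or.inr ⟨⟨hl.1.1, e2⟩, hl.2⟩)
        · exact Or.inr ⟨⟨by omega, hl.1.2⟩, hl.2⟩
      · exact Nat.add_le_add_right (card_insert_le _ _) _
    have h10 : (((Ico i V).filter ch).card : ℝ) ≤
        ((Ico i m).filter ch).card + 1 + ((Ico (m + 1) V).filter ch).card := by exact_mod_cast h9
    push_cast
    linarith

/-- number of points below `p` -/
noncomputable def rank (P : Finset Pt) (t : ℝ) (p : Pt) : ℕ :=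
  (P.filter fun q => val t q < val t p).card

/-- number of points below and right of `p` -/
noncomputable def rk2 (P : Finset Pt) (t : ℝ) (p : Pt) : ℕ :=
  ((P.filter fun q => val t q < val t p).filter fun q => p.1 < q.1).card

/-- number of points below and left of `p` -/
noncomputable def rk1 (P : Finset Pt) (t : ℝ) (p : Pt) : ℕ :=
  ((P.filter fun q => val t q < val t p).filter fun q => ¬ p.1 < q.1).card

/-- the `j` lowest points -/
noncomputable def low (P : Finset Pt) (j : ℕ) (t : ℝ) : Finset Pt :=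
  P.filter fun p => rank P t p < j

theorem rank_eq (P : Finset Pt) (t : ℝ) (p : Pt) : rk2 P t p + rk1 P t p = rank P t p :=
  card_filter_add_card_filter_not _

theorem rk2_mono (P : Finset Pt) {t t' : ℝ} (h : t ≤ t') (p : Pt) : rk2 P t p ≤ rk2 P t' p := by
  refine card_le_card fun q hq => ?_
  rw [mem_filter, mem_filter] at hq ⊢
  refine ⟨⟨hq.1.1, ?_⟩, hq.2⟩
  have h1 := hq.1.2
  unfold val at h1 ⊢
  nlinarith [hq.2]

theorem rk1_anti (P : Finset Pt) {t t' : ℝ} (h : t ≤ t') (p : Pt) : rk1 P t' p ≤ rk1 P t p := by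
  refine card_le_card fun q hq => ?_
  rw [mem_filter, mem_filter] at hq ⊢
  refine ⟨⟨hq.1.1, ?_⟩, hq.2⟩
  have h1 := hq.1.2
  unfold val at h1 ⊢
  nlinarith [not_lt.1 hq.2]

theorem rank_lt {P : Finset Pt} {t : ℝ} {p q : Pt} (hp : p ∈ P) (h : val t p < val t q) :
    rank P t p < rank P t q := by
  refine card_lt_card ⟨fun r hr => ?_, fun hs => ?_⟩
  · exact mem_filter.2 ⟨(mem_filter.1 hr).1, (mem_filter.1 hr).2.trans h⟩
  · exact lt_irrefl _ (mem_filter.1 (hs (mem_filter.2 ⟨hp, h⟩))).2

theorem card_low {P : Finset Pt} {t : ℝ} (h : Set.InjOn (val t) (P : Set Pt)) (j : ℕ) :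
    (low P j t).card ≤ j := by
  have := card_le_card_of_injOn (s := low P j t) (t := range j) (rank P t)
    (fun p hp => mem_coe.2 (mem_range.2 (mem_filter.1 (mem_coe.1 hp)).2)) (by
      intro p hp q hq e
      have hp' := (mem_filter.1 (mem_coe.1 hp)).1
      have hq' := (mem_filter.1 (mem_coe.1 hq)).1
      rcases lt_trichotomy (val t p) (val t q) with h1 | h1 | h1
      · exact absurd e (rank_lt hp' h1).ne
      · exact h hp' hq' h1
      · exact absurd e (rank_lt hq' h1).ne')
  simpa using this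

theorem sub_low {P τ S V} (h : Cfg P τ S V) {l j : ℕ} (hl : l ≤ V) (hj : (S 0).card ≤ j) :
    S l ⊆ low P j (τ l) := by
  intro p hp
  refine mem_filter.2 ⟨h.sub l hl hp, lt_of_lt_of_le ?_ hj⟩
  rw [← h.card l hl]
  refine card_lt_card ⟨fun q hq => ?_, fun hs => ?_⟩
  · by_contra hq'
    exact lt_asymm (mem_filter.1 hq).2 (h.low l hl p hp q (mem_filter.1 hq).1 hq')
  · exact lt_irrefl _ (mem_filter.1 (hs hp)).2

theorem tele {P τ S V} (h : Cfg P τ S V) (k : ℕ) (p : Pt) (n : ℕ) (hn : n ≤ V) :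
    ∑ l ∈ range n, ((Ico k (2 * k)).filter fun j =>
      rank P (τ l) p < j ∧ ¬ rank P (τ (l + 1)) p < j).card ≤ min (rk2 P (τ n) p) (2 * k) := by
  induction n with
  | zero => simp
  | succ n ih =>
    rw [sum_range_succ]
    have h1 := ih (by omega)
    have h2 := h.mono n (n + 1) (by omega) hn
    have h3 := rk2_mono P h2 p
    have h4 := rk1_anti P h2 p
    have h5 := rank_eq P (τ n) p
    have h6 := rank_eq P (τ (n + 1)) p
    have h7 : ((Ico k (2 * k)).filter fun j =>
        rank P (τ n) p < j ∧ ¬ rank P (τ (n + 1)) p < j).card ≤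
        (Ioc (rank P (τ n) p) (min (rank P (τ (n + 1)) p) (2 * k))).card := by
      refine card_le_card fun j hj => ?_
      simp only [mem_filter, mem_Ico, mem_Ioc] at hj ⊢
      omega
    rw [Nat.card_Ioc] at h7
    omega

theorem pick {P τ S V} (h : Cfg P τ S V) (k : ℕ) (hk : 1 ≤ k) :
    ∃ j ∈ Ico k (2 * k), ∑ l ∈ Ico 0 V, (low P j (τ l) \ low P j (τ (l + 1))).card ≤
      2 * P.card := by
  refine exists_le_of_sum_le ⟨k, mem_Ico.2 ⟨le_rfl, by omega⟩⟩ ?_
  have h1 : ∀ j l, (low P j (τ l) \ low P j (τ (l + 1))).card =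
      ∑ p ∈ P, if rank P (τ l) p < j ∧ ¬ rank P (τ (l + 1)) p < j then 1 else 0 := by
    intro j l
    rw [← card_filter]
    congr 1
    ext p
    simp only [low, mem_sdiff, mem_filter]
    tauto
  simp only [h1]
  rw [← range_eq_Ico, sum_comm]
  simp only [sum_comm (s := Ico k (2 * k)) (t := P)]
  rw [sum_comm]
  simp only [← card_filter]
  refine (sum_le_sum fun p _ => (tele h k p V le_rfl).trans (min_le_right _ _)).trans ?_
  simp only [sum_const, smul_eq_mul, Nat.card_Ico]
  rw [show 2 * k - k = k by omega]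
  exact le_of_eq (by ring)

theorem run {ε C : ℝ} (hε : ε < 1 / 3) (hC : 0 < C) (hb : ChangeBound ε C) {P τ S V}
    (h : Cfg P τ S V) {j k i i' : ℕ} (hj : (S 0).card ≤ j) (hjk : j ≤ 2 * k) (hi : i ≤ i')
    (hV : i' ≤ V) (hs : ∑ l ∈ Ico i i', (low P j (τ l) \ low P j (τ (l + 1))).card ≤ k) :
    (((Ico i i').filter fun l => S l ≠ S (l + 1)).card : ℝ) ≤ C * (3 * k) ^ (4 / 3 - ε) := by
  obtain ⟨Q, hQ⟩ : ∃ Q, Q = low P j (τ i') ∪
      (Ico i i').biUnion fun l => low P j (τ l) \ low P j (τ (l + 1)) := ⟨_, rfl⟩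
  have hQP : Q ⊆ P := by
    rw [hQ]
    refine union_subset (filter_subset _ _) (biUnion_subset.2 fun l _ => ?_)
    exact sdiff_subset.trans (filter_subset _ _)
  have hQc : Q.card ≤ 3 * k := by
    have h1 := card_low (h.gen i' hV) j
    have h2 := (card_biUnion_le (s := Ico i i')
      (t := fun l => low P j (τ l) \ low P j (τ (l + 1)))).trans hs
    have h3 := card_union_le (low P j (τ i'))
      ((Ico i i').biUnion fun l => low P j (τ l) \ low P j (τ (l + 1)))
    rw [hQ]
    omega
  have hin : ∀ d l, l + d = i' → i ≤ l → low P j (τ l) ⊆ Q := by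
    intro d
    induction d with
    | zero =>
      intro l hl _
      rw [hQ, show l = i' from hl]
      exact subset_union_left
    | succ d ih =>
      intro l hl hil p hp
      by_cases h1 : p ∈ low P j (τ (l + 1))
      · exact ih (l + 1) (by omega) (by omega) h1
      · rw [hQ]
        exact mem_union_right _ (mem_biUnion.2 ⟨l, mem_Ico.2 ⟨hil, by omega⟩, mem_sdiff.2 ⟨hp, h1⟩⟩)
  have hc : Cfg Q (fun l => τ (i + l)) (fun l => S (i + l)) (i' - i) :=
    { good := ⟨h.good.xinj.mono hQP, fun p hp q hq r hr => h.good.gen p (hQP hp) q (hQP hq) r (hQP hr)⟩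
      mono := fun l l' h1 h2 => h.mono _ _ (by omega) (by omega)
      sub := fun l hl => (sub_low h (by omega) hj).trans (hin (i' - (i + l)) _ (by omega) (by omega))
      card := fun l hl => (h.card _ (by omega)).trans (h.card _ (by omega)).symm
      low := fun l hl p hp q hq => h.low _ (by omega) p hp q (hQP hq)
      gen := fun l hl => (h.gen _ (by omega)).mono hQP }
  have h1 := hb _ _ _ _ hc
  have h2 : ((Ico i i').filter fun l => S l ≠ S (l + 1)).card ≤
      changes (fun l => S (i + l)) (i' - i) := by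
    refine card_le_card_of_injOn (fun l => l - i) (fun l hl => ?_) fun l hl l' hl' e => ?_
    · simp only [coe_filter, mem_Ico, mem_range, Set.mem_ofPred_eq] at hl ⊢
      refine ⟨by omega, ?_⟩
      rw [show i + (l - i) = l by omega, show i + (l - i + 1) = l + 1 by omega]
      exact hl.2
    · simp only [coe_filter, mem_Ico, Set.mem_ofPred_eq] at hl hl' e
      omega
  refine le_trans (by exact_mod_cast h2) (h1.trans (mul_le_mul_of_nonneg_left ?_ hC.le))
  exact Real.rpow_le_rpow (Nat.cast_nonneg _) (by exact_mod_cast hQc) (by linarith)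

theorem arith {ε C : ℝ} (hε0 : 0 < ε) (hε : ε < 1 / 3) (hC : 0 < C) {k N : ℕ} (hk : 0 < k) (hN : 2 * k ≤ N) :
    (((2 * N / k + 1 : ℕ) : ℝ) + 1) * (C * (3 * (k : ℝ)) ^ (4 / 3 - ε) + 1) ≤
      (27 * C + 3) * N * ((k : ℝ) + 1) ^ (1 / 3 - ε) := by
  have hk' : (1 : ℝ) ≤ k := by exact_mod_cast hk
  have hN' : 2 * (k : ℝ) ≤ N := by exact_mod_cast hN
  have h2 : ((2 * N / k : ℕ) : ℝ) * k ≤ 2 * N := by exact_mod_cast Nat.div_mul_le_self (2 * N) k
  have h3 : (1 : ℝ) ≤ ((k : ℝ) + 1) ^ (1 / 3 - ε) := Real.one_le_rpow (by linarith) (by linarith)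
  have h4 : (3 * (k : ℝ)) ^ (4 / 3 - ε) ≤ 9 * k * ((k : ℝ) + 1) ^ (1 / 3 - ε) := by
    rw [show 4 / 3 - ε = (1 / 3 - ε) + 1 by ring, Real.rpow_add_one (by positivity),
      Real.mul_rpow (by norm_num) (by positivity)]
    have a1 : (3 : ℝ) ^ (1 / 3 - ε) ≤ 3 := by
      have := Real.rpow_le_rpow_of_exponent_le (show (1 : ℝ) ≤ 3 by norm_num)
        (show 1 / 3 - ε ≤ 1 by linarith)
      rwa [Real.rpow_one] at this
    have a2 : (k : ℝ) ^ (1 / 3 - ε) ≤ ((k : ℝ) + 1) ^ (1 / 3 - ε) :=
      Real.rpow_le_rpow (by positivity) (by linarith) (by linarith)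
    have a3 := mul_le_mul a1 a2 (by positivity) (by norm_num)
    nlinarith
  generalize ((k : ℝ) + 1) ^ (1 / 3 - ε) = y at h3 h4
  have h5 : C * (3 * (k : ℝ)) ^ (4 / 3 - ε) + 1 ≤ k * ((9 * C + 1) * y) := by
    have := mul_le_mul_of_nonneg_left h4 hC.le
    nlinarith
  have h6 : (0 : ℝ) ≤ ((2 * N / k : ℕ) : ℝ) := Nat.cast_nonneg _
  rw [Nat.cast_add, Nat.cast_one]
  refine (mul_le_mul_of_nonneg_left h5 (by positivity)).trans ?_
  have h7 : (((2 * N / k : ℕ) : ℝ) + 1 + 1) * k ≤ 3 * N := by linarith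
  have h8 := mul_le_mul_of_nonneg_right h7 (show 0 ≤ (9 * C + 1) * y by positivity)
  linarith

end SlabAux

open SlabAux in
theorem slab : StmSlab := by
  intro ε C hε0 hε hC hb
  refine ⟨27 * C + 3, by positivity, fun P τ S V h hN => ?_⟩
  rcases Nat.eq_zero_or_pos (S 0).card with hk | hk
  · have : changes S V = 0 := by
      unfold changes
      rw [card_eq_zero, filter_eq_empty_iff]
      intro l hl
      have hl' := mem_range.1 hl
      rw [card_eq_zero.1 ((h.card l (by omega)).trans hk),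
        card_eq_zero.1 ((h.card (l + 1) (by omega)).trans hk)]
      simp
    rw [this]
    push_cast
    positivity
  obtain ⟨j, hj, hs⟩ := pick h _ hk
  have h1 := runs (fun l => S l ≠ S (l + 1)) _ (S 0).card V
    (C * (3 * (S 0).card) ^ (4 / 3 - ε)) (by positivity)
    (fun i i' h1 h2 h3 => run hε hC hb h (mem_Ico.1 hj).1 (mem_Ico.1 hj).2.le h1 h2 h3)
    (2 * P.card / (S 0).card + 1) 0 (Nat.zero_le _) (hs.trans (by
      rw [mul_comm (_ + 1)]
      exact (Nat.lt_mul_div_succ _ hk).le))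
  rw [← range_eq_Ico] at h1
  refine le_trans h1 ?_
  exact arith hε0 hε hC hk hN

end Vale.Agent.P065U
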