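import Vale.Agent.P065U.DefsB

/-! P065U: a tight configuration yields an oriented edge system. -/

namespace Vale.Agent.P065U

open Classical Finset

theorem pow16_cube (κ : ℕ) : ((16 : ℝ) ^ κ) ^ 3 = ((8 : ℝ) ^ κ) ^ 4 := by
  rw [← pow_mul, ← pow_mul, mul_comm κ 3, mul_comm κ 4, pow_mul, pow_mul]
  norm_num

theorem sysOf_low {c N a K : ℝ} {κ : ℕ} (hc : 0 < c) (hK0 : 0 ≤ K) (hK : K ≤ 16 ^ (κ + 1))
    (h : c * N ^ 4 < K ^ 3 * a ^ 4) : Real.sqrt c / 64 * (N / 8 ^ κ) ^ 2 ≤ a ^ 2 := by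
  have h8 : (0 : ℝ) < 8 ^ κ := by positivity
  have h1 : K ^ 3 ≤ 4096 * ((8 : ℝ) ^ κ) ^ 4 := by
    calc K ^ 3 ≤ ((16 : ℝ) ^ (κ + 1)) ^ 3 := pow_le_pow_left₀ hK0 hK 3
      _ = 4096 * ((16 : ℝ) ^ κ) ^ 3 := by rw [pow_succ]; ring
      _ = 4096 * ((8 : ℝ) ^ κ) ^ 4 := by rw [pow16_cube]
  have h2 : c * N ^ 4 ≤ 4096 * ((8 : ℝ) ^ κ) ^ 4 * a ^ 4 :=
    h.le.trans (mul_le_mul_of_nonneg_right h1 (by positivity))
  refine (pow_le_pow_iff_left₀ (by positivity) (by positivity) two_ne_zero).1 ?_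
  have e : (Real.sqrt c / 64 * (N / 8 ^ κ) ^ 2) ^ 2 = c * N ^ 4 / (4096 * ((8 : ℝ) ^ κ) ^ 4) := by
    rw [mul_pow, div_pow, Real.sq_sqrt hc.le]
    field_simp
    ring
  rw [e, div_le_iff₀ (by positivity)]
  calc c * N ^ 4 ≤ _ := h2
    _ = _ := by ring

theorem sysOf_up {c N a : ℝ} {κ : ℕ} (hc : 0 < c)
    (h : ((16 : ℝ) ^ κ) ^ 3 * a ^ 4 ≤ c * N ^ 4) : a ^ 2 ≤ (c + 1) * (N / 8 ^ κ) ^ 2 := by
  have h8 : (0 : ℝ) < 8 ^ κ := by positivity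
  rw [pow16_cube] at h
  refine (pow_le_pow_iff_left₀ (by positivity) (by positivity) two_ne_zero).1 ?_
  have e : ((c + 1) * (N / 8 ^ κ) ^ 2) ^ 2 = (c + 1) ^ 2 * N ^ 4 / ((8 : ℝ) ^ κ) ^ 4 := by
    field_simp
  rw [e, le_div_iff₀ (by positivity)]
  have h3 : c * N ^ 4 ≤ (c + 1) ^ 2 * N ^ 4 :=
    mul_le_mul_of_nonneg_right (by nlinarith) (by positivity)
  calc (a ^ 2) ^ 2 * ((8 : ℝ) ^ κ) ^ 4 = ((8 : ℝ) ^ κ) ^ 4 * a ^ 4 := by ring
    _ ≤ _ := h.trans h3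

theorem exists_bic {P τ S} {K a : ℕ} (h : Cfg P τ S (2 * K))
    (ha : ∀ i < K, a ≤ (S (2 * i) \ S (2 * i + 1)).card) :
    ∃ L E, Bic S (2 * K) (evens K) L E a := by
  have hlt : ∀ l ∈ evens K, l < 2 * K ∧ a ≤ (S l \ S (l + 1)).card := by
    intro l hl
    obtain ⟨i, hi, rfl⟩ := mem_image.1 hl
    have := mem_range.1 hi
    exact ⟨by omega, ha i this⟩
  have h1 : ∀ l, ∃ t : Finset Pt, l ∈ evens K → t ⊆ S l \ S (l + 1) ∧ t.card = a := by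
    intro l
    by_cases hl : l ∈ evens K
    · obtain ⟨t, ht⟩ := exists_subset_card_eq (hlt l hl).2
      exact ⟨t, fun _ => ht⟩
    · exact ⟨∅, fun h => absurd h hl⟩
  have h2 : ∀ l, ∃ t : Finset Pt, l ∈ evens K → t ⊆ S (l + 1) \ S l ∧ t.card = a := by
    intro l
    by_cases hl : l ∈ evens K
    · have h3 := (hlt l hl).2
      rw [h.card_sdiff (hlt l hl).1.le (hlt l hl).1] at h3
      obtain ⟨t, ht⟩ := exists_subset_card_eq h3
      exact ⟨t, fun _ => ht⟩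
    · exact ⟨∅, fun h => absurd h hl⟩
  choose L hL using h1
  choose E hE using h2
  exact ⟨L, E, fun l hl => (hlt l hl).1, fun l hl => (hL l hl).1, fun l hl => (hE l hl).1,
    fun l hl => (hL l hl).2, fun l hl => (hE l hl).2⟩

theorem win_blocks {κ u : ℕ} (hu : u ≤ κ) :
    Win (fun x => 2 * (x * 16 ^ (κ - u))) (fun x => 2 * ((x + 1) * 16 ^ (κ - u))) (16 ^ u)
      (2 * 16 ^ κ) := by
  constructor
  · intro i hi
    refine ⟨Nat.mul_le_mul_left _ (Nat.mul_le_mul_right _ (Nat.le_succ i)),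
      Nat.mul_le_mul_left _ ?_⟩
    calc (i + 1) * 16 ^ (κ - u) ≤ 16 ^ u * 16 ^ (κ - u) := Nat.mul_le_mul_right _ hi
      _ = 16 ^ κ := by rw [← pow_add, Nat.add_sub_cancel' hu]
  · intro i j hij _
    exact Nat.mul_le_mul_left _ (Nat.mul_le_mul_right _ hij)

theorem sysOf (hd : StmDey) (hw : StmNetW) (hi : StmInv1) (hf : StmFinv) (hl : StmLoc)
    (hp : StmPre) (hk : StmPack) : StmSysOf := by
  intro c hc
  obtain ⟨cD, hcD, hnet⟩ := hd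
  obtain ⟨Γ, hΓ, hinv⟩ := hi cD hcD (hw cD 0 hnet)
  have hA1 : 0 < Real.sqrt c / 64 := by positivity
  have hA2 : 0 < cD + 1 := by positivity
  obtain ⟨c2, C0, hc2, hC0, hpre⟩ := hp Γ hΓ hinv _ _ hA1 hA2
  obtain ⟨C1, hC1, hfin⟩ := hf Γ hΓ hinv
  obtain ⟨C2, hC2, hloc⟩ := hl Γ hΓ hinv _ hA2
  set C := C0 + C1 + C2 + (cD + 1) with hCdef
  have g0 : C0 ≤ C := by rw [hCdef]; linarith
  have g1 : C1 ≤ C := by rw [hCdef]; linarith
  have g2 : C2 ≤ C := by rw [hCdef]; linarith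
  have g3 : cD + 1 ≤ C := by rw [hCdef]; linarith
  refine ⟨c2, C, hc2, hC0.trans g0, fun M hM => ?_⟩
  obtain ⟨m, hm, hpre⟩ := hpre M hM
  refine ⟨m, hm, fun T => ?_⟩
  obtain ⟨κ0, hT, hpre⟩ := hpre T
  refine ⟨16 ^ κ0, fun P τ S K a hcfg hK ha hS hlt => ?_⟩
  have hKpos : K ≠ 0 := by
    have : 0 < 16 ^ κ0 := by positivity
    omega
  set κ := Nat.log 16 K with hκ
  have k1 : 16 ^ κ ≤ K := Nat.pow_log_le_self 16 hKpos
  have k2 : K < 16 ^ (κ + 1) := Nat.lt_pow_succ_log_self (by norm_num) K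
  have k3 : κ0 ≤ κ := Nat.le_log_of_pow_le (by norm_num) hK
  have hcfg' : Cfg P τ S (2 * 16 ^ κ) := hcfg.le (Nat.mul_le_mul_left _ k1)
  have hS' : ∀ i < 16 ^ κ, a ≤ (S (2 * i) \ S (2 * i + 1)).card := fun i h => hS i (h.trans_le k1)
  obtain ⟨L, E, hb⟩ := exists_bic hcfg' hS'
  have low : Real.sqrt c / 64 * ((P.card : ℝ) / 8 ^ κ) ^ 2 ≤ (a : ℝ) ^ 2 :=
    sysOf_low hc (Nat.cast_nonneg K) (by exact_mod_cast k2.le) hlt
  have up : (a : ℝ) ^ 2 ≤ (cD + 1) * ((P.card : ℝ) / 8 ^ κ) ^ 2 := by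
    refine sysOf_up hcD ?_
    have := hnet P τ S (16 ^ κ) a hcfg' (Nat.zero_le _) ha hS'
    exact_mod_cast this
  obtain ⟨cell, part, Ω, σ, hP⟩ := hpre κ k3 P τ S L E a hcfg' hb ha low up
  refine hk c2 C m M T κ P τ S L E a cell part Ω σ hc2 (hC0.trans g0) hm hM (hT.trans k3) hcfg' hb
    ha (up.trans (mul_le_mul_of_nonneg_right g3 (by positivity))) (hP C g0) ?_ ?_
  · intro u hu
    have h1 := hfin P τ S _ _ _ u hcfg' (win_blocks (hu.trans (hT.trans k3)))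
    refine le_trans h1 ?_
    exact mul_le_mul_of_nonneg_right (mul_le_mul_of_nonneg_right g1 (by positivity))
      (by positivity)
  · intro u hu β hβ hβ1
    obtain ⟨π, h1, h2⟩ := hloc P τ S κ L E a hcfg' hb ha up u (hu.trans (hT.trans k3)) β hβ hβ1
    refine ⟨π, fun x hx lab => (h1 x hx lab).trans ?_, h2⟩
    have hD : 0 ≤ Dd P.card κ u := by unfold Dd; positivity
    exact mul_le_mul_of_nonneg_right (div_le_div_of_nonneg_right g2 (by positivity)) hD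

end Vale.Agent.P065U
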