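import Vale.Agent.P065U.DefsC

/-! P065U: the transfer lemma in logarithmic coordinates. -/

namespace Vale.Agent.P065U

open Classical Finset

namespace TR

theorem cnt_mono {B B' : Finset Pt} {f f' : Pt → ℝ} {I I' : Set ℝ}
    (h : ∀ b ∈ B, f b ∈ I → b ∈ B' ∧ f' b ∈ I') : cnt B f I ≤ cnt B' f' I' :=
  Nat.cast_le.2 (card_le_card fun b hb =>
    mem_filter.2 (h b (mem_filter.1 hb).1 (mem_filter.1 hb).2))

theorem cnt_union {B B' : Finset Pt} {f f' : Pt → ℝ} {I I1 I2 : Set ℝ}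
    (h : ∀ b ∈ B, f b ∈ I → b ∈ B' ∧ (f' b ∈ I1 ∨ f' b ∈ I2)) :
    cnt B f I ≤ cnt B' f' I1 + cnt B' f' I2 := by
  unfold cnt
  rw [← Nat.cast_add, Nat.cast_le]
  refine le_trans (card_le_card fun b hb => ?_) (card_union_le _ _)
  obtain ⟨h1, h2⟩ := h b (mem_filter.1 hb).1 (mem_filter.1 hb).2
  exact mem_union.2 (h2.imp (fun h3 => mem_filter.2 ⟨h1, h3⟩) fun h3 => mem_filter.2 ⟨h1, h3⟩)

/-- closed intervals pull back to closed intervals -/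
def Icp (g : ℝ → ℝ) (θ0 t0 t1 z0 z1 : ℝ) : Prop :=
  ∀ x y, z0 ≤ x → y ≤ z1 → ∃ X Y, t0 ≤ X ∧ Y ≤ t1 ∧ θ0 < X ∧
    ∀ t, θ0 < t → (g t ∈ Set.Icc x y ↔ t ∈ Set.Icc X Y)

/-- a change of coordinates on `(θ0, ∞)` -/
structure Chg (g : ℝ → ℝ) (ω : ℝ × ℝ → ℝ × ℝ) (θ0 t0 t1 z0 z1 : ℝ) (U : Finset (ℝ × ℝ)) :
    Prop where
  icc : Icp g θ0 t0 t1 z0 z1
  win : ∀ w ∈ U, θ0 < w.1 → z0 ≤ (ω w).1 ∧ (ω w).1 < (ω w).2 ∧ (ω w).2 ≤ z1
  mem : ∀ w ∈ U, θ0 < w.1 → ∀ t, θ0 < t → ((ω w).1 < g t ∧ g t < (ω w).2 ↔ w.1 < t ∧ t < w.2)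
  ne : ∀ w ∈ U, θ0 < w.1 → ∀ t, θ0 < t → t ≠ w.1 → t ≠ w.2 → g t ≠ (ω w).1 ∧ g t ≠ (ω w).2
  dis : ∀ w ∈ U, ∀ w' ∈ U, θ0 < w.1 → θ0 < w'.1 → w.2 ≤ w'.1 →
    (ω w).2 ≤ (ω w').1 ∨ (ω w').2 ≤ (ω w).1

variable {B N : Finset Pt} {ϑ ϑ' : Pt → ℝ} {t0 t1 : ℝ} {U : Finset (ℝ × ℝ)} {O : Finset ℝ}
  {err s α s' Λ v1 v1' v2 v2' : ℝ} {g : ℝ → ℝ} {ω : ℝ × ℝ → ℝ × ℝ} {θ0 z0 z1 : ℝ}

theorem close (hS : Side B N ϑ ϑ' t0 t1 U O err s α s' Λ v1 v1' v2 v2')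
    (hg : Icp g θ0 t0 t1 z0 z1) (hp : ∀ b ∈ B, θ0 < ϑ b ↔ θ0 < ϑ' b) (x y : ℝ) (hx : z0 ≤ x)
    (hy : y ≤ z1) :
    cnt (B.filter fun b => θ0 < ϑ b) (fun b => g (ϑ b)) (Set.Icc x y) / cnt B ϑ (Set.Ioo t0 t1) ≤
      cnt (B.filter fun b => θ0 < ϑ b) (fun b => g (ϑ' b)) (Set.Icc x y) /
        cnt B ϑ' (Set.Ioo t0 t1) + err := by
  obtain ⟨X, Y, h1, h2, h3, h4⟩ := hg x y hx hy
  refine le_trans (div_le_div_of_nonneg_right (cnt_mono fun b hb h => ?_) hS.pos.le)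
    ((hS.close X Y h1 h2).trans (add_le_add_left (div_le_div_of_nonneg_right
      (cnt_mono fun b hb h => ?_) (Nat.cast_nonneg _)) _))
  · exact ⟨(mem_filter.1 hb).1, (h4 _ (mem_filter.1 hb).2).1 h⟩
  · have h5 := h3.trans_le h.1
    exact ⟨mem_filter.2 ⟨hb, (hp b hb).2 h5⟩, (h4 _ h5).2 h⟩

theorem inside (hS : Side B N ϑ ϑ' t0 t1 U O err s α s' Λ v1 v1' v2 v2')
    (hg : Icp g θ0 t0 t1 z0 z1) {b : Pt} (hb : b ∈ B.filter fun b => θ0 < ϑ b)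
    (h : g (ϑ b) ∈ Set.Icc z0 z1) : ϑ b ∈ Set.Ioo t0 t1 := by
  obtain ⟨X, Y, h1, h2, -, h4⟩ := hg z0 z1 le_rfl le_rfl
  obtain ⟨h5, h6⟩ := (h4 _ (mem_filter.1 hb).2).1 h
  obtain ⟨h7, h8, -⟩ := hS.noend b (mem_filter.1 hb).1
  exact ⟨lt_of_le_of_ne (h1.trans h5) h7.symm, lt_of_le_of_ne (h6.trans h2) h8⟩

theorem core (h2 : StmT) (hS : Side B N ϑ ϑ' t0 t1 U O err s α s' Λ v1 v1' v2 v2')
    (hg : Chg g ω θ0 t0 t1 z0 z1 U) (hp : ∀ b ∈ B, θ0 < ϑ b ↔ θ0 < ϑ' b) {Δ φ : ℝ} {nU K J : ℕ}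
    (hΔ : 0 < Δ) (hφ : 0 ≤ φ) (hq : cnt B ϑ (Set.Ioo t0 t1) ≤ cnt B ϑ' (Set.Ioo t0 t1))
    (hsh : ∀ b ∈ B, θ0 < ϑ b → Δ ≤ g (ϑ b) - g (ϑ' b) ∧ g (ϑ b) - g (ϑ' b) ≤ Δ + φ)
    (disj : ∀ w ∈ U, ∀ w' ∈ U, w ≠ w' → w.2 ≤ w'.1 ∨ w'.2 ≤ w.1) (cU : U.card ≤ nU)
    (nn : 0 ≤ err ∧ 0 ≤ s ∧ 0 ≤ α) (hK : 1 ≤ K) (hJ : 1 ≤ J) (k1 : (K + 1) * φ ≤ Δ)
    (k2 : J * φ ≤ Δ) :
    cnt (B.filter fun b => θ0 < ϑ b) (fun b => g (ϑ b)) (Set.Icc z0 (z1 - J * (Δ + φ))) ≤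
      stot err s α Λ nU K J * cnt B ϑ (Set.Ioo t0 t1) := by
  have e : stot err s α Λ nU K J = s + α + s + err + 4 * Λ / K + Λ * nU * K * err +
      nU * (2 * K + 4) / J + nU * J * err := by rw [stot]; ring
  rw [e]
  refine h2 _ (N.filter fun b => θ0 < ϑ b) (fun b => g (ϑ' b)) _ Δ φ z0 z1 _ _ N.card err (s + α) s
    Λ nU K J ((U.filter fun w => θ0 < w.1).image ω) hΔ hφ hS.pos hq (Nat.cast_pos.2 hS.npos) nn.1
    (add_nonneg nn.2.1 nn.2.2) nn.2.1 (fun b hb => hsh b (mem_filter.1 hb).1 (mem_filter.1 hb).2)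
    (close hS hg.icc hp) (cnt_mono fun b hb h => ⟨(mem_filter.1 hb).1, inside hS hg.icc hb h⟩)
    (fun w hw => ?_) (fun w hw w' hw' hne => ?_)
    (card_image_le.trans ((card_filter_le _ _).trans cU)) ?_ (filter_subset_filter _ hS.sub)
    hS.ratio (fun U' hU' => ?_) (le_trans (Nat.cast_le.2 (card_le_card fun b hb => ?_)) hS.link)
    hK hJ k1 k2
  · obtain ⟨w, h, rfl⟩ := mem_image.1 hw
    obtain ⟨h3, h4⟩ := mem_filter.1 h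
    obtain ⟨h5, h6, h7⟩ := hg.win w h3 h4
    refine ⟨h5, h6, h7, fun b hb => ?_⟩
    obtain ⟨h8, h9⟩ := (hS.noend b (mem_filter.1 hb).1).2.2 w h3
    exact hg.ne w h3 h4 _ (mem_filter.1 hb).2 h8 h9
  · obtain ⟨w, h, rfl⟩ := mem_image.1 hw
    obtain ⟨w', h', rfl⟩ := mem_image.1 hw'
    obtain ⟨h3, h4⟩ := mem_filter.1 h
    obtain ⟨h5, h6⟩ := mem_filter.1 h'
    rcases disj w h3 w' h5 (fun e => hne (by rw [e])) with h7 | h7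
    · exact hg.dis w h3 w' h5 h4 h6 h7
    · exact (hg.dis w' h5 w h3 h6 h4 h7).symm
  · obtain ⟨I, i1, i2⟩ : ∃ I : Set ℝ, cnt B ϑ I ≤ α * cnt B ϑ (Set.Ioo t0 t1) ∧
        ∀ w ∈ U, w.1 ≤ θ0 → θ0 < w.2 → Set.Ioo w.1 w.2 ⊆ I := by
      by_cases h : ∃ w ∈ U, w.1 ≤ θ0 ∧ θ0 < w.2
      · obtain ⟨w, h3, h4, h5⟩ := h
        refine ⟨_, hS.atomU w h3, fun w' h6 h7 h8 => ?_⟩
        by_cases e : w = w'
        · rw [e]
        · rcases disj w h3 w' h6 e with h9 | h9 <;> linarith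
      · refine ⟨∅, ?_, fun w h3 h4 h5 => absurd ⟨w, h3, h4, h5⟩ h⟩
        have h3 : cnt B ϑ ∅ = 0 := by simp [cnt]
        rw [h3]
        exact mul_nonneg nn.2.2 hS.pos.le
    rw [add_mul]
    refine le_trans (cnt_union fun b hb h => ⟨(mem_filter.1 hb).1, ?_⟩) (add_le_add hS.cover i1)
    have h3 := (mem_filter.1 hb).2
    by_cases h4 : ϑ b ∈ uni U
    · obtain ⟨w, h5, h6⟩ := h4
      by_cases h7 : θ0 < w.1
      · exact absurd ⟨ω w, mem_image_of_mem _ (mem_filter.2 ⟨h5, h7⟩), (hg.mem w h5 h7 _ h3).2 h6⟩ h.2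
      · exact Or.inr (i2 w h5 (not_lt.1 h7) (h3.trans h6.2) h6)
    · exact Or.inl ⟨inside hS hg.icc hb h.1, h4⟩
  · obtain ⟨U', h3, rfl⟩ := subset_image_iff.1 hU'
    refine le_trans (div_le_div_of_nonneg_right (cnt_mono fun b hb h => ?_) hS.pos.le)
      ((hS.law U' (h3.trans (filter_subset _ _))).trans (add_le_add_left
        (div_le_div_of_nonneg_right (cnt_mono fun b hb h => ?_) (Nat.cast_nonneg _)) _))
    · obtain ⟨_, h4, h5⟩ := h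
      obtain ⟨w, h6, rfl⟩ := mem_image.1 h4
      obtain ⟨h7, h8⟩ := mem_filter.1 (h3 h6)
      exact ⟨(mem_filter.1 hb).1, w, h6, (hg.mem w h7 h8 _ (mem_filter.1 hb).2).1 h5⟩
    · obtain ⟨w, h4, h5⟩ := h
      obtain ⟨h7, h8⟩ := mem_filter.1 (h3 h4)
      exact ⟨mem_filter.2 ⟨hb, h8.trans h5.1⟩, ω w, mem_image_of_mem _ h4,
        (hg.mem w h7 h8 _ (h8.trans h5.1)).2 h5⟩
  · obtain ⟨h3, _, h4, h5, h6, h7⟩ := mem_filter.1 hb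
    obtain ⟨w, h8, rfl⟩ := mem_image.1 h4
    obtain ⟨h9, h10⟩ := mem_filter.1 h8
    obtain ⟨h11, h12⟩ := mem_filter.1 h3
    have h13 := (hg.mem w h9 h10 _ h12).1 ⟨h5, h6⟩
    exact mem_filter.2 ⟨h11, w, h9, h13.1, h13.2,
      (hg.mem w h9 h10 _ ((hp b (hS.sub h11)).1 h12)).1 h7⟩

theorem lle {θ0 a b : ℝ} (ha : θ0 < a) (hb : θ0 < b) :
    Real.log (a - θ0) ≤ Real.log (b - θ0) ↔ a ≤ b := by
  rw [Real.log_le_log_iff (sub_pos.2 ha) (sub_pos.2 hb), sub_le_sub_iff_right]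

theorem llt {θ0 a b : ℝ} (ha : θ0 < a) (hb : θ0 < b) :
    Real.log (a - θ0) < Real.log (b - θ0) ↔ a < b := by
  rw [Real.log_lt_log_iff (sub_pos.2 ha) (sub_pos.2 hb), sub_lt_sub_iff_right]

theorem lne {θ0 a b : ℝ} (ha : θ0 < a) (hb : θ0 < b) (h : a ≠ b) :
    Real.log (a - θ0) ≠ Real.log (b - θ0) := fun e =>
  h (le_antisymm ((lle ha hb).1 e.le) ((lle hb ha).1 e.ge))

theorem onto (θ0 x : ℝ) : ∃ X, θ0 < X ∧ Real.log (X - θ0) = x :=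
  ⟨θ0 + Real.exp x, lt_add_of_pos_right _ (Real.exp_pos x), by
    rw [add_sub_cancel_left, Real.log_exp]⟩

theorem icpP {r : ℝ} (h0 : θ0 < r) (h1 : t0 ≤ r) (h2 : θ0 < t1) :
    Icp (fun t => Real.log (t - θ0)) θ0 t0 t1 (Real.log (r - θ0)) (Real.log (t1 - θ0)) := by
  intro x y hx hy
  obtain ⟨X, h3, rfl⟩ := onto θ0 x
  obtain ⟨Y, h4, rfl⟩ := onto θ0 y
  exact ⟨X, Y, h1.trans ((lle h0 h3).1 hx), (lle h4 h2).1 hy, h3,
    fun t ht => and_congr (lle h3 ht) (lle ht h4)⟩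

theorem chgP {r : ℝ} (h0 : θ0 < r) (h1 : t0 ≤ r) (h2 : θ0 < t1)
    (hw : ∀ w ∈ U, t0 ≤ w.1 ∧ w.1 < w.2 ∧ w.2 ≤ t1) (hr : ∀ w ∈ U, θ0 < w.1 → r ≤ w.1) :
    Chg (fun t => Real.log (t - θ0)) (fun w => (Real.log (w.1 - θ0), Real.log (w.2 - θ0)))
      θ0 t0 t1 (Real.log (r - θ0)) (Real.log (t1 - θ0)) U := by
  have p : ∀ w ∈ U, θ0 < w.1 → θ0 < w.2 := fun w h h' => h'.trans (hw w h).2.1
  exact ⟨icpP h0 h1 h2, fun w h h' => ⟨(lle h0 h').2 (hr w h h'), (llt h' (p w h h')).2 (hw w h).2.1,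
      (lle (p w h h') h2).2 (hw w h).2.2⟩,
    fun w h h' t ht => and_congr (llt h' ht) (llt ht (p w h h')),
    fun w h h' t ht a b => ⟨lne ht h' a, lne ht (p w h h') b⟩,
    fun w h w' _ a b c => Or.inl ((lle (p w h a) b).2 c)⟩

theorem chgN {r : ℝ} (h0 : θ0 < r) (h1 : t0 ≤ r) (h2 : θ0 < t1)
    (hw : ∀ w ∈ U, t0 ≤ w.1 ∧ w.1 < w.2 ∧ w.2 ≤ t1) (hr : ∀ w ∈ U, θ0 < w.1 → r ≤ w.1) :
    Chg (fun t => -Real.log (t - θ0)) (fun w => (-Real.log (w.2 - θ0), -Real.log (w.1 - θ0)))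
      θ0 t0 t1 (-Real.log (t1 - θ0)) (-Real.log (r - θ0)) U := by
  have p : ∀ w ∈ U, θ0 < w.1 → θ0 < w.2 := fun w h h' => h'.trans (hw w h).2.1
  refine ⟨fun x y hx hy => ?_, fun w h h' => ⟨neg_le_neg ((lle (p w h h') h2).2 (hw w h).2.2),
      neg_lt_neg ((llt h' (p w h h')).2 (hw w h).2.1), neg_le_neg ((lle h0 h').2 (hr w h h'))⟩,
    fun w h h' t ht => (and_congr (neg_lt_neg_iff.trans (llt ht (p w h h')))
      (neg_lt_neg_iff.trans (llt h' ht))).trans and_comm,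
    fun w h h' t ht a b => ⟨fun e => lne ht (p w h h') b (neg_injective e),
      fun e => lne ht h' a (neg_injective e)⟩,
    fun w h w' _ a b c => Or.inr (neg_le_neg ((lle (p w h a) b).2 c))⟩
  obtain ⟨X, h3, e1⟩ := onto θ0 (-y)
  obtain ⟨Y, h4, e2⟩ := onto θ0 (-x)
  refine ⟨X, Y, h1.trans ((lle h0 h3).1 (by linarith)), (lle h4 h2).1 (by linarith), h3,
    fun t ht => ?_⟩
  rw [Set.mem_Icc, Set.mem_Icc, ← lle h3 ht, ← lle ht h4, e1, e2]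
  exact ⟨fun h => ⟨by linarith [h.2], by linarith [h.1]⟩,
    fun h => ⟨by linarith [h.2], by linarith [h.1]⟩⟩

/-- a point just to the right of `θ0` -/
theorem small (B : Finset Pt) (f : Pt → ℝ) (U : Finset (ℝ × ℝ)) (θ0 c : ℝ) : ∃ r, θ0 < r ∧
    (∀ w ∈ U, θ0 < w.1 → r ≤ w.1) ∧
    ∀ b ∈ B, θ0 < f b → Real.log (r - θ0) + c ≤ Real.log (f b - θ0) := by
  obtain ⟨m, hm⟩ := (U.image (fun w => Real.log (w.1 - θ0)) ∪
    B.image fun b => Real.log (f b - θ0) - c).bddBelow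
  obtain ⟨r, h1, rfl⟩ := onto θ0 m
  refine ⟨r, h1, fun w hw h => (lle h1 h).1 (hm (mem_coe.2 (mem_union_left _
    (mem_image_of_mem _ hw)))), fun b hb _ => le_sub_iff_add_le.1 (hm (mem_coe.2
      (mem_union_right _ (mem_image_of_mem (fun b => Real.log (f b - θ0) - c) hb))))⟩

theorem phi_le {κ : ℝ} (hκ : 0 < κ) {M : ℕ} (hM : 1 ≤ M) :
    M * (Real.log (1 + κ * (1 + 1 / M)) - Real.log (1 + κ)) ≤ Real.log (1 + κ) := by
  have h1 : (0 : ℝ) < M := Nat.cast_pos.2 hM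
  have h2 : 0 < 1 + κ := by linarith
  have h3 := Real.log_le_sub_one_of_pos (x := (1 + κ * (1 + 1 / M)) / (1 + κ)) (by positivity)
  have h4 := Real.one_sub_inv_le_log_of_pos h2
  have h5 : M * ((1 + κ * (1 + 1 / M)) / (1 + κ) - 1) = 1 - (1 + κ)⁻¹ := by
    field_simp
    ring
  rw [Real.log_div (by positivity) h2.ne'] at h3
  linarith [mul_le_mul_of_nonneg_left h3 h1.le]

end TR

open TR

theorem tr (h1 : StmOrb) (h2 : StmT) : StmTR := by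
  intro B N N' θ θ' θ0 κ t0 t1 U O err s α s' Λ v1 v1' v2 v2' M nU K J h ht
  obtain ⟨hK, hJ, hKM, hJM⟩ := h.num
  have hM : 1 ≤ M := hJ.trans hJM
  have k0 := h.kpos
  have m0 : (0 : ℝ) < M := Nat.cast_pos.2 hM
  obtain ⟨Δ, eΔ⟩ : ∃ Δ, Δ = Real.log (1 + κ) := ⟨_, rfl⟩
  obtain ⟨φ, eφ⟩ : ∃ φ, φ = Real.log (1 + κ * (1 + 1 / M)) - Δ := ⟨_, rfl⟩
  have hΔ : 0 < Δ := eΔ ▸ Real.log_pos (by linarith)
  have hφ : 0 ≤ φ := by
    have : 0 ≤ κ * (1 / M) := by positivity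
    rw [eφ, eΔ]
    exact sub_nonneg.2 (Real.log_le_log (by linarith) (by linarith))
  have pM : ∀ n : ℕ, n ≤ M → n * φ ≤ Δ := fun n hn => by
    refine (mul_le_mul_of_nonneg_right (Nat.cast_le.2 hn) hφ).trans ?_
    rw [eφ, eΔ]
    exact phi_le k0 hM
  have p1 : φ ≤ Δ := by simpa using pM 1 hM
  have pK : ((K : ℝ) + 1) * φ ≤ Δ := by simpa using pM _ hKM
  have pJ : (J : ℝ) * (Δ + φ) ≤ 2 * J * Δ := by
    linarith [mul_le_mul_of_nonneg_left p1 (Nat.cast_nonneg J)]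
  have hp : ∀ b ∈ B, θ0 < θ b ↔ θ0 < θ' b := fun b hb => by
    obtain ⟨-, k, a1, -, a2⟩ := h.hom b hb
    rw [← sub_pos, ← sub_pos (a := θ' b), a2, mul_pos_iff_of_pos_left (by linarith)]
  have sh : ∀ b ∈ B, θ0 < θ b → Δ ≤ Real.log (θ' b - θ0) - Real.log (θ b - θ0) ∧
      Real.log (θ' b - θ0) - Real.log (θ b - θ0) ≤ Δ + φ := fun b hb h0 => by
    obtain ⟨-, k, a1, a2, a3⟩ := h.hom b hb
    rw [a3, Real.log_mul (by linarith) (sub_pos.2 h0).ne', add_sub_cancel_right, eφ, add_sub_cancel,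
      eΔ]
    exact ⟨Real.log_le_log (by linarith) (by linarith), Real.log_le_log (by linarith) (by linarith)⟩
  rw [← eΔ]
  refine ⟨fun hq => ⟨fun y hy hJy => ?_, fun x y n x0 x1 xy n1 nM hn => ?_,
    fun x y x2 y2 x0 x1 y1 a1 a2 => ?_⟩, fun hq => ?_⟩
  · obtain ⟨r, r0, r1, r2, r3⟩ : ∃ r, θ0 < r ∧ t0 ≤ r ∧ (∀ w ∈ U, θ0 < w.1 → r ≤ w.1) ∧
        ∀ b ∈ B, θ0 < θ' b → t0 < θ' b → Real.log (r - θ0) ≤ Real.log (θ' b - θ0) := by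
      rcases lt_or_gt_of_ne h.ne0 with c | c
      · exact ⟨t0, c, le_rfl, fun w hw _ => (h.win w hw).1, fun b _ b1 b2 => (lle c b1).2 b2.le⟩
      · obtain ⟨r, r0, r1, r2⟩ := small B θ' U θ0 0
        exact ⟨r, r0, (c.trans r0).le, r1, fun b hb b1 _ => by simpa using r2 b hb b1⟩
    refine le_trans (cnt_mono fun b hb c => ?_) (core h2 h.side' (chgP r0 r1 ht h.win r2) (fun b hb => (hp b hb).symm) hΔ hφ hq
        (fun b hb c => sh b hb ((hp b hb).2 c)) h.disj h.cardU h.nn hK hJ pK (pM J hJM))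
    rw [Real.log_div (sub_pos.2 ht).ne' (sub_pos.2 hy).ne'] at hJy
    exact ⟨mem_filter.2 ⟨hb, c.2.1⟩, r3 b hb c.2.1 c.1.1, by linarith [(lle c.2.1 hy).2 c.2.2]⟩
  · have y0 := x0.trans_le xy
    have hg := icpP x0 x1 ht
    have q0 := h.side'.pos
    rw [Real.log_div (sub_pos.2 ht).ne' (sub_pos.2 y0).ne'] at hn
    rw [Real.log_div (sub_pos.2 y0).ne' (sub_pos.2 x0).ne']
    have a0 := (lle x0 y0).2 xy
    have a1 := h1 (B.filter fun b => θ0 < θ' b) (fun b => Real.log (θ' b - θ0)) Δ φ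
      (Real.log (x - θ0)) (Real.log (t1 - θ0)) _ err hΔ hφ q0 h.nn.1 (fun a c a2 _ a3 =>
        (close h.side' hg (fun b hb => (hp b hb).symm) a c a2 (by linarith)).trans
          (add_le_add_left ((div_le_div_of_nonneg_left (Nat.cast_nonneg _) q0 hq).trans
            (div_le_div_of_nonneg_right (cnt_mono fun b hb d => ⟨hb, by
              obtain ⟨d1, d2⟩ := mem_filter.1 hb
              obtain ⟨d3, d4⟩ := sh b d1 ((hp b d1).2 d2)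
              exact ⟨by linarith [d.1], by linarith [d.2]⟩⟩) q0.le)) _))
      _ _ _ n le_rfl a0 n1 (pM n nM)
      (by linarith [mul_le_mul_of_nonneg_left p1 (Nat.cast_nonneg n)]) le_rfl
    have a2 := (div_le_one q0).2 (cnt_mono (f := fun b => Real.log (θ' b - θ0))
      fun b hb d => ⟨(mem_filter.1 hb).1, inside h.side' hg hb d⟩)
    refine le_trans (div_le_div_of_nonneg_right (cnt_mono fun b hb d => ?_) q0.le)
      (a1.trans (add_le_add_left (div_le_div_of_nonneg_right (mul_le_of_le_one_right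
        (add_nonneg (div_nonneg (sub_nonneg.2 a0) hΔ.le) two_pos.le) a2) (Nat.cast_nonneg _)) _))
    have d0 := x0.trans_le d.1
    exact ⟨mem_filter.2 ⟨hb, d0⟩, (lle x0 d0).2 d.1, (lle d0 y0).2 d.2⟩
  · have q0 := h.side'.pos
    refine (h.side'.close x y x1 y1).trans (add_le_add_left ((div_le_div_of_nonneg_left
      (Nat.cast_nonneg _) q0 hq).trans (div_le_div_of_nonneg_right
        (cnt_mono fun b hb d => ⟨hb, ?_⟩) q0.le)) _)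
    obtain ⟨-, k, b1, b2, b3⟩ := h.hom b hb
    have b4 := mul_le_mul (add_le_add_right b1 1) (sub_le_sub_right d.1 θ0) (sub_pos.2 x0).le
      (by linarith)
    have b5 := mul_le_mul (add_le_add_right b2 1) (sub_le_sub_right d.2 θ0)
      (sub_pos.2 (x0.trans_le d.1)).le (by linarith)
    exact ⟨by linarith, by linarith⟩
  have key : ∀ r, θ0 < r → t0 ≤ r → (∀ w ∈ U, θ0 < w.1 → r ≤ w.1) → ∀ I : Set ℝ,
      (∀ b ∈ B, θ b ∈ I → θ0 < θ b ∧ θ b < t1 ∧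
        Real.log (r - θ0) + 2 * J * Δ ≤ Real.log (θ b - θ0)) →
      cnt B θ I ≤ stot err s α Λ nU K J * cnt B θ (Set.Ioo t0 t1) := by
    intro r r0 r1 r2 I hI
    refine le_trans (cnt_mono fun b hb c => ?_)
      (core h2 h.side (chgN r0 r1 ht h.win r2) hp hΔ hφ hq
        (fun b hb c => by simpa only [neg_sub_neg] using sh b hb c) h.disj h.cardU h.nn hK hJ pK
        (pM J hJM))
    obtain ⟨c1, c2, c3⟩ := hI b hb c
    exact ⟨mem_filter.2 ⟨hb, c1⟩, neg_le_neg ((lle c1 ht).2 c2.le), by linarith⟩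
  refine ⟨fun c y y1 hy => key t0 c le_rfl (fun w hw _ => (h.win w hw).1) _ fun b _ d => ?_,
    fun c => ?_⟩
  · have y0 := c.trans_le y1
    have d0 := y0.trans_le d.1
    rw [Real.log_div (sub_pos.2 y0).ne' (sub_pos.2 c).ne'] at hy
    exact ⟨d0, d.2, by linarith [(lle y0 d0).2 d.1]⟩
  · obtain ⟨r, r0, r1, r2⟩ := small B θ U θ0 (2 * J * Δ)
    exact key r r0 (c.trans r0).le r1 _ fun b hb d => ⟨d.1, d.2, r2 b hb d.1⟩

end Vale.Agent.P065U
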