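import Vale.Agent.P065U.DefsB

/-! P065U: number of cells touched in a window. -/

namespace Vale.Agent.P065U

open Classical Finset

theorem touch_pairs {P τ S V I L E a} (h : Cfg P τ S V) (hb : Bic S V I L E a)
    (Q : ℕ × Pt × Pt → Prop) [DecidablePred Q] (A B : Finset Pt)
    (hQ : ∀ e ∈ edges I L E, Q e → e.2.1 ∈ A ∧ e.2.2 ∈ B) :
    ((edges I L E).filter Q).card ≤ A.card * B.card := by
  rw [← card_product]
  refine card_le_card_of_injOn (fun e => e.2) (fun e he => ?_) (fun e he e' he' h2 => ?_)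
  · have := mem_filter.1 (mem_coe.1 he)
    exact mem_coe.2 (mem_product.2 (hQ e this.1 this.2))
  · exact hb.edge_inj h (mem_filter.1 (mem_coe.1 he)).1 (mem_filter.1 (mem_coe.1 he')).1 h2

theorem touch_step {P τ S V I L E a} (h : Cfg P τ S V) (hb : Bic S V I L E a)
    (π : Pt → ℕ × ℕ) (n0 : ℕ) (hn : ∀ lab, (P.filter fun z => π z = lab).card ≤ n0)
    {l0 l1 l : ℕ} (h0 : l0 ≤ l) (h1 : l ≤ l1) (lab : ℕ × ℕ) :
    sepC (edges I L E) π S lab l ≤ sepC (edges I L E) π S lab l0 +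
      2 * n0 * ((inv S l0 l1).filter fun z => π z = lab).card := by
  have hinv : ∀ p, ¬ (p ∈ S l ↔ p ∈ S l0) → p ∈ inv S l0 l1 := by
    intro p hp
    rw [mem_inv]
    by_cases c : p ∈ S l
    · exact ⟨⟨l, h0, h1, c⟩, l0, le_rfl, h0.trans h1, fun c' => hp ⟨fun _ => c', fun _ => c⟩⟩
    · refine ⟨⟨l0, le_rfl, h0.trans h1, ?_⟩, l, h0, h1, c⟩
      by_contra c'
      exact hp ⟨fun x => absurd x c, fun x => absurd x c'⟩
  have a1 := touch_pairs h hb (fun e => π e.2.1 = lab ∧ π e.2.2 = lab ∧ e.2.1 ∈ inv S l0 l1)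
    ((inv S l0 l1).filter fun z => π z = lab) (P.filter fun z => π z = lab) (fun e he hq =>
      ⟨mem_filter.2 ⟨hq.2.2, hq.1⟩, mem_filter.2 ⟨(hb.edge h he).2.2.2.2.1, hq.2.1⟩⟩)
  have a2 := touch_pairs h hb (fun e => π e.2.1 = lab ∧ π e.2.2 = lab ∧ e.2.2 ∈ inv S l0 l1)
    (P.filter fun z => π z = lab) ((inv S l0 l1).filter fun z => π z = lab) (fun e he hq =>
      ⟨mem_filter.2 ⟨(hb.edge h he).2.2.2.1, hq.1⟩, mem_filter.2 ⟨hq.2.2, hq.2.1⟩⟩)
  have sub : ((edges I L E).filter fun e =>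
      π e.2.1 = lab ∧ π e.2.2 = lab ∧ ¬ (e.2.1 ∈ S l ↔ e.2.2 ∈ S l)) ⊆
      (((edges I L E).filter fun e =>
        π e.2.1 = lab ∧ π e.2.2 = lab ∧ ¬ (e.2.1 ∈ S l0 ↔ e.2.2 ∈ S l0)) ∪
      (edges I L E).filter fun e => π e.2.1 = lab ∧ π e.2.2 = lab ∧ e.2.1 ∈ inv S l0 l1) ∪
      (edges I L E).filter fun e => π e.2.1 = lab ∧ π e.2.2 = lab ∧ e.2.2 ∈ inv S l0 l1 := by
    intro e he
    obtain ⟨he, c1, c2, c3⟩ := mem_filter.1 he
    simp only [mem_union, mem_filter]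
    by_cases d1 : e.2.1 ∈ S l ↔ e.2.1 ∈ S l0
    · by_cases d2 : e.2.2 ∈ S l ↔ e.2.2 ∈ S l0
      · exact Or.inl (Or.inl ⟨he, c1, c2, fun x => c3 (d1.trans (x.trans d2.symm))⟩)
      · exact Or.inr ⟨he, c1, c2, hinv _ d2⟩
    · exact Or.inl (Or.inr ⟨he, c1, c2, hinv _ d1⟩)
  have a3 := (card_le_card sub).trans ((card_union_le _ _).trans
    (Nat.add_le_add_right (card_union_le _ _) _))
  have b1 := Nat.mul_le_mul_left ((inv S l0 l1).filter fun z => π z = lab).card (hn lab)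
  have b2 := Nat.mul_le_mul_right ((inv S l0 l1).filter fun z => π z = lab).card (hn lab)
  unfold sepC
  nlinarith

theorem touch_sum {α : Type} (T : Finset (ℕ × ℕ)) (A : Finset α) (f : α → ℕ × ℕ) :
    ∑ lab ∈ T, (A.filter fun z => f z = lab).card ≤ A.card := by
  rw [← card_biUnion]
  · exact card_le_card (biUnion_subset.2 fun _ _ => filter_subset _ _)
  · intro x _ y _ hne
    refine disjoint_left.2 fun z hz hz' => hne ?_
    exact (mem_filter.1 hz).2.symm.trans (mem_filter.1 hz').2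

theorem touch (h : StmSep) : StmTouch := by
  intro P τ S V I L E a hc hb π n0 g hn hg l0 l1 h01 h1
  set T := ((edges I L E).filter fun e => π e.2.1 = π e.2.2 ∧
      g ≤ (sepC (edges I L E) π S (π e.2.1) (e.1 + 1) : ℝ) ∧ l0 ≤ e.1 ∧ e.1 < l1).image
        fun e => π e.2.1 with hT
  have k1 : ∀ lab ∈ T, g ≤ (sepC (edges I L E) π S lab l0 : ℝ) +
      2 * n0 * (((inv S l0 l1).filter fun z => π z = lab).card : ℝ) := by
    intro lab hl
    obtain ⟨e, he, rfl⟩ := mem_image.1 hl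
    obtain ⟨-, -, c2, c3, c4⟩ := mem_filter.1 he
    refine c2.trans ?_
    exact_mod_cast touch_step hc hb π n0 hn (Nat.le_succ_of_le c3) (Nat.succ_le_of_lt c4) (π e.2.1)
  have k2 : ∑ lab ∈ T, sepC (edges I L E) π S lab l0 ≤ 4 * P.card * a := by
    refine le_trans ?_ ((touch_sum T ((edges I L E).filter fun e =>
      ¬ (e.2.1 ∈ S l0 ↔ e.2.2 ∈ S l0)) fun e => π e.2.1).trans
      (h P τ S V I L E a hc hb l0 (h01.trans h1)))
    refine sum_le_sum fun lab _ => card_le_card fun e he => ?_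
    obtain ⟨he, c1, -, c3⟩ := mem_filter.1 he
    exact mem_filter.2 ⟨mem_filter.2 ⟨he, c3⟩, c1⟩
  have k3 := touch_sum T (inv S l0 l1) π
  have k4 := sum_le_sum k1
  rw [sum_const, nsmul_eq_mul, sum_add_distrib, ← mul_sum] at k4
  have k2' : ∑ lab ∈ T, (sepC (edges I L E) π S lab l0 : ℝ) ≤ 4 * P.card * a := by
    exact_mod_cast k2
  have k3' : ∑ lab ∈ T, (((inv S l0 l1).filter fun z => π z = lab).card : ℝ) ≤
      (inv S l0 l1).card := by exact_mod_cast k3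
  have k5 := mul_le_mul_of_nonneg_left k3' (by positivity : (0 : ℝ) ≤ 2 * n0)
  rw [← add_div, le_div_iff₀ hg]
  have p1 : (0 : ℝ) ≤ P.card * a := by positivity
  have p2 : (0 : ℝ) ≤ n0 * (inv S l0 l1).card := by positivity
  linarith

end Vale.Agent.P065U
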