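import Vale.Agent.P065U.DefsC

/-! P065U: transfer of a good configuration to the local lemma. -/

namespace Vale.Agent.P065U

open Classical Finset

namespace TransAux

theorem pow_split {u u' κ : ℕ} (h1 : u ≤ u') (h2 : u' ≤ κ) :
    16 ^ (u' - u) * 16 ^ (κ - u') = 16 ^ (κ - u) := by
  rw [← pow_add]
  exact congrArg (fun n => 16 ^ n) (by omega)

theorem X_div (D : Dat) {u u' : ℕ} (h1 : u ≤ u') (h2 : u' ≤ D.κ) (e : Pt × Pt) :
    D.X u e = D.X u' e / 16 ^ (u' - u) := by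
  unfold Dat.X blk
  rw [Nat.div_div_eq_div_mul, mul_comm, pow_split h1 h2]

theorem X_congr (D : Dat) {u u' : ℕ} (h1 : u ≤ u') (h2 : u' ≤ D.κ) {e e' : Pt × Pt}
    (h : D.X u' e = D.X u' e') : D.X u e = D.X u e' := by
  rw [X_div D h1 h2, X_div D h1 h2, h]

theorem cut_eq (D : Dat) {u u' : ℕ} (h1 : u ≤ u') (h2 : u' ≤ D.κ) (x : ℕ) :
    D.cut u x = D.cut u' (x * 16 ^ (u' - u)) := by
  unfold Dat.cut
  rw [mul_assoc, pow_split h1 h2]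

theorem cut_mono {D : Dat} (hc : StrictMono D.c) (u : ℕ) : StrictMono (D.cut u) :=
  fun _ _ h => hc (Nat.mul_lt_mul_of_pos_right h (by positivity))

theorem div_bounds (y n : ℕ) (hn : 0 < n) : y / n * n ≤ y ∧ y + 1 ≤ (y / n + 1) * n := by
  refine ⟨Nat.div_mul_le_self y n, ?_⟩
  rw [mul_comm]
  exact Nat.lt_mul_div_succ y hn

theorem cut_child {D : Dat} (hc : StrictMono D.c) {u u' : ℕ} (h1 : u ≤ u') (h2 : u' ≤ D.κ)
    {x y : ℕ} (hy : y ∈ child u u' x) :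
    D.cut u x ≤ D.cut u' y ∧ D.cut u' (y + 1) ≤ D.cut u (x + 1) := by
  unfold child at hy
  rw [mem_Ico] at hy
  rw [cut_eq D h1 h2, cut_eq D h1 h2]
  exact ⟨(cut_mono hc u').monotone hy.1, (cut_mono hc u').monotone hy.2⟩

theorem X_child (D : Dat) {u u' : ℕ} (h1 : u ≤ u') (h2 : u' ≤ D.κ) (e : Pt × Pt) :
    D.X u' e ∈ child u u' (D.X u e) := by
  unfold child
  rw [mem_Ico, X_div D h1 h2]
  exact div_bounds _ _ (by positivity)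

theorem inW_edge {c2 C : ℝ} {m M T : ℕ} {D : Dat} (h : Sys c2 C m M T D) (u : ℕ) {e : Pt × Pt}
    (he : e ∈ D.Ω) :
    D.cut u (D.X u e) < slope e.1 e.2 ∧ slope e.1 e.2 < D.cut u (D.X u e + 1) := by
  obtain ⟨-, -, -, -, -, h1, h2⟩ := h.mem e he
  obtain ⟨a1, a2⟩ := div_bounds (D.st e) (16 ^ (D.κ - u)) (by positivity)
  exact ⟨(h.cmono.monotone a1).trans_lt h1, h2.trans_le (h.cmono.monotone a2)⟩

theorem top_le {c2 C : ℝ} {m M T : ℕ} {D : Dat} (h : Sys c2 C m M T D) {u : ℕ} (hu : u ≤ D.κ)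
    {e : Pt × Pt} (he : e ∈ D.Ω) : (D.X u e + 1) * 16 ^ (D.κ - u) ≤ 16 ^ D.κ := by
  obtain ⟨-, -, -, -, h1, -⟩ := h.mem e he
  have e1 : 16 ^ u * 16 ^ (D.κ - u) = 16 ^ D.κ := by
    rw [← pow_add]
    exact congrArg (fun n => 16 ^ n) (by omega)
  have h2 : D.X u e < 16 ^ u := by
    unfold Dat.X blk
    rw [Nat.div_lt_iff_lt_mul (by positivity), e1]
    exact h1
  rw [← e1]
  exact Nat.mul_le_mul_right _ h2

theorem side_pos {c2 C : ℝ} {m M T : ℕ} {D : Dat} (h : Sys c2 C m M T D) {a b1 b : Pt}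
    (he : (a, b1) ∈ D.Ω) (hb : b ∈ D.P) (hc : D.cell b = D.cell b1) (hp : D.part b = D.part b1) :
    0 < D.σ * (b.1 - a.1) := by
  obtain ⟨m1, m2, m3, -⟩ := h.mem _ he
  have ht := h.thin _ he b hb b1 m2 hc hp rfl rfl
  have hM : (0 : ℝ) < M := by exact_mod_cast h.Mge
  by_cases hbb : b = b1
  · have h0 : 0 ≤ D.σ * (b.1 - a.1) := le_trans (by positivity) ht
    refine lt_of_le_of_ne h0 fun h1 => ?_
    have hσ : D.σ ≠ 0 := by rcases h.sgn with s | s <;> rw [s] <;> norm_num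
    have h2 : b.1 - a.1 = 0 := (mul_eq_zero.1 h1.symm).resolve_left hσ
    refine m3 (h.good.xinj m1 m2 ?_)
    rw [← hbb]
    show a.1 = b.1
    linarith
  · have h1 : b.1 - b1.1 ≠ 0 := sub_ne_zero.2 fun e => hbb (h.good.xinj hb m2 e)
    exact lt_of_lt_of_le (mul_pos hM (abs_pos.2 h1)) ht

theorem homot {c2 C : ℝ} {m M T : ℕ} {D : Dat} (h : Sys c2 C m M T D) {a a' b1 : Pt}
    (he : (a, b1) ∈ D.Ω) (he' : (a', b1) ∈ D.Ω) (hs : 0 < D.σ * (a'.1 - a.1)) :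
    ∃ κ : ℝ, 0 < κ ∧ ∀ b ∈ D.Bp a (D.part b1), slope a b ≠ slope a a' ∧ ∃ k, κ ≤ k ∧
      k ≤ κ * (1 + 1 / M) ∧ slope a' b - slope a a' = (1 + k) * (slope a b - slope a a') := by
  obtain ⟨m1, m2, -, m4, -⟩ := h.mem _ he
  obtain ⟨n1, -⟩ := h.mem _ he'
  have hB : ∀ b ∈ D.Bp a (D.part b1), b ∈ D.P ∧ D.cell b = D.cell b1 ∧ D.part b = D.part b1 := by
    intro b hb
    obtain ⟨h1, h2, h3⟩ := mem_filter.1 hb
    exact ⟨h1, h2.trans m4, h3⟩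
  have hb1 : b1 ∈ D.Bp a (D.part b1) := mem_filter.2 ⟨m2, m4.symm, rfl⟩
  obtain ⟨b0, hb0, hmax⟩ := exists_max_image (D.Bp a (D.part b1))
    (fun b => D.σ * (b.1 - a'.1)) ⟨b1, hb1⟩
  have hw : ∀ b ∈ D.Bp a (D.part b1), 0 < D.σ * (b.1 - a'.1) := fun b hb =>
    side_pos h he' (hB b hb).1 (hB b hb).2.1 (hB b hb).2.2
  have hM : (0 : ℝ) < M := by exact_mod_cast h.Mge
  have hσ : D.σ ≠ 0 := by rcases h.sgn with s | s <;> rw [s] <;> norm_num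
  have haa : a'.1 - a.1 ≠ 0 := fun e => by rw [e, mul_zero] at hs; exact lt_irrefl _ hs
  refine ⟨D.σ * (a'.1 - a.1) / (D.σ * (b0.1 - a'.1)), div_pos hs (hw b0 hb0), fun b hb => ?_⟩
  have w0 := hw b0 hb0
  have w1 := hw b hb
  have w2 := side_pos h he (hB b hb).1 (hB b hb).2.1 (hB b hb).2.2
  have hba' : b.1 - a'.1 ≠ 0 := fun e => by rw [e, mul_zero] at w1; exact lt_irrefl _ w1
  have hba : b.1 - a.1 ≠ 0 := fun e => by rw [e, mul_zero] at w2; exact lt_irrefl _ w2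
  refine ⟨h.good.gen a m1 b (hB b hb).1 a' n1 (fun e => hba (by rw [e, sub_self]))
    (fun e => haa (by rw [e, sub_self])) (fun e => hba' (by rw [e, sub_self])),
    D.σ * (a'.1 - a.1) / (D.σ * (b.1 - a'.1)),
    div_le_div_of_nonneg_left hs.le w1 (hmax b hb), ?_, ?_⟩
  · have ht := h.thin _ he' b (hB b hb).1 b0 (hB b0 hb0).1 (hB b hb).2.1 (hB b hb).2.2
      (hB b0 hb0).2.1 (hB b0 hb0).2.2
    have h1 : D.σ * (b0.1 - b.1) ≤ |b.1 - b0.1| := by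
      rcases h.sgn with s | s
      · rw [s, one_mul, abs_sub_comm]
        exact le_abs_self _
      · rw [s, neg_one_mul, neg_sub]
        exact le_abs_self _
    have h2 : |b.1 - b0.1| ≤ D.σ * (b.1 - a'.1) / M := by
      rw [le_div_iff₀ hM, mul_comm]
      exact ht
    have h3 : D.σ * (b0.1 - a'.1) ≤ (1 + 1 / M) * (D.σ * (b.1 - a'.1)) := by
      have e1 : D.σ * (b0.1 - a'.1) = D.σ * (b.1 - a'.1) + D.σ * (b0.1 - b.1) := by ring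
      have e2 : (1 + 1 / M) * (D.σ * (b.1 - a'.1)) =
          D.σ * (b.1 - a'.1) + D.σ * (b.1 - a'.1) / M := by ring
      rw [e1, e2]
      linarith
    rw [div_mul_eq_mul_div, div_le_div_iff₀ w1 w0, mul_assoc _ (1 + 1 / (M : ℝ))]
    exact mul_le_mul_of_nonneg_left h3 hs.le
  · rw [mul_div_mul_left _ _ hσ]
    unfold slope
    field_simp
    ring

/-- the symmetric hypotheses -/
structure Hyp (D : Dat) (G : Pt × Pt → Prop) (u uh u1 u2 : ℕ) (s s' : ℝ) (a a' b1 b2 : Pt) :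
    Prop where
  ne : a ≠ a'
  m11 : (a, b1) ∈ D.Ω
  m12 : (a, b2) ∈ D.Ω
  m21 : (a', b1) ∈ D.Ω
  m22 : (a', b2) ∈ D.Ω
  g11 : G (a, b1)
  g12 : G (a, b2)
  g21 : G (a', b1)
  g22 : G (a', b2)
  part : D.part b2 = D.part b1
  xu : D.X u (a, b2) = D.X u (a, b1)
  x1 : D.X u1 (a', b1) = D.X u1 (a, b1)
  x2 : D.X u1 (a', b2) = D.X u1 (a, b2)
  bt : s' * D.nC u (D.cell a) (D.X u (a, b1)) ≤
    D.btw uh (D.cell a) (D.X uh (a, b1)) (D.X uh (a, b2)) +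
      D.btw uh (D.cell a) (D.X uh (a, b2)) (D.X uh (a, b1))
  z1 : a' ∉ D.Zs u u2 s a (D.part b1) (D.X u (a, b1))
  z2 : a ∉ D.Zs u u2 s a' (D.part b1) (D.X u (a, b1))

theorem Hyp.swapB {D : Dat} {G : Pt × Pt → Prop} {u uh u1 u2 : ℕ} {s s' : ℝ} {a a' b1 b2 : Pt}
    (H : Hyp D G u uh u1 u2 s s' a a' b1 b2) : Hyp D G u uh u1 u2 s s' a a' b2 b1 :=
  ⟨H.ne, H.m12, H.m11, H.m22, H.m21, H.g12, H.g11, H.g22, H.g21, H.part.symm, H.xu.symm, H.x2,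
    H.x1, by rw [H.xu, add_comm]; exact H.bt, by rw [H.xu, H.part]; exact H.z1,
    by rw [H.xu, H.part]; exact H.z2⟩

theorem Hyp.cell {c2 C : ℝ} {m M T : ℕ} {D : Dat} (h : Sys c2 C m M T D) {G : Pt × Pt → Prop}
    {u uh u1 u2 : ℕ} {s s' : ℝ} {a a' b1 b2 : Pt} (H : Hyp D G u uh u1 u2 s s' a a' b1 b2) :
    D.cell a' = D.cell a :=
  (h.mem _ H.m21).2.2.2.1.trans (h.mem _ H.m11).2.2.2.1.symm

theorem Hyp.swapA {c2 C : ℝ} {m M T : ℕ} {D : Dat} (h : Sys c2 C m M T D) {G : Pt × Pt → Prop}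
    {u uh u1 u2 : ℕ} {s s' : ℝ} {a a' b1 b2 : Pt} (H : Hyp D G u uh u1 u2 s s' a a' b1 b2)
    (h1 : u ≤ uh) (h2 : uh ≤ u1) (h3 : u1 ≤ D.κ) : Hyp D G u uh u1 u2 s s' a' a b1 b2 := by
  have e1 := X_congr D (h1.trans h2) h3 H.x1
  have e2 := X_congr D (h1.trans h2) h3 H.x2
  have e3 := X_congr D h2 h3 H.x1
  have e4 := X_congr D h2 h3 H.x2
  exact ⟨H.ne.symm, H.m21, H.m22, H.m11, H.m12, H.g21, H.g22, H.g11, H.g12, H.part,
    by rw [e1, e2, H.xu], H.x1.symm, H.x2.symm, by rw [e1, e3, e4, H.cell h]; exact H.bt,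
    by rw [e1]; exact H.z2, by rw [e1]; exact H.z1⟩

theorem btw_zero (D : Dat) (u : ℕ) (lab : ℕ × ℕ) {x y : ℕ} (h : y ≤ x) : D.btw u lab x y = 0 := by
  unfold Dat.btw
  rw [Ioo_eq_empty_of_le h, sum_empty]

theorem core (hS : StmSide) (hL : StmLL) {c2 C : ℝ} {m M T : ℕ} {D : Dat} (h : Sys c2 C m M T D)
    {u uh u1 u2 u3 i0 : ℕ} (h1 : u ≤ uh) (h2 : uh ≤ u1) (h3 : u1 ≤ u2) (h4 : u2 ≤ u3)
    (h5 : u3 ≤ T) {δ α α3 s' Λ E s : ℝ} {U : ℕ × ℕ → ℕ → Finset ℕ} {nU K J : ℕ} (hδ : 0 ≤ δ)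
    (hα : 0 ≤ α) (hα3 : 0 ≤ α3) (hs : 0 ≤ s)
    (hN : Num (4 * δ + 2 * α3) (s + 2 * δ) (α + 2 * δ) (s' - 2 * δ) Λ E M nU K J i0)
    (hnum : 1 ≤ K ∧ 1 ≤ J ∧ K + 1 ≤ M ∧ J ≤ M) {a a' b1 b2 : Pt}
    (H : Hyp D (D.Gd u uh u1 u2 u3 i0 δ α α3 s' Λ E s U nU) u uh u1 u2 s s' a a' b1 b2)
    (hlt : D.X uh (a, b1) < D.X uh (a, b2)) (hσ : 0 < D.σ * (a'.1 - a.1)) : False := by
  have k2 : u2 ≤ D.κ := h4.trans (h5.trans h.Tle)
  have k1 : u1 ≤ D.κ := h3.trans k2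
  have kh : uh ≤ D.κ := h2.trans k1
  have k0 : u ≤ D.κ := h1.trans kh
  have H' := H.swapA h h1 h2 k1
  have e1 := X_congr D (h1.trans h2) k1 H.x1
  have e3 := X_congr D h2 k1 H.x1
  have e4 := X_congr D h2 k1 H.x2
  have ec := H.cell h
  have hlt' : D.X uh (a', b1) < D.X uh (a', b2) := by
    rw [e3, e4]
    exact hlt
  have b1' := H.bt
  have b2' := H'.bt
  rw [btw_zero D uh _ hlt.le, add_zero] at b1'
  rw [btw_zero D uh _ hlt'.le, add_zero] at b2'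
  have S1 := hS c2 C m M T D h u uh u1 u2 u3 i0 h1 h2 h3 h4 h5 δ α α3 s' Λ E s U nU hδ hα3 hs
    a a' b1 b2 H.m11 H.m12 H.m21 H.g11 H.g12 H.g21 H.part H.xu e1 hlt b1' H.z1
  have S2 := hS c2 C m M T D h u uh u1 u2 u3 i0 h1 h2 h3 h4 h5 δ α α3 s' Λ E s U nU hδ hα3 hs
    a' a b1 b2 H'.m11 H'.m12 H'.m21 H'.g11 H'.g12 H'.g21 H'.part H'.xu e1.symm hlt' b2' H'.z1
  have eB : D.Bp a' (D.part b1) = D.Bp a (D.part b1) := by
    unfold Dat.Bp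
    rw [ec]
  rw [eB, e1, e3, e4, ec] at S2
  obtain ⟨κ, hκ, hhom⟩ := homot h H.m11 H.m21 hσ
  obtain ⟨m1, m2, -, m4, -⟩ := h.mem _ H.m11
  obtain ⟨-, n2, -, n4, -⟩ := h.mem _ H.m12
  have ha' := (h.mem _ H.m21).1
  have htop := top_le h k0 H.m11
  have hcm := cut_mono h.cmono
  have c1 := cut_child h.cmono h1 kh (X_child D h1 kh (a, b1))
  have c2' := cut_child h.cmono h1 kh (X_child D h1 kh (a, b2))
  rw [H.xu] at c2'
  have ne2 := H.g12.ne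
  unfold Dat.nonExc at ne2
  rw [H.xu] at ne2
  have w21 := inW_edge h u1 H.m21
  have w22 := inW_edge h u1 H.m22
  rw [H.x1] at w21
  rw [H.x2] at w22
  refine hL _ _ _ _ _ (slope a a') κ _ _ _ _ _ _ _ _ _ _ _ _ _ M nU K J i0 E _ _ _ _
    ⟨hκ, hhom, ?_, ?_, S1, S2, ?_, ?_, card_image_le.trans H.g11.ucard,
      ⟨c1.1, hcm uh (Nat.lt_succ_self _), (hcm uh).monotone hlt, hcm uh (Nat.lt_succ_self _),
        c2'.2⟩, ⟨?_, ?_⟩, ⟨by positivity, by positivity, by positivity⟩, hnum⟩ hN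
    ⟨⟨b1, mem_filter.2 ⟨m2, m4.symm, rfl⟩, (inW_edge h u1 H.m11).1, (inW_edge h u1 H.m11).2,
        w21.1, w21.2⟩,
      ⟨b2, mem_filter.2 ⟨n2, n4.symm, H.part⟩, (inW_edge h u1 H.m12).1, (inW_edge h u1 H.m12).2,
        w22.1, w22.2⟩,
      cut_child h.cmono h2 k1 (X_child D h2 k1 (a, b1)),
      cut_child h.cmono h2 k1 (X_child D h2 k1 (a, b2)), H.g11.ne, ne2⟩
  · exact h.cgen _ (le_trans (Nat.mul_le_mul_right _ (Nat.le_succ _)) htop) a m1 a' ha' H.ne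
  · exact h.cgen _ htop a m1 a' ha' H.ne
  · intro w hw
    obtain ⟨y, hy, rfl⟩ := mem_image.1 hw
    have := cut_child h.cmono (h1.trans (h2.trans h3)) k2 (H.g11.usub hy)
    exact ⟨this.1, hcm u2 (Nat.lt_succ_self _), this.2⟩
  · intro w hw w' hw' hne
    obtain ⟨y, -, rfl⟩ := mem_image.1 hw
    obtain ⟨y', -, rfl⟩ := mem_image.1 hw'
    rcases lt_trichotomy y y' with hy | hy | hy
    · exact Or.inl ((hcm u2).monotone hy)
    · exact absurd (by rw [hy]) hne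
    · exact Or.inr ((hcm u2).monotone hy)
  · exact mem_image.2 ⟨_, mem_Icc.2 ⟨le_rfl, Nat.mul_le_mul_right _ (Nat.le_succ _)⟩,
      (cut_eq D h1 kh _).symm⟩
  · exact mem_image.2 ⟨_, mem_Icc.2 ⟨Nat.mul_le_mul_right _ (Nat.le_succ _), le_rfl⟩,
      (cut_eq D h1 kh _).symm⟩

end TransAux

open TransAux in
theorem trans (h1 : StmSide) (h2 : StmLL) : StmTrans := by
  intro c2 C m M T D h u uh u1 u2 u3 i0 k1 k2 k3 k4 k5 δ α α3 s' Λ E s U nU K J hδ hα hα3 hs hN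
    n1 n2 n3 n4 a a' b1 b2 hne hm hg hp hx hs' hb z1 z2
  have H : Hyp D (D.Gd u uh u1 u2 u3 i0 δ α α3 s' Λ E s U nU) u uh u1 u2 s s' a a' b1 b2 :=
    ⟨hne, hm.1, hm.2.1, hm.2.2.1, hm.2.2.2, hg.1, hg.2.1, hg.2.2.1, hg.2.2.2, hp, hx.1, hx.2.1,
      hx.2.2, hb, z1, z2⟩
  have kκ : u1 ≤ D.κ := k3.trans (k4.trans (k5.trans h.Tle))
  have main : ∀ b1 b2,
      Hyp D (D.Gd u uh u1 u2 u3 i0 δ α α3 s' Λ E s U nU) u uh u1 u2 s s' a a' b1 b2 →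
      D.X uh (a, b1) < D.X uh (a, b2) → False := by
    intro b1 b2 H hlt
    have hx : a'.1 - a.1 ≠ 0 := sub_ne_zero.2 fun e =>
      hne (h.good.xinj (h.mem _ H.m11).1 (h.mem _ H.m21).1 e.symm)
    have hσ : D.σ ≠ 0 := by rcases h.sgn with s | s <;> rw [s] <;> norm_num
    rcases lt_or_gt_of_ne (mul_ne_zero hσ hx) with h0 | h0
    · refine core h1 h2 h k1 k2 k3 k4 k5 hδ hα hα3 hs hN ⟨n1, n2, n3, n4⟩ (H.swapA h k1 k2 kκ)
        ?_ (by linarith)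
      rw [X_congr D k2 kκ H.x1, X_congr D k2 kκ H.x2]
      exact hlt
    · exact core h1 h2 h k1 k2 k3 k4 k5 hδ hα hα3 hs hN ⟨n1, n2, n3, n4⟩ H hlt h0
  rcases lt_trichotomy (D.X uh (a, b1)) (D.X uh (a, b2)) with hlt | heq | hgt
  · exact main b1 b2 H hlt
  · have hb' := H.bt
    rw [btw_zero D uh _ heq.le, btw_zero D uh _ heq.ge, add_zero] at hb'
    have hpos : 0 < D.nC u (D.cell a) (D.X u (a, b1)) := by
      unfold Dat.nC
      exact Nat.cast_pos.2 (card_pos.2 ⟨(a, b1), mem_filter.2 ⟨hm.1, rfl, rfl⟩⟩)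
    exact absurd hb' (not_le.2 (mul_pos hs' hpos))
  · exact main b2 b1 H.swapB hgt

end Vale.Agent.P065U
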