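import Vale.Agent.P065U.Blocks
import Vale.Agent.P065U.Cell
import Vale.Agent.P065U.Chains
import Vale.Agent.P065U.Cnt1
import Vale.Agent.P065U.Cnt2
import Vale.Agent.P065U.Crowd
import Vale.Agent.P065U.Deep
import Vale.Agent.P065U.Dey
import Vale.Agent.P065U.Ent
import Vale.Agent.P065U.Exc
import Vale.Agent.P065U.Finv
import Vale.Agent.P065U.H
import Vale.Agent.P065U.Halv
import Vale.Agent.P065U.Inv
import Vale.Agent.P065U.KL
import Vale.Agent.P065U.Ksets
import Vale.Agent.P065U.LL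
import Vale.Agent.P065U.LLa
import Vale.Agent.P065U.LLb
import Vale.Agent.P065U.Loc
import Vale.Agent.P065U.NetW
import Vale.Agent.P065U.Orb
import Vale.Agent.P065U.Pack
import Vale.Agent.P065U.Pair
import Vale.Agent.P065U.Pot
import Vale.Agent.P065U.Pre
import Vale.Agent.P065U.Rec
import Vale.Agent.P065U.Reuse
import Vale.Agent.P065U.SF3
import Vale.Agent.P065U.Shear
import Vale.Agent.P065U.Slab
import Vale.Agent.P065U.SysOf
import Vale.Agent.P065U.TR
import Vale.Agent.P065U.Thin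
import Vale.Agent.P065U.Touch
import Vale.Agent.P065U.Trans

/-! P065U: assembly. -/

namespace Vale.Agent.P065U

theorem net_main (hs : StmSide) : ∀ c, 0 < c → ∃ K0, NetBound c K0 := by
  have hcell := cell (stmH pot chains)
  have hloc := loc hcell restrict
  have h1 := sysOf (dey hcell) netW (inv1 (blocks reuse)) finv hloc
    (pre hcell deep (touch (sep pot)) thinL finv hloc) pack
  have htr := tr orb (stmT orb)
  have h2 := sysFalse (ent kl jen) light heavy ratio quant btwL (exc exc0) crowd pair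
    (trans hs (ll (lla htr) (llb htr)))
  intro c hc
  obtain ⟨c2, C, a1, a2, h1⟩ := h1 c hc
  obtain ⟨M, b1, h2⟩ := h2 c2 C a1 a2
  obtain ⟨m, b2, h1⟩ := h1 M b1
  obtain ⟨T, h2⟩ := h2 m b2
  obtain ⟨K0, h1⟩ := h1 T
  refine ⟨K0, fun P τ S K a h hK ha hn => ?_⟩
  by_contra hlt
  obtain ⟨D, hD⟩ := h1 P τ S K a h hK ha hn (not_le.1 hlt)
  exact h2 D hD

theorem change_main (hs : StmSide) :
    ∃ ε C : ℝ, 0 < ε ∧ ε < 1 / 3 ∧ 0 < C ∧ ChangeBound ε C := by
  obtain ⟨c, hc, h⟩ := dey (cell (stmH pot chains))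
  obtain ⟨c', hc', h'⟩ := inv1 (blocks reuse) c hc (netW c 0 h)
  refine recur restrict (inv2 (blocks reuse) c' hc' h' fun x hx => ?_)
  obtain ⟨K0, hK⟩ := net_main hs x hx
  exact ⟨K0, netW x K0 hK⟩

theorem main (hs : StmSide) : ∃ ε C : ℝ, 0 < ε ∧ 0 < C ∧
    (∀ P : Finset (ℝ × ℝ), P065.GenPos P → Even P.card →
      (P065.halvingLines P : ℝ) ≤ C * (P.card : ℝ) ^ (4 / 3 - ε)) ∧
    (∀ (P : Finset (ℝ × ℝ)) (k : ℕ), P065.GenPos P → 1 ≤ k → 2 * k ≤ P.card →
      (P065.kSets P k : ℝ) ≤ C * P.card * ((k : ℝ) + 1) ^ (1 / 3 - ε)) := by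
  obtain ⟨ε, C, h0, h1, h2, h3⟩ := change_main hs
  obtain ⟨C1, h4, h5⟩ := slab ε C h0 h1 h2 h3
  obtain ⟨C2, h6, h7⟩ := ksets ε C1 h0 h1 h4 h5
  refine ⟨ε, C + C2, h0, by linarith, fun P hP he => ?_, fun P k hP hk hk' => ?_⟩
  · obtain ⟨Q, q1, q2, q3, -⟩ := shear P hP
    have := halv ε C h3 Q q1 (q2 ▸ he)
    rw [q2] at this
    have q4 : (P065.halvingLines P : ℝ) ≤ P065.halvingLines Q := by exact_mod_cast q3
    have : 0 ≤ C2 * (P.card : ℝ) ^ (4 / 3 - ε) := by positivity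
    linarith
  · obtain ⟨Q, q1, q2, -, q3⟩ := shear P hP
    have := h7 Q k q1 hk (q2 ▸ hk')
    rw [q2] at this
    have q4 : (P065.kSets P k : ℝ) ≤ P065.kSets Q k := by exact_mod_cast q3 k
    have : 0 ≤ C * P.card * ((k : ℝ) + 1) ^ (1 / 3 - ε) := by positivity
    linarith

end Vale.Agent.P065U
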