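import Vale.Agent.P065U.DefsC

/-! P065U: auxiliary facts for the choice of parameters. -/

namespace Vale.Agent.P065U

open Classical Finset

theorem sf_X {D : Dat} {u u' : ℕ} (h : u ≤ u') (h' : u' ≤ D.κ) (e : Pt × Pt) :
    D.X u e = D.X u' e / 16 ^ (u' - u) := by
  unfold Dat.X blk
  rw [Nat.div_div_eq_div_mul, ← pow_add]
  congr 2
  omega

theorem sf_child {u u' x y : ℕ} : y ∈ child u u' x ↔ y / 16 ^ (u' - u) = x := by
  have : 0 < 16 ^ (u' - u) := by positivity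
  unfold child
  rw [mem_Ico, Nat.div_eq_iff this]
  constructor
  · rintro ⟨a, b⟩
    refine ⟨a, ?_⟩
    rw [add_mul, one_mul] at b
    omega
  · rintro ⟨a, b⟩
    refine ⟨a, ?_⟩
    rw [add_mul, one_mul]
    omega

theorem sf_sum {D : Dat} {u u' : ℕ} (h : u ≤ u') (h' : u' ≤ D.κ) (lab : ℕ × ℕ) (x : ℕ) :
    ∑ y ∈ child u u' x, D.nC u' lab y = D.nC u lab x := by
  unfold Dat.nC
  rw [← Nat.cast_sum, Nat.cast_inj, card_eq_sum_card_fiberwise (f := D.X u') (t := child u u' x)]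
  · refine sum_congr rfl fun y hy => congrArg card ?_
    ext e
    simp only [mem_filter]
    constructor
    · rintro ⟨a, b, c⟩
      exact ⟨⟨a, b, by rw [sf_X h h', c]; exact sf_child.1 hy⟩, c⟩
    · rintro ⟨⟨a, b, -⟩, c⟩
      exact ⟨a, b, c⟩
  · intro e he
    have := (mem_filter.1 (mem_coe.1 he)).2.2
    exact mem_coe.2 (sf_child.2 (by rw [← sf_X h h', this]))

theorem sf_d (D : Dat) {u u' : ℕ} (h : u ≤ u') : D.d u = 2 ^ (u' - u) * D.d u' := by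
  unfold Dat.d Dd
  obtain ⟨k, rfl⟩ := Nat.exists_eq_add_of_le h
  rw [Nat.add_sub_cancel_left, pow_add]
  field_simp

theorem sf_dpos {c2 C m M T D} (h : Sys c2 C m M T D) (u : ℕ) : 0 < D.d u := by
  have : (0 : ℝ) < D.P.card := by exact_mod_cast h.npos
  unfold Dat.d Dd
  positivity

theorem sf_Zpos {c2 C m M T D} (h : Sys c2 C m M T D) : 0 < D.Z := by
  have : (0 : ℝ) < D.P.card := by exact_mod_cast h.npos
  unfold Dat.Z Zz
  positivity

theorem sf_dZ (D : Dat) (u : ℕ) : D.d u * (2 ^ u * D.P.card) = D.Z := by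
  unfold Dat.d Dat.Z Dd Zz
  field_simp

theorem sf_card {c2 C m M T D} (h : Sys c2 C m M T D) : (D.Ω.card : ℝ) ≤ C * D.Z := by
  rw [card_eq_sum_card_fiberwise (f := D.st) (t := range (16 ^ D.κ))
    (fun e he => mem_coe.2 (mem_range.2 (h.mem e (mem_coe.1 he)).2.2.2.2.1)), Nat.cast_sum]
  refine (sum_le_sum fun i _ => h.step i).trans (le_of_eq ?_)
  rw [sum_const, card_range, nsmul_eq_mul]
  unfold Dat.Z Zz
  have e1 : (16 : ℝ) ^ D.κ = 4 ^ D.κ * 4 ^ D.κ := by rw [← mul_pow]; norm_num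
  have e2 : ((8 : ℝ) ^ D.κ) ^ 2 = 4 ^ D.κ * 4 ^ D.κ * 4 ^ D.κ := by
    rw [← mul_pow, ← mul_pow, ← pow_mul, mul_comm D.κ 2, pow_mul]; norm_num
  push_cast
  rw [div_pow, e1, e2]
  field_simp

theorem sf_dT {c2 C m M T D} (h : Sys c2 C m M T D) {u : ℕ} (hu : u ≤ T) : 1 ≤ C * D.d u := by
  have h1 : (0 : ℝ) < D.Ω.card := lt_of_lt_of_le (mul_pos h.c2pos (sf_Zpos h)) h.big
  obtain ⟨e, he⟩ := card_pos.1 (show 0 < D.Ω.card by exact_mod_cast h1)
  have h2 := h.degT e he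
  have h3 : 1 ≤ (D.Ω.filter fun e' => e'.1 = e.1 ∧ D.X T e' = D.X T e).card :=
    card_pos.2 ⟨e, mem_filter.2 ⟨he, rfl, rfl⟩⟩
  have h4 : (1 : ℝ) ≤ C * D.d T := le_trans (by exact_mod_cast h3) h2
  have h5 : D.d T ≤ D.d u := by
    rw [sf_d D hu]
    exact le_mul_of_one_le_left (sf_dpos h T).le (one_le_pow₀ (by norm_num))
  exact h4.trans (mul_le_mul_of_nonneg_left h5 (by linarith [h.Cge]))

theorem sf_or {Ω : Finset (Pt × Pt)} {q r : Pt × Pt → Prop} [DecidablePred q] [DecidablePred r]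
    {x y : ℝ} (h1 : ((Ω.filter q).card : ℝ) ≤ x) (h2 : ((Ω.filter r).card : ℝ) ≤ y) :
    ((Ω.filter fun e => q e ∨ r e).card : ℝ) ≤ x + y := by
  have : (Ω.filter fun e => q e ∨ r e).card ≤ (Ω.filter q).card + (Ω.filter r).card := by
    rw [filter_or]
    exact card_union_le _ _
  have : ((Ω.filter fun e => q e ∨ r e).card : ℝ) ≤ (Ω.filter q).card + (Ω.filter r).card := by
    exact_mod_cast this
  linarith

theorem sf_markov {Ω : Finset (Pt × Pt)} {f g : Pt × Pt → ℝ} {δ B : ℝ} (hδ : 0 < δ)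
    (h : ∑ e ∈ Ω, (f e ^ 2 + g e ^ 2) ≤ B) :
    ((Ω.filter fun e => δ < f e ∨ δ < g e).card : ℝ) ≤ B / δ ^ 2 := by
  rw [le_div_iff₀ (by positivity)]
  refine le_trans ?_ h
  calc _ = ∑ _e ∈ Ω.filter fun e => δ < f e ∨ δ < g e, δ ^ 2 := by
        rw [sum_const, nsmul_eq_mul]
    _ ≤ ∑ e ∈ Ω.filter fun e => δ < f e ∨ δ < g e, (f e ^ 2 + g e ^ 2) := by
        refine sum_le_sum fun e he => ?_
        rcases (mem_filter.1 he).2 with a | a <;> nlinarith [sq_nonneg (f e), sq_nonneg (g e)]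
    _ ≤ _ := sum_le_sum_of_subset_of_nonneg (filter_subset _ _) fun e _ _ => by positivity

/-- heavy children -/
noncomputable def Dat.hv (D : Dat) (u u' : ℕ) (ε : ℝ) (lab : ℕ × ℕ) (x : ℕ) : Finset ℕ :=
  (child u u' x).filter fun y => ε * D.d 0 * D.d u' ≤ D.nC u' lab y

theorem sf_hv {c2 C m M T D} (h : Sys c2 C m M T D) {u u' : ℕ} (hu : u ≤ u') (hT : u' ≤ T)
    {ε G : ℝ} (hε : 0 < ε) (lab : ℕ × ℕ) (x : ℕ) (hG : D.nC u lab x ≤ G * D.d 0 * D.d u) :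
    ((D.hv u u' ε lab x).card : ℝ) ≤ G / ε * 2 ^ (u' - u) := by
  have h1 : ((D.hv u u' ε lab x).card : ℝ) * (ε * D.d 0 * D.d u') ≤ D.nC u lab x := by
    rw [← sf_sum hu (hT.trans h.Tle), ← nsmul_eq_mul, ← sum_const]
    refine le_trans (sum_le_sum fun y hy => (mem_filter.1 hy).2) ?_
    exact sum_le_sum_of_subset_of_nonneg (filter_subset _ _) fun y _ _ => Nat.cast_nonneg _
  have h0 := sf_dpos h 0
  have h2 := sf_dpos h u'
  rw [sf_d D hu] at hG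
  rw [div_mul_eq_mul_div, le_div_iff₀ hε]
  have := h1.trans hG
  have h3 : 0 < D.d 0 * D.d u' := mul_pos h0 h2
  nlinarith

theorem sf_hvmass {c2 C m M T D} (h : Sys c2 C m M T D) {u u' : ℕ} (hu : u ≤ u') (hT : u' ≤ T)
    {ε s : ℝ} (e : Pt × Pt) (hs : ¬ s * D.nCe u e < ∑ x ∈ (child u u' (D.X u e)).filter
      (fun x => D.nC u' (D.cell e.1) x < ε * D.d 0 * D.d u'), D.nC u' (D.cell e.1) x) :
    (1 - s) * D.nCe u e ≤ ∑ x ∈ D.hv u u' ε (D.cell e.1) (D.X u e), D.nC u' (D.cell e.1) x := by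
  have h1 := sf_sum hu (hT.trans h.Tle) (D.cell e.1) (D.X u e)
  rw [← sum_filter_add_sum_filter_not _ (fun y => ε * D.d 0 * D.d u' ≤ D.nC u' (D.cell e.1) y)]
    at h1
  simp only [not_le] at h1
  unfold Dat.hv
  unfold Dat.nCe at hs ⊢
  linarith [not_lt.1 hs]

theorem sf_atoms {c2 C m M T D} (h : Sys c2 C m M T D) {u u' : ℕ} (hu : u ≤ u')
    {ε α G : ℝ} (hα : 0 < α) (hG : G ≤ α * ε * 2 ^ (u' - u)) (e : Pt × Pt)
    (h1 : ¬ D.nCe u e < ε * D.d 0 * D.d u)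
    (h2 : ¬ ∃ x ∈ child u u' (D.X u e), G * D.d 0 * D.d u' ≤ D.nC u' (D.cell e.1) x ∧
      α * D.nCe u e ≤ D.nC u' (D.cell e.1) x) : D.atoms u u' α e := by
  intro x hx
  by_contra hc
  refine h2 ⟨x, hx, ?_, (not_le.1 hc).le⟩
  have h0 := sf_dpos h 0
  have h3 := sf_dpos h u'
  rw [sf_d D hu] at h1
  have h4 : 0 < D.d 0 * D.d u' := mul_pos h0 h3
  have h5 := mul_le_mul_of_nonneg_left (not_lt.1 h1) hα.le
  have h6 := mul_le_mul_of_nonneg_right hG h4.le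
  nlinarith [not_le.1 hc]

end Vale.Agent.P065U
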