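import Vale.Agent.P065U.SF1

/-! P065U: no system exists when the parameters satisfy the numerical conditions. -/

namespace Vale.Agent.P065U

open Classical Finset

/-- good edges with the extra conditions needed to find a pair -/
def Dat.Gd2 (D : Dat) (u uh u1 u2 u3 i0 : ℕ) (δ α α3 s' Λ E s ε2 ε3 nU1 z0 : ℝ) (nU : ℕ)
    (e : Pt × Pt) : Prop :=
  D.Gd u uh u1 u2 u3 i0 δ α α3 s' Λ E s (D.hv u u2 ε2) nU e ∧
    D.X u1 e ∈ D.hv u u1 ε3 (D.cell e.1) (D.X u e) ∧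
    ((D.hv u u1 ε3 (D.cell e.1) (D.X u e)).card : ℝ) ≤ nU1 ∧
    ((D.Zs u u2 s e.1 (D.part e.2) (D.X u e)).card : ℝ) ≤ z0

theorem sf_bad (hL : StmLight) (hH : StmHeavy) (hR : StmRatio) (hQ : StmQuant)
    (hX : StmExc) (hC : StmCrowd) {c2 C : ℝ} {m M T : ℕ} {D : Dat} (h : Sys c2 C m M T D)
    {u uh u1 u2 u3 r1 r3 r4 r6 i0 nU : ℕ} {ω δ α α3 s' Λ E s ε1 ε2 ε3 βh β3 βu βc Λ2 : ℝ}
    (huh : uh = u + r1) (hu1 : u1 = u + r1 + r3) (hu2 : u2 = u + r1 + r3 + r4)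
    (hu3 : u3 = u + (r1 + r3 + r4 + r6)) (hu : u3 ≤ T) (hα : 0 < α) (hα3 : 0 < α3)
    (hs' : 0 < s') (hΛ : 0 < Λ) (hE0 : 0 < E) (hs : 0 < s) (hε1 : 0 < ε1)
    (hε2 : 0 < ε2) (hε3 : 0 < ε3) (hβh : 0 < βh ∧ βh ≤ 1)
    (hβ3 : 0 < β3 ∧ β3 ≤ 1) (hβu : 0 < βu ∧ βu ≤ 1) (hβc : 0 < βc ∧ βc ≤ 1) (hΛ2 : 0 < Λ2)
    (B1 : ((D.Ω.filter fun e => δ < D.dist1 u u3 e ∨ δ < D.dist2 u u3 e).card : ℝ) ≤ ω * D.Z)
    (b2 : C / Λ ≤ ω)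
    (b3 : C * ε1 ≤ ω) (b4 : 2 * βh / α ≤ ω) (b4' : 2 * C * (C / βh ^ 5) ≤ α * ε1 * 2 ^ r1)
    (b5 : 2 * β3 / α3 ≤ ω) (b5' : 2 * C * (C / β3 ^ 5) ≤ α3 * ε1 * 2 ^ (r1 + r3 + r4 + r6))
    (b6 : C * ε2 / s ≤ ω) (b7 : 2 * βu ≤ ω)
    (b7' : 2 * C * (C / βu ^ 5) / ε2 * 2 ^ (r1 + r3 + r4) ≤ nU)
    (b8 : 2 * (s' + α) * C ≤ ω) (b9 : C * (E * (1 + 2 * (16 ^ r1 + 1 + i0 + 1))) / 16 ^ r3 ≤ ω)
    (b10 : C * ε3 ≤ ω) (b11 : 2 / s * (C * (C / βc ^ 5) / Λ2 + βc) ≤ ω) :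
    ((D.Ω.filter fun e => ¬ D.Gd2 u uh u1 u2 u3 i0 δ α α3 s' Λ E s ε2 ε3
      (2 * C * (C / βu ^ 5) / ε3 * 2 ^ (r1 + r3)) (2 * Λ2 * D.d u2 / s) nU e).card : ℝ) ≤
      11 * ω * D.Z := by
  have hZ := sf_Zpos h
  have hC1 := h.Cge
  have hcard := sf_card h
  have e1 : uh - u = r1 := by omega
  have e2 : u1 - uh = r3 := by omega
  have e3 : u1 - u = r1 + r3 := by omega
  have e4 : u2 - u = r1 + r3 + r4 := by omega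
  have e5 : u3 - u = r1 + r3 + r4 + r6 := by omega
  have mz : ∀ {x y : ℝ}, x ≤ ω → y ≤ x * D.Z → y ≤ ω * D.Z := fun a b =>
    b.trans (mul_le_mul_of_nonneg_right a hZ.le)
  have B2 := mz b2 ((hR c2 C m M T D h u (by omega) Λ hΛ).trans (le_of_eq (by ring)))
  have B3 := mz b3 (hL c2 C m M T D h u u le_rfl (by omega) ε1 s hε1.le hs).1
  have B4 := mz b4 ((hH c2 C m M T D h u uh (by omega) (by omega) βh α hβh.1 hβh.2 hα).trans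
    (le_of_eq (by ring)))
  have B5 := mz b5 ((hH c2 C m M T D h u u3 (by omega) (by omega) β3 α3 hβ3.1 hβ3.2 hα3).trans
    (le_of_eq (by ring)))
  have B6 := mz b6 ((hL c2 C m M T D h u u2 (by omega) (by omega) ε2 s hε2.le hs).2.trans
    (le_of_eq (by ring)))
  have B7 := mz b7 ((hH c2 C m M T D h u u le_rfl (by omega) βu 1 hβu.1 hβu.2 one_pos).trans
    (le_of_eq (by ring)))
  have B8 := mz b8 ((hQ c2 C m M T D h u uh (by omega) (by omega) s' α hs'.le hα.le).trans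
    (show _ ≤ _ by
      rw [mul_assoc (2 * (s' + α))]
      exact mul_le_mul_of_nonneg_left hcard (by positivity)))
  have B9 := mz b9 ((hX c2 C m M T D h u uh u1 i0 (by omega) (by omega) (by omega) E hE0).trans
    (le_of_eq (by rw [e1, e2]; ring)))
  have B10 := mz b10 (hL c2 C m M T D h u1 u1 le_rfl (by omega) ε3 s hε3.le hs).1
  have B11 := mz b11 (hC c2 C m M T D h u u2 (by omega) (by omega) βc Λ2 s hβc.1 hβc.2 hΛ2 hs)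
  have BB := sf_or B1 (sf_or B2 (sf_or B3
    (sf_or B4 (sf_or B5 (sf_or B6
    (sf_or B7 (sf_or B8 (sf_or B9
    (sf_or B10 B11)))))))))
  refine le_trans (Nat.cast_le.2 (card_le_card fun e he => ?_)) (BB.trans (le_of_eq (by ring)))
  rw [mem_filter] at he ⊢
  refine ⟨he.1, ?_⟩
  by_contra hc
  simp only [not_or] at hc
  obtain ⟨⟨c1, c1'⟩, c2', c3, c4, c5, c6, c7, c8, c9, c10, c11⟩ := hc
  have hup : D.nC u (D.cell e.1) (D.X u e) ≤ 2 * C * (C / βu ^ 5) * D.d 0 * D.d u := by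
    by_contra hc
    exact c7 ⟨D.X u e, sf_child.2 (by simp), (not_le.1 hc).le, by simp [Dat.nCe]⟩
  have a1 : D.atoms u uh α e := sf_atoms h (by omega) hα (by rw [e1]; exact b4') e c3 c4
  refine he.2 ⟨⟨not_lt.1 c1, not_lt.1 c1', not_lt.1 c2', a1,
    sf_atoms h (by omega) hα3 (by rw [e5]; exact b5') e c3 c5, filter_subset _ _, ?_,
    sf_hvmass h (by omega) (by omega) e c6, ?_, ?_, not_not.1 c9⟩, ?_, ?_, not_lt.1 c11⟩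
  · have := sf_hv h (u := u) (u' := u2) (by omega) (by omega) hε2 _ _ hup
    rw [e4] at this
    exact_mod_cast this.trans b7'
  · exact not_lt.1 fun a => c8 ⟨a1, Or.inl a⟩
  · exact not_lt.1 fun a => c8 ⟨a1, Or.inr a⟩
  · exact mem_filter.2 ⟨sf_child.2 (sf_X (by omega) (by have := h.Tle; omega) e).symm,
      not_lt.1 c10⟩
  · have := sf_hv h (u := u) (u' := u1) (by omega) (by omega) hε3 _ _ hup
    rwa [e3] at this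

theorem sf_main (hE : StmEnt) (hL : StmLight) (hH : StmHeavy) (hR : StmRatio) (hQ : StmQuant)
    (hB : StmBtw) (hX : StmExc) (hC : StmCrowd) (hP : StmPair) (hT : StmTrans)
    {c2 C : ℝ} {m M T : ℕ} {D : Dat} (h : Sys c2 C m M T D)
    {r1 r3 r4 r6 n i0 nU K J : ℕ} {ω δ α α3 s' Λ E s ε ε1 ε2 ε3 β βh β3 βu βc Λ2 : ℝ}
    (hn : 1 ≤ n) (hTn : (r1 + r3 + r4 + r6) * n ≤ T) (hδ : 0 < δ) (hα : 0 < α) (hα3 : 0 < α3)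
    (hs' : 0 < s') (hΛ : 0 < Λ) (hE0 : 0 < E) (hs : 0 < s) (hε : 0 < ε) (hε1 : 0 < ε1)
    (hε2 : 0 < ε2) (hε3 : 0 < ε3) (hβ : 0 < β ∧ β ≤ 1) (hβh : 0 < βh ∧ βh ≤ 1)
    (hβ3 : 0 < β3 ∧ β3 ≤ 1) (hβu : 0 < βu ∧ βu ≤ 1) (hβc : 0 < βc ∧ βc ≤ 1) (hΛ2 : 0 < Λ2)
    (hlog : 0 ≤ Real.log (C ^ 5 * m / c2 ^ 3))
    (b1 : 4 * C * Real.log (C ^ 5 * m / c2 ^ 3) / n / δ ^ 2 ≤ ω) (b2 : C / Λ ≤ ω)
    (b3 : C * ε1 ≤ ω) (b4 : 2 * βh / α ≤ ω) (b4' : 2 * C * (C / βh ^ 5) ≤ α * ε1 * 2 ^ r1)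
    (b5 : 2 * β3 / α3 ≤ ω) (b5' : 2 * C * (C / β3 ^ 5) ≤ α3 * ε1 * 2 ^ (r1 + r3 + r4 + r6))
    (b6 : C * ε2 / s ≤ ω) (b7 : 2 * βu ≤ ω)
    (b7' : 2 * C * (C / βu ^ 5) / ε2 * 2 ^ (r1 + r3 + r4) ≤ nU)
    (b8 : 2 * (s' + α) * C ≤ ω) (b9 : C * (E * (1 + 2 * (16 ^ r1 + 1 + i0 + 1))) / 16 ^ r3 ≤ ω)
    (b10 : C * ε3 ≤ ω) (b11 : 2 / s * (C * (C / βc ^ 5) / Λ2 + βc) ≤ ω)
    (b12 : 2 * s' + 3 * α + δ ≤ 1 / 8)
    (b13 : (4 * Λ2 / s + C) * (2 * C * (C / βu ^ 5) / ε3 * 2 ^ (r1 + r3)) ^ 2 * C / ε ≤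
      c2 / 8 * 2 ^ (r1 + r3 + r4))
    (b14 : 3 * β + 2 * (11 * ω) + 2 * ε * C * (C / β ^ 5) ≤ 3 * c2 / 8)
    (hnum : Num (4 * δ + 2 * α3) (s + 2 * δ) (α + 2 * δ) (s' - 2 * δ) Λ E M nU K J i0)
    (hK : 1 ≤ K) (hJ : 1 ≤ J) (hKM : K + 1 ≤ M) (hJM : J ≤ M) : False := by
  obtain ⟨u, hu, hent⟩ := hE c2 C m M T D h _ n hn hTn
  have hZ := sf_Zpos h
  have hC1 := h.Cge
  have hcard := sf_card h
  obtain ⟨uh, huh⟩ : ∃ uh, uh = u + r1 := ⟨_, rfl⟩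
  obtain ⟨u1, hu1⟩ : ∃ u1, u1 = u + r1 + r3 := ⟨_, rfl⟩
  obtain ⟨u2, hu2⟩ : ∃ u2, u2 = u + r1 + r3 + r4 := ⟨_, rfl⟩
  obtain ⟨u3, hu3⟩ : ∃ u3, u3 = u + (r1 + r3 + r4 + r6) := ⟨_, rfl⟩
  rw [← hu3] at hu hent
  have e4 : u2 - u = r1 + r3 + r4 := by omega
  have mz : ∀ {x y : ℝ}, x ≤ ω → y ≤ x * D.Z → y ≤ ω * D.Z := fun a b =>
    b.trans (mul_le_mul_of_nonneg_right a hZ.le)
  have B1 := mz b1 ((sf_markov hδ hent).trans (show _ ≤ _ by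
    have : (0 : ℝ) < n := by exact_mod_cast hn
    rw [show 4 * C * Real.log (C ^ 5 * m / c2 ^ 3) / n / δ ^ 2 * D.Z =
      4 * (C * D.Z) * Real.log (C ^ 5 * m / c2 ^ 3) / n / δ ^ 2 by ring]
    gcongr))
  have hbad := sf_bad hL hH hR hQ hX hC h huh hu1 hu2 hu3 hu hα hα3 hs' hΛ hE0 hs hε1 hε2 hε3 hβh
    hβ3 hβu hβc hΛ2 B1 b2 b3 b4 b4' b5 b5' b6 b7 b7' b8 b9 b10 b11
  obtain ⟨z0, hz0⟩ : ∃ z0, z0 = 2 * Λ2 * D.d u2 / s := ⟨_, rfl⟩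
  obtain ⟨nU1, hnU1⟩ : ∃ x, x = 2 * C * (C / βu ^ 5) / ε3 * 2 ^ (r1 + r3) := ⟨_, rfl⟩
  rw [← hz0, ← hnU1] at hbad
  rw [← hnU1] at b13
  have hd2 := sf_dpos h u2
  obtain ⟨a, a', p, q, hne, hmem, hg, hpart, hXX, hbc, z1, z2⟩ := hP c2 C m M T D h u u1 (by omega)
    (by omega) β ε nU1 z0 (11 * ω) (1 / 8) _
    (fun e e' => D.btw uh (D.cell e.1) (D.X uh e) (D.X uh e') +
      D.btw uh (D.cell e.1) (D.X uh e') (D.X uh e) < s' * D.nCe u e)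
    (D.hv u u1 ε3) (D.Zs u u2 s) hβ.1 hβ.2 hε (by rw [hz0]; positivity) (by norm_num) hbad
    (fun e he hg => ⟨hg.2.1, hg.2.2.1, hg.2.2.2, (hB c2 C m M T D h u uh u3 (by omega) (by omega)
      (by omega) s' α δ hs'.le hα.le e he hg.1.ah hg.1.d2).trans
      (mul_le_mul_of_nonneg_right b12 (Nat.cast_nonneg _))⟩) (by
      have t1 : 2 * z0 + 1 ≤ (4 * Λ2 / s + C) * D.d u2 := by
        have := sf_dT h (u := u2) (by omega)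
        rw [hz0]
        have e : 2 * (2 * Λ2 * D.d u2 / s) = 4 * Λ2 / s * D.d u2 := by ring
        linarith [add_mul (4 * Λ2 / s) C (D.d u2)]
      have t2 : D.d u2 * (2 ^ u * D.P.card) * 2 ^ (r1 + r3 + r4) = D.Z := by
        rw [← sf_dZ D u, sf_d D (show u ≤ u2 by omega), e4]
        ring
      have t3 : (2 * z0 + 1) * nU1 ^ 2 * (C * 2 ^ u * D.P.card) / ε ≤ c2 / 8 * D.Z := by
        calc _ ≤ ((4 * Λ2 / s + C) * D.d u2) * nU1 ^ 2 * (C * 2 ^ u * D.P.card) / ε := by gcongr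
          _ = (4 * Λ2 / s + C) * nU1 ^ 2 * C / ε * (D.d u2 * (2 ^ u * D.P.card)) := by ring
          _ ≤ c2 / 8 * 2 ^ (r1 + r3 + r4) * (D.d u2 * (2 ^ u * D.P.card)) := by gcongr
          _ = _ := by rw [← t2]; ring
      have t4 := mul_le_mul_of_nonneg_right b14 hZ.le
      have t5 := h.big
      have t6 := mul_pos h.c2pos hZ
      linarith)
  exact hT c2 C m M T D h u uh u1 u2 u3 i0 (by omega) (by omega) (by omega) (by omega) (by omega)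
    δ α α3 s' Λ E s (D.hv u u2 ε2) nU K J hδ.le hα.le hα3.le hs.le hnum hK hJ hKM hJM a a' p q hne
    hmem ⟨hg.1.1, hg.2.1.1, hg.2.2.1.1, hg.2.2.2.1⟩ hpart hXX hs' (not_lt.1 hbc) z1 z2

end Vale.Agent.P065U
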