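import Vale.Agent.P065U.SideAux

/-! P065U: the hypotheses of the local lemma for one point. -/

namespace Vale.Agent.P065U

open Classical Finset SideAux

theorem side : StmSide := by
  intro c2 C m M T D h u uh u1 u2 u3 i0 h1 h2 h3 h4 h5 δ α α3 s' Λ E s U nU hδ hα3 hs a a' b1 b2
    e1 e2 e3 g1 g2 g3 hp hx2 hx3 hlt hbtw hZ
  have k3 : u3 ≤ D.κ := h5.trans h.Tle
  have k2 : u2 ≤ D.κ := h4.trans k3
  have hh3 : uh ≤ u3 := (h2.trans h3).trans h4
  have kh : uh ≤ D.κ := hh3.trans k3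
  have hu2 : u ≤ u2 := (h1.trans h2).trans h3
  have hu3 : u ≤ u3 := hu2.trans h4
  have hcell : D.cell a' = D.cell a :=
    (h.mem _ e3).2.2.2.1.trans (h.mem _ e1).2.2.2.1.symm
  have hBp : D.Bp a' (D.part b1) = D.Bp a (D.part b1) := by
    unfold Dat.Bp
    rw [hcell]
  have hQ : cnt (D.Bp a (D.part b1)) (slope a)
      (Set.Ioo (D.cut u (D.X u (a, b1))) (D.cut u (D.X u (a, b1) + 1))) = D.qAe u (a, b1) := by
    unfold cnt Dat.qAe Dat.qA
    congr
  have hQ' : cnt (D.Bp a (D.part b1)) (slope a')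
      (Set.Ioo (D.cut u (D.X u (a, b1))) (D.cut u (D.X u (a, b1) + 1))) = D.qAe u (a', b1) := by
    unfold cnt Dat.qAe Dat.qA
    rw [hx3, hBp]
    congr
  have hn2 : D.nCe u (a, b2) = D.nCe u (a, b1) := by
    unfold Dat.nCe
    rw [hx2]
  have hn3 : D.nCe u (a', b1) = D.nCe u (a, b1) := by
    unfold Dat.nCe
    rw [hx3, hcell]
  have hkey : ∀ e ∈ D.keye u (a, b1), e ∈ D.Ω ∧ e.1 = a ∧ D.part e.2 = D.part b1 ∧
      D.X u e = D.X u (a, b1) := fun e he => mem_filter.1 he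
  have hinj : Set.InjOn Prod.snd (D.keye u (a, b1) : Set (Pt × Pt)) := fun e he e' he' hee =>
    Prod.ext ((hkey e he).2.1.trans (hkey e' he').2.1.symm) hee
  have hN : (((D.keye u (a, b1)).image Prod.snd).card : ℝ) = D.nAe u (a, b1) := by
    rw [card_image_of_injOn hinj]
    rfl
  have hNpos : 0 < ((D.keye u (a, b1)).image Prod.snd).card :=
    card_pos.2 ⟨b1, mem_image.2 ⟨(a, b1), mem_filter.2 ⟨e1, rfl, rfl, rfl⟩, rfl⟩⟩
  have x1 : D.X uh (a, b1) ∈ child u uh (D.X u (a, b1)) := (X_child h1 kh).2 rfl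
  have x2 : D.X uh (a, b2) ∈ child u uh (D.X u (a, b1)) := (X_child h1 kh).2 hx2
  have cm := cut_mono h uh
  have hcuts : ∀ x ∈ child u uh (D.X u (a, b1)), D.cut uh x ∈ D.cuts u uh (D.X u (a, b1)) ∧
      D.cut uh (x + 1) ∈ D.cuts u uh (D.X u (a, b1)) := fun x hx => by
    have := mem_Ico.1 hx
    exact ⟨mem_image.2 ⟨x, mem_Icc.2 ⟨this.1, this.2.le⟩, rfl⟩,
      mem_image.2 ⟨x + 1, mem_Icc.2 ⟨this.1.trans (Nat.le_succ _), this.2⟩, rfl⟩⟩
  constructor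
  · -- noend
    intro b hb
    refine ⟨noend h e1 le_rfl (hu3.trans k3) (by simp) hb,
      noend h e1 le_rfl (hu3.trans k3) (by simp) hb, fun w hw => ?_⟩
    obtain ⟨x, hx, rfl⟩ := mem_image.1 hw
    have := (mem_Ico.1 (g1.usub hx)).2
    exact ⟨noend h e1 hu2 k2 this.le hb, noend h e1 hu2 k2 this hb⟩
  · rw [hQ]
    exact q_pos h e1
  · -- close
    intro x y hx hy
    rw [hQ, hQ']
    have a1 := up h e1 hu3 le_rfl k3 g1.d1 g1.d2 (I := Set.Icc x y)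
      (Y := (child u u3 (D.X u (a, b1))).filter (fun i => x ≤ D.cut u3 i ∧ D.cut u3 (i + 1) ≤ y) ∪
        ((child u u3 (D.X u (a, b1))).filter (fun i => D.cut u3 i < x ∧ x < D.cut u3 (i + 1)) ∪
        (child u u3 (D.X u (a, b1))).filter (fun i => D.cut u3 i < y ∧ y < D.cut u3 (i + 1))))
      (fun z hz => ⟨hx.trans hz.1, hz.2.trans hy⟩) (fun i hi z hz j1 j2 => by
        simp only [mem_union, mem_filter]
        rcases lt_or_ge (D.cut u3 i) x with c1 | c1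
        · exact Or.inr (Or.inl ⟨hi, c1, hz.1.trans_lt j2⟩)
        rcases lt_or_ge y (D.cut u3 (i + 1)) with c3 | c3
        · exact Or.inr (Or.inr ⟨hi, j1.trans_le hz.2, c3⟩)
        · exact Or.inl ⟨hi, c1, c3⟩)
    have a2 := low h e3 hu3 le_rfl k3 g3.d1 g3.d2 (I := Set.Icc x y)
      (Y := (child u u3 (D.X u (a, b1))).filter (fun i => x ≤ D.cut u3 i ∧ D.cut u3 (i + 1) ≤ y))
      (by rw [hx3]; exact filter_subset _ _) (fun i hi z j1 j2 =>
        ⟨(mem_filter.1 hi).2.1.trans j1.le, j2.le.trans (mem_filter.1 hi).2.2⟩)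
    have a3 := one h e1 hα3 g1.a3 x
    have a4 := one h e1 hα3 g1.a3 y
    have a5 := (sum_union_le (nC_nonneg (D := D) (v := u3) (D.cell a))
      (s := (child u u3 (D.X u (a, b1))).filter
        (fun i => x ≤ D.cut u3 i ∧ D.cut u3 (i + 1) ≤ y))).trans (add_le_add le_rfl
      ((sum_union_le (nC_nonneg (D := D) (v := u3) (D.cell a))).trans (add_le_add a3 a4)))
    have a6 := div_le_div_of_nonneg_right a5 (n_pos (u := u) e1).le
    rw [add_div, ← add_mul, mul_div_assoc, div_self (n_pos e1).ne', mul_one] at a6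
    dsimp only at a1 a2
    rw [hn3, hBp, hcell] at a2
    linarith
  · -- cover
    rw [hQ]
    refine up' h e1 hu2 h4 k3 g1.d1 g1.d2
      (Y := child u u2 (D.X u (a, b1)) \ U (D.cell a) (D.X u (a, b1)))
      (fun z hz => ⟨hz.1.1.le, hz.1.2.le⟩) (fun i hi z hz j1 j2 => mem_sdiff.2 ⟨hi, fun hU =>
        hz.2 ⟨_, mem_image.2 ⟨i, hU, rfl⟩, j1, j2⟩⟩) ?_
    have a1 := sum_sdiff (f := D.nC u2 (D.cell a)) g1.usub
    have a2 := g1.umass
    rw [sum_child hu2 k2] at a1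
    have a3 : D.nC u (D.cell a) (D.X u (a, b1)) = D.nCe u (a, b1) := rfl
    dsimp only at a1 a2 ⊢
    linarith
  · -- atomU
    intro w hw
    obtain ⟨x, hx, rfl⟩ := mem_image.1 hw
    rw [hQ]
    have sw := subwin h (h2.trans h3) k2 (mem_child.2 (rfl : x / 16 ^ (u2 - uh) = _))
    exact atom h e1 h1 hh3 k3 g1.d1 g1.d2 g1.ah ((child_div h1 (h2.trans h3)).2 (g1.usub hx))
      fun z hz => ⟨sw.1.trans hz.1.le, hz.2.le.trans sw.2⟩
  · -- sub
    intro b hb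
    obtain ⟨e, he, rfl⟩ := mem_image.1 hb
    obtain ⟨j1, j2, j3, -⟩ := hkey e he
    obtain ⟨-, m2, -, m4, -⟩ := h.mem e j1
    exact mem_filter.2 ⟨m2, by rw [← m4, j2], j3⟩
  · exact hNpos
  · rw [hQ, hN]
    exact g1.ratio
  · -- law
    intro U' hU'
    rw [hQ, hN]
    have a1 := cnt_le h e1 hu2 h4 k3 (I := uni U')
      (Y := (child u u2 (D.X u (a, b1))).filter fun x => ∀ y, D.cut u2 x < y →
        y < D.cut u2 (x + 1) → y ∈ uni U') (fun y hy => by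
        obtain ⟨w, hw, j1, j2⟩ := hy
        obtain ⟨x, hx, rfl⟩ := mem_image.1 (hU' hw)
        have sw := subwin h hu2 k2 (g1.usub hx)
        exact ⟨sw.1.trans j1.le, j2.le.trans sw.2⟩) (fun x hx y hy j1 j2 => by
        obtain ⟨w, hw, j3, j4⟩ := hy
        obtain ⟨x', -, rfl⟩ := mem_image.1 (hU' hw)
        have := uniq (cut_mono h u2) j1 j2 j3.le j4.le
        subst this
        exact mem_filter.2 ⟨hx, fun z z1 z2 => ⟨_, hw, z1, z2⟩⟩)
    generalize hY : ref u u2 u3 (D.X u (a, b1)) ((child u u2 (D.X u (a, b1))).filter fun x =>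
      ∀ y, D.cut u2 x < y → y < D.cut u2 (x + 1) → y ∈ uni U') = Y at a1
    have a2 := abs_le.1 (tv (Y := Y) (by rw [← hY]; exact filter_subset _ _) _ _ _ _ g1.d1)
    have a3 : ∑ x ∈ Y, D.nA u3 a (D.part b1) x ≤
        cnt ((D.keye u (a, b1)).image Prod.snd) (slope a) (uni U') := by
      rw [sumA]
      refine Nat.cast_le.2 (card_le_card_of_injOn Prod.snd (fun e he => ?_) fun e he e' he' hee =>
        Prod.ext ((mem_filter.1 he).2.1.1.trans (mem_filter.1 he').2.1.1.symm) hee)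
      obtain ⟨l1, ⟨l2, l3⟩, l4⟩ := mem_filter.1 he
      rw [← hY] at l4
      obtain ⟨l5, l6⟩ := mem_filter.1 l4
      rw [← X_div h4 k3] at l6
      have l7 := edge_win h l1 u2
      rw [l2] at l7
      exact mem_filter.2 ⟨mem_image.2 ⟨e, mem_filter.2 ⟨l1, l2, l3, (X_child hu3 k3).1 l5⟩, rfl⟩,
        (mem_filter.1 l6).2 _ l7.1 l7.2⟩
    have a4 := div_le_div_of_nonneg_right a1 (q_pos (u := u) h e1).le
    have a5 := div_le_div_of_nonneg_right (c := D.nAe u (a, b1)) a3 (Nat.cast_nonneg _)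
    dsimp only at a2 a4
    linarith [a2.1]
  · -- link
    rw [hN]
    have a1 : D.lk u u2 a (D.part b1) (D.X u (a, b1)) a' ≤ s * D.nAe u (a, b1) :=
      not_lt.1 fun hc => hZ (mem_filter.2 ⟨(h.mem _ e3).1, hcell, hc⟩)
    have a2 : s * D.nAe u (a, b1) ≤ (s + 2 * δ) * D.nAe u (a, b1) :=
      mul_le_mul_of_nonneg_right (by linarith) (Nat.cast_nonneg _)
    refine le_trans ?_ (a1.trans a2)
    refine Nat.cast_le.2 (le_trans (card_le_card fun b hb => ?_) (card_image_le (f := Prod.snd)))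
    obtain ⟨hb, w, hw, j1, j2, j3, j4⟩ := mem_filter.1 hb
    obtain ⟨e, he, rfl⟩ := mem_image.1 hb
    obtain ⟨x, -, rfl⟩ := mem_image.1 hw
    obtain ⟨l1, l2, -⟩ := hkey e he
    have l3 := edge_win h l1 u2
    rw [l2] at l3
    have l4 := uniq (cut_mono h u2) l3.1 l3.2 j1.le j2.le
    exact mem_image.2 ⟨e, mem_filter.2 ⟨he, by rw [l4]; exact ⟨j3, j4⟩⟩, rfl⟩
  · -- m0
    rw [hQ]
    refine low' h e1 h1 hh3 k3 g1.d1 g1.d2 (filter_subset _ _) (fun x hx y j1 j2 => ?_) g1.lft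
    obtain ⟨l1, l2⟩ := mem_filter.1 hx
    exact ⟨(subwin h h1 kh l1).1.trans_lt j1, j2.trans_le (cm.monotone l2)⟩
  · -- m1
    rw [hQ]
    refine low' h e1 h1 hh3 k3 g1.d1 g1.d2 (Y := Ioo (D.X uh (a, b1)) (D.X uh (a, b2)))
      (fun x hx => ?_) (fun x hx y j1 j2 => ?_) hbtw
    · have l1 := mem_Ioo.1 hx
      exact mem_Ico.2 ⟨(mem_Ico.1 x1).1.trans l1.1.le, l1.2.trans (mem_Ico.1 x2).2⟩
    · have l1 := mem_Ioo.1 hx
      exact ⟨(cm.monotone l1.1).trans_lt j1, j2.trans_le (cm.monotone l1.2)⟩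
  · -- m2
    rw [hQ]
    have l0 := g2.rgt
    unfold Dat.rgt at l0
    rw [hn2, hx2] at l0
    refine low' h e1 h1 hh3 k3 g1.d1 g1.d2 (filter_subset _ _) (fun x hx y j1 j2 => ?_) l0
    obtain ⟨l1, l2⟩ := mem_filter.1 hx
    exact ⟨(cm.monotone l2).trans_lt j1, j2.trans_le (subwin h h1 kh l1).2⟩
  · -- cutR
    intro y y0 y1
    obtain ⟨x, hx, j1, j2⟩ := locate_child h1 kh y0 y1
    refine ⟨_, (hcuts x hx).2, j2, (subwin h h1 kh hx).2, ?_⟩
    rw [hQ]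
    exact atom h e1 h1 hh3 k3 g1.d1 g1.d2 g1.ah hx fun z hz => ⟨j1.trans hz.1, hz.2⟩
  · -- cutL
    intro y y0 y1
    obtain ⟨x, hx, j1, j2⟩ := locate_child h1 kh y0 y1
    refine ⟨_, (hcuts x hx).1, j1, (subwin h h1 kh hx).1, ?_⟩
    rw [hQ]
    exact atom h e1 h1 hh3 k3 g1.d1 g1.d2 g1.ah hx fun z hz => ⟨hz.1, hz.2.trans j2⟩
  · rw [hQ]
    exact atom h e1 h1 hh3 k3 g1.d1 g1.d2 g1.ah x1 fun z hz => hz
  · rw [hQ]
    exact atom h e1 h1 hh3 k3 g1.d1 g1.d2 g1.ah x2 fun z hz => hz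

end Vale.Agent.P065U
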