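import Vale.Agent.P065U.DefsC

/-! P065U: comparison of the slope counts with the cell measure (auxiliary lemmas for `side`). -/

namespace Vale.Agent.P065U.SideAux

open Classical Finset

variable {c2 C : ℝ} {m M T : ℕ} {D : Dat} {u v w : ℕ}

theorem X_div (hu : u ≤ v) (hv : v ≤ D.κ) (e : Pt × Pt) : D.X u e = D.X v e / 16 ^ (v - u) := by
  unfold Dat.X blk
  rw [Nat.div_div_eq_div_mul, ← pow_add]
  congr 2
  omega

theorem cut_mul (hu : u ≤ v) (hv : v ≤ D.κ) (x : ℕ) :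
    D.cut u x = D.cut v (x * 16 ^ (v - u)) := by
  unfold Dat.cut
  rw [mul_assoc, ← pow_add]
  congr 3
  omega

theorem cut_mono (h : Sys c2 C m M T D) (v : ℕ) : StrictMono (D.cut v) := fun _ _ hxy =>
  h.cmono ((Nat.mul_lt_mul_right (by positivity)).2 hxy)

theorem mem_child {x y : ℕ} : x ∈ child u v y ↔ x / 16 ^ (v - u) = y := by
  unfold child
  rw [mem_Ico]
  constructor
  · rintro ⟨h1, h2⟩
    exact Nat.div_eq_of_lt_le h1 h2
  · rintro rfl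
    exact ⟨Nat.div_mul_le_self _ _, (Nat.div_lt_iff_lt_mul (by positivity)).1 (Nat.lt_succ_self _)⟩

theorem child_div (hu : u ≤ v) (hv : v ≤ w) {x y : ℕ} :
    x / 16 ^ (w - v) ∈ child u v y ↔ x ∈ child u w y := by
  rw [mem_child, mem_child, Nat.div_div_eq_div_mul, ← pow_add, show w - v + (v - u) = w - u by omega]

theorem X_child (hu : u ≤ v) (hv : v ≤ D.κ) {e : Pt × Pt} {y : ℕ} :
    D.X v e ∈ child u v y ↔ D.X u e = y := by
  rw [mem_child, ← X_div hu hv]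

theorem subwin (h : Sys c2 C m M T D) (hu : u ≤ v) (hv : v ≤ D.κ) {x y : ℕ}
    (hx : x ∈ child u v y) : D.cut u y ≤ D.cut v x ∧ D.cut v (x + 1) ≤ D.cut u (y + 1) := by
  rw [cut_mul hu hv, cut_mul hu hv (y + 1)]
  have := mem_Ico.1 hx
  exact ⟨(cut_mono h v).monotone this.1, (cut_mono h v).monotone this.2⟩

theorem edge_win (h : Sys c2 C m M T D) {e : Pt × Pt} (he : e ∈ D.Ω) (v : ℕ) :
    D.cut v (D.X v e) < slope e.1 e.2 ∧ slope e.1 e.2 < D.cut v (D.X v e + 1) := by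
  obtain ⟨-, -, -, -, -, h1, h2⟩ := h.mem e he
  exact ⟨(h.cmono.monotone (Nat.div_mul_le_self _ _)).trans_lt h1, h2.trans_le (h.cmono.monotone
    ((Nat.div_lt_iff_lt_mul (by positivity)).1 (Nat.lt_succ_self _)))⟩

theorem uniq {c : ℕ → ℝ} (hc : StrictMono c) {x x' : ℕ} {y : ℝ} (h1 : c x < y) (h2 : y < c (x + 1))
    (h3 : c x' ≤ y) (h4 : y ≤ c (x' + 1)) : x = x' := by
  have a1 := hc.lt_iff_lt.1 (h1.trans_le h4)
  have a2 := hc.lt_iff_lt.1 (h3.trans_lt h2)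
  omega

theorem locate {c : ℕ → ℝ} {lo hi : ℕ} {y : ℝ} (hl : lo < hi) (h1 : c lo ≤ y) (h2 : y ≤ c hi) :
    ∃ x ∈ Ico lo hi, c x ≤ y ∧ y ≤ c (x + 1) := by
  induction hi, hl using Nat.le_induction with
  | base => exact ⟨lo, by simp, h1, h2⟩
  | succ k hk ih =>
    rcases le_total y (c k) with h | h
    · obtain ⟨x, hx, h3⟩ := ih h
      exact ⟨x, by rw [mem_Ico] at hx ⊢; omega, h3⟩
    · exact ⟨k, by rw [mem_Ico]; omega, h, h2⟩

theorem locate_child (hu : u ≤ v) (hv : v ≤ D.κ) {x : ℕ} {y : ℝ} (h1 : D.cut u x ≤ y)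
    (h2 : y ≤ D.cut u (x + 1)) : ∃ i ∈ child u v x, D.cut v i ≤ y ∧ y ≤ D.cut v (i + 1) := by
  rw [cut_mul hu hv] at h1 h2
  exact locate ((Nat.mul_lt_mul_right (by positivity)).2 (Nat.lt_succ_self _)) h1 h2

theorem noend (h : Sys c2 C m M T D) {e : Pt × Pt} (he : e ∈ D.Ω) (hu : u ≤ v) (hv : v ≤ D.κ)
    {x : ℕ} (hx : x ≤ (D.X u e + 1) * 16 ^ (v - u)) {b : Pt} (hb : b ∈ D.Bp e.1 (D.part e.2)) :
    slope e.1 b ≠ D.cut v x := by
  obtain ⟨m1, m2, m3, m4, m5, -, -⟩ := h.mem e he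
  obtain ⟨b1, b2, b3⟩ := mem_filter.1 hb
  refine h.cgen _ ?_ _ m1 _ b1 ?_
  · have a1 : D.X u e < 16 ^ u := by
      unfold Dat.X blk
      rw [Nat.div_lt_iff_lt_mul (by positivity), ← pow_add, show u + (D.κ - u) = D.κ by omega]
      exact m5
    calc x * 16 ^ (D.κ - v) ≤ 16 ^ u * 16 ^ (v - u) * 16 ^ (D.κ - v) :=
          Nat.mul_le_mul_right _ (hx.trans (Nat.mul_le_mul_right _ a1))
      _ = 16 ^ D.κ := by
          rw [← pow_add, ← pow_add]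
          congr 1
          omega
  · intro hab
    have t := h.thin e he b b1 e.2 m2 (b2.trans m4) b3 rfl rfl
    rw [← hab, sub_self, mul_zero] at t
    have hM : (1 : ℝ) ≤ M := by exact_mod_cast h.Mge
    have t2 : |e.1.1 - e.2.1| ≤ 0 := by nlinarith [abs_nonneg (e.1.1 - e.2.1)]
    exact m3 (h.good.xinj m1 m2 (sub_eq_zero.1 (abs_nonpos_iff.1 t2)))

theorem sumC (lab : ℕ × ℕ) (Y : Finset ℕ) : ∑ x ∈ Y, D.nC v lab x =
    ((D.Ω.filter fun e => D.cell e.1 = lab ∧ D.X v e ∈ Y).card : ℝ) := by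
  have := sum_card_fiberwise_eq_card_filter (D.Ω.filter fun e => D.cell e.1 = lab) Y (D.X v)
  simp only [filter_filter] at this
  unfold Dat.nC
  exact_mod_cast this

theorem sumA (a : Pt) (j : ℕ) (Y : Finset ℕ) : ∑ x ∈ Y, D.nA v a j x =
    ((D.Ω.filter fun e => (e.1 = a ∧ D.part e.2 = j) ∧ D.X v e ∈ Y).card : ℝ) := by
  have := sum_card_fiberwise_eq_card_filter (D.Ω.filter fun e => e.1 = a ∧ D.part e.2 = j) Y
    (D.X v)
  simp only [filter_filter] at this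
  unfold Dat.nA Dat.key
  simp only [← and_assoc]
  exact_mod_cast this

theorem nC_nonneg (lab : ℕ × ℕ) (x : ℕ) : 0 ≤ D.nC v lab x := Nat.cast_nonneg _

theorem sum_child (hu : u ≤ v) (hv : v ≤ D.κ) (lab : ℕ × ℕ) (y : ℕ) :
    ∑ x ∈ child u v y, D.nC v lab x = D.nC u lab y := by
  rw [sumC]
  simp only [X_child hu hv]
  rfl

/-- the level `w` windows of the knot `y` that lie in a window of `Y` -/
def ref (u v w y : ℕ) (Y : Finset ℕ) : Finset ℕ :=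
  (child u w y).filter fun i => i / 16 ^ (w - v) ∈ Y

theorem ref_le (hv : v ≤ w) (hw : w ≤ D.κ) (lab : ℕ × ℕ) (y : ℕ) (Y : Finset ℕ) :
    ∑ x ∈ ref u v w y Y, D.nC w lab x ≤ ∑ x ∈ Y, D.nC v lab x := by
  rw [sumC, sumC]
  refine Nat.cast_le.2 (card_le_card fun e he => ?_)
  rw [mem_filter] at he ⊢
  exact ⟨he.1, he.2.1, by rw [X_div hv hw]; exact (mem_filter.1 he.2.2).2⟩

theorem le_ref (hu : u ≤ v) (hv : v ≤ w) (hw : w ≤ D.κ) (lab : ℕ × ℕ) {y : ℕ} {Y : Finset ℕ}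
    (hY : Y ⊆ child u v y) : ∑ x ∈ Y, D.nC v lab x ≤ ∑ x ∈ ref u v w y Y, D.nC w lab x := by
  rw [sumC, sumC]
  refine Nat.cast_le.2 (card_le_card fun e he => ?_)
  rw [mem_filter] at he ⊢
  have h1 := he.2.2
  rw [X_div hv hw] at h1
  exact ⟨he.1, he.2.1, mem_filter.2 ⟨(child_div hu hv).1 (hY h1), h1⟩⟩

theorem cnt_le (h : Sys c2 C m M T D) {e : Pt × Pt} (he : e ∈ D.Ω) (hu : u ≤ v) (hv : v ≤ w)
    (hw : w ≤ D.κ) {I : Set ℝ} {Y : Finset ℕ}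
    (hI : ∀ y ∈ I, D.cut u (D.X u e) ≤ y ∧ y ≤ D.cut u (D.X u e + 1))
    (hY : ∀ x ∈ child u v (D.X u e), ∀ y ∈ I, D.cut v x < y → y < D.cut v (x + 1) → x ∈ Y) :
    cnt (D.Bp e.1 (D.part e.2)) (slope e.1) I ≤
      ∑ x ∈ ref u v w (D.X u e) Y, D.qA w e.1 (D.part e.2) x := by
  unfold cnt Dat.qA
  rw [← Nat.cast_sum]
  refine Nat.cast_le.2 (le_trans (card_le_card fun b hb => ?_) card_biUnion_le)
  obtain ⟨b1, b2⟩ := mem_filter.1 hb
  obtain ⟨i, hi, i1, i2⟩ := locate_child (hu.trans hv) hw (hI _ b2).1 (hI _ b2).2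
  have hi' := mem_Ico.1 hi
  have j1 := lt_of_le_of_ne i1 (noend h he (hu.trans hv) hw hi'.2.le b1).symm
  have j2 := lt_of_le_of_ne i2 (noend h he (hu.trans hv) hw hi'.2 b1)
  have s := subwin h hv hw (mem_child.2 (rfl : i / 16 ^ (w - v) = _))
  exact mem_biUnion.2 ⟨i, mem_filter.2 ⟨hi, hY _ ((child_div hu hv).2 hi) _ b2
    (s.1.trans_lt j1) (j2.trans_le s.2)⟩, mem_filter.2 ⟨b1, j1, j2⟩⟩

theorem le_cnt (h : Sys c2 C m M T D) (a : Pt) (j y0 : ℕ) (hv : v ≤ w)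
    (hw : w ≤ D.κ) {I : Set ℝ} {Y : Finset ℕ}
    (hY : ∀ x ∈ Y, ∀ y, D.cut v x < y → y < D.cut v (x + 1) → y ∈ I) :
    ∑ x ∈ ref u v w y0 Y, D.qA w a j x ≤ cnt (D.Bp a j) (slope a) I := by
  unfold cnt Dat.qA
  rw [← Nat.cast_sum, ← card_biUnion]
  · refine Nat.cast_le.2 (card_le_card fun b hb => ?_)
    obtain ⟨i, hi, hb⟩ := mem_biUnion.1 hb
    obtain ⟨b1, j1, j2⟩ := mem_filter.1 hb
    have s := subwin h hv hw (mem_child.2 (rfl : i / 16 ^ (w - v) = _))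
    exact mem_filter.2 ⟨b1, hY _ (mem_filter.1 hi).2 _ (s.1.trans_lt j1) (j2.trans_le s.2)⟩
  · intro i _ i' _ hne
    refine disjoint_left.2 fun b hb hb' => hne ?_
    have k := (mem_filter.1 hb).2
    have k' := (mem_filter.1 hb').2
    exact uniq (cut_mono h w) k.1 k.2 k'.1.le k'.2.le

theorem tv {s Y : Finset ℕ} (hY : Y ⊆ s) (f g : ℕ → ℝ) (F G : ℝ) {δ : ℝ}
    (h : ∑ x ∈ s, |f x / F - g x / G| ≤ δ) :
    |(∑ x ∈ Y, f x) / F - (∑ x ∈ Y, g x) / G| ≤ δ := by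
  rw [sum_div, sum_div, ← sum_sub_distrib]
  exact (abs_sum_le_sum_abs _ _).trans
    ((sum_le_sum_of_subset_of_nonneg hY fun _ _ _ => abs_nonneg _).trans h)

theorem q_pos (h : Sys c2 C m M T D) {e : Pt × Pt} (he : e ∈ D.Ω) : 0 < D.qAe u e := by
  obtain ⟨-, m2, -, m4, -⟩ := h.mem e he
  exact Nat.cast_pos.2 (card_pos.2 ⟨e.2, mem_filter.2 ⟨mem_filter.2 ⟨m2, m4.symm, rfl⟩,
    edge_win h he u⟩⟩)

theorem n_pos {e : Pt × Pt} (he : e ∈ D.Ω) : 0 < D.nCe u e :=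
  Nat.cast_pos.2 (card_pos.2 ⟨e, mem_filter.2 ⟨he, rfl, rfl⟩⟩)

theorem up (h : Sys c2 C m M T D) {e : Pt × Pt} (he : e ∈ D.Ω) (hu : u ≤ v) (hv : v ≤ w)
    (hw : w ≤ D.κ) {δ : ℝ} (d1 : D.dist1 u w e ≤ δ) (d2 : D.dist2 u w e ≤ δ) {I : Set ℝ}
    {Y : Finset ℕ} (hI : ∀ y ∈ I, D.cut u (D.X u e) ≤ y ∧ y ≤ D.cut u (D.X u e + 1))
    (hY : ∀ x ∈ child u v (D.X u e), ∀ y ∈ I, D.cut v x < y → y < D.cut v (x + 1) → x ∈ Y) :
    cnt (D.Bp e.1 (D.part e.2)) (slope e.1) I / D.qAe u e ≤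
      (∑ x ∈ Y, D.nC v (D.cell e.1) x) / D.nCe u e + 2 * δ := by
  have a1 := abs_le.1 (tv (Y := ref u v w (D.X u e) Y) (filter_subset _ _) _ _ _ _ d1)
  have a2 := abs_le.1 (tv (Y := ref u v w (D.X u e) Y) (filter_subset _ _) _ _ _ _ d2)
  have a3 := div_le_div_of_nonneg_right (cnt_le h he hu hv hw hI hY) (q_pos (u := u) h he).le
  have a4 := div_le_div_of_nonneg_right (ref_le (u := u) hv hw (D.cell e.1) (D.X u e) Y)
    (n_pos (u := u) he).le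
  linarith [a1.1, a2.2]

theorem low (h : Sys c2 C m M T D) {e : Pt × Pt} (he : e ∈ D.Ω) (hu : u ≤ v) (hv : v ≤ w)
    (hw : w ≤ D.κ) {δ : ℝ} (d1 : D.dist1 u w e ≤ δ) (d2 : D.dist2 u w e ≤ δ) {I : Set ℝ}
    {Y : Finset ℕ} (hs : Y ⊆ child u v (D.X u e))
    (hY : ∀ x ∈ Y, ∀ y, D.cut v x < y → y < D.cut v (x + 1) → y ∈ I) :
    (∑ x ∈ Y, D.nC v (D.cell e.1) x) / D.nCe u e ≤
      cnt (D.Bp e.1 (D.part e.2)) (slope e.1) I / D.qAe u e + 2 * δ := by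
  have a1 := abs_le.1 (tv (Y := ref u v w (D.X u e) Y) (filter_subset _ _) _ _ _ _ d1)
  have a2 := abs_le.1 (tv (Y := ref u v w (D.X u e) Y) (filter_subset _ _) _ _ _ _ d2)
  have a3 := div_le_div_of_nonneg_right (le_cnt (u := u) h e.1 (D.part e.2) (D.X u e) hv hw hY)
    (q_pos (u := u) h he).le
  have a4 := div_le_div_of_nonneg_right (le_ref hu hv hw (D.cell e.1) hs) (n_pos (u := u) he).le
  linarith [a1.2, a2.1]

/-- upper bound in product form -/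
theorem up' (h : Sys c2 C m M T D) {e : Pt × Pt} (he : e ∈ D.Ω) (hu : u ≤ v) (hv : v ≤ w)
    (hw : w ≤ D.κ) {δ s : ℝ} (d1 : D.dist1 u w e ≤ δ) (d2 : D.dist2 u w e ≤ δ) {I : Set ℝ}
    {Y : Finset ℕ} (hI : ∀ y ∈ I, D.cut u (D.X u e) ≤ y ∧ y ≤ D.cut u (D.X u e + 1))
    (hY : ∀ x ∈ child u v (D.X u e), ∀ y ∈ I, D.cut v x < y → y < D.cut v (x + 1) → x ∈ Y)
    (hs : ∑ x ∈ Y, D.nC v (D.cell e.1) x ≤ s * D.nCe u e) :
    cnt (D.Bp e.1 (D.part e.2)) (slope e.1) I ≤ (s + 2 * δ) * D.qAe u e := by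
  have a1 := up h he hu hv hw d1 d2 hI hY
  have a2 := (div_le_iff₀ (n_pos (u := u) he)).2 hs
  exact (div_le_iff₀ (q_pos h he)).1 (by linarith)

/-- lower bound in product form -/
theorem low' (h : Sys c2 C m M T D) {e : Pt × Pt} (he : e ∈ D.Ω) (hu : u ≤ v) (hv : v ≤ w)
    (hw : w ≤ D.κ) {δ s : ℝ} (d1 : D.dist1 u w e ≤ δ) (d2 : D.dist2 u w e ≤ δ) {I : Set ℝ}
    {Y : Finset ℕ} (hs : Y ⊆ child u v (D.X u e))
    (hY : ∀ x ∈ Y, ∀ y, D.cut v x < y → y < D.cut v (x + 1) → y ∈ I)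
    (hm : s * D.nCe u e ≤ ∑ x ∈ Y, D.nC v (D.cell e.1) x) :
    (s - 2 * δ) * D.qAe u e ≤ cnt (D.Bp e.1 (D.part e.2)) (slope e.1) I := by
  have a1 := low h he hu hv hw d1 d2 hs hY
  have a2 := (le_div_iff₀ (n_pos (u := u) he)).2 hm
  exact (le_div_iff₀ (q_pos h he)).1 (by linarith)

/-- a set inside one closed window -/
theorem atom (h : Sys c2 C m M T D) {e : Pt × Pt} (he : e ∈ D.Ω) (hu : u ≤ v) (hv : v ≤ w)
    (hw : w ≤ D.κ) {δ α : ℝ} (d1 : D.dist1 u w e ≤ δ) (d2 : D.dist2 u w e ≤ δ)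
    (ha : D.atoms u v α e) {I : Set ℝ} {x : ℕ} (hx : x ∈ child u v (D.X u e))
    (hI : ∀ y ∈ I, D.cut v x ≤ y ∧ y ≤ D.cut v (x + 1)) :
    cnt (D.Bp e.1 (D.part e.2)) (slope e.1) I ≤ (α + 2 * δ) * D.qAe u e := by
  have s := subwin h hu (hv.trans hw) hx
  refine up' h he hu hv hw d1 d2 (Y := {x})
    (fun y hy => ⟨s.1.trans (hI y hy).1, (hI y hy).2.trans s.2⟩) (fun x' _ y hy h1 h2 => ?_) ?_
  · exact mem_singleton.2 (uniq (cut_mono h v) h1 h2 (hI y hy).1 (hI y hy).2)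
  · rw [sum_singleton]
    exact ha x hx

/-- the windows containing a given number -/
theorem one (h : Sys c2 C m M T D) {e : Pt × Pt} (he : e ∈ D.Ω) {α : ℝ} (h0 : 0 ≤ α)
    (ha : D.atoms u v α e) (z : ℝ) :
    ∑ x ∈ (child u v (D.X u e)).filter (fun i => D.cut v i < z ∧ z < D.cut v (i + 1)),
      D.nC v (D.cell e.1) x ≤ α * D.nCe u e := by
  rcases ((child u v (D.X u e)).filter
    (fun i => D.cut v i < z ∧ z < D.cut v (i + 1))).eq_empty_or_nonempty with h1 | ⟨x, hx⟩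
  · rw [h1, sum_empty]
    exact mul_nonneg h0 (n_pos he).le
  · obtain ⟨x1, x2⟩ := mem_filter.1 hx
    refine le_trans (sum_le_sum_of_subset_of_nonneg (t := {x}) (fun i hi => ?_)
      fun _ _ _ => nC_nonneg _ _) ?_
    · have k := (mem_filter.1 hi).2
      exact mem_singleton.2 (uniq (cut_mono h v) k.1 k.2 x2.1.le x2.2.le)
    · rw [sum_singleton]
      exact ha x x1

theorem sum_union_le {s t : Finset ℕ} {f : ℕ → ℝ} (hf : ∀ x, 0 ≤ f x) :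
    ∑ x ∈ s ∪ t, f x ≤ ∑ x ∈ s, f x + ∑ x ∈ t, f x := by
  rw [← sum_union_inter]
  exact le_add_of_nonneg_right (sum_nonneg fun x _ => hf x)

end Vale.Agent.P065U.SideAux
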