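import Vale.Agent.P065U.DefsB

/-! P065U: most pairs inside a cell are thin on one side. -/

namespace Vale.Agent.P065U

open Classical Finset

namespace ThinAux

theorem first (W : ℕ → Prop) (i m M : ℕ) :
    ((range m).filter fun j => i < j ∧ W j ∧ ((Ico (i + 1) j).filter W).card < M).card ≤ M := by
  have hlt : ∀ j j', i < j → W j → j < j' →
      ((Ico (i + 1) j).filter W).card < ((Ico (i + 1) j').filter W).card := by
    intro j j' h1 h2 h3
    refine card_lt_card ⟨filter_subset_filter _ (Ico_subset_Ico le_rfl h3.le), fun h => ?_⟩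
    have h4 := h (mem_filter.2 ⟨mem_Ico.2 ⟨h1, h3⟩, h2⟩)
    exact lt_irrefl _ (mem_Ico.1 (mem_filter.1 h4).1).2
  refine (card_le_card_of_injOn (t := range M) (fun j => ((Ico (i + 1) j).filter W).card)
    (fun j hj => ?_) (fun j hj j' hj' h => ?_)).trans (card_range M).le
  · exact mem_coe.2 (mem_range.2 (mem_filter.1 (mem_coe.1 hj)).2.2.2)
  · have a := (mem_filter.1 (mem_coe.1 hj)).2
    have b := (mem_filter.1 (mem_coe.1 hj')).2
    rcases lt_trichotomy j j' with c | c | c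
    · exact absurd h (hlt j j' a.1 a.2.1 c).ne
    · exact c
    · exact absurd h (hlt j' j b.1 b.2.1 c).ne'

theorem last (W : ℕ → Prop) (j M : ℕ) :
    ((range j).filter fun i => W i ∧ ((Ico (i + 1) j).filter W).card < M).card ≤ M := by
  have hlt : ∀ i i', i' < j → W i' → i < i' →
      ((Ico (i' + 1) j).filter W).card < ((Ico (i + 1) j).filter W).card := by
    intro i i' h1 h2 h3
    refine card_lt_card ⟨filter_subset_filter _ (Ico_subset_Ico (by omega) le_rfl), fun h => ?_⟩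
    have h4 := h (mem_filter.2 ⟨mem_Ico.2 ⟨h3, h1⟩, h2⟩)
    have h5 := (mem_Ico.1 (mem_filter.1 h4).1).1
    omega
  refine (card_le_card_of_injOn (t := range M) (fun i => ((Ico (i + 1) j).filter W).card)
    (fun i hi => ?_) (fun i hi i' hi' h => ?_)).trans (card_range M).le
  · exact mem_coe.2 (mem_range.2 (mem_filter.1 (mem_coe.1 hi)).2.2)
  · have a := mem_filter.1 (mem_coe.1 hi)
    have b := mem_filter.1 (mem_coe.1 hi')
    rcases lt_trichotomy i i' with c | c | c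
    · exact absurd h (hlt i i' (mem_range.1 b.1) b.2.1 c).ne'
    · exact c
    · exact absurd h (hlt i' i (mem_range.1 a.1) a.2.1 c).ne

theorem width (Q : Finset Pt) : ∃ w : ℝ, 0 ≤ w ∧ (∀ b ∈ Q, ∀ b' ∈ Q, |b.1 - b'.1| ≤ w) ∧
    (w = 0 ∨ ∃ x ∈ Q, ∃ y ∈ Q, w = y.1 - x.1) := by
  rcases Q.eq_empty_or_nonempty with rfl | hQ
  · exact ⟨0, le_rfl, by simp, Or.inl rfl⟩
  · obtain ⟨x, hx, h1⟩ := Q.exists_min_image (fun z => z.1) hQ
    obtain ⟨y, hy, h2⟩ := Q.exists_max_image (fun z => z.1) hQ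
    refine ⟨y.1 - x.1, sub_nonneg.2 (h1 y hy), fun b hb b' hb' => ?_, Or.inr ⟨x, hx, y, hy, rfl⟩⟩
    have := h1 b hb
    have := h1 b' hb'
    have := h2 b hb
    have := h2 b' hb'
    rw [abs_le]; constructor <;> linarith

theorem gap (Q : Finset Pt) (part : Pt → ℕ) (w : ℕ → ℝ)
    (hord : ∀ x ∈ Q, ∀ y ∈ Q, part x < part y → x.1 ≤ y.1)
    (hw : ∀ k, w k = 0 ∨ ∃ x ∈ Q, ∃ y ∈ Q, part x = k ∧ part y = k ∧ w k = y.1 - x.1)
    {x : Pt} (hx : x ∈ Q) {j : ℕ} (hj : part x + 1 ≤ j) :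
    ∀ t : ℝ, x.1 ≤ t → (∀ b ∈ Q, part b < j → b.1 ≤ t) →
      ∑ k ∈ Ico (part x + 1) j, w k ≤ t - x.1 := by
  induction j, hj using Nat.le_induction with
  | base => intro t h _; simpa using h
  | succ j hj ih =>
    intro t h1 h2
    rw [sum_Ico_succ_top hj]
    rcases hw j with h0 | ⟨a, ha, b, hb, pa, pb, e⟩
    · rw [h0, add_zero]
      exact ih t h1 fun b hb h => h2 b hb (by omega)
    · have h3 := ih a.1 (hord x hx a ha (by omega)) fun c hc h => hord c hc a ha (by omega)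
      have h4 := h2 b hb (by omega)
      linarith

theorem few {w : ℕ → ℝ} (hw : ∀ k, 0 ≤ w k) {s : Finset ℕ} {v : ℝ} {M : ℕ} (hv : 0 ≤ v)
    (h : ∑ k ∈ s, w k < M * v) : (s.filter fun k => v ≤ w k).card < M := by
  have h1 : ((s.filter fun k => v ≤ w k).card : ℝ) * v ≤ ∑ k ∈ s.filter fun k => v ≤ w k, w k := by
    have := card_nsmul_le_sum (s.filter fun k => v ≤ w k) w v fun k hk => (mem_filter.1 hk).2
    rwa [nsmul_eq_mul] at this
  have h2 : ∑ k ∈ s.filter (fun k => v ≤ w k), w k ≤ ∑ k ∈ s, w k :=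
    sum_le_sum_of_subset_of_nonneg (filter_subset _ _) fun k _ _ => hw k
  have h3 : ((s.filter fun k => v ≤ w k).card : ℝ) * v < M * v := by linarith
  exact_mod_cast lt_of_mul_lt_mul_right h3 hv

theorem count (P : Finset Pt) (π : Pt → ℕ × ℕ) (part : Pt → ℕ) (n1 c : ℕ)
    (hp : ∀ lab j, (P.filter fun z => π z = lab ∧ part z = j).card ≤ n1) (F : Pt → Finset ℕ)
    (hF : ∀ p, (F p).card ≤ c) :
    ((P ×ˢ P).filter fun e => π e.2 = π e.1 ∧ part e.2 ∈ F e.1).card ≤ P.card * (c * n1) := by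
  have hsub : ((P ×ˢ P).filter fun e => π e.2 = π e.1 ∧ part e.2 ∈ F e.1) ⊆
      P.biUnion fun p => ((F p).biUnion fun j =>
        P.filter fun z => π z = π p ∧ part z = j).image fun q => (p, q) := by
    intro e he
    obtain ⟨h1, h2, h3⟩ := mem_filter.1 he
    rw [mem_product] at h1
    exact mem_biUnion.2 ⟨e.1, h1.1, mem_image.2
      ⟨e.2, mem_biUnion.2 ⟨part e.2, h3, mem_filter.2 ⟨h1.2, h2, rfl⟩⟩, rfl⟩⟩
  refine (card_le_card hsub).trans (card_biUnion_le_card_mul _ _ _ fun p _ => ?_)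
  refine card_image_le.trans ((card_biUnion_le_card_mul _ _ n1 fun j _ => hp _ j).trans ?_)
  exact Nat.mul_le_mul_right n1 (hF p)

theorem parts (P : Finset Pt) (π : Pt → ℕ × ℕ) (n0 m : ℕ) (hx : Set.InjOn Prod.fst (P : Set Pt))
    (hm : 1 ≤ m) (hc : ∀ lab, (P.filter fun z => π z = lab).card ≤ n0) :
    ∃ part : Pt → ℕ, (∀ z ∈ P, part z < m) ∧
      (∀ lab j, (P.filter fun z => π z = lab ∧ part z = j).card ≤ n0 / m + 1) ∧
      ∀ x ∈ P, ∀ y ∈ P, π x = π y → x.1 ≤ y.1 → part x ≤ part y := by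
  obtain ⟨rk, hrk⟩ : ∃ rk : Pt → ℕ,
      ∀ z, rk z = (P.filter fun z' => π z' = π z ∧ z'.1 < z.1).card := ⟨_, fun _ => rfl⟩
  have hlt : ∀ x ∈ P, ∀ y, π x = π y → x.1 < y.1 → rk x < rk y := by
    intro x hx' y h1 h2
    rw [hrk, hrk]
    refine card_lt_card ⟨fun z hz => ?_, fun h => ?_⟩
    · obtain ⟨a, b, c⟩ := mem_filter.1 hz
      exact mem_filter.2 ⟨a, b.trans h1, c.trans h2⟩
    · exact lt_irrefl _ (mem_filter.1 (h (mem_filter.2 ⟨hx', h1, h2⟩))).2.2
  have hle : ∀ x y, π x = π y → x.1 ≤ y.1 → rk x ≤ rk y := by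
    intro x y h1 h2
    rw [hrk, hrk]
    refine card_le_card fun z hz => ?_
    obtain ⟨a, b, c⟩ := mem_filter.1 hz
    exact mem_filter.2 ⟨a, b.trans h1, c.trans_le h2⟩
  have hn : ∀ z ∈ P, rk z < n0 := by
    intro z hz
    refine lt_of_lt_of_le ?_ (hc (π z))
    rw [hrk]
    refine card_lt_card ⟨fun y hy => ?_, fun h => ?_⟩
    · obtain ⟨a, b, -⟩ := mem_filter.1 hy
      exact mem_filter.2 ⟨a, b⟩
    · exact lt_irrefl _ (mem_filter.1 (h (mem_filter.2 ⟨hz, rfl⟩))).2.2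
  obtain ⟨n1, hn1⟩ : ∃ n1, n1 = n0 / m + 1 := ⟨_, rfl⟩
  have hpos : 0 < n1 := hn1 ▸ Nat.succ_pos _
  refine ⟨fun z => rk z / n1, fun z hz => ?_, fun lab j => ?_, fun x _ y _ h1 h2 =>
    Nat.div_le_div_right (hle x y h1 h2)⟩
  · rw [Nat.div_lt_iff_lt_mul hpos]
    refine (hn z hz).trans ?_
    rw [hn1]
    exact Nat.lt_mul_div_succ n0 hm
  · rw [← hn1]
    refine (card_le_card_of_injOn (t := range n1) (fun z => rk z % n1) (fun z _ => ?_)
      (fun x hx' y hy h => ?_)).trans (card_range n1).le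
    · exact mem_coe.2 (mem_range.2 (Nat.mod_lt _ hpos))
    · obtain ⟨a1, a2, a3⟩ := mem_filter.1 (mem_coe.1 hx')
      obtain ⟨b1, b2, b3⟩ := mem_filter.1 (mem_coe.1 hy)
      have e : rk x = rk y := by
        have e1 := Nat.div_add_mod (rk x) n1
        have e2 := Nat.div_add_mod (rk y) n1
        have e3 : rk x % n1 = rk y % n1 := h
        have a4 : rk x / n1 = j := a3
        have b4 : rk y / n1 = j := b3
        rw [a4] at e1
        rw [b4] at e2
        omega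
      rcases lt_trichotomy x.1 y.1 with c | c | c
      · exact absurd e (hlt x a1 y (a2.trans b2.symm) c).ne
      · exact hx a1 b1 c
      · exact absurd e (hlt y b1 x (b2.trans a2.symm) c).ne'

end ThinAux

open ThinAux

theorem thinL : StmThin := by
  intro P π n0 m M hx hm hc
  obtain ⟨part, hp1, hp2, hp3⟩ := parts P π n0 m hx hm hc
  refine ⟨part, hp1, ?_⟩
  choose w hw0 hw1 hw2 using fun (lab : ℕ × ℕ) (k : ℕ) =>
    width (P.filter fun z => π z = lab ∧ part z = k)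
  have hord : ∀ x ∈ P, ∀ y ∈ P, π x = π y → part x < part y → x.1 ≤ y.1 := by
    intro x hx' y hy h1 h2
    by_contra h
    exact absurd (hp3 y hy x hx' h1.symm (not_le.1 h).le) (not_le.2 h2)
  have hgap : ∀ x ∈ P, ∀ y ∈ P, π x = π y → part x < part y →
      ∑ k ∈ Ico (part x + 1) (part y), w (π x) k ≤ y.1 - x.1 := by
    intro x hx' y hy h1 h2
    refine gap (P.filter fun z => π z = π x) part (w (π x)) (fun a ha b hb h => ?_) (fun k => ?_)
      (mem_filter.2 ⟨hx', rfl⟩) h2 y.1 (hord x hx' y hy h1 h2) fun b hb h => ?_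
    · rw [mem_filter] at ha hb
      exact hord a ha.1 b hb.1 (ha.2.trans hb.2.symm) h
    · rcases hw2 (π x) k with h | ⟨a, ha, b, hb, e⟩
      · exact Or.inl h
      · rw [mem_filter] at ha hb
        exact Or.inr ⟨a, mem_filter.2 ⟨ha.1, ha.2.1⟩, b, mem_filter.2 ⟨hb.1, hb.2.1⟩,
          ha.2.2, hb.2.2, e⟩
    · rw [mem_filter] at hb
      exact hord b hb.1 y hy (hb.2.trans h1) h
  obtain ⟨F, hF, hF'⟩ : ∃ F : Pt → Finset ℕ, (∀ p, (F p).card ≤ M + 1) ∧ ∀ p j, j < m →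
      (j = part p ∨ part p < j ∧ w (π p) (part p) ≤ w (π p) j ∧
        ((Ico (part p + 1) j).filter fun k => w (π p) (part p) ≤ w (π p) k).card < M) →
      j ∈ F p := by
    refine ⟨fun p => insert (part p) ((range m).filter fun j => part p < j ∧
      w (π p) (part p) ≤ w (π p) j ∧
        ((Ico (part p + 1) j).filter fun k => w (π p) (part p) ≤ w (π p) k).card < M),
      fun p => (card_insert_le _ _).trans (Nat.succ_le_succ ?_), fun p j h1 h2 => ?_⟩
    · exact first (fun k => w (π p) (part p) ≤ w (π p) k) (part p) m M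
    · rcases h2 with h | h
      · exact mem_insert.2 (Or.inl h)
      · exact mem_insert.2 (Or.inr (mem_filter.2 ⟨mem_range.2 h1, h⟩))
  obtain ⟨F', hG, hG'⟩ : ∃ F : Pt → Finset ℕ, (∀ p, (F p).card ≤ M) ∧ ∀ q i, i < part q →
      w (π q) (part q) ≤ w (π q) i →
        ((Ico (i + 1) (part q)).filter fun k => w (π q) (part q) ≤ w (π q) k).card < M →
      i ∈ F q :=
    ⟨fun q => (range (part q)).filter fun i => w (π q) (part q) ≤ w (π q) i ∧
        ((Ico (i + 1) (part q)).filter fun k => w (π q) (part q) ≤ w (π q) k).card < M,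
      fun q => last (fun k => w (π q) (part q) ≤ w (π q) k) (part q) M,
      fun q i h1 h2 h3 => mem_filter.2 ⟨mem_range.2 h1, h2, h3⟩⟩
  have c1 := count P π part _ _ hp2 F hF
  have c2 := count P π part _ _ hp2 F' hG
  have hsub : ((P ×ˢ P).filter fun e => π e.1 = π e.2 ∧ e.1.1 < e.2.1 ∧
        ¬ Thin P π part M 1 e.1 e.2 ∧ ¬ Thin P π part M (-1) e.2 e.1) ⊆
      ((P ×ˢ P).filter fun e => π e.2 = π e.1 ∧ part e.2 ∈ F e.1) ∪
      ((P ×ˢ P).filter fun e => π e.2 = π e.1 ∧ part e.2 ∈ F' e.1).image Prod.swap := by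
    rintro ⟨p, q⟩ he
    obtain ⟨h1, h2, h3, h4, h5⟩ := mem_filter.1 he
    obtain ⟨hp, hq⟩ := mem_product.1 h1
    simp only at h2 h3 h4 h5 hp hq
    rcases (hp3 p hp q hq h2 h3.le).lt_or_eq with hlt | heq
    · rcases le_total (w (π p) (part p)) (w (π p) (part q)) with hw | hw
      · refine mem_union_left _ (mem_filter.2 ⟨h1, h2.symm,
          hF' p _ (hp1 q hq) (Or.inr ⟨hlt, hw, few (hw0 _) (hw0 _ _) ?_⟩)⟩)
        unfold Thin at h5
        push Not at h5
        obtain ⟨b, hb, b', hb', a1, a2, a3, a4, a5⟩ := h5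
        have g1 := hgap b hb q hq (a1.trans h2) (a2 ▸ hlt)
        rw [a1, a2] at g1
        have g2 := hw1 (π p) (part p) b (mem_filter.2 ⟨hb, a1, a2⟩) b' (mem_filter.2 ⟨hb', a3, a4⟩)
        have g3 := mul_le_mul_of_nonneg_left g2 (Nat.cast_nonneg (α := ℝ) M)
        linarith
      · refine mem_union_right _ (mem_image.2 ⟨(q, p), mem_filter.2 ⟨mem_product.2 ⟨hq, hp⟩, h2,
          hG' q _ hlt (h2 ▸ hw) (few (hw0 _) (hw0 _ _) ?_)⟩, rfl⟩)
        unfold Thin at h4
        push Not at h4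
        obtain ⟨b, hb, b', hb', a1, a2, a3, a4, a5⟩ := h4
        have g1 := hgap p hp b hb (h2.trans a1.symm) (a2 ▸ hlt)
        rw [h2, a2] at g1
        have g2 := hw1 (π q) (part q) b (mem_filter.2 ⟨hb, a1, a2⟩) b' (mem_filter.2 ⟨hb', a3, a4⟩)
        have g3 := mul_le_mul_of_nonneg_left g2 (Nat.cast_nonneg (α := ℝ) M)
        linarith
    · exact mem_union_left _ (mem_filter.2 ⟨h1, h2.symm, hF' p _ (hp1 q hq) (Or.inl heq.symm)⟩)
  refine (card_le_card hsub).trans ((card_union_le _ _).trans ?_)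
  refine (add_le_add c1 (card_image_le.trans c2)).trans (le_of_eq ?_)
  ring

end Vale.Agent.P065U
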